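import Vale.Agent.P136.Med

/-! The ansatz identity `div σ(u) = ∇Q + V` (checked by computer algebra).

Plan. `fin_cases i`; unfold everything (`Med.stress, strain, dvg, Med.ans, Med.B, opB, lap, Med.A,
Med.A₀, Med.T, Med.Tm, Med.l, Med.e, Med.m, Med.mu, Med.lam, Med.p`), expand the sums
(`Fin.sum_univ_three`, `Fintype.sum_option`), push the derivations with
`map_add, map_sub, map_neg, Derivation.leibniz, Derivation.map_smul, smul_eq_mul, M.dd_nb, M.dd_kb,
M.dd_rho` (numerals: `Derivation.map_natCast` or write `2 * a = a + a` by `two_mul`), normalise the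
order of derivatives with `dd10, dd20, dd21`. Then evaluate at a point (`ext x`, or apply
`ev x` with `map_add, map_mul, …`), where `nb x = (n x)⁻¹`, `kb x = (k x)⁻¹`,
`rho x = (n x ^ 2 + k x)⁻¹` (all nonzero by `hn, hk, hp`), generalize the jets, `field_simp`, `ring`.
It helps to first prove `kb * p * B Y none = kb * p * (lap f - mu * lap m * f) + kb * dvg (n w) +
n * ∑ w_i ∂_i mu` (removes `rho`), and to treat separately the cases `Y = amp f 0`, `Y = amp 0 w`
(both sides are additive) if the terms get too large. A structured derivation: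
`div σ(u) = ∇((λ+μ) div u) + div(μ∇u) + (∇u)ᵀ∇μ - (div u)∇μ`, `e(m∇f - f∇m) = m∇²f - f∇²m`. -/

open MeasureTheory Metric
open scoped ContDiff

namespace Vale.Agent.P136

theorem AlgA_half (a x : Sm) : 2 * a * ((1 / 2 : ℂ) • x) = a * x := by
  have h : (1 / 2 : ℂ) • x + (1 / 2 : ℂ) • x = x := by
    rw [← add_smul]
    norm_num
  linear_combination a * h

theorem AlgA_stress (M : Med) (U : Fin 3 → Sm) (i : Fin 3) :
    ∑ j, dd j (M.stress U i j) = dd i (M.kb * dvg U) - dd i M.mu * dvg U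
      + ∑ j, (dd j (M.mu * dd j (U i)) + dd j M.mu * dd i (U j)) := by
  have h1 : ∑ j, dd j (if i = j then M.lam * dvg U else 0) = dd i (M.lam * dvg U) := by
    rw [Finset.sum_eq_single i (fun j _ hj => by rw [if_neg (Ne.symm hj), map_zero])
      (fun h => absurd (Finset.mem_univ i) h), if_pos rfl]
  have h2 : M.lam = M.kb - M.mu := rfl
  simp only [Med.stress, strain, AlgA_half, map_add, Finset.sum_add_distrib]
  rw [h1, h2]
  simp only [dvg, Fin.sum_univ_three, map_add, map_sub, Derivation.leibniz, smul_eq_mul,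
    dd_comm 0 i, dd_comm 1 i, dd_comm 2 i]
  ring

theorem AlgA_mu_m (M : Med) : M.mu * M.m = 1 := by
  unfold Med.mu Med.m
  linear_combination (M.n * M.nb + 1) * M.hn

theorem AlgA_Q (M : Med) (Y : Option (Fin 3) → Sm) :
    M.kb * M.p * M.B Y none = M.kb * dvg (M.ans Y) +
      (lap (Y none) - M.mu * lap M.m * Y none + M.n * ∑ j, Y (some j) * dd j M.mu) := by
  have h1 : ∀ j : Fin 3, ∑ b, M.A j none b * dd j (Y b) = M.n * M.rho * dd j (Y (some j)) := by
    intro j
    have h3 : 2 * M.e = M.n * M.rho := by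
      have := AlgA_half 1 (M.n * M.rho)
      rwa [mul_one, one_mul] at this
    simp only [Fintype.sum_option, Med.A, zero_mul, zero_add, ite_mul, Finset.sum_ite_eq',
      Finset.mem_univ, if_true, h3]
  have hp : M.p * M.rho = 1 := M.hp
  have hm : M.p = M.m + M.k := rfl
  have h0 := AlgA_mu_m M
  simp only [Med.B, opB, h1]
  simp only [Fintype.sum_option, Med.A₀, Med.ans, dvg, lap, Fin.sum_univ_three, map_add, map_sub,
    Derivation.leibniz, smul_eq_mul]
  linear_combination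
    (M.kb * (M.n * (dd 0 (Y (some 0)) + dd 1 (Y (some 1)) + dd 2 (Y (some 2))) +
      (dd 0 M.n + M.k * M.n * dd 0 M.mu) * Y (some 0) +
      (dd 1 M.n + M.k * M.n * dd 1 M.mu) * Y (some 1) +
      (dd 2 M.n + M.k * M.n * dd 2 M.mu) * Y (some 2))) * hp +
    (M.kb * (dd 0 (dd 0 (Y none)) + dd 1 (dd 1 (Y none)) + dd 2 (dd 2 (Y none)) -
      M.mu * (dd 0 (dd 0 M.m) + dd 1 (dd 1 M.m) + dd 2 (dd 2 M.m)) * Y none)) * hm +
    (dd 0 (dd 0 (Y none)) + dd 1 (dd 1 (Y none)) + dd 2 (dd 2 (Y none)) -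
      M.mu * (dd 0 (dd 0 M.m) + dd 1 (dd 1 M.m) + dd 2 (dd 2 M.m)) * Y none +
      M.n * (Y (some 0) * dd 0 M.mu + Y (some 1) * dd 1 M.mu + Y (some 2) * dd 2 M.mu)) * M.hk -
    (M.kb * (dd 0 (dd 0 M.m) + dd 1 (dd 1 M.m) + dd 2 (dd 2 M.m)) * Y none) * h0

theorem AlgA_T (M : Med) (i : Fin 3) (g : Fin 3 → Sm) :
    ∑ j, M.T i j * g j = lap M.m * g i - ∑ j, dd i (dd j M.m) * g j := by
  simp only [Med.T, sub_mul, Finset.sum_sub_distrib, ite_mul, zero_mul, Finset.sum_ite_eq,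
    Finset.mem_univ, if_true]

theorem AlgA_V (M : Med) (Y : Option (Fin 3) → Sm) (i : Fin 3) :
    M.nb * M.B Y (some i) = M.nb * lap (Y (some i))
      + 2 * M.mu * (lap M.m * dd i (Y none) - ∑ j, dd i (dd j M.m) * dd j (Y none))
      + 2 * M.mu * dd i M.n * ∑ j, dd j (Y (some j))
      + 2 * (lap M.m * dd i M.mu - ∑ j, dd i (dd j M.m) * dd j M.mu) * Y none
      + (∑ j, dd j (M.mu * dd j M.n)) * Y (some i)
      - ∑ j, (M.n * dd i (dd j M.mu) + dd j M.n * dd i M.mu) * Y (some j) := by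
  have h1 : ∀ j : Fin 3, ∑ b, M.A j (some i) b * dd j (Y b) =
      2 * M.nb * (M.T i j * dd j (Y none)) + 2 * M.l i * dd j (Y (some j)) := by
    intro j
    simp only [Fintype.sum_option, Med.A, Med.Tm, zero_mul, ite_mul, Finset.sum_ite_eq',
      Finset.mem_univ, if_true, mul_assoc]
  have h2 : ∑ b, M.A₀ (some i) b * Y b = 2 * M.n * (∑ j, M.T i j * dd j M.mu) * Y none
      + M.n * (∑ j, dd j (M.mu * dd j M.n)) * Y (some i)
      - ∑ c, (M.m * dd i (dd c M.mu) + M.n * dd c M.n * dd i M.mu) * Y (some c) := by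
    simp only [Fintype.sum_option, Med.A₀, sub_mul, add_mul, Finset.sum_sub_distrib,
      Finset.sum_add_distrib, ite_mul, zero_mul, Finset.sum_ite_eq, Finset.mem_univ, if_true]
    ring
  have hm : M.m = M.n * M.n := rfl
  have hu : M.mu = M.nb * M.nb := rfl
  simp only [Med.B, opB, h1]
  rw [h2, Finset.sum_add_distrib, ← Finset.mul_sum, ← Finset.mul_sum, AlgA_T, AlgA_T]
  generalize lap M.m * dd i (Y none) - ∑ j, dd i (dd j M.m) * dd j (Y none) = a
  generalize lap M.m * dd i M.mu - ∑ j, dd i (dd j M.m) * dd j M.mu = b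
  generalize ∑ j, dd j (M.mu * dd j M.n) = c
  generalize ∑ j, dd j (Y (some j)) = d
  simp only [Med.l, Fin.sum_univ_three]
  linear_combination
    (2 * b * Y none + c * Y (some i) -
      ((M.n * dd i (dd 0 M.mu) + dd 0 M.n * dd i M.mu) * Y (some 0) +
       (M.n * dd i (dd 1 M.mu) + dd 1 M.n * dd i M.mu) * Y (some 1) +
       (M.n * dd i (dd 2 M.mu) + dd 2 M.n * dd i M.mu) * Y (some 2))) * M.hn -
    (M.nb * (dd i (dd 0 M.mu) * Y (some 0) + dd i (dd 1 M.mu) * Y (some 1) +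
      dd i (dd 2 M.mu) * Y (some 2))) * hm -
    (2 * a + 2 * dd i M.n * d) * hu

theorem AlgA_R1 (M : Med) (j : Fin 3) : dd j M.mu * M.m + M.mu * dd j M.m = 0 := by
  have h := congrArg (dd j) (AlgA_mu_m M)
  simp only [Derivation.leibniz, smul_eq_mul, Derivation.map_one_eq_zero] at h
  linear_combination h

theorem AlgA_R2 (M : Med) (j : Fin 3) : M.n * dd j M.mu + 2 * M.mu * dd j M.n = 0 := by
  simp only [Med.mu, Derivation.leibniz, smul_eq_mul, M.dd_nb]
  linear_combination (-2 * M.nb * M.nb * dd j M.n) * M.hn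

theorem AlgA_R3 (M : Med) : M.mu * M.n = M.nb := by
  unfold Med.mu
  linear_combination M.nb * M.hn

theorem div_stress (M : Med) (Y : Option (Fin 3) → Sm) (i : Fin 3) :
    ∑ j, dd j (M.stress (M.ans Y) i j)
      = dd i (M.kb * M.p * M.B Y none) + M.nb * M.B Y (some i) := by
  rw [AlgA_stress, AlgA_Q, AlgA_V]
  have h0 := AlgA_mu_m M
  have h3 := AlgA_R3 M
  have a0 := AlgA_R1 M 0
  have a1 := AlgA_R1 M 1
  have a2 := AlgA_R1 M 2
  have ai := AlgA_R1 M i
  have b0 := AlgA_R2 M 0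
  have b1 := AlgA_R2 M 1
  have b2 := AlgA_R2 M 2
  have bi := AlgA_R2 M i
  rw [map_add]
  generalize dd i (M.kb * dvg (M.ans Y)) = q
  simp only [Med.ans, dvg, lap, Fin.sum_univ_three, map_add, map_sub,
    Derivation.leibniz, smul_eq_mul, dd_comm 0 i, dd_comm 1 i, dd_comm 2 i]
  linear_combination
    (dd i (dd 0 (dd 0 (Y none))) + dd i (dd 1 (dd 1 (Y none))) + dd i (dd 2 (dd 2 (Y none)))) * h0
    + (dd 0 (dd 0 (Y (some i))) + dd 1 (dd 1 (Y (some i))) + dd 2 (dd 2 (Y (some i)))) * h3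
    + 2 * dd i (dd 0 (Y none)) * a0 + 2 * dd i (dd 1 (Y none)) * a1 + 2 * dd i (dd 2 (Y none)) * a2
    - (dd 0 (dd 0 (Y none)) + dd 1 (dd 1 (Y none)) + dd 2 (dd 2 (Y none))) * ai
    + dd 0 (Y (some i)) * b0 + dd 1 (Y (some i)) * b1 + dd 2 (Y (some i)) * b2
    - (dd 0 (Y (some 0)) + dd 1 (Y (some 1)) + dd 2 (Y (some 2))) * bi

end Vale.Agent.P136
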