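import Vale.Agent.P136.Med

/-! The energy pairing of two exponentially growing ansatz fields (checked by computer algebra).

Plan. `strain_ex`, `dvg_ex`: Leibniz rule, `dd_ex`, `dd_comm`; turn `c • a` into
`algebraMap ℂ Sm c * a` (`Algebra.smul_def`, `map_mul`, `map_add`), or evaluate at a point.
`pairing`: rewrite with the two lemmas, pull out `ex (τ • -θ) * ex (τ • θ) = 1` (`ex_mul_ex_neg`,
`smul_neg`), generalize `al`, `strain (ans _)` (symmetric in `i j`), `m * Y none`, expand the sums and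
close with `linear_combination (…) * hθ` (evaluate at a point first; the cofactor of the null relation
`θ·θ = 0` is `2 dmu (τ⁴ f₁f₂ θ·θ + τ³ (f₁ θ·α₂ - f₂ θ·α₁) - τ² α₁·α₂ / 2)` with `f_i = m_i Y none`). -/

open MeasureTheory Metric
open scoped ContDiff

namespace Vale.Agent.P136

theorem AlgB_dd (M : Med) (ζ : Fin 3 → ℂ) (Y : Option (Fin 3) → Sm) (i j : Fin 3) :
    dd j (M.ans (fun b => ex ζ * Y b) i) = ex ζ * ((ζ i * ζ j) • (M.m * Y none)
      + ζ j • M.ans Y i + ζ i • dd j (M.m * Y none) + dd j (M.ans Y i)) := by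
  have h : M.ans (fun b => ex ζ * Y b) i = ex ζ * (M.ans Y i + ζ i • (M.m * Y none)) := by
    simp only [Med.ans, Derivation.leibniz, dd_ex, smul_eq_mul, Algebra.smul_def]
    ring
  rw [h]
  simp only [Derivation.leibniz, dd_ex, smul_eq_mul, map_add, Derivation.map_smul]
  simp only [Algebra.smul_def, map_mul]
  ring

theorem AlgB_al (M : Med) (Y : Option (Fin 3) → Sm) (i : Fin 3) :
    M.al Y i = M.ans Y i + dd i (M.m * Y none) := by
  simp only [Med.al, Med.ans, Derivation.leibniz, smul_eq_mul]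
  ring

theorem AlgB_symm (U : Fin 3 → Sm) (i j : Fin 3) : strain U i j = strain U j i := by
  rw [strain, strain, add_comm]

theorem strain_ex (M : Med) (ζ : Fin 3 → ℂ) (Y : Option (Fin 3) → Sm) (i j : Fin 3) :
    strain (M.ans fun b => ex ζ * Y b) i j = ex ζ * ((ζ i * ζ j) • (M.m * Y none)
      + (1 / 2 : ℂ) • (ζ i • M.al Y j + ζ j • M.al Y i) + strain (M.ans Y) i j) := by
  simp only [strain, AlgB_dd, AlgB_al]
  ext x
  simp only [← ev_apply, map_add, map_mul, map_smul, smul_eq_mul]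
  ring

theorem dvg_ex (M : Med) {ζ : Fin 3 → ℂ} (hζ : IsNull ζ) (Y : Option (Fin 3) → Sm) :
    dvg (M.ans fun b => ex ζ * Y b) = ex ζ * (M.ta ζ Y + dvg (M.ans Y)) := by
  simp only [dvg, AlgB_dd, AlgB_al, Med.ta, cdot, Fin.sum_univ_three]
  simp only [IsNull, Fin.sum_univ_three] at hζ
  ext x
  simp only [← ev_apply, map_add, map_mul, map_smul, smul_eq_mul]
  linear_combination (ev x (ex ζ) * ev x M.m * ev x (Y none)) * hζ

theorem pairing (M₁ M₂ : Med) {θ : Fin 3 → ℂ} (hθ : IsNull θ) (τ : ℂ)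
    (Y Z : Option (Fin 3) → Sm) :
    form (dlam M₁ M₂) (dmu M₁ M₂) (M₁.ans fun b => ex (τ • -θ) * Y b)
        (M₂.ans fun b => ex (τ • θ) * Z b)
      = τ ^ 2 • P2 M₁ M₂ θ Y Z + τ • P1 M₁ M₂ θ Y Z + P0 M₁ M₂ Y Z := by
  have h1 : IsNull (τ • θ) := by
    simp only [IsNull, Fin.sum_univ_three, Pi.smul_apply, smul_eq_mul] at hθ ⊢
    linear_combination τ ^ 2 * hθ
  have h2 : IsNull (τ • -θ) := by
    simp only [IsNull, Fin.sum_univ_three, Pi.smul_apply, smul_eq_mul, Pi.neg_apply] at hθ ⊢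
    linear_combination τ ^ 2 * hθ
  have h3 : ex (τ • -θ) * ex (τ • θ) = 1 := by rw [smul_neg, ex_mul_ex_neg]
  have h4 : ∀ a b : Sm, ex (τ • -θ) * a * (ex (τ • θ) * b) = a * b := fun a b => by
    rw [mul_mul_mul_comm, h3, one_mul]
  simp only [form, P2, P1, P0, strain_ex, dvg_ex _ h1, dvg_ex _ h2, mul_assoc (dlam M₁ M₂), h4,
    Med.ta, Med.EE, Med.Ev, cdot, Fin.sum_univ_three, AlgB_symm _ 1 0, AlgB_symm _ 2 0,
    AlgB_symm _ 2 1]
  simp only [IsNull, Fin.sum_univ_three] at hθ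
  generalize M₁.m * Y none = f₁
  generalize M₂.m * Z none = f₂
  generalize M₁.al Y = a₁
  generalize M₂.al Z = a₂
  ext x
  simp only [← ev_apply, map_add, map_mul, map_smul, smul_eq_mul, map_sub, map_neg, map_ofNat,
    Pi.smul_apply, Pi.neg_apply]
  linear_combination (2 * ev x (dmu M₁ M₂) *
    (τ ^ 4 * ev x f₁ * ev x f₂ * (θ 0 * θ 0 + θ 1 * θ 1 + θ 2 * θ 2)
      + τ ^ 3 * (ev x f₁ * (θ 0 * ev x (a₂ 0) + θ 1 * ev x (a₂ 1) + θ 2 * ev x (a₂ 2))
        - ev x f₂ * (θ 0 * ev x (a₁ 0) + θ 1 * ev x (a₁ 1) + θ 2 * ev x (a₁ 2)))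
      - τ ^ 2 * (ev x (a₁ 0) * ev x (a₂ 0) + ev x (a₁ 1) * ev x (a₂ 1)
        + ev x (a₁ 2) * ev x (a₂ 2)) / 2)) * hθ

end Vale.Agent.P136
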