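import Vale.Agent.P136.TMc

/-! The transport solver for matrices of smooth functions on a ball.

Plan for `solve_par`. `V = ι → ℂ`. Take `χ` from `exists_cut R`. Let
`mop : (ι → ι → ℂ) →L[ℝ] (V →L[ℂ] V)` be matrix-vector multiplication (a linear map on a finite
dimensional space: `LinearMap.toContinuousLinearMap`), `A' (p, x) = mop (fun a b => χ x * A p a b x)`,
`ψ' (p, x) = fun a => χ x * ψ a x`, `ρ = R + 1`. `A' (p₀, ·)` is continuous with compact support,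
hence bounded by some `M ≥ 0`; choose `N₀` from `qN_small (min (ε/2) (1 / (4 (M+1))))`. Apply
`solver`; `Y p a := ⟨fun x => Y' (p, x) a, _⟩` for `p ∈ U` and `0` otherwise. On the ball
`χ = 1`, and `(DV θ Y' x) a = DV θ (fun y => Y' y a) x` (`fderiv_pi` / `fderiv_apply`), `DD_val`,
`sum_val`. For the bound `‖ψ' (p₀, x)‖ ≤ b * wt` use `pi_norm_le_iff_of_nonneg`.
`solve_bd`: take `P = ℝ` and constant families. `solve_ex`, `solve_prim`: immediate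
(`ι = Unit`, `A = 0` for the last one). -/

open MeasureTheory Metric Real
open scoped ContDiff

namespace Vale.Agent.P136

open Classical in
/-- Elementary matrices as operators. -/
noncomputable def TW_E {ι : Type} [Fintype ι] (a b : ι) : (ι → ℂ) →L[ℂ] (ι → ℂ) :=
  (ContinuousLinearMap.single ℂ (fun _ : ι => ℂ) a).comp (ContinuousLinearMap.proj b)

/-- Matrix-vector multiplication. -/
noncomputable def TW_mop {ι : Type} [Fintype ι] (m : ι → ι → ℂ) : (ι → ℂ) →L[ℂ] (ι → ℂ) :=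
  ∑ a, ∑ b, m a b • TW_E a b

theorem TW_mop_apply {ι : Type} [Fintype ι] (m : ι → ι → ℂ) (v : ι → ℂ) (a : ι) :
    TW_mop m v a = ∑ b, m a b * v b := by
  classical
  simp only [TW_mop, TW_E, _root_.sum_apply, _root_.smul_apply,
    ContinuousLinearMap.comp_apply, ContinuousLinearMap.proj_apply,
    ContinuousLinearMap.single_apply, Finset.sum_apply, Pi.smul_apply, smul_eq_mul]
  rw [Finset.sum_eq_single a]
  · simp
  · intro c _ hc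
    refine Finset.sum_eq_zero fun b _ => ?_
    rw [Pi.single_eq_of_ne (Ne.symm hc), mul_zero]
  · simp

theorem TW_mop_zero {ι : Type} [Fintype ι] (m : ι → ι → ℂ) (h : ∀ a b, m a b = 0) :
    TW_mop m = 0 := by
  ext v a
  rw [TW_mop_apply]
  simp [h]

theorem TW_mop_smooth {Q ι : Type} [NormedAddCommGroup Q] [NormedSpace ℝ Q] [Fintype ι]
    (m : Q → ι → ι → ℂ) (hm : ∀ a b, ContDiff ℝ ∞ fun q => m q a b) :
    ContDiff ℝ ∞ fun q => TW_mop (m q) := by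
  unfold TW_mop
  exact ContDiff.sum fun a _ => ContDiff.sum fun b _ => (hm a b).smul contDiff_const

theorem TW_DV_pi {ι : Type} [Fintype ι] (θ : Fin 3 → ℂ) (Y : E3 → ι → ℂ) (x : E3)
    (hY : DifferentiableAt ℝ Y x) (a : ι) : DV θ Y x a = DV θ (fun y => Y y a) x := by
  unfold DV
  rw [Finset.sum_apply]
  refine Finset.sum_congr rfl fun j _ => ?_
  rw [fderiv_apply hY a]
  rfl

theorem solve_par {P ι : Type} [NormedAddCommGroup P] [NormedSpace ℝ P] [FiniteDimensional ℝ P]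
    [Fintype ι] (θ : P → Fin 3 → ℂ) (hθ : ContDiff ℝ ∞ θ) (hnull : ∀ p, IsNull (θ p)) (p₀ : P)
    (h0 : θ p₀ ≠ 0) (A : P → ι → ι → Sm)
    (hA : ∀ a b, ContDiff ℝ ∞ fun q : P × E3 => (A q.1 a b).1 q.2) (R : ℝ) (hR : 0 < R)
    (ε : ℝ) (hε : 0 < ε) :
    ∃ N₀ : ℝ, 0 < N₀ ∧ ∀ N, N₀ ≤ N → ∀ (x₀ : E3) (ψ : ι → Sm), ∃ (U : Set P) (Y : P → ι → Sm),
      IsOpen U ∧ p₀ ∈ U ∧
      (∀ a, ContDiffOn ℝ ∞ (fun q : P × E3 => (Y q.1 a).1 q.2) (U ×ˢ Set.univ)) ∧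
      (∀ p ∈ U, Solves (θ p) R (A p) (Y p) ψ) ∧
      ∀ b : ℝ, 0 ≤ b → (∀ a x, ‖x‖ ≤ R + 1 → ‖(ψ a).1 x‖ ≤ b * wt N (θ p₀) x₀ x) →
        ∀ a x, ‖(Y p₀ a).1 x‖ ≤ ε * b * wt N (θ p₀) x₀ x := by
  classical
  obtain ⟨χ, hχ1, hχ0, hχt⟩ := exists_cut R hR
  let A' : P × E3 → (ι → ℂ) →L[ℂ] (ι → ℂ) :=
    fun q => TW_mop fun a b => χ.1 q.2 * (A q.1 a b).1 q.2
  have hχs : ContDiff ℝ ∞ fun q : P × E3 => χ.1 q.2 := (Sm.smooth χ).comp contDiff_snd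
  have hA' : ContDiff ℝ ∞ A' := TW_mop_smooth _ fun a b => hχs.mul (hA a b)
  have hAs : ∀ p x, R + 1 ≤ ‖x‖ → A' (p, x) = 0 := fun p x hx =>
    TW_mop_zero _ fun a b => by simp only [hχ0 x hx, zero_mul]
  obtain ⟨M, hM0, hM⟩ : ∃ M : ℝ, 0 ≤ M ∧ ∀ x, ‖A' (p₀, x)‖ ≤ M := by
    have hc : Continuous fun x : E3 => A' (p₀, x) :=
      hA'.continuous.comp (continuous_const.prodMk continuous_id)
    obtain ⟨C, hC⟩ := (isCompact_closedBall (0 : E3) (R + 1)).exists_bound_of_continuousOn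
      hc.continuousOn
    refine ⟨max C 0, le_max_right _ _, fun x => ?_⟩
    by_cases hx : ‖x‖ ≤ R + 1
    · exact le_trans (hC x (by simpa using hx)) (le_max_left _ _)
    · rw [hAs p₀ x (le_of_lt (not_le.1 hx)), norm_zero]
      exact le_max_right _ _
  obtain ⟨N₀, hN₀, hq⟩ := qN_small (min (ε / 2) (1 / (4 * (M + 1)))) (by positivity)
  refine ⟨N₀, hN₀, fun N hN x₀ ψ => ?_⟩
  have N0 : 0 < N := lt_of_lt_of_le hN₀ hN
  have hq1 : qN N ≤ ε / 2 := le_trans (hq N hN) (min_le_left _ _)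
  have hq2 : qN N ≤ 1 / (4 * (M + 1)) := le_trans (hq N hN) (min_le_right _ _)
  have hq3 : qN N * M ≤ 1 / 4 := by
    rw [le_div_iff₀ (by positivity)] at hq2
    have := qN_pos N0
    nlinarith
  let ψ' : P × E3 → ι → ℂ := fun q a => χ.1 q.2 * (ψ a).1 q.2
  have hψ' : ContDiff ℝ ∞ ψ' :=
    contDiff_pi.2 fun a => hχs.mul ((Sm.smooth (ψ a)).comp contDiff_snd)
  have hψs : ∀ p x, R + 1 ≤ ‖x‖ → ψ' (p, x) = 0 := fun p x hx => by
    funext a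
    simp only [ψ', hχ0 x hx, zero_mul, Pi.zero_apply]
  obtain ⟨U, Y', hU, hp₀, hY, hE, hB⟩ :=
    solver θ hθ hnull p₀ h0 A' hA' ψ' hψ' (R + 1) hAs hψs N N0 M hM hq3 x₀
  have hsl : ∀ p ∈ U, ContDiff ℝ ∞ fun y : E3 => Y' (p, y) := fun p hp =>
    hY.comp_contDiff (contDiff_const.prodMk contDiff_id) fun y => ⟨hp, trivial⟩
  let Y : P → ι → Sm := fun p a =>
    if hp : p ∈ U then ⟨fun y => Y' (p, y) a, contDiff_pi.1 (hsl p hp) a⟩ else 0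
  have hYv : ∀ p ∈ U, ∀ a, (Y p a).1 = fun y => Y' (p, y) a := fun p hp a => by
    simp only [Y, dif_pos hp]
  refine ⟨U, Y, hU, hp₀, fun a => ?_, fun p hp a x hx => ?_, fun b hb hψ a x => ?_⟩
  · refine (contDiffOn_pi.1 hY a).congr fun q hq => ?_
    rw [hYv q.1 hq.1 a]
  · have hx' : ‖x‖ ≤ R := le_of_lt (by simpa using hx)
    have h1 := congrFun (hE p hp x) a
    rw [TW_DV_pi _ _ _ ((hsl p hp).differentiable (by simp) x), Pi.add_apply] at h1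
    change (DD (θ p) (Y p a)).1 x - (∑ b, A p a b * Y p b).1 x - (ψ a).1 x = 0
    rw [DD_val, sum_val, hYv p hp a, h1]
    simp only [A', ψ', TW_mop_apply, hχ1 x hx', one_mul]
    have : ∀ b, (A p a b * Y p b).1 x = (A p a b).1 x * Y' (p, x) b := fun b => by
      change (A p a b).1 x * (Y p b).1 x = _
      rw [hYv p hp b]
    simp only [this]
    ring
  · have h1 : ∀ x, ‖ψ' (p₀, x)‖ ≤ b * wt N (θ p₀) x₀ x := fun x => by
      have hw : 0 ≤ b * wt N (θ p₀) x₀ x := mul_nonneg hb (wt_pos _ _ _ _).le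
      rw [pi_norm_le_iff_of_nonneg hw]
      intro a
      by_cases hx : ‖x‖ ≤ R + 1
      · obtain ⟨t, t0, t1, ht⟩ := hχt x
        simp only [ψ', ht, norm_mul, Complex.norm_real, Real.norm_eq_abs, abs_of_nonneg t0]
        calc t * ‖(ψ a).1 x‖ ≤ 1 * ‖(ψ a).1 x‖ := mul_le_mul_of_nonneg_right t1 (norm_nonneg _)
          _ ≤ _ := by rw [one_mul]; exact hψ a x hx
      · simp only [ψ', hχ0 x (le_of_lt (not_le.1 hx)), zero_mul, norm_zero]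
        exact hw
    rw [hYv p₀ hp₀ a]
    refine le_trans (norm_le_pi_norm (Y' (p₀, x)) a) (le_trans (hB b h1 x) ?_)
    have hw : 0 ≤ b * wt N (θ p₀) x₀ x := mul_nonneg hb (wt_pos _ _ _ _).le
    nlinarith

theorem solve_bd {ι : Type} [Fintype ι] {θ : Fin 3 → ℂ} (hθ : IsNull θ) (h0 : θ ≠ 0)
    (A : ι → ι → Sm) (R : ℝ) (hR : 0 < R) (ε : ℝ) (hε : 0 < ε) :
    ∃ N₀ : ℝ, 0 < N₀ ∧ ∀ N, N₀ ≤ N → ∀ (x₀ : E3) (ψ : ι → Sm), ∃ Y : ι → Sm,
      Solves θ R A Y ψ ∧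
      ∀ b : ℝ, 0 ≤ b → (∀ a x, ‖x‖ ≤ R + 1 → ‖(ψ a).1 x‖ ≤ b * wt N θ x₀ x) →
        ∀ a x, ‖(Y a).1 x‖ ≤ ε * b * wt N θ x₀ x := by
  obtain ⟨N₀, hN₀, H⟩ := solve_par (P := ℝ) (fun _ => θ) contDiff_const (fun _ => hθ) 0 h0
    (fun _ => A) (fun a b => (Sm.smooth (A a b)).comp contDiff_snd) R hR ε hε
  refine ⟨N₀, hN₀, fun N hN x₀ ψ => ?_⟩
  obtain ⟨U, Y, -, hp, -, h1, h2⟩ := H N hN x₀ ψ
  exact ⟨Y 0, h1 0 hp, h2⟩

theorem solve_ex {ι : Type} [Fintype ι] {θ : Fin 3 → ℂ} (hθ : IsNull θ) (h0 : θ ≠ 0)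
    (A : ι → ι → Sm) (R : ℝ) (hR : 0 < R) (ψ : ι → Sm) : ∃ Y : ι → Sm, Solves θ R A Y ψ := by
  obtain ⟨N₀, -, H⟩ := solve_bd hθ h0 A R hR 1 one_pos
  obtain ⟨Y, h, -⟩ := H N₀ le_rfl 0 ψ
  exact ⟨Y, h⟩

theorem solve_prim {θ : Fin 3 → ℂ} (hθ : IsNull θ) (h0 : θ ≠ 0) (R : ℝ) (hR : 0 < R) (ψ : Sm) :
    ∃ y : Sm, DD θ y - ψ ∈ van R := by
  obtain ⟨Y, h⟩ := solve_ex (ι := Unit) hθ h0 (fun _ _ => 0) R hR fun _ => ψ
  refine ⟨Y (), ?_⟩
  simpa using h ()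

end Vale.Agent.P136
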