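import Vale.Agent.P136.AlgE
import Vale.Agent.P136.TW

/-! The first two terms of a transversally polarised formal solution (checked by computer algebra).

Plan. Work modulo `van R` (quotient ring of `Quot.lean`, or evaluation at points of the ball, using
`dd_mem_van`, `DD_mem_van` for differentiated hypotheses). Facts: `cdot θ (shR ..) = 0`
(`h0`, `IsNull`), `D (shR i) ≡ 0`, hence `D (dvg shR) ≡ 0`; `D nb = -nb² D n`, `∂ mu = -2 mu l`.
`sh_f`: `2 D S = 2 nb² (D n) γ - 2 nb g₀` with `g₀ = e ss + l·rs = e ss + l·R + nb (D n) γ`.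
`sh_compat`: use `cdot_B`, `cdot_l`, `∑ θ_i cdot θ (Tm i) = -nb D²m` (`cdot_T`), and
`D ss ≡ θ·Tm rs = -nb (R·∇ D m + γ D²m)` (`cdot_T'`, `θ·rs = 0`).
`sh_exists`: solve `D X_i = G_i` by `solve_prim`, choose a constant vector `v` with `θ·v = 1`
(some `θ j ≠ 0`), `R1 = X - (cdot θ X - nb Σ) v`; then `cdot θ R1 = nb Σ`, `D R1_i ≡ G_i` by
`sh_compat`, and `Tr_some`, `sh_f` finish. -/

open MeasureTheory Metric
open scoped ContDiff

namespace Vale.Agent.P136

/-- Leading vector amplitude. -/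
noncomputable def shR (θ : Fin 3 → ℂ) (rs : Fin 3 → Sm) (γ : Sm) (i : Fin 3) : Sm :=
  rs i - θ i • γ

/-- Scalar amplitude of the second term. -/
noncomputable def shS (M : Med) (γ : Sm) : Sm := -(M.nb * γ)

/-- The value of `n θ·R¹`. -/
noncomputable def shSig (M : Med) (θ : Fin 3 → ℂ) (ss : Sm) (rs : Fin 3 → Sm) (γ : Sm) : Sm :=
  ss + 2 * M.n * ∑ i, shR θ rs γ i * M.l i + dvg fun i => M.n * shR θ rs γ i

/-- The dual transport equations, with a primitive `γ`. -/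
structure Dual (M : Med) (θ : Fin 3 → ℂ) (R : ℝ) (ss : Sm) (rs : Fin 3 → Sm) (γ : Sm) : Prop where
  null : IsNull θ
  h0 : cdot θ rs = 0
  h1 : DD θ ss - ∑ i, θ i • ∑ j, M.Tm i j * rs j ∈ van R
  h2 : ∀ i, DD θ (rs i) - θ i • (M.e * ss + ∑ j, M.l j * rs j) ∈ van R
  h3 : DD θ γ - (M.e * ss + ∑ j, M.l j * rs j) ∈ van R

variable {M : Med} {θ : Fin 3 → ℂ} {R : ℝ} {ss γ : Sm} {rs : Fin 3 → Sm}

theorem AlgC_van {f : Sm} : f ∈ van R ↔ ∀ x ∈ ball (0 : E3) R, ev x f = 0 := Iff.rfl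

theorem AlgC_nb (M : Med) (d : Derivation ℂ Sm Sm) : d M.nb = -(M.nb * M.nb * d M.n) := by
  have h := congrArg d M.hn
  simp only [Derivation.leibniz, smul_eq_mul, Derivation.map_one_eq_zero] at h
  linear_combination M.nb * h - d M.nb * M.hn

theorem AlgC_two (d : Derivation ℂ Sm Sm) : d 2 = 0 := d.map_natCast 2

theorem AlgC_T1 (M : Med) (hθ : IsNull θ) :
    cdot θ (fun i => cdot θ (M.Tm i)) = -(M.nb * DD θ (DD θ M.m)) := by
  have h0 := cdot_T M θ 0
  have h1 := cdot_T M θ 1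
  have h2 := cdot_T M θ 2
  have h3 := congrArg (algebraMap ℂ Sm) hθ
  rw [DD_apply θ (DD θ M.m)]
  simp only [cdot, Med.Tm, Fin.sum_univ_three, Algebra.smul_def, map_add, map_mul, map_zero]
    at h0 h1 h2 h3 ⊢
  linear_combination M.nb * algebraMap ℂ Sm (θ 0) * h0 + M.nb * algebraMap ℂ Sm (θ 1) * h1
    + M.nb * algebraMap ℂ Sm (θ 2) * h2 + M.nb * lap M.m * h3

theorem AlgC_T2 (M : Med) {w : Fin 3 → Sm} (hw : cdot θ w = 0) :
    ∑ i, θ i • ∑ j, M.Tm i j * w j = -(M.nb * ∑ j, w j * dd j (DD θ M.m)) := by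
  have h0 := cdot_T' M θ 0
  have h1 := cdot_T' M θ 1
  have h2 := cdot_T' M θ 2
  simp only [cdot, Med.Tm, Fin.sum_univ_three, Algebra.smul_def] at h0 h1 h2 hw ⊢
  linear_combination M.nb * w 0 * h0 + M.nb * w 1 * h1 + M.nb * w 2 * h2 + M.nb * lap M.m * hw

theorem AlgC_rs (θ : Fin 3 → ℂ) (rs : Fin 3 → Sm) (γ : Sm) (u : Fin 3 → Sm) :
    ∑ j, u j * rs j = ∑ j, u j * shR θ rs γ j + γ * cdot θ u := by
  simp only [cdot, shR, Fin.sum_univ_three, Algebra.smul_def]
  ring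

theorem Dual.cdot_shR (h : Dual M θ R ss rs γ) : cdot θ (shR θ rs γ) = 0 := by
  have h0 := h.h0
  have h3 := congrArg (algebraMap ℂ Sm) h.null
  simp only [cdot, shR, Fin.sum_univ_three, Algebra.smul_def, map_add, map_mul, map_zero]
    at h0 h3 ⊢
  linear_combination h0 - γ * h3

theorem Dual.DD_shR (h : Dual M θ R ss rs γ) (i : Fin 3) : DD θ (shR θ rs γ i) ∈ van R := by
  have h1 := sub_mem (h.h2 i) (smul_mem_van (θ i) h.h3)
  rwa [smul_sub, sub_sub_sub_cancel_right, ← Derivation.map_smul, ← map_sub] at h1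

theorem Dual.sh_zero (h : Dual M θ R ss rs γ) (a : Option (Fin 3)) :
    M.Tr θ (amp 0 (shR θ rs γ)) a ∈ van R := by
  cases a with
  | none => simp [Tr_none, h.cdot_shR]
  | some i =>
    rw [Tr_some, h.cdot_shR, mul_zero, mul_zero, add_zero, add_zero]
    exact Ideal.mul_mem_left _ _ (h.DD_shR i)

theorem Dual.sh_f (h : Dual M θ R ss rs γ) (R1 : Fin 3 → Sm)
    (hR1 : cdot θ R1 - M.nb * shSig M θ ss rs γ ∈ van R) :
    M.Tr θ (amp (shS M γ) R1) none - M.B (amp 0 (shR θ rs γ)) none ∈ van R := by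
  have h3 := h.h3
  rw [AlgC_rs θ rs γ, cdot_l] at h3
  have h4 := sub_mem (Ideal.mul_mem_left _ (M.n * M.rho) hR1) (Ideal.mul_mem_left _ (2 * M.nb) h3)
  have he : 2 * M.e = M.n * M.rho := by
    rw [Med.e, two_mul, ← add_smul, add_halves, one_smul]
  convert h4 using 1
  rw [Tr_none, B_none, shSig]
  simp only [shS, Med.mu, Med.l, Fin.sum_univ_three, map_neg, Derivation.leibniz, smul_eq_mul,
    AlgC_nb]
  have hn := M.hn
  have hp := M.hp
  generalize shR θ rs γ = W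
  linear_combination (exp := 1) (-(M.nb * ss)) * he
    + 2 * M.nb * M.nb * (W 0 * dd 0 M.n + W 1 * dd 1 M.n + W 2 * dd 2 M.n) * hp
    + (M.rho * dvg (fun i => M.n * W i) + 2 * M.nb * M.nb * M.rho * M.k *
      (W 0 * dd 0 M.n + W 1 * dd 1 M.n + W 2 * dd 2 M.n)) * hn

theorem AlgC_cdot (B l T : Fin 3 → Sm) (c s : Sm) :
    cdot θ (fun i => (1 / 2 : ℂ) • B i - l i * c - T i * s) =
      (1 / 2 : ℂ) • cdot θ B - cdot θ l * c - cdot θ T * s := by
  simp only [cdot, Fin.sum_univ_three, Algebra.smul_def]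
  ring

theorem Dual.sh_compat (h : Dual M θ R ss rs γ) :
    cdot θ (fun i => (1 / 2 : ℂ) • M.B (amp 0 (shR θ rs γ)) (some i)
        - M.l i * (M.nb * shSig M θ ss rs γ) - cdot θ (M.Tm i) * shS M γ)
      - DD θ (M.nb * shSig M θ ss rs γ) ∈ van R := by
  have h1 := h.h1
  have e1 := AlgC_rs θ rs γ fun j => dd j (DD θ M.m)
  rw [show cdot θ (fun j => dd j (DD θ M.m)) = DD θ (DD θ M.m) from (DD_apply _ _).symm] at e1
  simp only [mul_comm (dd _ _)] at e1
  rw [AlgC_T2 M h.h0, e1] at h1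
  rw [AlgC_cdot, cdot_B _ _ _ h.cdot_shR, cdot_l, AlgC_T1 M h.null, AlgC_van]
  intro x hx
  have a := AlgC_van.1 h1 x hx
  have b := fun i => AlgC_van.1 (h.DD_shR i) x hx
  have c := fun i => AlgC_van.1 (dd_mem_van i (h.DD_shR i)) x hx
  have hn := congrArg (ev x) M.hn
  rw [shSig]
  generalize shR θ rs γ = W at a b c ⊢
  simp only [shS, Med.mu, Med.m, Med.l, dvg, Fin.sum_univ_three, map_neg, Derivation.leibniz,
    smul_eq_mul, AlgC_nb, AlgC_two, dd_DD, map_add, map_sub, map_mul, map_smul, map_one, map_ofNat,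
    mul_zero, add_zero] at a c hn ⊢
  simp only [b, c]
  generalize ev x M.n = p at a hn ⊢
  generalize ev x M.nb = q at a hn ⊢
  generalize ev x (DD θ M.n) = d at a ⊢
  linear_combination (-q) * a + (q * (p * q + 1) * (ev x (W 0) * ev x (DD θ (dd 0 M.n))
    + ev x (W 1) * ev x (DD θ (dd 1 M.n)) + ev x (W 2) * ev x (DD θ (dd 2 M.n))
    + d * (ev x (dd 0 (W 0)) + ev x (dd 1 (W 1)) + ev x (dd 2 (W 2)))) - 3 * p * q ^ 3 * d *
      (ev x (W 0) * ev x (dd 0 M.n) + ev x (W 1) * ev x (dd 1 M.n)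
        + ev x (W 2) * ev x (dd 2 M.n))) * hn

theorem Dual.sh_exists (h : Dual M θ R ss rs γ) (h0 : θ ≠ 0) (hR : 0 < R) :
    ∃ R1 : Fin 3 → Sm, cdot θ R1 - M.nb * shSig M θ ss rs γ ∈ van R ∧
      ∀ a, M.Tr θ (amp (shS M γ) R1) a - M.B (amp 0 (shR θ rs γ)) a ∈ van R := by
  choose X hX using fun i => solve_prim h.null h0 R hR
    ((1 / 2 : ℂ) • M.B (amp 0 (shR θ rs γ)) (some i)
        - M.l i * (M.nb * shSig M θ ss rs γ) - cdot θ (M.Tm i) * shS M γ)
  obtain ⟨j, hj⟩ := Function.ne_iff.1 h0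
  have hc := h.sh_compat
  have hf := h.sh_f
  generalize M.nb * shSig M θ ss rs γ = c at hX hc hf ⊢
  let v : Fin 3 → ℂ := Pi.single j (θ j)⁻¹
  have hv : ∑ i, θ i * v i = 1 := by
    rw [Finset.sum_eq_single j (fun i _ hi => by simp [v, hi]) (by simp)]
    simpa [v] using mul_inv_cancel₀ hj
  have e1 : cdot θ (fun i => X i - v i • (cdot θ X - c)) = c := by
    simp only [cdot, smul_sub (θ _), smul_smul, Finset.sum_sub_distrib, ← Finset.sum_smul, hv,
      one_smul, sub_sub_cancel]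
  have e2 : DD θ (cdot θ X - c) ∈ van R := by
    have h1 := Ideal.sum_mem _ fun i (_ : i ∈ Finset.univ) => smul_mem_van (θ i) (hX i)
    convert add_mem h1 hc using 1
    simp only [cdot, map_sub, map_sum, Derivation.map_smul, smul_sub (θ _), Finset.sum_sub_distrib]
    ring
  have e3 : cdot θ (fun i => X i - v i • (cdot θ X - c)) - c ∈ van R := by
    rw [e1, sub_self]
    exact zero_mem _
  refine ⟨_, e3, fun a => ?_⟩
  cases a with
  | none => exact hf _ e3
  | some i =>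
    convert Ideal.mul_mem_left _ 2 (sub_mem (hX i) (smul_mem_van (v i) e2)) using 1
    have e4 : ∀ f : Sm, 2 * (1 / 2 : ℂ) • f = f := fun f => by
      rw [two_mul, ← add_smul, add_halves, one_smul]
    rw [Tr_some, e1, map_sub, Derivation.map_smul]
    linear_combination e4 (M.B (amp 0 (shR θ rs γ)) (some i))

end Vale.Agent.P136
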