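import Vale.Agent.P136.AlgC

/-! The coefficient of `τ` in the pairing is the density `Gv`. -/

open MeasureTheory Metric
open scoped ContDiff

namespace Vale.Agent.P136

theorem AlgD_core {S : Type} [CommRing S] [Algebra ℂ S] (d : Fin 3 → Derivation ℂ S S)
    (D : Derivation ℂ S S) (hc : ∀ i f, D (d i f) = d i (D f))
    (n₁ b₁ k₁ o₁ n₂ b₂ k₂ o₂ s ss γ ρ X dl dm : S) (w r : Fin 3 → S)
    (fw : ∀ (i : Fin 3), D ((w i)) = 0)
    (fs : D (s) = -((1 / 2 : ℂ) • (n₂ * o₂) * ρ))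
    (fρ :
      D (ρ) =
        b₂ * D (D (n₂ * n₂)) * s -
          b₂ * D (n₂) * ρ)
    (fRr :
      ∑ x : Fin 3, D ((r x)) * (w x) =
        b₂ * s * ∑ x : Fin 3, d x (D (n₂ * n₂)) * (w x) -
          b₂ * ρ * ∑ x : Fin 3, d x (n₂) * (w x))
    (fX :
      X =
        b₁ *
          (ss + 2 * n₁ * ∑ x : Fin 3, (w x) * (b₁ * d x (n₁)) +
            ∑ x : Fin 3, d x (n₁ * (w x))))
    (fss :
      D (ss) =
        -(b₁ *
            (∑ x : Fin 3, d x (D (n₁ * n₁)) * (w x) +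
              D (D (n₁ * n₁)) * γ)))
    (fγ :
      D (γ) =
        (1 / 2 : ℂ) • (n₁ * o₁) * ss +
          b₁ * (∑ x : Fin 3, d x (n₁) * (w x) + D (n₁) * γ))
    (hn1 : n₁ * b₁ = 1)
    (hn2 : n₂ * b₂ = 1)
    (hp1 : (n₁ * n₁ + k₁) * o₁ = 1)
    (hp2 : (n₂ * n₂ + k₂) * o₂ = 1)
    :
    -(dl * (2 * (n₁ * n₁) * -D (b₁ * γ) + n₁ * X) *
                (2 * (n₂ * n₂) * D (s) + n₂ * ρ)) +
            dm *
              (2 *
                  (n₁ * n₁ * -(b₁ * γ) *
                      (D (n₂ * ρ) + n₂ * n₂ * D (D (s)) -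
                        s * D (D (n₂ * n₂))) +
                    n₂ * n₂ * s *
                      (D (n₁ * X) +
                          n₁ * n₁ * -D (D (b₁ * γ)) -
                        -(b₁ * γ) * D (D (n₁ * n₁)))) -
                (2 * (n₁ * n₁) * -D (b₁ * γ) + n₁ * X) *
                  (2 * (n₂ * n₂) * D (s) + n₂ * ρ)) +
          (dl *
              ((∑ x : Fin 3, d x (n₁ * (w x))) *
                (2 * (n₂ * n₂) * D (s) + n₂ * ρ)) +
            dm *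
              (∑ x : Fin 3,
                        D (n₁ * (w x)) *
                          (2 * (n₂ * n₂) * d x (s) + n₂ * (r x)) +
                      ∑ x : Fin 3,
                        (2 * (n₂ * n₂) * d x (s) + n₂ * (r x)) *
                          d x (n₁ * 0) +
                    2 * (n₁ * n₁) *
                      ∑ x : Fin 3, (2 * (n₂ * n₂) * d x (s) + n₂ * (r x)) * 0 -
                  2 * 0 *
                    ∑ x : Fin 3,
                      (2 * (n₂ * n₂) * d x (s) + n₂ * (r x)) *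
                        d x (D (n₁ * n₁)) -
                (∑ x : Fin 3, D (n₂ * (r x)) * (n₁ * (w x)) +
                      ∑ x : Fin 3, n₁ * (w x) * d x (n₂ * ρ) +
                    2 * (n₂ * n₂) * ∑ x : Fin 3, n₁ * (w x) * d x (D (s)) -
                  2 * s * ∑ x : Fin 3, n₁ * (w x) * d x (D (n₂ * n₂))))) -
        (dm *
                          (2 * (n₂ * n₂) *
                            (D (((1 / 2 : ℂ) • (n₁ * n₁) + k₁) * o₁) +
                              D (n₁) * (1 / 2 : ℂ) • (n₁ * o₁))) *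
                        ss *
                      s +
                    dm *
                        (4 * (n₂ * n₂) *
                              (∑ x : Fin 3, d x (D (n₁)) * (w x) +
                                D (D (n₁)) * γ) +
                            n₁ *
                              (∑ x : Fin 3, d x (D (n₂ * n₂)) * (w x) +
                                D (D (n₂ * n₂)) * γ) +
                          2 * (n₂ * n₂) *
                            (-(((1 / 2 : ℂ) • (n₁ * n₁) + k₁) * o₁ * b₁ *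
                                  (∑ x : Fin 3, d x (D (n₁ * n₁)) * (w x) +
                                    D (D (n₁ * n₁)) * γ)) +
                              D (n₁) * b₁ *
                                (∑ x : Fin 3, d x (n₁) * (w x) + D (n₁) * γ))) *
                      s +
                  (-(dl * k₁ * o₁ * (k₂ * n₂ * o₂)) +
                        dm *
                            (n₁ * (1 / 2 : ℂ) • (n₁ * o₁) - k₁ * o₁) *
                          (k₂ * n₂ * o₂)) *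
                      ss *
                    ρ +
                dm *
                    (-(∑ x : Fin 3, d x (n₁ * (k₂ * n₂ * o₂)) * (w x) +
                              D (n₁ * (k₂ * n₂ * o₂)) * γ) -
                          n₁ * n₂ * o₂ *
                            (∑ x : Fin 3, d x (n₂ * n₂) * (w x) +
                              D (n₂ * n₂) * γ) +
                        n₁ * (k₂ * n₂ * o₂) * b₁ *
                          (∑ x : Fin 3, d x (n₁) * (w x) + D (n₁) * γ) +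
                      n₁ * n₂ * b₂ *
                        (∑ x : Fin 3, d x (n₂) * (w x) + D (n₂) * γ)) *
                  ρ +
              dm * (D (n₁) * n₂ - n₁ * D (n₂)) *
                (∑ x : Fin 3, (w x) * (r x) + γ * ρ) +
            dm * (2 * (n₂ * n₂) * D (n₁)) *
              (∑ x : Fin 3, d x ((w x) * s) + D (γ * s)) +
          -(dm * n₁ * (k₂ * n₂ * o₂)) *
            (∑ x : Fin 3, d x ((w x) * ρ) + D (γ * ρ))) = 0 := by
  have key : ∀ (E : Derivation ℂ S S) (a b : S), a * b = 1 → E b = -(b * b * E a) := by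
    intro E a b hab
    have h := congrArg E hab
    simp only [Derivation.leibniz, smul_eq_mul, Derivation.map_one_eq_zero] at h
    linear_combination b * h - E b * hab
  have Db1 := key D _ _ hn1
  have Do1 := key D _ _ hp1
  have Do2 := key D _ _ hp2
  have do2 := fun i => key (d i) _ _ hp2
  have two : ∀ E : Derivation ℂ S S, E (2 : S) = 0 := fun E => by
    have := E.map_natCast 2
    simpa using this
  subst fX
  simp only [Fin.sum_univ_three, map_add, map_neg, map_zero, Derivation.leibniz,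
    Derivation.map_smul, smul_eq_mul, two, hc, fw, fs, fρ, fss, fγ, Db1, Do1, Do2,
    do2, mul_zero] at fRr ⊢
  have h2 : 2 * algebraMap ℂ S (1 / 2) = 1 := by
    rw [← map_ofNat (algebraMap ℂ S) 2, ← map_mul]; norm_num
  simp only [Algebra.smul_def]
  generalize algebraMap ℂ S (1 / 2) = hf at h2 ⊢
  clear Db1 Do1 Do2 do2 key two fw fs fρ fss fγ hc
  grind

theorem AlgD_core2 {S S' : Type} [CommRing S] [Algebra ℂ S] [CommRing S'] [Algebra ℂ S']
    (φ : S →ₐ[ℂ] S') (d : Fin 3 → Derivation ℂ S S) (D : Derivation ℂ S S)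
    (d' : Fin 3 → Derivation ℂ S' S') (D' : Derivation ℂ S' S')
    (hd : ∀ i f, φ (d i f) = d' i (φ f)) (hD : ∀ f, φ (D f) = D' (φ f))
    (hc : ∀ i f, D' (d' i f) = d' i (D' f))
    (n₁ b₁ k₁ o₁ n₂ b₂ k₂ o₂ s ss γ ρ X dl dm : S) (w r : Fin 3 → S)
    (fw : ∀ (i : Fin 3), φ (D (w i)) = 0)
    (fss :
      φ (D ss) =
        φ (-(b₁ * (∑ i : Fin 3, d i (D (n₁ * n₁)) * w i + D (D (n₁ * n₁)) * γ))))
    (fγ : φ (D γ) = φ ((1 / 2 : ℂ) • (n₁ * o₁) * ss + b₁ * (∑ i : Fin 3, d i n₁ * w i + D n₁ * γ)))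
    (fs : φ (D s) = φ (-((1 / 2 : ℂ) • (n₂ * o₂) * ρ)))
    (fρ : φ (D ρ) = φ (b₂ * D (D (n₂ * n₂)) * s - b₂ * D n₂ * ρ))
    (fRr :
      φ (∑ j : Fin 3, D (r j) * w j) =
        φ (b₂ * s * ∑ j : Fin 3, d j (D (n₂ * n₂)) * w j - b₂ * ρ * ∑ j : Fin 3, d j n₂ * w j))
    (hn1 : φ (n₁ * b₁) = φ 1)
    (hn2 : φ (n₂ * b₂) = φ 1)
    (hp1 : φ ((n₁ * n₁ + k₁) * o₁) = φ 1)
    (hp2 : φ ((n₂ * n₂ + k₂) * o₂) = φ 1)
    (fX : φ X = φ (b₁ * (ss + 2 * n₁ * ∑ i : Fin 3, w i * (b₁ * d i n₁) + ∑ x : Fin 3, d x (n₁ * w x))))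
    :
    φ
        (-(dl * (2 * (n₁ * n₁) * D (-(b₁ * γ)) + n₁ * X) * (2 * (n₂ * n₂) * D s + n₂ * ρ)) +
              dm *
                (2 *
                    (n₁ * n₁ * -(b₁ * γ) *
                        (D (n₂ * ρ) + n₂ * n₂ * D (D s) - s * D (D (n₂ * n₂))) +
                      n₂ * n₂ * s *
                        (D (n₁ * X) + n₁ * n₁ * D (D (-(b₁ * γ))) -
                          -(b₁ * γ) * D (D (n₁ * n₁)))) -
                  (2 * (n₁ * n₁) * D (-(b₁ * γ)) + n₁ * X) * (2 * (n₂ * n₂) * D s + n₂ * ρ)) +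
            (dl * ((∑ x : Fin 3, d x (n₁ * w x)) * (2 * (n₂ * n₂) * D s + n₂ * ρ)) +
              dm *
                (∑ j : Fin 3, D (n₁ * w j) * (2 * (n₂ * n₂) * d j s + n₂ * r j) +
                        ∑ j : Fin 3, (2 * (n₂ * n₂) * d j s + n₂ * r j) * d j (n₁ * 0) +
                      2 * (n₁ * n₁) * ∑ j : Fin 3, (2 * (n₂ * n₂) * d j s + n₂ * r j) * d j (D 0) -
                    2 * 0 * ∑ j : Fin 3, (2 * (n₂ * n₂) * d j s + n₂ * r j) * d j (D (n₁ * n₁)) -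
                  (∑ j : Fin 3, D (n₂ * r j) * (n₁ * w j) + ∑ j : Fin 3, n₁ * w j * d j (n₂ * ρ) +
                      2 * (n₂ * n₂) * ∑ j : Fin 3, n₁ * w j * d j (D s) -
                    2 * s * ∑ j : Fin 3, n₁ * w j * d j (D (n₂ * n₂))))) -
          (dm *
                            (2 * (n₂ * n₂) *
                              (D (((1 / 2 : ℂ) • (n₁ * n₁) + k₁) * o₁) +
                                D n₁ * (1 / 2 : ℂ) • (n₁ * o₁))) *
                          ss *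
                        s +
                      dm *
                          (4 * (n₂ * n₂) * (∑ i : Fin 3, d i (D n₁) * w i + D (D n₁) * γ) +
                              n₁ * (∑ i : Fin 3, d i (D (n₂ * n₂)) * w i + D (D (n₂ * n₂)) * γ) +
                            2 * (n₂ * n₂) *
                              (-(((1 / 2 : ℂ) • (n₁ * n₁) + k₁) * o₁ * b₁ *
                                    (∑ i : Fin 3, d i (D (n₁ * n₁)) * w i + D (D (n₁ * n₁)) * γ)) +
                                D n₁ * b₁ * (∑ i : Fin 3, d i n₁ * w i + D n₁ * γ))) *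
                        s +
                    (-(dl * k₁ * o₁ * (k₂ * n₂ * o₂)) +
                          dm * (n₁ * (1 / 2 : ℂ) • (n₁ * o₁) - k₁ * o₁) * (k₂ * n₂ * o₂)) *
                        ss *
                      ρ +
                  dm *
                      (-(∑ i : Fin 3, d i (n₁ * (k₂ * n₂ * o₂)) * w i + D (n₁ * (k₂ * n₂ * o₂)) * γ) -
                            n₁ * n₂ * o₂ * (∑ i : Fin 3, d i (n₂ * n₂) * w i + D (n₂ * n₂) * γ) +
                          n₁ * (k₂ * n₂ * o₂) * b₁ * (∑ i : Fin 3, d i n₁ * w i + D n₁ * γ) +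
                        n₁ * n₂ * b₂ * (∑ i : Fin 3, d i n₂ * w i + D n₂ * γ)) *
                    ρ +
                dm * (D n₁ * n₂ - n₁ * D n₂) * (∑ j : Fin 3, w j * r j + γ * ρ) +
              dm * (2 * (n₂ * n₂) * D n₁) * (∑ x : Fin 3, d x (w x * s) + D (γ * s)) +
            -(dm * n₁ * (k₂ * n₂ * o₂)) * (∑ x : Fin 3, d x (w x * ρ) + D (γ * ρ)))) = 0 := by
  simp only [map_sum, map_add, map_sub, map_neg, map_mul, map_smul, map_ofNat, map_one, map_zero,
    hd, hD] at fw fs fρ fRr fX fss fγ hn1 hn2 hp1 hp2 ⊢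
  exact AlgD_core d' D' hc _ _ _ _ _ _ _ _ _ _ _ _ _ _ _
    (fun i => φ (w i)) (fun i => φ (r i)) fw fs fρ fRr fX fss fγ hn1 hn2 hp1 hp2

theorem AlgD_grad (θ : Fin 3 → ℂ) (rs : Fin 3 → Sm) (γ F : Sm) :
    ∑ i, dd i F * rs i = ∑ i, dd i F * shR θ rs γ i + DD θ F * γ := by
  simp only [shR, DD_apply, Fin.sum_univ_three, Algebra.smul_def]
  ring

theorem AlgD_dot (θ : Fin 3 → ℂ) (rs r : Fin 3 → Sm) (γ : Sm) :
    ∑ j, rs j * r j = ∑ j, shR θ rs γ j * r j + γ * cdot θ r := by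
  simp only [shR, cdot, Fin.sum_univ_three, Algebra.smul_def]
  ring

theorem AlgD_dvg (θ : Fin 3 → ℂ) (rs : Fin 3 → Sm) (γ s : Sm) :
    dvg (fun i => rs i * s) = dvg (fun i => shR θ rs γ i * s) + DD θ (γ * s) := by
  simp only [shR, dvg, DD_apply, Fin.sum_univ_three, sub_mul, map_sub, smul_mul_assoc,
    Derivation.map_smul]
  ring

theorem AlgD_cdot_Tm (M : Med) (θ : Fin 3 → ℂ) (i : Fin 3) :
    cdot θ (M.Tm i) = M.nb * (θ i • lap M.m - dd i (DD θ M.m)) := by
  rw [← cdot_T]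
  simp only [cdot, Med.Tm, Fin.sum_univ_three, Algebra.smul_def]
  ring

theorem AlgD_a0 (M₁ M₂ : Med) (θ : Fin 3 → ℂ) : cdot θ (datOf M₁ M₂).a₀
    = dmu M₁ M₂ * (2 * M₂.m * (DD θ M₁.c1 + DD θ M₁.n * M₁.e)) := by
  simp only [datOf, cdot, DD_apply, Fin.sum_univ_three, Algebra.smul_def]
  ring

theorem AlgD_c (M₁ M₂ : Med) (θ : Fin 3 → ℂ) : cdot θ (datOf M₁ M₂).c
    = dmu M₁ M₂ * (DD θ M₁.n * M₂.n - M₁.n * DD θ M₂.n) := by
  simp only [datOf, cdot, DD_apply, Fin.sum_univ_three, Algebra.smul_def]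
  ring

theorem AlgD_hs (M₁ M₂ : Med) (θ : Fin 3 → ℂ) : cdot θ (datOf M₁ M₂).hs
    = dmu M₁ M₂ * (2 * M₂.m * DD θ M₁.n) := by
  simp only [datOf, cdot, DD_apply, Fin.sum_univ_three, Algebra.smul_def]
  ring

theorem AlgD_a1 (M₁ M₂ : Med) (θ : Fin 3 → ℂ) (rs : Fin 3 → Sm) (h0 : cdot θ rs = 0) :
    ∑ i, cdot θ ((datOf M₁ M₂).a₁ i) * rs i
      = dmu M₁ M₂ * (4 * M₂.m * ∑ i, dd i (DD θ M₁.n) * rs i
        + M₁.n * ∑ i, dd i (DD θ M₂.m) * rs i
        + 2 * M₂.m * (-(M₁.c1 * M₁.nb * ∑ i, dd i (DD θ M₁.m) * rs i)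
          + DD θ M₁.n * M₁.nb * ∑ i, dd i M₁.n * rs i)) := by
  have e : ∀ i, cdot θ ((datOf M₁ M₂).a₁ i) = dmu M₁ M₂ * (4 * M₂.m * dd i (DD θ M₁.n)
      + 2 * M₁.n * dd i (DD θ M₂.m)
      + 2 * M₂.m * (M₁.c1 * M₁.nb * cdot θ (fun j => M₁.T j i) + DD θ M₁.n * M₁.l i)
      + M₁.n * cdot θ (fun j => M₂.T j i)) := by
    intro i
    simp only [datOf, cdot, DD_apply, Fin.sum_univ_three, Med.Tm, map_add, Derivation.map_smul]
    simp only [Algebra.smul_def]
    ring
  simp only [e, cdot_T', Med.l]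
  simp only [cdot, Fin.sum_univ_three, Algebra.smul_def] at h0 ⊢
  linear_combination (dmu M₁ M₂ * (2 * M₂.m * M₁.c1 * M₁.nb * lap M₁.m + M₁.n * lap M₂.m)) * h0

theorem AlgD_b1 (M₁ M₂ : Med) (rs : Fin 3 → Sm) :
    ∑ i, (datOf M₁ M₂).b₁ i * rs i
      = dmu M₁ M₂ * (-(∑ i, dd i (M₁.n * M₂.kap) * rs i)
        - M₁.n * M₂.n * M₂.rho * ∑ i, dd i M₂.m * rs i
        + M₁.n * M₂.kap * M₁.nb * ∑ i, dd i M₁.n * rs i
        + M₁.n * M₂.n * M₂.nb * ∑ i, dd i M₂.n * rs i) := by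
  simp only [datOf, Med.l, Fin.sum_univ_three]
  ring

theorem AlgD_Tm_rs (M : Med) (θ : Fin 3 → ℂ) (rs : Fin 3 → Sm) (h0 : cdot θ rs = 0) :
    ∑ i, θ i • ∑ j, M.Tm i j * rs j = -(M.nb * ∑ j, dd j (DD θ M.m) * rs j) := by
  have e : ∑ i, θ i • ∑ j, M.Tm i j * rs j
      = M.nb * ∑ j, cdot θ (fun i => M.T i j) * rs j := by
    simp only [cdot, Med.Tm, Fin.sum_univ_three, Algebra.smul_def]
    ring
  rw [e]
  simp only [cdot_T']
  simp only [cdot, Fin.sum_univ_three, Algebra.smul_def] at h0 ⊢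
  linear_combination (M.nb * lap M.m) * h0

theorem AlgD_l_rs (M : Med) (rs : Fin 3 → Sm) :
    ∑ j, M.l j * rs j = M.nb * ∑ j, dd j M.n * rs j := by
  simp only [Med.l, Fin.sum_univ_three]
  ring

theorem AlgD_hs1 (M : Med) {θ : Fin 3 → ℂ} {R : ℝ} {s : Sm} {r : Fin 3 → Sm}
    (hz : Solves θ R (B2of M.e M.l M.Tm θ) (amp s r) 0) : DD θ s - -(M.e * cdot θ r) ∈ van R := by
  have := hz none
  convert this using 1
  simp only [Fintype.sum_option, B2of, amp, cdot, Fin.sum_univ_three, Algebra.smul_def,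
    Pi.zero_apply]
  ring

theorem AlgD_hr1 (M : Med) {θ : Fin 3 → ℂ} {R : ℝ} {s : Sm} {r : Fin 3 → Sm}
    (hz : Solves θ R (B2of M.e M.l M.Tm θ) (amp s r) 0) (i : Fin 3) :
    DD θ (r i) + M.nb * (θ i • lap M.m - dd i (DD θ M.m)) * s + M.l i * cdot θ r ∈ van R := by
  have := hz (some i)
  convert this using 1
  rw [← AlgD_cdot_Tm]
  simp only [Fintype.sum_option, B2of, amp, Pi.zero_apply]
  simp only [cdot, Fin.sum_univ_three, Algebra.smul_def]
  ring

theorem AlgD_hrho (M : Med) {θ : Fin 3 → ℂ} (hθ : IsNull θ) {R : ℝ} {s : Sm} {r : Fin 3 → Sm}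
    (hz : Solves θ R (B2of M.e M.l M.Tm θ) (amp s r) 0) :
    DD θ (cdot θ r) - (M.nb * DD θ (DD θ M.m) * s - M.nb * DD θ M.n * cdot θ r) ∈ van R := by
  have := Ideal.sum_mem (van R) (t := Finset.univ)
    fun i _ => smul_mem_van (θ i) (AlgD_hr1 M hz i)
  convert this using 1
  have hN : (algebraMap ℂ Sm) (θ 0) * (algebraMap ℂ Sm) (θ 0)
      + (algebraMap ℂ Sm) (θ 1) * (algebraMap ℂ Sm) (θ 1)
      + (algebraMap ℂ Sm) (θ 2) * (algebraMap ℂ Sm) (θ 2) = 0 := by
    have := congrArg (algebraMap ℂ Sm) hθ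
    simpa only [Fin.sum_univ_three, map_add, map_mul, map_zero] using this
  have e1 : DD θ (cdot θ r) = ∑ i, θ i • DD θ (r i) := by
    simp only [cdot, map_sum, Derivation.map_smul]
  rw [e1, DD_apply θ (DD θ M.m), DD_apply θ M.n]
  simp only [Med.l, Fin.sum_univ_three, Algebra.smul_def]
  linear_combination (-(M.nb * lap M.m * s)) * hN

theorem AlgD_hRr (M : Med) {θ : Fin 3 → ℂ} {R : ℝ} {s : Sm} {r : Fin 3 → Sm}
    (hz : Solves θ R (B2of M.e M.l M.Tm θ) (amp s r) 0) (w : Fin 3 → Sm) (hw : cdot θ w = 0) :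
    ∑ j, DD θ (r j) * w j - (M.nb * s * ∑ j, dd j (DD θ M.m) * w j
      - M.nb * cdot θ r * ∑ j, dd j M.n * w j) ∈ van R := by
  have := Ideal.sum_mem (van R) (t := Finset.univ)
    fun i _ => Ideal.mul_mem_left (van R) (w i) (AlgD_hr1 M hz i)
  convert this using 1
  generalize cdot θ r = ρ
  simp only [cdot, Med.l, Fin.sum_univ_three, Algebra.smul_def] at hw ⊢
  linear_combination (-(M.nb * lap M.m * s)) * hw

set_option maxHeartbeats 400000 in
theorem main_alg {M₁ : Med} (M₂ : Med) {θ : Fin 3 → ℂ} {R : ℝ} {ss γ : Sm} {rs : Fin 3 → Sm}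
    (h : Dual M₁ θ R ss rs γ) (R1 : Fin 3 → Sm)
    (hR1 : cdot θ R1 - M₁.nb * shSig M₁ θ ss rs γ ∈ van R) (z : Option (Fin 3) → Sm)
    (hz : Solves θ R (B2of M₂.e M₂.l M₂.Tm θ) z 0) :
    P2 M₁ M₂ θ (amp (shS M₁ γ) R1) z + P1 M₁ M₂ θ (amp 0 (shR θ rs γ)) z
      - (datOf M₁ M₂).Gv θ ss rs z ∈ van R := by
  obtain ⟨s, r, rfl⟩ : ∃ s r, z = amp s r := ⟨_, _, (amp_eta z).symm⟩
  have hw := h.cdot_shR
  have fw := fun i => mem_van_iff.1 (h.DD_shR i)
  have fs := sub_mem_van_iff.1 (AlgD_hs1 M₂ hz)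
  have fρ := sub_mem_van_iff.1 (AlgD_hrho M₂ h.null hz)
  have fRr := sub_mem_van_iff.1 (AlgD_hRr M₂ hz _ hw)
  have fX := sub_mem_van_iff.1 hR1
  have fss := sub_mem_van_iff.1 h.h1
  have fγ := sub_mem_van_iff.1 h.h3
  rw [AlgD_Tm_rs _ _ _ h.h0, AlgD_grad θ rs γ] at fss
  rw [AlgD_l_rs, AlgD_grad θ rs γ] at fγ
  have hP1 : P1 M₁ M₂ θ (amp 0 (shR θ rs γ)) (amp s r)
      = dlam M₁ M₂ * (dvg (fun i => M₁.n * shR θ rs γ i) * M₂.ta θ (amp s r))
        + dmu M₁ M₂ * (2 * M₁.Ev θ (amp 0 (shR θ rs γ)) (fun j => 2 * M₂.m * dd j s + M₂.n * r j)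
          - 2 * M₂.Ev θ (amp s r) (fun j => M₁.n * shR θ rs γ j)) := by
    have e1 : M₁.ans (amp 0 (shR θ rs γ)) = fun i => M₁.n * shR θ rs γ i := by
      funext i; simp [Med.ans, amp]
    have e2 : M₁.al (amp 0 (shR θ rs γ)) = fun i => M₁.n * shR θ rs γ i := by
      funext i; simp [Med.al, amp]
    have e3 : M₂.al (amp s r) = fun j => 2 * M₂.m * dd j s + M₂.n * r j := rfl
    have e4 : M₁.ta θ (amp 0 (shR θ rs γ)) = 0 := by
      rw [ta_eq, hw]; simp
    unfold P1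
    rw [e1, e2, e3, e4]
    ring
  have hG : (datOf M₁ M₂).Gv θ ss rs (amp s r)
      = cdot θ (datOf M₁ M₂).a₀ * ss * s + (∑ i, cdot θ ((datOf M₁ M₂).a₁ i) * rs i) * s
        + (datOf M₁ M₂).b₀ * ss * cdot θ r + (∑ i, (datOf M₁ M₂).b₁ i * rs i) * cdot θ r
        + cdot θ (datOf M₁ M₂).c * ∑ j, rs j * r j
        + cdot θ (datOf M₁ M₂).hs * dvg (fun i => rs i * s)
        + (datOf M₁ M₂).hr * dvg (fun i => rs i * cdot θ r) := rfl
  have hb0 : (datOf M₁ M₂).b₀ = -(dlam M₁ M₂ * M₁.k * M₁.rho * M₂.kap)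
    + dmu M₁ M₂ * (M₁.n * M₁.e - M₁.k * M₁.rho) * M₂.kap := rfl
  have hhr : (datOf M₁ M₂).hr = -(dmu M₁ M₂ * M₁.n * M₂.kap) := rfl
  have ha1 : amp (shS M₁ γ) R1 none = shS M₁ γ := rfl
  have ha2 : amp s r none = s := rfl
  rw [hP1, hG, Ev_eq, Ev_eq, hw, AlgD_a0, AlgD_a1 _ _ _ _ h.h0, AlgD_b1, AlgD_c, AlgD_hs, hb0, hhr,
    AlgD_dot θ rs r γ, AlgD_dvg θ rs γ s, AlgD_dvg θ rs γ (cdot θ r)]
  simp only [AlgD_grad θ rs γ]
  unfold P2
  rw [ta_eq, ta_eq, EE_eq, EE_eq, ha1, ha2, mem_van_iff]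
  unfold shSig at fX
  unfold shS
  generalize shR θ rs γ = w at fw fRr fX fss fγ ⊢
  generalize cdot θ r = ρ at fs fρ fRr ⊢
  generalize cdot θ R1 = X at fX ⊢
  generalize dlam M₁ M₂ = dl
  generalize dmu M₁ M₂ = dm
  have hn1 := congrArg (qq R) M₁.hn
  have hn2 := congrArg (qq R) M₂.hn
  have hp1 := congrArg (qq R) M₁.hp
  have hp2 := congrArg (qq R) M₂.hp
  simp only [Med.m, Med.e, Med.kap, Med.c1, Med.l, dvg] at fs fρ fRr fX fss fγ ⊢
  have key := AlgD_core2 (qq R) dd (DD θ) (dq R) (DQ R θ) (qq_dd R) (qq_DD R θ)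
    (fun i f => (dq_DQ R θ i f).symm) M₁.n M₁.nb M₁.k M₁.rho M₂.n M₂.nb M₂.k M₂.rho
    s ss γ ρ X dl dm w r
    fw fss fγ fs fρ fRr hn1 hn2 hp1 hp2 fX
  convert key using 2

end Vale.Agent.P136
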