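import Vale.Agent.P136.Basic

/-! The differential quotient ring `Sm ⧸ van R`: equations on the ball become equalities. -/

namespace Vale.Agent.P136

/-- The quotient ring. -/
abbrev Qr (R : ℝ) : Type := Sm ⧸ van R

/-- The quotient map. -/
noncomputable def qq (R : ℝ) : Sm →ₐ[ℂ] Qr R := Ideal.Quotient.mkₐ ℂ (van R)

theorem qq_surj (R : ℝ) : Function.Surjective (qq R) := Ideal.Quotient.mkₐ_surjective ℂ _

theorem mem_van_iff {R : ℝ} {f : Sm} : f ∈ van R ↔ qq R f = 0 :=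
  (Ideal.Quotient.eq_zero_iff_mem).symm

theorem sub_mem_van_iff {R : ℝ} {f g : Sm} : f - g ∈ van R ↔ qq R f = qq R g := by
  rw [mem_van_iff, map_sub, sub_eq_zero]

/-- The induced coordinate derivations. -/
noncomputable def dq (R : ℝ) (j : Fin 3) : Derivation ℂ (Qr R) (Qr R) :=
  Derivation.liftOfSurjective (qq_surj R) (d := dd j)
    (fun _ hf => mem_van_iff.1 (dd_mem_van j (mem_van_iff.2 hf)))

theorem qq_dd (R : ℝ) (j : Fin 3) (f : Sm) : qq R (dd j f) = dq R j (qq R f) :=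
  (Derivation.liftOfSurjective_apply _ _ f).symm

theorem dq_comm (R : ℝ) (i j : Fin 3) (f : Qr R) : dq R i (dq R j f) = dq R j (dq R i f) := by
  obtain ⟨g, rfl⟩ := qq_surj R f
  simp only [← qq_dd, dd_comm i j]

theorem dq10 (R : ℝ) (f : Qr R) : dq R 1 (dq R 0 f) = dq R 0 (dq R 1 f) := dq_comm _ _ _ f
theorem dq20 (R : ℝ) (f : Qr R) : dq R 2 (dq R 0 f) = dq R 0 (dq R 2 f) := dq_comm _ _ _ f
theorem dq21 (R : ℝ) (f : Qr R) : dq R 2 (dq R 1 f) = dq R 1 (dq R 2 f) := dq_comm _ _ _ f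

/-- The induced derivation `θ · ∇`. -/
noncomputable def DQ (R : ℝ) (θ : Fin 3 → ℂ) : Derivation ℂ (Qr R) (Qr R) := ∑ j, θ j • dq R j

theorem DQ_apply (R : ℝ) (θ : Fin 3 → ℂ) (f : Qr R) : DQ R θ f = ∑ j, θ j • dq R j f := by
  simp [DQ, Fin.sum_univ_three]

theorem qq_DD (R : ℝ) (θ : Fin 3 → ℂ) (f : Sm) : qq R (DD θ f) = DQ R θ (qq R f) := by
  simp only [DD_apply, DQ_apply, map_sum, map_smul, qq_dd]

theorem dq_DQ (R : ℝ) (θ : Fin 3 → ℂ) (i : Fin 3) (f : Qr R) :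
    dq R i (DQ R θ f) = DQ R θ (dq R i f) := by
  simp only [DQ_apply, map_sum, Derivation.map_smul, dq_comm R i]

end Vale.Agent.P136
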