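import Vale.Agent.P136.Med
import Vale.Agent.P136.Quot

/-! Contractions with the null vector.

Plan. Unfold, `DD_apply`, `Fin.sum_univ_three`, Leibniz rule, `dd10, dd20, dd21`; scalars via
`Algebra.smul_def` + `map_mul` or by evaluating at a point; `ring` / `linear_combination`. -/

open MeasureTheory Metric
open scoped ContDiff

namespace Vale.Agent.P136

theorem AlgE_ext {f g : Sm} (h : ∀ x, ev x f = ev x g) : f = g := Subtype.ext (funext h)

theorem AlgE_dmu (M : Med) (i : Fin 3) : M.n * M.n * dd i M.mu = -(2 * M.l i) := by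
  simp only [Med.mu, Med.l, Derivation.leibniz, smul_eq_mul, M.dd_nb]
  linear_combination (-2 * M.nb * dd i M.n * (M.n * M.nb + 1)) * M.hn

theorem AlgE_e (M : Med) : 2 * M.e = M.n * M.rho := by
  refine AlgE_ext fun x => ?_
  simp only [Med.e, map_mul, map_smul, map_ofNat, smul_eq_mul]
  ring

theorem ta_eq (M : Med) (θ : Fin 3 → ℂ) (f : Sm) (w : Fin 3 → Sm) :
    M.ta θ (amp f w) = 2 * M.m * DD θ f + M.n * cdot θ w := by
  simp only [Med.ta, Med.al, cdot, amp, DD_apply, Fin.sum_univ_three]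
  refine AlgE_ext fun x => ?_
  simp only [map_add, map_sub, map_mul, map_neg, map_smul, map_ofNat, map_zero, smul_eq_mul]
  ring

theorem EE_eq (M : Med) (θ : Fin 3 → ℂ) (f : Sm) (w : Fin 3 → Sm) :
    M.EE θ (amp f w) = DD θ (M.n * cdot θ w) + M.m * DD θ (DD θ f) - f * DD θ (DD θ M.m) := by
  simp only [Med.EE, Med.ans, strain, cdot, amp, DD_apply, Fin.sum_univ_three, map_add, map_sub,
    Derivation.map_smul, Derivation.leibniz, smul_eq_mul, dd10, dd20, dd21]
  refine AlgE_ext fun x => ?_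
  simp only [map_add, map_sub, map_mul, map_neg, map_smul, map_ofNat, map_zero, smul_eq_mul]
  ring

theorem Ev_eq (M : Med) (θ : Fin 3 → ℂ) (f : Sm) (w v : Fin 3 → Sm) :
    2 * M.Ev θ (amp f w) v = ∑ j, DD θ (M.n * w j) * v j + ∑ j, v j * dd j (M.n * cdot θ w)
      + 2 * M.m * ∑ j, v j * dd j (DD θ f) - 2 * f * ∑ j, v j * dd j (DD θ M.m) := by
  simp only [Med.Ev, Med.ans, strain, cdot, amp, DD_apply, Fin.sum_univ_three, map_add, map_sub,
    Derivation.map_smul, Derivation.leibniz, smul_eq_mul, dd10, dd20, dd21]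
  refine AlgE_ext fun x => ?_
  simp only [map_add, map_sub, map_mul, map_neg, map_smul, map_ofNat, map_zero, smul_eq_mul]
  ring

theorem cdot_T (M : Med) (θ : Fin 3 → ℂ) (i : Fin 3) :
    cdot θ (M.T i) = θ i • lap M.m - dd i (DD θ M.m) := by
  rw [dd_DD, DD_apply]
  simp only [cdot, Med.T, smul_sub, Finset.sum_sub_distrib, smul_ite, smul_zero,
    Finset.sum_ite_eq, Finset.mem_univ, if_true, dd_comm i]

theorem cdot_T' (M : Med) (θ : Fin 3 → ℂ) (i : Fin 3) :
    cdot θ (fun j => M.T j i) = θ i • lap M.m - dd i (DD θ M.m) := by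
  rw [dd_DD, DD_apply]
  simp only [cdot, Med.T, smul_sub, Finset.sum_sub_distrib, smul_ite, smul_zero,
    Finset.sum_ite_eq', Finset.mem_univ, if_true]

theorem cdot_l (M : Med) (θ : Fin 3 → ℂ) : cdot θ M.l = M.nb * DD θ M.n := by
  simp only [cdot, Med.l, DD_apply, Finset.mul_sum, mul_smul_comm]

theorem Tr_none (M : Med) (θ : Fin 3 → ℂ) (f : Sm) (w : Fin 3 → Sm) :
    M.Tr θ (amp f w) none = 2 * DD θ f + M.n * M.rho * cdot θ w := by
  simp only [Med.Tr, opT, Fintype.sum_option, Med.A, amp, AlgE_e, ite_mul, zero_mul, smul_ite,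
    smul_zero, Finset.sum_ite_eq', Finset.mem_univ, if_true, zero_add, cdot, Fin.sum_univ_three]
  refine AlgE_ext fun x => ?_
  simp only [map_add, map_sub, map_mul, map_neg, map_smul, map_ofNat, map_zero, smul_eq_mul]
  ring

theorem Tr_some (M : Med) (θ : Fin 3 → ℂ) (f : Sm) (w : Fin 3 → Sm) (i : Fin 3) :
    M.Tr θ (amp f w) (some i)
      = 2 * DD θ (w i) + 2 * M.l i * cdot θ w + 2 * cdot θ (M.Tm i) * f := by
  simp only [Med.Tr, opT, Fintype.sum_option, Med.A, amp, ite_mul, zero_mul, smul_ite,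
    smul_zero, Finset.sum_ite_eq', Finset.mem_univ, if_true, cdot]
  simp only [Fin.sum_univ_three]
  refine AlgE_ext fun x => ?_
  simp only [map_add, map_sub, map_mul, map_neg, map_smul, map_ofNat, map_zero, smul_eq_mul]
  ring

theorem B_none (M : Med) (w : Fin 3 → Sm) :
    M.B (amp 0 w) none
      = M.rho * (dvg (fun i => M.n * w i) + M.k * M.n * ∑ i, w i * dd i M.mu) := by
  simp only [Med.B, opB, Fintype.sum_option, Med.A, Med.A₀, amp, AlgE_e, ite_mul, zero_mul,
    Finset.sum_ite_eq', Finset.mem_univ, if_true, zero_add, lap, map_zero, mul_zero,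
    Finset.sum_const_zero, dvg, Derivation.leibniz, smul_eq_mul]
  simp only [Fin.sum_univ_three]
  ring

theorem cdot_B (M : Med) (θ : Fin 3 → ℂ) (w : Fin 3 → Sm) (hw : cdot θ w = 0) :
    cdot θ (fun i => M.B (amp 0 w) (some i))
      = -(M.m * ∑ j, w j * dd j (DD θ M.mu)) - M.n * dvg (fun i => M.n * w i) * DD θ M.mu := by
  have h1 : lap (cdot θ w) = 0 := by rw [hw]; simp [lap]
  have h2 := AlgE_dmu M
  obtain ⟨G, hG⟩ : ∃ G, G = M.n * ∑ j, dd j (M.mu * dd j M.n) := ⟨_, rfl⟩
  simp only [Med.B, opB, Fintype.sum_option, Med.A, Med.A₀, amp]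
  rw [← hG]
  simp only [ite_mul, zero_mul, sub_mul,
    Finset.sum_sub_distrib, Finset.sum_ite_eq', Finset.sum_ite_eq, Finset.mem_univ, if_true,
    zero_add, map_zero, mul_zero, dvg, Derivation.leibniz, smul_eq_mul, dd_DD]
  simp only [cdot, lap, Med.m, DD_apply, Fin.sum_univ_three, map_add, Derivation.map_smul, dd10,
    dd20, dd21] at h1 hw ⊢
  simp only [Algebra.smul_def (R := ℂ)] at h1 hw ⊢
  linear_combination h1 + G * hw + (dd 0 (w 0) + dd 1 (w 1) + dd 2 (w 2)) *
    (algebraMap ℂ Sm (θ 0) * h2 0 + algebraMap ℂ Sm (θ 1) * h2 1 + algebraMap ℂ Sm (θ 2) * h2 2)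

theorem AlgE_amp_eta (z : Option (Fin 3) → Sm) : amp (z none) (fun i => z (some i)) = z := by
  funext a; cases a <;> rfl

theorem tr_of_solves (M : Med) {θ : Fin 3 → ℂ} {R : ℝ} {z : Option (Fin 3) → Sm}
    (h : Solves θ R (B2of M.e M.l M.Tm θ) z 0) (a : Option (Fin 3)) : M.Tr θ z a ∈ van R := by
  have h1 := Ideal.mul_mem_left _ 2 (h a)
  convert h1 using 1
  rw [← AlgE_amp_eta z]
  cases a with
  | none =>
    rw [Tr_none, ← AlgE_e]
    simp only [Fintype.sum_option, B2of, amp, cdot, Fin.sum_univ_three, Pi.zero_apply]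
    refine AlgE_ext fun x => ?_
    simp only [map_add, map_sub, map_mul, map_neg, map_smul, map_ofNat, map_zero, smul_eq_mul]
    ring
  | some i =>
    rw [Tr_some]
    generalize hc : cdot θ (M.Tm i) = c
    simp only [Fintype.sum_option, B2of, hc, amp, Pi.zero_apply]
    simp only [cdot, Fin.sum_univ_three]
    refine AlgE_ext fun x => ?_
    simp only [map_add, map_sub, map_mul, map_neg, map_smul, map_ofNat, map_zero, smul_eq_mul]
    ring

theorem amp_eta (z : Option (Fin 3) → Sm) : amp (z none) (fun i => z (some i)) = z := by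
  funext a; cases a <;> rfl

theorem P2_zero (M₁ M₂ : Med) (θ : Fin 3 → ℂ) (w : Fin 3 → Sm) (hw : cdot θ w = 0)
    (Z : Option (Fin 3) → Sm) : P2 M₁ M₂ θ (amp 0 w) Z = 0 := by
  simp only [P2, ta_eq, EE_eq, hw, amp, map_zero, mul_zero, zero_mul, add_zero, sub_zero, neg_zero]

end Vale.Agent.P136
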