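import Vale.Agent.P136.Basic

/-! Elementary facts on the jet sizes.

Plan. Continuity from `Sm.cont`; integrability on balls from compactness of the closed ball
(`ContinuousOn.integrableOn_compact`, `IntegrableOn.mono_set`); `‖a + b‖² ≤ 2‖a‖² + 2‖b‖²`;
`map_add`, `Derivation.map_smul`. For `lin_bound`: the coefficients are bounded on the closed
ball; `‖∑ c y‖² ≤ card * ∑ ‖c‖²‖y‖²`. For `jetA_mul_ex`: `dd_ex`, Leibniz rule,
`‖(ex ζ).1 x‖² = exp (2 Re (lin ζ x))`, `‖ζ j‖ ≤ ‖ζ‖`. -/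

open MeasureTheory Metric Real
open scoped ContDiff

namespace Vale.Agent.P136

variable {ι : Type} [Fintype ι]

theorem jet0_nonneg (Y : ι → Sm) (x : E3) : 0 ≤ jet0 Y x := by
  unfold jet0
  positivity
theorem jet1_nonneg (Y : ι → Sm) (x : E3) : 0 ≤ jet1 Y x := by
  unfold jet1
  positivity
theorem jet2_nonneg (Y : ι → Sm) (x : E3) : 0 ≤ jet2 Y x := by
  unfold jet2
  positivity
theorem jetA_nonneg (Y : ι → Sm) (x : E3) : 0 ≤ jetA Y x :=
  add_nonneg (add_nonneg (jet0_nonneg Y x) (jet1_nonneg Y x)) (jet2_nonneg Y x)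
theorem Jet_one (Y : ι → Sm) (x : E3) : jet1 Y x = ∑ j, jet0 (fun a => dd j (Y a)) x :=
  Finset.sum_comm
theorem Jet_two (Y : ι → Sm) (x : E3) :
    jet2 Y x = ∑ i, ∑ j, jet0 (fun a => dd i (dd j (Y a))) x :=
  Finset.sum_comm.trans (Finset.sum_congr rfl fun _ _ => Finset.sum_comm)
theorem jet0_cont (Y : ι → Sm) : Continuous (jet0 Y) :=
  continuous_finsetSum _ fun a _ => (Sm.cont (Y a)).norm.pow 2
theorem jet1_cont (Y : ι → Sm) : Continuous (jet1 Y) :=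
  continuous_finsetSum _ fun _ _ => continuous_finsetSum _ fun _ _ => (Sm.cont _).norm.pow 2
theorem jet2_cont (Y : ι → Sm) : Continuous (jet2 Y) :=
  continuous_finsetSum _ fun _ _ => continuous_finsetSum _ fun _ _ =>
    continuous_finsetSum _ fun _ _ => (Sm.cont _).norm.pow 2
theorem jetA_cont (Y : ι → Sm) : Continuous (jetA Y) :=
  ((jet0_cont Y).add (jet1_cont Y)).add (jet2_cont Y)

theorem jet0_add (Y Z : ι → Sm) (x : E3) : jet0 (Y + Z) x ≤ 2 * jet0 Y x + 2 * jet0 Z x := by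
  simp only [jet0, Finset.mul_sum, ← Finset.sum_add_distrib]
  refine Finset.sum_le_sum fun a _ => ?_
  have h : ‖((Y + Z) a).1 x‖ ≤ ‖(Y a).1 x‖ + ‖(Z a).1 x‖ := norm_add_le _ _
  nlinarith [pow_le_pow_left₀ (norm_nonneg _) h 2, sq_nonneg (‖(Y a).1 x‖ - ‖(Z a).1 x‖)]
theorem jet1_add (Y Z : ι → Sm) (x : E3) : jet1 (Y + Z) x ≤ 2 * jet1 Y x + 2 * jet1 Z x := by
  simp only [Jet_one, Finset.mul_sum, ← Finset.sum_add_distrib, Pi.add_apply, map_add]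
  exact Finset.sum_le_sum fun j _ => jet0_add _ _ x
theorem jet2_add (Y Z : ι → Sm) (x : E3) : jet2 (Y + Z) x ≤ 2 * jet2 Y x + 2 * jet2 Z x := by
  simp only [Jet_two, Finset.mul_sum, ← Finset.sum_add_distrib, Pi.add_apply, map_add]
  exact Finset.sum_le_sum fun i _ => Finset.sum_le_sum fun j _ => jet0_add _ _ x
theorem jetA_add (Y Z : ι → Sm) (x : E3) : jetA (Y + Z) x ≤ 2 * jetA Y x + 2 * jetA Z x := by
  unfold jetA
  linarith [jet0_add Y Z x, jet1_add Y Z x, jet2_add Y Z x]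
theorem jet0_smul (c : ℂ) (Y : ι → Sm) (x : E3) : jet0 (c • Y) x = ‖c‖ ^ 2 * jet0 Y x := by
  simp only [jet0, Finset.mul_sum, ← mul_pow, ← norm_mul]
  rfl
theorem jet1_smul (c : ℂ) (Y : ι → Sm) (x : E3) : jet1 (c • Y) x = ‖c‖ ^ 2 * jet1 Y x := by
  simp only [Jet_one, Finset.mul_sum, Pi.smul_apply, Derivation.map_smul]
  exact Finset.sum_congr rfl fun j _ => jet0_smul c _ x
theorem jet2_smul (c : ℂ) (Y : ι → Sm) (x : E3) : jet2 (c • Y) x = ‖c‖ ^ 2 * jet2 Y x := by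
  simp only [Jet_two, Finset.mul_sum, Pi.smul_apply, Derivation.map_smul]
  exact Finset.sum_congr rfl fun i _ => Finset.sum_congr rfl fun j _ => jet0_smul c _ x
theorem jetA_smul (c : ℂ) (Y : ι → Sm) (x : E3) : jetA (c • Y) x = ‖c‖ ^ 2 * jetA Y x := by
  rw [jetA, jetA, jet0_smul, jet1_smul, jet2_smul, mul_add, mul_add]

theorem Jet_sq (Y : ι → Sm) (a : ι) (x : E3) : ‖(Y a).1 x‖ ^ 2 ≤ jet0 Y x :=
  Finset.single_le_sum (f := fun a => ‖(Y a).1 x‖ ^ 2) (fun _ _ => sq_nonneg _) (Finset.mem_univ a)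
theorem Jet_le1 (Y : ι → Sm) (j : Fin 3) (x : E3) : jet0 (fun a => dd j (Y a)) x ≤ jet1 Y x := by
  rw [Jet_one]
  exact Finset.single_le_sum (f := fun j => jet0 (fun a => dd j (Y a)) x)
    (fun _ _ => jet0_nonneg _ x) (Finset.mem_univ j)
theorem Jet_le2 (Y : ι → Sm) (i j : Fin 3) (x : E3) :
    jet0 (fun a => dd i (dd j (Y a))) x ≤ jet2 Y x := by
  rw [Jet_two]
  exact (Finset.single_le_sum (f := fun j => jet0 (fun a => dd i (dd j (Y a))) x)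
    (fun _ _ => jet0_nonneg _ x) (Finset.mem_univ j)).trans
    (Finset.single_le_sum (f := fun i => ∑ j, jet0 (fun a => dd i (dd j (Y a))) x)
      (fun _ _ => Finset.sum_nonneg fun _ _ => jet0_nonneg _ x) (Finset.mem_univ i))
theorem sq_le_jet0 (Y : ι → Sm) (a : ι) (x : E3) : ‖(Y a).1 x‖ ^ 2 ≤ jetA Y x := by
  unfold jetA
  linarith [Jet_sq Y a x, jet1_nonneg Y x, jet2_nonneg Y x]
theorem sq_le_jet1 (Y : ι → Sm) (a : ι) (j : Fin 3) (x : E3) :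
    ‖(dd j (Y a)).1 x‖ ^ 2 ≤ jetA Y x := by
  unfold jetA
  linarith [Jet_sq (fun a => dd j (Y a)) a x, Jet_le1 Y j x, jet0_nonneg Y x, jet2_nonneg Y x]
theorem sq_le_jet2 (Y : ι → Sm) (a : ι) (i j : Fin 3) (x : E3) :
    ‖(dd i (dd j (Y a))).1 x‖ ^ 2 ≤ jetA Y x := by
  unfold jetA
  linarith [Jet_sq (fun a => dd i (dd j (Y a))) a x, Jet_le2 Y i j x, jet0_nonneg Y x,
    jet1_nonneg Y x]

theorem integrableOn_of_subset_ball {W : Type} [NormedAddCommGroup W] {f : E3 → W}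
    (hf : Continuous f) {Ω : Set E3} {R : ℝ} (hΩ : Ω ⊆ ball 0 R) : IntegrableOn f Ω := by
  exact (hf.continuousOn.integrableOn_compact (isCompact_closedBall 0 R)).mono_set
    (hΩ.trans ball_subset_closedBall)

theorem Sm.bound (f : Sm) (R : ℝ) : ∃ C : ℝ, 0 ≤ C ∧ ∀ x : E3, ‖x‖ ≤ R → ‖f.1 x‖ ≤ C := by
  obtain ⟨C, hC⟩ := (isCompact_closedBall (0 : E3) R).exists_bound_of_continuousOn
    (Sm.cont f).continuousOn
  exact ⟨max C 0, le_max_right _ _,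
    fun x hx => (hC x (mem_closedBall_zero_iff.2 hx)).trans (le_max_left _ _)⟩

/-- First order terms are bounded by the 1-jet. -/
theorem lin_bound (A : Fin 3 → ι → ι → Sm) (A₀ : ι → ι → Sm) (R : ℝ) :
    ∃ C : ℝ, 0 ≤ C ∧ ∀ (Y : ι → Sm) (x : E3), ‖x‖ ≤ R →
      jet0 (fun a => ∑ j, ∑ b, A j a b * dd j (Y b) + ∑ b, A₀ a b * Y b) x
        ≤ C * (jet0 Y x + jet1 Y x) := by
  choose c h0 hc using fun f => Sm.bound f R
  refine ⟨∑ a, (∑ j, ∑ b, c (A j a b) + ∑ b, c (A₀ a b)) ^ 2, by positivity, fun Y x hx => ?_⟩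
  have h1 := jet0_nonneg Y x
  have h2 := jet1_nonneg Y x
  rw [Finset.sum_mul, ← Real.sq_sqrt (add_nonneg h1 h2)]
  refine Finset.sum_le_sum fun a _ => ?_
  rw [← mul_pow]
  refine pow_le_pow_left₀ (norm_nonneg _) ?_ 2
  have key : ∀ f g : Sm, ‖g.1 x‖ ^ 2 ≤ jet0 Y x + jet1 Y x →
      ‖(f * g).1 x‖ ≤ c f * √(jet0 Y x + jet1 Y x) := fun f g h =>
    (norm_mul_le (f.1 x) (g.1 x)).trans
      (mul_le_mul (hc f x hx) (Real.le_sqrt_of_sq_le h) (norm_nonneg _) (h0 f))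
  simp only [add_mul, Finset.sum_mul, Subalgebra.coe_add, Pi.add_apply, sum_val]
  refine norm_add_le_of_le (norm_sum_le_of_le _ fun j _ => norm_sum_le_of_le _ fun b _ => key _ _ ?_)
    (norm_sum_le_of_le _ fun b _ => key _ _ ?_)
  · linarith [Jet_sq (fun a => dd j (Y a)) b x, Jet_le1 Y j x]
  · linarith [Jet_sq Y b x]

theorem norm_ex_sq (ζ : Fin 3 → ℂ) (x : E3) :
    ‖(ex ζ).1 x‖ ^ 2 = Real.exp (2 * (lin ζ x).re) := by
  change ‖Complex.exp (lin ζ x)‖ ^ 2 = _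
  rw [Complex.norm_exp, ← Real.exp_nat_mul, Nat.cast_ofNat]

theorem jet0_mul_ex (ζ : Fin 3 → ℂ) (Y : ι → Sm) (x : E3) :
    jet0 (fun a => ex ζ * Y a) x = Real.exp (2 * (lin ζ x).re) * jet0 Y x := by
  simp only [jet0, Finset.mul_sum, ← norm_ex_sq, ← mul_pow, ← norm_mul]
  rfl

theorem Jet_step (ζ : Fin 3 → ℂ) (j : Fin 3) (Y Z : ι → Sm) (x : E3) {B : ℝ}
    (hY : jet0 Y x ≤ B) (hZ : jet0 Z x ≤ B) :
    jet0 (fun a => ζ j • Y a + Z a) x ≤ 2 * (1 + ‖ζ‖) ^ 2 * B := by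
  have h := jet0_add (ζ j • Y) Z x
  rw [jet0_smul] at h
  have h0 := jet0_nonneg Y x
  have h1 := mul_le_mul (pow_le_pow_left₀ (norm_nonneg _) (norm_le_pi_norm ζ j) 2) hY h0
    (sq_nonneg _)
  refine h.trans ?_
  nlinarith [mul_nonneg (norm_nonneg ζ) (h0.trans hY)]

theorem Jet_dd (ζ : Fin 3 → ℂ) (j : Fin 3) (f : Sm) :
    dd j (ex ζ * f) = ex ζ * (ζ j • f + dd j f) := by
  rw [Derivation.leibniz, dd_ex, smul_eq_mul, smul_eq_mul, mul_smul_comm, mul_add, mul_smul_comm,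
    add_comm, mul_comm f]

theorem jetA_mul_ex (ζ : Fin 3 → ℂ) (Y : ι → Sm) (x : E3) :
    jetA (fun a => ex ζ * Y a) x
      ≤ 100 * (1 + ‖ζ‖) ^ 4 * (Real.exp (2 * (lin ζ x).re) * jetA Y x) := by
  have h0 : jet0 Y x ≤ jetA Y x := by
    unfold jetA
    linarith [jet1_nonneg Y x, jet2_nonneg Y x]
  have h1 : ∀ j, jet0 (fun a => dd j (Y a)) x ≤ jetA Y x := fun j => by
    unfold jetA
    linarith [Jet_le1 Y j x, jet0_nonneg Y x, jet2_nonneg Y x]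
  have h2 : ∀ i j, jet0 (fun a => dd i (dd j (Y a))) x ≤ jetA Y x := fun i j => by
    unfold jetA
    linarith [Jet_le2 Y i j x, jet0_nonneg Y x, jet1_nonneg Y x]
  have hE := (Real.exp_pos (2 * (lin ζ x).re)).le
  have h3 := fun j => Jet_step ζ j _ _ x h0 (h1 j)
  have h4 := fun i j => mul_le_mul_of_nonneg_left
    (Jet_step ζ i _ _ x (h3 j) (Jet_step ζ j _ _ x (h1 i) (h2 i j))) hE
  have h5 := fun j => mul_le_mul_of_nonneg_left (h3 j) hE
  have h6 := mul_le_mul_of_nonneg_left h0 hE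
  have h7 := mul_nonneg hE (jetA_nonneg Y x)
  have h8 : 1 ≤ (1 + ‖ζ‖) ^ 2 := one_le_pow₀ (by linarith [norm_nonneg ζ])
  rw [jetA, Jet_one, Jet_two]
  simp only [Jet_dd, jet0_mul_ex, map_add, Derivation.map_smul]
  refine (add_le_add (add_le_add h6 (Finset.sum_le_sum fun j _ => h5 j))
    (Finset.sum_le_sum fun i _ => Finset.sum_le_sum fun j _ => h4 i j)).trans ?_
  rw [show (1 + ‖ζ‖) ^ 4 = (1 + ‖ζ‖) ^ 2 * (1 + ‖ζ‖) ^ 2 by ring]
  generalize (1 + ‖ζ‖) ^ 2 = T at h8 ⊢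
  simp only [Fin.sum_univ_three]
  nlinarith [mul_nonneg (sub_nonneg.2 h8) h7,
    mul_nonneg (mul_nonneg (sub_nonneg.2 h8) (zero_le_one.trans h8)) h7]

end Vale.Agent.P136
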