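import Vale.Agent.P136.AlgA
import Vale.Agent.P136.Jet

/-! Approximate solutions of the reduced system give approximate solutions of the Lamé system.

Plan. `integral_dd_test`: the set integral equals the full integral (the derivative vanishes off
`tsupport`), which is zero (`integral_fderiv_eq_zero`-type lemma, e.g.
`integral_bilinear_hasLineDerivAt_right_eq_neg_left_of_integrable` or
`integral_mul_fderiv_eq_neg_fderiv_mul_of_integrable` against a cutoff / the constant one).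
Products `g * ψ` with a test function are test functions. With `Q = kb p B Y none`,
`V i = nb B Y (some i)`:
`form = ∑ σ_ij ∂_jψ_i = ∑ ∂_j(σ_ij ψ_i) - ∑ ∂_i(Q ψ_i) + Q div ψ - ∑ V_i ψ_i` by `div_stress`.
Pointwise on the ball `‖Q div ψ - V·ψ‖ ≤ C sqrt (jet0 (B Y)) sqrt (jet0 ψ + jet1 ψ)`; finish by the
Cauchy-Schwarz inequality for integrals. -/

open MeasureTheory Metric
open scoped ContDiff

namespace Vale.Agent.P136

theorem integral_dd_test {Ω : Set E3} {f : Sm} (hf : IsTestC Ω f) (j : Fin 3) :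
    ∫ x in Ω, (dd j f).1 x = 0 := by
  simp only [dd_apply]
  rw [setIntegral_eq_integral_of_forall_compl_eq_zero fun x hx =>
    image_eq_zero_of_notMem_tsupport fun h =>
      hx (hf.2 (tsupport_fderiv_apply_subset ℝ (ee j) h))]
  have h := integral_mul_fderiv_eq_neg_fderiv_mul_of_integrable (μ := (volume : Measure E3))
    (f := fun _ : E3 => (1 : ℂ)) (g := f.1) (v := ee j) (by simp)
    (by
      simp only [one_mul]
      exact (Sm.cont (dd j f)).integrable_of_hasCompactSupport (hf.1.fderiv_apply ℝ _))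
    (by
      simp only [one_mul]
      exact (Sm.cont f).integrable_of_hasCompactSupport hf.1)
    (fun x _ => differentiableAt_const _) (fun x _ => Sm.diff f x)
  simpa using h

theorem form_eq_stress (M : Med) (U ψ : Fin 3 → Sm) :
    form M.lam M.mu U ψ = ∑ i, ∑ j, M.stress U i j * dd j (ψ i) := by
  have h : ∀ a b c : Sm, 2 * a * ((1 / 2 : ℂ) • b * c) = a * b * c := fun a b c => by
    rw [← mul_assoc, AlgA_half]
  have h2 : ∀ i j, strain U i j * strain ψ i j =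
      (1 / 2 : ℂ) • (dd j (ψ i) + dd i (ψ j)) * strain U i j := fun i j => mul_comm _ _
  have h5 : ∀ i j, 2 * M.mu * (strain U i j * strain ψ i j) =
      M.mu * strain U i j * (dd j (ψ i) + dd i (ψ j)) := fun i j => by
    rw [h2, h]
    ring
  have h6 : ∀ i j, strain U i j = strain U j i := fun i j => by
    unfold strain
    rw [add_comm]
  simp only [form, Med.stress, Finset.mul_sum, h5, dvg]
  simp only [Fin.sum_univ_three, h6 1 0, h6 2 0, h6 2 1]
  simp
  ring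

theorem AnsW_cs {μ : Measure E3} {a b : E3 → ℝ} (ha : Integrable (fun x => a x ^ 2) μ)
    (hb : Integrable (fun x => b x ^ 2) μ) (hd : Integrable (fun x => a x * b x) μ) :
    ∫ x, a x * b x ∂μ ≤ √(∫ x, a x ^ 2 ∂μ) * √(∫ x, b x ^ 2 ∂μ) := by
  have a0 : 0 ≤ ∫ x, a x ^ 2 ∂μ := integral_nonneg fun _ => sq_nonneg _
  have b0 : 0 ≤ ∫ x, b x ^ 2 ∂μ := integral_nonneg fun _ => sq_nonneg _
  have := discrim_le_zero (a := ∫ x, a x ^ 2 ∂μ) (b := 2 * ∫ x, a x * b x ∂μ)
    (c := ∫ x, b x ^ 2 ∂μ) fun t => by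
      have h1 : 0 ≤ ∫ x, (t * t * a x ^ 2 + 2 * t * (a x * b x) + b x ^ 2) ∂μ :=
        integral_nonneg fun x => (sq_nonneg (t * a x + b x)).trans_eq (by ring)
      rw [integral_add (by exact (ha.const_mul _).add (hd.const_mul _)) hb,
        integral_add (ha.const_mul _) (hd.const_mul _), integral_const_mul,
        integral_const_mul] at h1
      linarith
  refine le_trans (le_abs_self _) (abs_le_of_sq_le_sq ?_ (by positivity))
  rw [mul_pow, Real.sq_sqrt a0, Real.sq_sqrt b0]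
  unfold discrim at this
  linarith

theorem AnsW_test {Ω : Set E3} {ψ : Sm} (h : IsTestC Ω ψ) (g : Sm) : IsTestC Ω (g * ψ) :=
  ⟨h.1.mul_left (f := g.1), (tsupport_mul_subset_right (f := g.1) (g := ψ.1)).trans h.2⟩

/-- integration over `Ω` as an additive map -/
noncomputable def AnsW_I {Ω : Set E3} {R : ℝ} (hsub : Ω ⊆ ball 0 R) : Sm →+ ℂ where
  toFun f := ∫ x in Ω, f.1 x
  map_zero' := integral_zero _ _
  map_add' f g := integral_add (integrableOn_of_subset_ball (Sm.cont f) hsub)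
    (integrableOn_of_subset_ball (Sm.cont g) hsub)

theorem AnsW_id (M : Med) (Y : Option (Fin 3) → Sm) (ψ : Fin 3 → Sm) :
    form M.lam M.mu (M.ans Y) ψ = ∑ i, ∑ j, dd j (M.stress (M.ans Y) i j * ψ i) -
      ∑ i, dd i (M.kb * M.p * M.B Y none * ψ i) +
      ∑ i, (M.kb * M.p * (M.B Y none * dd i (ψ i)) - M.nb * (M.B Y (some i) * ψ i)) := by
  rw [form_eq_stress, ← Finset.sum_sub_distrib, ← Finset.sum_add_distrib]
  refine Finset.sum_congr rfl fun i _ => ?_
  have h := div_stress M Y i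
  generalize M.stress (M.ans Y) i = σ at h ⊢
  rw [Derivation.leibniz (dd i) (M.kb * M.p * M.B Y none)]
  generalize dd i (M.kb * M.p * M.B Y none) = q at h ⊢
  simp only [Fin.sum_univ_three, Derivation.leibniz, smul_eq_mul] at h ⊢
  linear_combination (-ψ i) * h

theorem approx_ans (M : Med) {Ω : Set E3} {R : ℝ} (hΩ : IsOpen Ω) (hsub : Ω ⊆ ball 0 R) :
    ∃ C : ℝ, 0 ≤ C ∧ ∀ (Y : Option (Fin 3) → Sm) (δ : ℝ),
      ∫ x in ball (0 : E3) R, jet0 (M.B Y) x ≤ δ →
      Approx Ω M.lam M.mu (M.ans Y) (C * Real.sqrt δ) := by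
  obtain ⟨c1, p1, b1⟩ := Sm.bound (M.kb * M.p) R
  obtain ⟨c2, p2, b2⟩ := Sm.bound M.nb R
  refine ⟨3 * (c1 + c2), by positivity, fun Y δ hδ ψ hψ => ?_⟩
  obtain ⟨G, hG⟩ : ∃ G : Sm, G =
    ∑ i, (M.kb * M.p * (M.B Y none * dd i (ψ i)) - M.nb * (M.B Y (some i) * ψ i)) := ⟨_, rfl⟩
  have e1 : ∫ x in Ω, (form M.lam M.mu (M.ans Y) ψ).1 x = ∫ x in Ω, G.1 x := by
    have z : ∀ (j i : Fin 3) (g : Sm), AnsW_I hsub (dd j (g * ψ i)) = 0 := fun j i g =>
      integral_dd_test (AnsW_test (hψ i) g) j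
    change AnsW_I hsub _ = AnsW_I hsub _
    rw [AnsW_id, ← hG, map_add, map_sub, map_sum, map_sum]
    simp only [map_sum, z, Finset.sum_const_zero, sub_zero, zero_add]
  obtain ⟨a, ha⟩ : ∃ a : E3 → ℝ, a = fun x => √(jet0 (M.B Y) x) := ⟨_, rfl⟩
  obtain ⟨b, hb⟩ : ∃ b : E3 → ℝ, b = fun x => √(jet0 ψ x + jet1 ψ x) := ⟨_, rfl⟩
  have ca : Continuous a := ha ▸ (jet0_cont _).sqrt
  have cb : Continuous b := hb ▸ ((jet0_cont _).add (jet1_cont _)).sqrt
  have a2 : ∀ x, a x ^ 2 = jet0 (M.B Y) x := fun x => ha ▸ Real.sq_sqrt (jet0_nonneg _ x)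
  have b2' : ∀ x, b x ^ 2 = jet0 ψ x + jet1 ψ x := fun x =>
    hb ▸ Real.sq_sqrt (add_nonneg (jet0_nonneg _ x) (jet1_nonneg _ x))
  have a0 : ∀ x, 0 ≤ a x := fun x => ha ▸ Real.sqrt_nonneg _
  have b0 : ∀ x, 0 ≤ b x := fun x => hb ▸ Real.sqrt_nonneg _
  have pt : ∀ x ∈ Ω, ‖G.1 x‖ ≤ 3 * (c1 + c2) * (a x * b x) := by
    intro x hx
    have hx' : ‖x‖ ≤ R := (mem_ball_zero_iff.1 (hsub hx)).le
    have k : ∀ (c : Sm) (C : ℝ) (o : Option (Fin 3)) (g : Sm), 0 ≤ C → ‖c.1 x‖ ≤ C →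
        ‖g.1 x‖ ^ 2 ≤ jet0 ψ x + jet1 ψ x → ‖(c * (M.B Y o * g)).1 x‖ ≤ C * (a x * b x) := by
      intro c C o g C0 h1 h2
      refine (norm_mul_le (c.1 x) _).trans (mul_le_mul h1 ((norm_mul_le ((M.B Y o).1 x) (g.1 x)).trans
        (mul_le_mul ?_ ?_ (norm_nonneg _) (a0 x))) (norm_nonneg _) C0)
      · exact abs_le_of_sq_le_sq' (by rw [a2]; exact Jet_sq _ o x) (a0 x) |>.2
      · exact abs_le_of_sq_le_sq' (by rw [b2']; exact h2) (b0 x) |>.2
    rw [hG, sum_val]
    refine (norm_sum_le_of_le _ (n := fun _ => (c1 + c2) * (a x * b x)) fun i _ => ?_).trans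
      (by rw [Fin.sum_univ_three]; linarith)
    rw [add_mul]
    refine norm_sub_le_of_le (k _ _ _ _ p1 (b1 x hx') ?_) (k _ _ _ _ p2 (b2 x hx') ?_)
    · linarith [Jet_sq (fun a => dd i (ψ a)) i x, Jet_le1 ψ i x, jet0_nonneg ψ x]
    · linarith [Jet_sq ψ i x, jet1_nonneg ψ x]
  have i3 := integrableOn_of_subset_ball (ca.mul cb) hsub
  rw [e1]
  refine (norm_integral_le_of_norm_le (i3.const_mul (3 * (c1 + c2)))
    (ae_restrict_of_forall_mem hΩ.measurableSet pt)).trans ?_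
  rw [integral_const_mul, mul_assoc (3 * (c1 + c2))]
  refine mul_le_mul_of_nonneg_left ((AnsW_cs (integrableOn_of_subset_ball (ca.pow 2) hsub)
    (integrableOn_of_subset_ball (cb.pow 2) hsub) i3).trans ?_) (by positivity)
  simp only [a2, b2']
  refine mul_le_mul_of_nonneg_right (Real.sqrt_le_sqrt (le_trans ?_ hδ)) (Real.sqrt_nonneg _)
  exact setIntegral_mono_set (integrableOn_of_subset_ball (jet0_cont _) subset_rfl)
    (ae_of_all _ fun x => jet0_nonneg _ x) hsub.eventuallyLE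

end Vale.Agent.P136
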