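import Vale.Agent.P136.Pert
import Vale.Agent.P136.TW

/-! Complex geometrical optics approximate solutions with two prescribed terms.

Plan. `opB_ex`: Leibniz rule, `dd_ex`, `IsNull`. `opB`, `opT` are additive and `ℂ`-homogeneous in
`Y`, `opT A (τ • θ) Y = τ • opT A θ Y`. `next_term`: `solve_ex` with matrix
`-(1/2) ∑ j, θ j • A j` and source `-(1/2) opB Y`.
`cgo`: get `Y₂, …, Y₅` by `next_term`. With `ζ = τ • θ`, `W = Y₀ + τ⁻¹Y₁ + … + τ⁻⁵Y₅`,
`opB (ex ζ * W) ≡ F := τ⁻⁵ • ex ζ * opB Y₅` on the ball (telescoping). Let `r = ‖reV θ‖ > 0`,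
`α = r⁻¹ • reV θ`, `τ' = τ r`, so `exp (-2 τ' ⟨α, x⟩) = exp (2 Re lin (-ζ) x)` (`lin_re`).
Take `y` from `sys_solve` at `τ'` with error `δ' = min (τ⁻¹⁰) (δ exp (-2 τ' R))` and
`Z = Y₂ + τ⁻¹Y₃ + τ⁻²Y₄ + τ⁻³Y₅ - τ² • ex (-ζ) * y`. Then
`ex ζ * (Y₀ + τ⁻¹Y₁ + τ⁻²Z) = ex ζ * W - y` (`ex_mul_ex_neg`), the residual is `F - opB y` on the
ball, `1 ≤ exp (2τ'R) exp (-2τ'⟨α,x⟩)` there; the weighted size of `F` is
`τ⁻¹⁰ ∫ jet0 (opB Y₅)` (`jet0_mul_ex`), and `jetA_mul_ex` costs `100 (1 + τ‖θ‖)⁴`: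
`τ⁴ · τ⁴ · τ² · τ⁻¹⁰ = 1`. -/

open MeasureTheory Metric Real
open scoped ContDiff

namespace Vale.Agent.P136

theorem CGO_dd (ζ : Fin 3 → ℂ) (j : Fin 3) (f : Sm) :
    dd j (ex ζ * f) = ex ζ * (dd j f + ζ j • f) := by
  rw [Derivation.leibniz, dd_ex, smul_eq_mul, smul_eq_mul, mul_add, mul_smul_comm, mul_smul_comm,
    mul_comm f]

theorem CGO_lap {ζ : Fin 3 → ℂ} (hζ : IsNull ζ) (f : Sm) :
    lap (ex ζ * f) = ex ζ * ((2 : ℂ) • DD ζ f + lap f) := by
  have h1 : ∑ j, ζ j • ζ j • f = 0 := by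
    simp only [smul_smul]
    rw [← Finset.sum_smul, show ∑ j, ζ j * ζ j = 0 from hζ, zero_smul]
  simp only [lap, CGO_dd, map_add, Derivation.map_smul, smul_add]
  rw [← Finset.mul_sum, Finset.sum_add_distrib, Finset.sum_add_distrib, Finset.sum_add_distrib, h1,
    DD_apply, two_smul]
  ring

section
variable {ι : Type} [Fintype ι] (A : Fin 3 → ι → ι → Sm) (A₀ : ι → ι → Sm) (θ : Fin 3 → ℂ)

theorem CGO_B_add (Y Z : ι → Sm) (a : ι) :
    opB A A₀ (Y + Z) a = opB A A₀ Y a + opB A A₀ Z a := by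
  simp only [opB, lap, Pi.add_apply, map_add, mul_add, Finset.sum_add_distrib]
  ring

theorem CGO_B_smul (c : ℂ) (Y : ι → Sm) (a : ι) : opB A A₀ (c • Y) a = c • opB A A₀ Y a := by
  simp only [opB, lap, Pi.smul_apply, Derivation.map_smul, mul_smul_comm, smul_add,
    Finset.smul_sum]

theorem CGO_T_add (Y Z : ι → Sm) (a : ι) : opT A θ (Y + Z) a = opT A θ Y a + opT A θ Z a := by
  simp only [opT, Pi.add_apply, map_add, mul_add, smul_add, Finset.sum_add_distrib]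
  ring

theorem CGO_T_smul (c : ℂ) (Y : ι → Sm) (a : ι) : opT A θ (c • Y) a = c • opT A θ Y a := by
  simp only [opT, Pi.smul_apply, Derivation.map_smul, mul_smul_comm, smul_add, Finset.smul_sum,
    smul_comm c]

theorem CGO_T_scale (c : ℂ) (Y : ι → Sm) (a : ι) : opT A (c • θ) Y a = c • opT A θ Y a := by
  simp only [opT, DD_apply, Pi.smul_apply, smul_eq_mul, smul_add, Finset.smul_sum, smul_smul,
    mul_left_comm c]

end

theorem opB_ex {ι : Type} [Fintype ι] (A : Fin 3 → ι → ι → Sm) (A₀ : ι → ι → Sm)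
    {ζ : Fin 3 → ℂ} (hζ : IsNull ζ) (Y : ι → Sm) (a : ι) :
    opB A A₀ (fun b => ex ζ * Y b) a = ex ζ * (opT A ζ Y a + opB A A₀ Y a) := by
  simp only [opB, opT, CGO_lap hζ, CGO_dd, mul_add, Finset.sum_add_distrib, Finset.mul_sum,
    mul_smul_comm, mul_left_comm _ (ex ζ)]
  ring

theorem next_term {ι : Type} [Fintype ι] (A : Fin 3 → ι → ι → Sm) (A₀ : ι → ι → Sm)
    {θ : Fin 3 → ℂ} (hθ : IsNull θ) (h0 : θ ≠ 0) (R : ℝ) (hR : 0 < R) (Y : ι → Sm) :
    ∃ Y' : ι → Sm, ∀ a, opT A θ Y' a + opB A A₀ Y a ∈ van R := by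
  obtain ⟨Y', hY'⟩ := solve_ex hθ h0 (fun a b => (-1 / 2 : ℂ) • ∑ j, θ j • A j a b) R hR
    fun a => (-1 / 2 : ℂ) • opB A A₀ Y a
  refine ⟨Y', fun a => ?_⟩
  have h1 := smul_mem_van 2 (hY' a)
  have h2 : ∑ b, ((-1 / 2 : ℂ) • ∑ j, θ j • A j a b) * Y' b =
      (-1 / 2 : ℂ) • ∑ j, ∑ b, θ j • (A j a b * Y' b) := by
    rw [Finset.sum_comm, Finset.smul_sum]
    simp only [smul_mul_assoc, Finset.sum_mul]
  rw [h2] at h1
  refine (congrArg (· ∈ van R) ?_).mp h1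
  unfold opT
  module

theorem cgo {ι : Type} [Fintype ι] (A : Fin 3 → ι → ι → Sm) (A₀ : ι → ι → Sm)
    {θ : Fin 3 → ℂ} (hθ : IsNull θ) (h0 : θ ≠ 0) (R : ℝ) (hR : 0 < R) (Y₀ Y₁ : ι → Sm)
    (h₀ : ∀ a, opT A θ Y₀ a ∈ van R) (h₁ : ∀ a, opT A θ Y₁ a + opB A A₀ Y₀ a ∈ van R) :
    ∃ C τ₀ : ℝ, ∀ τ : ℝ, τ₀ ≤ τ → 1 ≤ τ → ∀ δ : ℝ, 0 < δ → ∃ Z : ι → Sm,
      (∫ x in ball (0 : E3) R, jetA Z x ≤ C) ∧
      ∫ x in ball (0 : E3) R, jet0 (opB A A₀ fun b =>
        ex ((τ : ℂ) • θ) * (Y₀ + (τ : ℂ)⁻¹ • Y₁ + ((τ : ℂ)⁻¹) ^ 2 • Z) b) x ≤ δ := by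
  obtain ⟨Y₂, h₂⟩ := next_term A A₀ hθ h0 R hR Y₁
  obtain ⟨Y₃, h₃⟩ := next_term A A₀ hθ h0 R hR Y₂
  obtain ⟨Y₄, h₄⟩ := next_term A A₀ hθ h0 R hR Y₃
  obtain ⟨Y₅, h₅⟩ := next_term A A₀ hθ h0 R hR Y₄
  have hr := norm_reV_pos hθ h0
  set r := ‖reV θ‖ with hrdef
  have hα : ‖r⁻¹ • reV θ‖ = 1 := by
    rw [norm_smul, norm_inv, norm_norm, inv_mul_cancel₀ hr.ne']
  obtain ⟨C, τ₀, hC, hsol⟩ := sys_solve A A₀ _ hα R hR
  set α := r⁻¹ • reV θ with hαdef
  set K := ∫ x in ball (0 : E3) (R + 1), jet0 (opB A A₀ Y₅) x with hK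
  refine ⟨(∫ x in ball (0 : E3) R, 8 * (jetA Y₂ x + jetA Y₃ x + jetA Y₄ x + jetA Y₅ x)) +
    200 * (1 + ‖θ‖) ^ 4 * (C * r ^ 2 * (K + 1)), τ₀ / r, fun τ hτ₀ hτ δ hδ => ?_⟩
  have hτ0 : 0 < τ := by linarith
  have hτc : (τ : ℂ) ≠ 0 := Complex.ofReal_ne_zero.2 hτ0.ne'
  set ζ := (τ : ℂ) • θ with hζdef
  set t := (τ : ℂ)⁻¹ with ht
  have htn : ‖t‖ = τ⁻¹ := by rw [ht, norm_inv, Complex.norm_real, Real.norm_of_nonneg hτ0.le]
  have hζ : IsNull ζ := by
    have h1 : ∑ j, ζ j * ζ j = (τ : ℂ) ^ 2 * ∑ j, θ j * θ j := by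
      rw [Finset.mul_sum]
      exact Finset.sum_congr rfl fun j _ => by rw [hζdef, Pi.smul_apply, smul_eq_mul]; ring
    unfold IsNull
    rw [h1, show ∑ j, θ j * θ j = 0 from hθ, mul_zero]
  have hlin : ∀ x, (lin ζ x).re = τ * r * inner ℝ α x := by
    intro x
    have h1 : lin ζ x = τ * lin θ x := by
      simp only [lin, hζdef, Pi.smul_apply, smul_eq_mul, Finset.mul_sum, mul_assoc]
    rw [h1, Complex.re_ofReal_mul, lin_re, hαdef, real_inner_smul_left]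
    field_simp
  have hlin' : ∀ x, 2 * (lin (-ζ) x).re = -2 * (τ * r) * inner ℝ α x := by
    intro x
    have h1 : lin (-ζ) x = -lin ζ x := by
      simp only [lin, Pi.neg_apply, neg_mul, Finset.sum_neg_distrib]
    rw [h1, Complex.neg_re, hlin]
    ring
  have hw : Continuous fun x : E3 => Real.exp (-2 * (τ * r) * inner ℝ α x) := by fun_prop
  obtain ⟨y, hy1, hy2⟩ := hsol (τ * r) ((div_le_iff₀ hr).1 hτ₀)
    (fun a => ex ζ * (t ^ 5 • opB A A₀ Y₅) a)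
    (min ((τ ^ 10)⁻¹) (δ * Real.exp (-2 * (τ * r) * R))) (by positivity)
  refine ⟨Y₂ + t • Y₃ + (t ^ 2 • Y₄ + t ^ 3 • Y₅) + (-(τ : ℂ) ^ 2) • fun b => ex (-ζ) * y b, ?_, ?_⟩
  · have h1 : ∫ x in ball (0 : E3) (R + 1), Real.exp (-2 * (τ * r) * inner ℝ α x) *
        jet0 (fun a => ex ζ * (t ^ 5 • opB A A₀ Y₅) a) x = (τ ^ 10)⁻¹ * K := by
      rw [hK, ← integral_const_mul]
      refine integral_congr_ae (Filter.Eventually.of_forall fun x => ?_)
      simp only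
      rw [jet0_mul_ex, ← mul_assoc, ← Real.exp_add, hlin, jet0_smul, norm_pow, htn,
        show -2 * (τ * r) * inner ℝ α x + 2 * (τ * r * inner ℝ α x) = 0 by ring, Real.exp_zero]
      ring
    have h2 : ∫ x in ball (0 : E3) R, Real.exp (-2 * (τ * r) * inner ℝ α x) * jetA y x ≤
        (τ ^ 8)⁻¹ * (C * r ^ 2 * (K + 1)) := by
      rw [h1] at hy2
      refine hy2.trans ((mul_le_mul_of_nonneg_left (add_le_add_right (min_le_left _ _) _)
        (by positivity)).trans (le_of_eq ?_))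
      field_simp
    have hi1 : IntegrableOn (fun x => 8 * (jetA Y₂ x + jetA Y₃ x + jetA Y₄ x + jetA Y₅ x))
        (ball (0 : E3) R) :=
      integrableOn_of_subset_ball (continuous_const.mul ((((jetA_cont _).add (jetA_cont _)).add
        (jetA_cont _)).add (jetA_cont _))) subset_rfl
    have hi2 : IntegrableOn (fun x => Real.exp (-2 * (τ * r) * inner ℝ α x) * jetA y x)
        (ball (0 : E3) R) := integrableOn_of_subset_ball (hw.mul (jetA_cont _)) subset_rfl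
    have ht1 : ‖t‖ ≤ 1 := by rw [htn]; exact inv_le_one_of_one_le₀ hτ
    have hs : ∀ (n : ℕ) (Y : ι → Sm) x, jetA (t ^ n • Y) x ≤ jetA Y x := fun n Y x => by
      rw [jetA_smul]
      refine mul_le_of_le_one_left (jetA_nonneg _ _) (pow_le_one₀ (norm_nonneg _) ?_)
      rw [norm_pow]
      exact pow_le_one₀ (norm_nonneg _) ht1
    have hn : (1 + ‖-ζ‖) ^ 4 ≤ τ ^ 4 * (1 + ‖θ‖) ^ 4 := by
      rw [← mul_pow, norm_neg, hζdef, norm_smul, Complex.norm_real, Real.norm_of_nonneg hτ0.le]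
      exact pow_le_pow_left₀ (by positivity) (by linarith) 4
    calc _ ≤ ∫ x in ball (0 : E3) R, (8 * (jetA Y₂ x + jetA Y₃ x + jetA Y₄ x + jetA Y₅ x) +
          200 * (1 + ‖θ‖) ^ 4 * τ ^ 8 * (Real.exp (-2 * (τ * r) * inner ℝ α x) * jetA y x)) := by
          refine integral_mono (integrableOn_of_subset_ball (jetA_cont _) subset_rfl)
            (hi1.add (hi2.const_mul _)) fun x => ?_
          have a1 := jetA_add (Y₂ + t • Y₃ + (t ^ 2 • Y₄ + t ^ 3 • Y₅))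
            ((-(τ : ℂ) ^ 2) • fun b => ex (-ζ) * y b) x
          have a2 := jetA_add (Y₂ + t • Y₃) (t ^ 2 • Y₄ + t ^ 3 • Y₅) x
          have a3 := jetA_add Y₂ (t • Y₃) x
          have a4 := jetA_add (t ^ 2 • Y₄) (t ^ 3 • Y₅) x
          have a5 := hs 1 Y₃ x
          have a6 := hs 2 Y₄ x
          have a7 := hs 3 Y₅ x
          rw [pow_one] at a5
          have a8 : jetA ((-(τ : ℂ) ^ 2) • fun b => ex (-ζ) * y b) x ≤
              100 * (1 + ‖θ‖) ^ 4 * τ ^ 8 * (Real.exp (-2 * (τ * r) * inner ℝ α x) * jetA y x) := by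
            have b1 := jetA_mul_ex (-ζ) y x
            have b2 := jetA_nonneg y x
            rw [hlin'] at b1
            rw [jetA_smul, norm_neg, norm_pow, Complex.norm_real, Real.norm_of_nonneg hτ0.le]
            calc _ ≤ (τ ^ 2) ^ 2 * (100 * (τ ^ 4 * (1 + ‖θ‖) ^ 4) *
                  (Real.exp (-2 * (τ * r) * inner ℝ α x) * jetA y x)) :=
                  mul_le_mul_of_nonneg_left (b1.trans (by gcongr)) (by positivity)
              _ = _ := by ring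
          simp only
          linarith
      _ ≤ _ := by
          rw [integral_add hi1 (hi2.const_mul _), integral_const_mul (200 * (1 + ‖θ‖) ^ 4 * τ ^ 8)]
          refine add_le_add_right ((mul_le_mul_of_nonneg_left h2 (by positivity)).trans
            (le_of_eq ?_)) _
          field_simp
  · have h1 : (fun b => ex ζ * (Y₀ + t • Y₁ + t ^ 2 • (Y₂ + t • Y₃ + (t ^ 2 • Y₄ + t ^ 3 • Y₅) +
        (-(τ : ℂ) ^ 2) • fun b => ex (-ζ) * y b)) b) =
        (fun b => ex ζ * (Y₀ + t • Y₁ + t ^ 2 • Y₂ + t ^ 3 • Y₃ + t ^ 4 • Y₄ + t ^ 5 • Y₅) b) +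
          (-1 : ℂ) • y := by
      funext b
      have h2 : ex ζ * (ex (-ζ) * y b) = y b := by
        rw [← mul_assoc, mul_comm (ex ζ), ex_mul_ex_neg, one_mul]
      simp only [Pi.add_apply, Pi.smul_apply, mul_add, smul_add, mul_smul_comm, h2]
      match_scalars <;> (try rw [ht]) <;> field_simp
    rw [h1]
    have h2 : ∀ a, opB A A₀ ((fun b => ex ζ *
        (Y₀ + t • Y₁ + t ^ 2 • Y₂ + t ^ 3 • Y₃ + t ^ 4 • Y₄ + t ^ 5 • Y₅) b) + (-1 : ℂ) • y) a +
        (opB A A₀ y a - ex ζ * (t ^ 5 • opB A A₀ Y₅) a) ∈ van R := by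
      intro a
      have h3 := (van R).mul_mem_left (ex ζ) (add_mem (add_mem (add_mem (add_mem (add_mem
        (smul_mem_van τ (h₀ a)) (h₁ a)) (smul_mem_van t (h₂ a))) (smul_mem_van (t ^ 2) (h₃ a)))
        (smul_mem_van (t ^ 3) (h₄ a))) (smul_mem_van (t ^ 4) (h₅ a)))
      refine (congrArg (· ∈ van R) ?_).mp h3
      rw [CGO_B_add, opB_ex A A₀ hζ, hζdef, CGO_T_scale]
      simp only [CGO_B_add, CGO_B_smul, CGO_T_add, CGO_T_smul, Pi.smul_apply, mul_add, smul_add,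
        mul_smul_comm]
      match_scalars <;> (try rw [ht]) <;> field_simp <;> ring
    calc _ ≤ ∫ x in ball (0 : E3) R, Real.exp (2 * (τ * r) * R) *
          (Real.exp (-2 * (τ * r) * inner ℝ α x) *
            jet0 (fun a => opB A A₀ y a - ex ζ * (t ^ 5 • opB A A₀ Y₅) a) x) := by
          refine setIntegral_mono_on (integrableOn_of_subset_ball (jet0_cont _) subset_rfl)
            (integrableOn_of_subset_ball (continuous_const.mul (hw.mul (jet0_cont _))) subset_rfl)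
            measurableSet_ball fun x hx => ?_
          have h3 : inner ℝ α x ≤ R := by
            refine (real_inner_le_norm _ _).trans ?_
            rw [hα, one_mul]
            exact (mem_ball_zero_iff.1 hx).le
          rw [← mul_assoc, ← Real.exp_add]
          refine le_trans (le_of_eq ?_) (le_mul_of_one_le_left (jet0_nonneg _ _)
            (Real.one_le_exp (by nlinarith [mul_pos hτ0 hr])))
          refine Finset.sum_congr rfl fun a _ => ?_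
          rw [eq_neg_of_add_eq_zero_left (h2 a x hx), norm_neg]
      _ ≤ _ := by
          rw [integral_const_mul]
          refine (mul_le_mul_of_nonneg_left (hy1.trans (min_le_right _ _))
            (Real.exp_pos _).le).trans (le_of_eq ?_)
          rw [mul_left_comm, ← Real.exp_add,
            show 2 * (τ * r) * R + -2 * (τ * r) * R = 0 by ring, Real.exp_zero, mul_one]

end Vale.Agent.P136
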