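import Vale.Agent.P136.Basic

/-! Finite Fourier sums in two of three orthonormal coordinates. -/

open MeasureTheory Metric Real
open scoped ContDiff

namespace Vale.Agent.P136

/-- The cube `|⟨b i, x⟩| ≤ L`. -/
def cell (b : OrthonormalBasis (Fin 3) ℝ E3) (L : ℝ) : Set E3 :=
  {x | ∀ i, inner ℝ (b i) x ∈ Set.Icc (-L) L}

/-- The transversal frequency `(π / L) (k₁ ⟨b 1, x⟩ + k₂ ⟨b 2, x⟩)`. -/
noncomputable def frq (b : OrthonormalBasis (Fin 3) ℝ E3) (L : ℝ) (k : ℤ × ℤ) (x : E3) : ℝ :=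
  π / L * (k.1 * inner ℝ (b 1) x + k.2 * inner ℝ (b 2) x)

/-- `∑_k g_k(⟨b 0, x⟩) e^{i frq_k(x)}`. -/
noncomputable def msum (b : OrthonormalBasis (Fin 3) ℝ E3) (L : ℝ) (K : Finset (ℤ × ℤ))
    (g : ℤ × ℤ → ℝ → ℂ) (x : E3) : ℂ :=
  ∑ k ∈ K, g k (inner ℝ (b 0) x) * Complex.exp (Complex.I * (frq b L k x : ℝ))

/-- The size of the transversal frequency. -/
noncomputable def lamk (L : ℝ) (k : ℤ × ℤ) : ℝ := π / L * Real.sqrt ((k.1 : ℝ) ^ 2 + (k.2 : ℝ) ^ 2)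

end Vale.Agent.P136
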