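import Vale.Agent.P136.EDef

/-! Derivatives of finite Fourier sums.

Plan. Chain and product rule (`innerSL ℝ (b 0)` is a continuous linear map, `frq b L k` is linear).
For the Laplacian apply `fderiv_msum` twice (the new coefficients are again smooth; compute their
`deriv`) and use `∑ j, ⟨b a, ee j⟩ * ⟨b c, ee j⟩ = ⟨b a, b c⟩ = δ_{ac}`
(`⟨v, ee j⟩ = v j`, `PiLp.inner_apply`, `b.orthonormal`). For `frq_le`: `(k₁ s + k₂ t)² ≤
(k₁² + k₂²)(s² + t²)` and Bessel `⟨b 1, v⟩² + ⟨b 2, v⟩² ≤ ‖v‖²`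
(`OrthonormalBasis.sum_sq_inner_right` or `Orthonormal.sum_inner_products_le`). -/

open MeasureTheory Metric Real
open scoped ContDiff

namespace Vale.Agent.P136

/-- Coefficients of the derivative in direction `v`. -/
noncomputable def dco (b : OrthonormalBasis (Fin 3) ℝ E3) (L : ℝ) (v : E3) (g : ℤ × ℤ → ℝ → ℂ)
    (k : ℤ × ℤ) (s : ℝ) : ℂ :=
  ((inner ℝ (b 0) v : ℝ) : ℂ) * deriv (g k) s + Complex.I * (frq b L k v : ℝ) * g k s

/-- The frequency as a continuous linear map. -/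
noncomputable def EDer_F (b : OrthonormalBasis (Fin 3) ℝ E3) (L : ℝ) (k : ℤ × ℤ) : E3 →L[ℝ] ℝ :=
  (π / L) • ((k.1 : ℝ) • innerSL ℝ (b 1) + (k.2 : ℝ) • innerSL ℝ (b 2))

theorem EDer_F_apply (b : OrthonormalBasis (Fin 3) ℝ E3) (L : ℝ) (k : ℤ × ℤ) (x : E3) :
    EDer_F b L k x = frq b L k x := by
  simp [EDer_F, frq]
  ring

theorem EDer_frq_eq (b : OrthonormalBasis (Fin 3) ℝ E3) (L : ℝ) (k : ℤ × ℤ) :
    frq b L k = EDer_F b L k := funext fun x => (EDer_F_apply b L k x).symm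

theorem EDer_term (b : OrthonormalBasis (Fin 3) ℝ E3) (L : ℝ) (k : ℤ × ℤ) (g : ℝ → ℂ)
    (hg : ContDiff ℝ ∞ g) (x : E3) : ∃ D : E3 →L[ℝ] ℂ,
    HasFDerivAt (fun x => g (inner ℝ (b 0) x) * Complex.exp (Complex.I * (frq b L k x : ℝ))) D x ∧
      ∀ v, D v = (((inner ℝ (b 0) v : ℝ) : ℂ) * deriv g (inner ℝ (b 0) x) +
        Complex.I * (frq b L k v : ℝ) * g (inner ℝ (b 0) x)) *
          Complex.exp (Complex.I * (frq b L k x : ℝ)) := by
  have h1 : HasFDerivAt (fun x : E3 => (inner ℝ (b 0) x : ℝ)) (innerSL ℝ (b 0)) x :=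
    (innerSL ℝ (b 0)).hasFDerivAt
  have h2 := ((hg.differentiable (by simp) (inner ℝ (b 0) x)).hasDerivAt.hasFDerivAt).comp x h1
  have h3 : HasFDerivAt (fun x : E3 => ((frq b L k x : ℝ) : ℂ))
      (Complex.ofRealCLM.comp (EDer_F b L k)) x := by
    rw [EDer_frq_eq]
    exact (Complex.ofRealCLM.comp (EDer_F b L k)).hasFDerivAt
  have h4 := (h3.const_mul Complex.I).cexp
  refine ⟨_, h2.mul h4, fun v => ?_⟩
  simp [EDer_F_apply]
  ring

theorem EDer_inner_ee (v : E3) (j : Fin 3) : inner ℝ v (ee j) = v j := by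
  simp [ee, EuclideanSpace.inner_single_right]

theorem EDer_sum (u v : E3) : ∑ j, inner ℝ u (ee j) * inner ℝ v (ee j) = (inner ℝ u v : ℝ) := by
  simp only [EDer_inner_ee]
  rw [PiLp.inner_apply]
  simp [mul_comm]

theorem EDer_deriv_dco (b : OrthonormalBasis (Fin 3) ℝ E3) (L : ℝ) (w : E3)
    (g : ℤ × ℤ → ℝ → ℂ) (hg : ∀ k, ContDiff ℝ ∞ (g k)) (k : ℤ × ℤ) (s : ℝ) :
    deriv (fun s => ((inner ℝ (b 0) w : ℝ) : ℂ) * deriv (g k) s +
        Complex.I * (frq b L k w : ℝ) * g k s) s =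
      ((inner ℝ (b 0) w : ℝ) : ℂ) * deriv (deriv (g k)) s +
        Complex.I * (frq b L k w : ℝ) * deriv (g k) s := by
  have h1 : HasDerivAt (g k) (deriv (g k) s) s := ((hg k).differentiable (by simp) s).hasDerivAt
  have h2 : HasDerivAt (deriv (g k)) (deriv (deriv (g k)) s) s :=
    (((contDiff_infty_iff_deriv.1 (hg k)).2).differentiable (by simp) s).hasDerivAt
  exact ((h2.const_mul _).add (h1.const_mul _)).deriv

theorem EDer_sq (b : OrthonormalBasis (Fin 3) ℝ E3) (L : ℝ) (k : ℤ × ℤ) :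
    ∑ j, frq b L k (ee j) * frq b L k (ee j) = lamk L k ^ 2 := by
  have h11 := EDer_sum (b 1) (b 1)
  have h12 := EDer_sum (b 1) (b 2)
  have h22 := EDer_sum (b 2) (b 2)
  rw [b.inner_eq_one] at h11 h22
  rw [b.inner_eq_zero (by decide)] at h12
  unfold lamk frq
  rw [mul_pow, Real.sq_sqrt (by positivity)]
  simp only [Fin.sum_univ_three] at h11 h12 h22 ⊢
  linear_combination (π / L) ^ 2 * (k.1 : ℝ) ^ 2 * h11 + (π / L) ^ 2 * (k.2 : ℝ) ^ 2 * h22 +
    2 * (π / L) ^ 2 * (k.1 : ℝ) * (k.2 : ℝ) * h12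

theorem EDer_cross (b : OrthonormalBasis (Fin 3) ℝ E3) (L : ℝ) (k : ℤ × ℤ) :
    ∑ j, inner ℝ (b 0) (ee j) * frq b L k (ee j) = 0 := by
  have h01 := EDer_sum (b 0) (b 1)
  have h02 := EDer_sum (b 0) (b 2)
  rw [b.inner_eq_zero (by decide)] at h01 h02
  unfold frq
  simp only [Fin.sum_univ_three] at h01 h02 ⊢
  linear_combination (π / L) * (k.1 : ℝ) * h01 + (π / L) * (k.2 : ℝ) * h02

theorem msum_smooth (b : OrthonormalBasis (Fin 3) ℝ E3) (L : ℝ) (K : Finset (ℤ × ℤ))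
    (g : ℤ × ℤ → ℝ → ℂ) (hg : ∀ k, ContDiff ℝ ∞ (g k)) : ContDiff ℝ ∞ (msum b L K g) := by
  unfold msum
  refine ContDiff.sum fun k _ => ((hg k).comp (innerSL ℝ (b 0)).contDiff).mul ?_
  refine ContDiff.cexp (contDiff_const.mul ?_)
  rw [EDer_frq_eq]
  exact (Complex.ofRealCLM.comp (EDer_F b L k)).contDiff

theorem dco_smooth (b : OrthonormalBasis (Fin 3) ℝ E3) (L : ℝ) (v : E3)
    (g : ℤ × ℤ → ℝ → ℂ) (hg : ∀ k, ContDiff ℝ ∞ (g k)) (k : ℤ × ℤ) :
    ContDiff ℝ ∞ (dco b L v g k) := by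
  unfold dco
  exact (contDiff_const.mul (contDiff_infty_iff_deriv.1 (hg k)).2).add
    (contDiff_const.mul (hg k))

theorem fderiv_msum (b : OrthonormalBasis (Fin 3) ℝ E3) (L : ℝ) (K : Finset (ℤ × ℤ))
    (g : ℤ × ℤ → ℝ → ℂ) (hg : ∀ k, ContDiff ℝ ∞ (g k)) (v x : E3) :
    fderiv ℝ (msum b L K g) x v = msum b L K (dco b L v g) x := by
  choose D hD hv using fun k => EDer_term b L k (g k) (hg k) x
  have h : HasFDerivAt (msum b L K g) (∑ k ∈ K, D k) x := HasFDerivAt.fun_sum fun k _ => hD k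
  rw [h.fderiv, _root_.sum_apply]
  unfold msum dco
  exact Finset.sum_congr rfl fun k _ => hv k v

theorem dco_dco (b : OrthonormalBasis (Fin 3) ℝ E3) (L : ℝ) (v w : E3)
    (g : ℤ × ℤ → ℝ → ℂ) (hg : ∀ k, ContDiff ℝ ∞ (g k)) (k : ℤ × ℤ) (s : ℝ) :
    dco b L v (dco b L w g) k s
      = ((inner ℝ (b 0) v * inner ℝ (b 0) w : ℝ) : ℂ) * deriv (deriv (g k)) s
        + Complex.I * ((inner ℝ (b 0) v * frq b L k w + inner ℝ (b 0) w * frq b L k v : ℝ) : ℂ)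
            * deriv (g k) s
        - ((frq b L k v * frq b L k w : ℝ) : ℂ) * g k s := by
  have h := EDer_deriv_dco b L w g hg k s
  have e : dco b L w g k = fun s => ((inner ℝ (b 0) w : ℝ) : ℂ) * deriv (g k) s +
      Complex.I * (frq b L k w : ℝ) * g k s := rfl
  rw [dco, e, h]
  push_cast
  linear_combination ((frq b L k v : ℝ) : ℂ) * ((frq b L k w : ℝ) : ℂ) * g k s * Complex.I_mul_I

theorem lap_msum (b : OrthonormalBasis (Fin 3) ℝ E3) (L : ℝ) (K : Finset (ℤ × ℤ))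
    (g : ℤ × ℤ → ℝ → ℂ) (hg : ∀ k, ContDiff ℝ ∞ (g k)) (x : E3) :
    ∑ j, msum b L K (dco b L (ee j) (dco b L (ee j) g)) x
      = msum b L K (fun k s => deriv (deriv (g k)) s - (lamk L k : ℂ) ^ 2 * g k s) x := by
  unfold msum
  rw [Finset.sum_comm]
  refine Finset.sum_congr rfl fun k _ => ?_
  rw [← Finset.sum_mul]
  congr 1
  simp only [dco_dco b L _ _ g hg]
  have h00 := EDer_sum (b 0) (b 0)
  rw [b.inner_eq_one] at h00
  have h1 := congrArg (fun r : ℝ => (r : ℂ)) h00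
  have h2 := congrArg (fun r : ℝ => (r : ℂ)) (EDer_cross b L k)
  have h3 := congrArg (fun r : ℝ => (r : ℂ)) (EDer_sq b L k)
  simp only [Fin.sum_univ_three] at h1 h2 h3 ⊢
  push_cast at h1 h2 h3 ⊢
  linear_combination deriv (deriv (g k)) (inner ℝ (b 0) x) * h1 +
    2 * Complex.I * deriv (g k) (inner ℝ (b 0) x) * h2 - g k (inner ℝ (b 0) x) * h3

theorem lamk_nonneg {L : ℝ} (hL : 0 < L) (k : ℤ × ℤ) : 0 ≤ lamk L k := by
  unfold lamk
  positivity

theorem frq_le (b : OrthonormalBasis (Fin 3) ℝ E3) {L : ℝ} (hL : 0 < L) (k : ℤ × ℤ) (j : Fin 3) :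
    |frq b L k (ee j)| ≤ lamk L k := by
  refine abs_le_of_sq_le_sq' ?_ (lamk_nonneg hL k) |> abs_le.2
  rw [← EDer_sq b L k, sq]
  exact Finset.single_le_sum (f := fun j => frq b L k (ee j) * frq b L k (ee j))
    (fun j _ => mul_self_nonneg _) (Finset.mem_univ j)

theorem inner_ee_le (b : OrthonormalBasis (Fin 3) ℝ E3) (i j : Fin 3) :
    |inner ℝ (b i) (ee j)| ≤ 1 := by
  refine le_trans (abs_real_inner_le_norm _ _) ?_
  simp [ee, b.orthonormal.1 i]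

end Vale.Agent.P136
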