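import Vale.Agent.P136.EDef

/-! Parseval identity on the cube.

Plan. Transport the integral to `Fin 3 → ℝ`: `b.repr` is measure preserving
(`OrthonormalBasis.measurePreserving_repr`), and so is `EuclideanSpace ℝ (Fin 3) → (Fin 3 → ℝ)`
(`PiLp.volume_preserving_ofLp` / `EuclideanSpace.volume_preserving_measurableEquiv`);
`inner ℝ (b i) x = b.repr x i` (`OrthonormalBasis.repr_apply_apply`); the cell becomes
`Set.univ.pi fun _ => Icc (-L) L`. Expand `‖∑‖² = ∑_k ∑_l a_k conj(a_l)` (as complex numbers);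
each term is a product of three one-variable functions, so `Measure.restrict_pi_pi`
(`volume_pi`) and `integral_fintype_prod_eq_prod` factor the integral;
`∫_{-L}^{L} exp (i (π/L) m t) dt = 2L` if `m = 0` and `0` otherwise (`integral_exp_mul_complex`).
The other two statements are easy (`abs_real_inner_le_norm`; closed and bounded). -/

open MeasureTheory Metric Real
open scoped ContDiff

namespace Vale.Agent.P136

/-- Coordinates in the basis `b`. -/
noncomputable def EPars_T (b : OrthonormalBasis (Fin 3) ℝ E3) : E3 ≃ₜ (Fin 3 → ℝ) :=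
  (b.repr.toContinuousLinearEquiv.trans (EuclideanSpace.equiv (Fin 3) ℝ)).toHomeomorph

theorem EPars_T_apply (b : OrthonormalBasis (Fin 3) ℝ E3) (x : E3) (i : Fin 3) :
    EPars_T b x i = inner ℝ (b i) x := b.repr_apply_apply x i

theorem EPars_cell (b : OrthonormalBasis (Fin 3) ℝ E3) (L : ℝ) :
    cell b L = EPars_T b ⁻¹' Set.univ.pi fun _ => Set.Icc (-L) L := by
  ext x
  simp only [cell, Set.mem_preimage, Set.mem_univ_pi, EPars_T_apply]
  rfl

theorem EPars_prod (b : OrthonormalBasis (Fin 3) ℝ E3) {L : ℝ} (hL : 0 < L) (f₀ f₁ f₂ : ℝ → ℂ) :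
    ∫ x in cell b L, f₀ (inner ℝ (b 0) x) * f₁ (inner ℝ (b 1) x) * f₂ (inner ℝ (b 2) x) =
      (∫ s in -L..L, f₀ s) * (∫ s in -L..L, f₁ s) * ∫ s in -L..L, f₂ s := by
  have h : MeasurePreserving (EPars_T b) volume volume :=
    (PiLp.volume_preserving_ofLp (Fin 3)).comp b.measurePreserving_repr
  have h1 := h.setIntegral_preimage_emb (EPars_T b).measurableEmbedding
    (fun y => ∏ i, ![f₀, f₁, f₂] i (y i)) (Set.univ.pi fun _ => Set.Icc (-L) L)
  rw [volume_pi, Measure.restrict_pi_pi, integral_fintype_prod_eq_prod, ← EPars_cell] at h1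
  simp only [intervalIntegral.integral_of_le (show -L ≤ L by linarith),
    ← integral_Icc_eq_integral_Ioc]
  simpa [Fin.prod_univ_three, EPars_T_apply] using h1

theorem EPars_orth {L : ℝ} (hL : 0 < L) (m n : ℤ) :
    ∫ s in -L..L, Complex.exp (Complex.I * (π / L) * (m - n) * (s : ℝ)) =
      if m = n then 2 * (L : ℂ) else 0 := by
  split_ifs with h
  · simp [h, two_mul]
  · have hL' : (L : ℂ) ≠ 0 := by exact_mod_cast hL.ne'
    have hp : (π : ℂ) ≠ 0 := by exact_mod_cast pi_ne_zero
    have hm : (m : ℂ) - n ≠ 0 := sub_ne_zero.2 (by exact_mod_cast h)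
    rw [integral_exp_mul_complex (by simp [hL', hp, hm]), div_eq_zero_iff, sub_eq_zero]
    left
    rw [Complex.exp_eq_exp_iff_exists_int]
    refine ⟨m - n, ?_⟩
    push_cast
    field_simp
    ring

theorem ball_subset_cell (b : OrthonormalBasis (Fin 3) ℝ E3) {R L : ℝ} (h : R ≤ L) :
    ball (0 : E3) R ⊆ cell b L := by
  intro x hx i
  rw [mem_ball_zero_iff] at hx
  have := abs_real_inner_le_norm (b i) x
  rw [b.orthonormal.1 i, one_mul] at this
  exact abs_le.1 (this.trans (hx.le.trans h))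

theorem isCompact_cell (b : OrthonormalBasis (Fin 3) ℝ E3) (L : ℝ) : IsCompact (cell b L) := by
  rw [EPars_cell]
  exact (EPars_T b).isCompact_preimage.2 (isCompact_univ_pi fun _ => isCompact_Icc)

theorem parseval_cell (b : OrthonormalBasis (Fin 3) ℝ E3) (L : ℝ) (hL : 0 < L)
    (K : Finset (ℤ × ℤ)) (g : ℤ × ℤ → ℝ → ℂ) (hg : ∀ k, Continuous (g k)) (w : ℝ → ℝ)
    (hw : Continuous w) :
    ∫ x in cell b L, w (inner ℝ (b 0) x) * ‖msum b L K g x‖ ^ 2
      = (2 * L) ^ 2 * ∑ k ∈ K, ∫ s in -L..L, w s * ‖g k s‖ ^ 2 := by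
  have key : ∀ x, ((w (inner ℝ (b 0) x) * ‖msum b L K g x‖ ^ 2 : ℝ) : ℂ) = ∑ k ∈ K, ∑ l ∈ K,
      (fun s => w s * (g k s * (starRingEnd ℂ) (g l s))) (inner ℝ (b 0) x) *
        (fun s : ℝ => Complex.exp (Complex.I * (π / L) * (k.1 - l.1) * s)) (inner ℝ (b 1) x) *
        (fun s : ℝ => Complex.exp (Complex.I * (π / L) * (k.2 - l.2) * s)) (inner ℝ (b 2) x) := by
    intro x
    rw [Complex.ofReal_mul, Complex.ofReal_pow, ← Complex.mul_conj', msum, map_sum,
      Finset.sum_mul_sum, Finset.mul_sum]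
    refine Finset.sum_congr rfl fun k _ => ?_
    rw [Finset.mul_sum]
    refine Finset.sum_congr rfl fun l _ => ?_
    simp only [map_mul, ← Complex.exp_conj, Complex.conj_I, Complex.conj_ofReal]
    rw [mul_mul_mul_comm, mul_assoc (_ * _), ← Complex.exp_add, ← Complex.exp_add, ← mul_assoc]
    congr 2
    simp only [frq]
    push_cast
    ring
  have hi : ∀ f : E3 → ℂ, Continuous f → IntegrableOn f (cell b L) := fun f hf =>
    hf.continuousOn.integrableOn_compact (isCompact_cell b L)
  apply Complex.ofReal_injective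
  rw [← integral_complex_ofReal]
  simp only [key]
  rw [integral_finsetSum _ fun k _ => hi _ (by fun_prop)]
  push_cast
  rw [Finset.mul_sum]
  refine Finset.sum_congr rfl fun k hk => ?_
  rw [integral_finsetSum _ fun l _ => hi _ (by fun_prop), Finset.sum_eq_single k]
  · rw [EPars_prod b hL (fun s => w s * (g k s * (starRingEnd ℂ) (g k s)))
      (fun s : ℝ => Complex.exp (Complex.I * (π / L) * (k.1 - k.1) * s))
      (fun s : ℝ => Complex.exp (Complex.I * (π / L) * (k.2 - k.2) * s)), EPars_orth hL,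
      EPars_orth hL, ← intervalIntegral.integral_ofReal]
    simp only [Complex.mul_conj', if_true]
    push_cast
    ring
  · intro l _ hl
    rw [EPars_prod b hL (fun s => w s * (g k s * (starRingEnd ℂ) (g l s)))
      (fun s : ℝ => Complex.exp (Complex.I * (π / L) * (k.1 - l.1) * s))
      (fun s : ℝ => Complex.exp (Complex.I * (π / L) * (k.2 - l.2) * s)), EPars_orth hL,
      EPars_orth hL]
    by_cases h1 : k.1 = l.1
    · rw [if_neg fun h2 : k.2 = l.2 => hl (Prod.ext h1 h2).symm, mul_zero]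
    · rw [if_neg h1, mul_zero, zero_mul]
  · exact fun h => (h hk).elim

end Vale.Agent.P136
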