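import Vale.Agent.P136.EDef

/-! Uniform approximation on the cube by finite Fourier sums.

Plan. Let `T = UnitAddTorus (Fin 3)` and `pr : E3 → T`, `pr x i = ↑(⟨b i, x⟩ / (2L))`.
Build `Ft : C(T, ℂ)` with `Ft (pr x) = F x` for `x` in the cell: `Ft q = F (∑ i, (2L * rep (q i)) • b i)`
where `rep = AddCircle.equivIco 1 (-1/2)` (values in `[-1/2, 1/2)`); it is continuous: where all
`q i ≠ ↑(-1/2)` use `AddCircle.continuousAt_equivIco`, otherwise it vanishes near `q`
(if `q i` is close to `↑(1/2)` then `|rep (q i)| > R / (2L)`, and `|⟨b i, y⟩| ≤ ‖y‖`). If a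
coordinate of `x` equals `L` both sides vanish. (Alternative: periodise coordinate by coordinate,
or use the Stone-Weierstrass theorem directly.) By `UnitAddTorus.span_mFourier_closure_eq_top`
there is a finite combination `∑ c n • mFourier n` within `η` of `Ft`. Show by `Submodule.span_induction`
that every element `f` of the span satisfies `∃ K g, smooth ∧ ∀ x, f (pr x) = msum b L K g x`
(sums: take the union of the index sets and extend `g` by zero;
`mFourier n (pr x) = exp (i (π/L) n 0 ⟨b 0, x⟩) * exp (i frq (n 1, n 2) x)`). -/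

open MeasureTheory Metric Real
open scoped ContDiff

namespace Vale.Agent.P136

/-- The projection of three-space to the torus. -/
noncomputable def ESW_pr (b : OrthonormalBasis (Fin 3) ℝ E3) (L : ℝ) (x : E3) :
    UnitAddTorus (Fin 3) :=
  fun i => ((inner ℝ (b i) x / (2 * L) : ℝ) : UnitAddCircle)

/-- A piecewise linear cutoff: one below `r`, zero above `s`. -/
noncomputable def ESW_cut (r s t : ℝ) : ℝ := min 1 (max 0 ((s - t) / (s - r)))

theorem ESW_cut_cont (r s : ℝ) : Continuous (ESW_cut r s) := by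
  unfold ESW_cut
  fun_prop

theorem ESW_cut_one {r s t : ℝ} (hrs : r < s) (ht : t ≤ r) : ESW_cut r s t = 1 := by
  unfold ESW_cut
  have h1 : 1 ≤ (s - t) / (s - r) := by
    rw [le_div_iff₀ (by linarith)]
    linarith
  exact min_eq_left (le_max_of_le_right h1)

theorem ESW_cut_zero {r s t : ℝ} (hrs : r < s) (ht : s ≤ t) : ESW_cut r s t = 0 := by
  unfold ESW_cut
  have h1 : (s - t) / (s - r) ≤ 0 := div_nonpos_of_nonpos_of_nonneg (by linarith) (by linarith)
  rw [max_eq_left h1]
  norm_num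

theorem ESW_lift (r : ℝ) (hr : r < 1 / 2) :
    ∃ φ : UnitAddCircle → ℝ, Continuous φ ∧ ∀ t : ℝ, |t| ≤ r → φ (t : UnitAddCircle) = t := by
  refine ⟨AddCircle.liftIco 1 (-(1 / 2)) (fun t : ℝ => t * ESW_cut r (1 / 2) |t|), ?_, ?_⟩
  · apply AddCircle.liftIco_continuous
    · rw [ESW_cut_zero hr (by rw [abs_neg]; norm_num),
        ESW_cut_zero hr (by norm_num)]
      norm_num
    · exact (continuous_id.mul ((ESW_cut_cont r (1 / 2)).comp continuous_abs)).continuousOn
  · intro t ht
    have h := abs_le.mp ht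
    rw [AddCircle.liftIco_coe_apply ⟨by linarith [h.1], by linarith [h.2]⟩, ESW_cut_one hr ht,
      mul_one]

theorem ESW_torus (b : OrthonormalBasis (Fin 3) ℝ E3) (R L : ℝ) (hR : 0 < R) (hRL : R < L)
    (F : E3 → ℂ) (hF : Continuous F) (hs : ∀ x, R ≤ ‖x‖ → F x = 0) :
    ∃ Ft : C(UnitAddTorus (Fin 3), ℂ), ∀ x ∈ cell b L, Ft (ESW_pr b L x) = F x := by
  have hL : 0 < L := hR.trans hRL
  set r : ℝ := R / (2 * L) with hr
  have hr2 : r < 1 / 2 := by
    rw [hr, div_lt_iff₀ (by positivity)]
    linarith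
  set s : ℝ := (r + 1 / 2) / 2 with hsd
  have hrs : r < s := by rw [hsd]; linarith
  have hs2 : s < 1 / 2 := by rw [hsd]; linarith
  obtain ⟨φ, hφc, hφ⟩ := ESW_lift s hs2
  refine ⟨⟨fun q => (∏ i, ((ESW_cut r s ‖q i‖ : ℝ) : ℂ)) *
    F (∑ i, (2 * L * φ (q i)) • b i), ?_⟩, ?_⟩
  · refine Continuous.mul (continuous_finsetProd _ fun i _ => ?_)
      (hF.comp (continuous_finsetSum _ fun i _ => ?_))
    · exact Complex.continuous_ofReal.comp ((ESW_cut_cont r s).comp (continuous_apply i).norm)
    · exact (continuous_const.mul (hφc.comp (continuous_apply i))).smul continuous_const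
  · intro x hx
    simp only [ContinuousMap.coe_mk]
    have hco : ∀ i, |inner ℝ (b i) x| ≤ ‖x‖ := fun i => by
      have := abs_real_inner_le_norm (b i) x
      rwa [b.orthonormal.1 i, one_mul] at this
    have habs : ∀ i, |inner ℝ (b i) x / (2 * L)| = |inner ℝ (b i) x| / (2 * L) := fun i => by
      rw [abs_div, abs_of_pos (by positivity : (0 : ℝ) < 2 * L)]
    have hnorm : ∀ i, ‖ESW_pr b L x i‖ = |inner ℝ (b i) x| / (2 * L) := fun i => by
      rw [← habs i]
      unfold ESW_pr
      rw [AddCircle.norm_coe_eq_abs_iff _ one_ne_zero, habs i, abs_one,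
        div_le_div_iff₀ (by positivity) (by norm_num)]
      have := abs_le.mpr ⟨(hx i).1, (hx i).2⟩
      linarith
    by_cases hall : ∀ i, |inner ℝ (b i) x| / (2 * L) ≤ s
    · have hsum : ∑ i, (2 * L * φ (ESW_pr b L x i)) • b i = x := by
        conv_rhs => rw [← b.sum_repr' x]
        refine Finset.sum_congr rfl fun i _ => ?_
        have : φ (ESW_pr b L x i) = inner ℝ (b i) x / (2 * L) := by
          unfold ESW_pr
          exact hφ _ (by rw [habs i]; exact hall i)
        rw [this]
        congr 1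
        field_simp
      rw [hsum]
      by_cases hxR : R ≤ ‖x‖
      · rw [hs x hxR, mul_zero]
      · have hone : ∀ i, ESW_cut r s ‖ESW_pr b L x i‖ = 1 := fun i => by
          apply ESW_cut_one hrs
          rw [hnorm i, hr]
          have := hco i
          have h2 : |inner ℝ (b i) x| ≤ R := by linarith [not_le.mp hxR]
          exact div_le_div_of_nonneg_right h2 (by positivity)
        simp [hone]
    · obtain ⟨i, hi⟩ := not_forall.mp hall
      have hi' := not_le.mp hi
      have hz : ESW_cut r s ‖ESW_pr b L x i‖ = 0 := by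
        apply ESW_cut_zero hrs
        rw [hnorm i]
        exact hi'.le
      have hxR : R ≤ ‖x‖ := by
        have h1 : R / (2 * L) < |inner ℝ (b i) x| / (2 * L) := by linarith
        rw [div_lt_div_iff_of_pos_right (by positivity)] at h1
        linarith [hco i]
      rw [hs x hxR, Finset.prod_eq_zero (Finset.mem_univ i) (by rw [hz]; simp), zero_mul]

theorem ESW_span (b : OrthonormalBasis (Fin 3) ℝ E3) (L : ℝ) (hL : 0 < L)
    (f : C(UnitAddTorus (Fin 3), ℂ))
    (hf : f ∈ Submodule.span ℂ (Set.range (UnitAddTorus.mFourier (d := Fin 3)))) :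
    ∃ (K : Finset (ℤ × ℤ)) (g : ℤ × ℤ → ℝ → ℂ), (∀ k, ContDiff ℝ ∞ (g k)) ∧
      ∀ x, f (ESW_pr b L x) = msum b L K g x := by
  classical
  induction hf using Submodule.span_induction with
  | mem f hf =>
    obtain ⟨n, rfl⟩ := hf
    refine ⟨{(n 1, n 2)}, fun _ t => Complex.exp (Complex.I * ((π / L * n 0 : ℝ) : ℂ) * (t : ℂ)),
      fun k => ?_, fun x => ?_⟩
    · exact Complex.contDiff_exp.comp (contDiff_const.mul Complex.ofRealCLM.contDiff)
    · simp only [msum, Finset.sum_singleton, UnitAddTorus.mFourier, ContinuousMap.coe_mk,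
        Fin.prod_univ_three, ESW_pr, fourier_coe_apply, frq, ← Complex.exp_add]
      congr 1
      have hL' : (L : ℂ) ≠ 0 := by exact_mod_cast hL.ne'
      push_cast
      field_simp
      ring
  | zero => exact ⟨∅, fun _ _ => 0, fun _ => contDiff_const, fun x => by simp [msum]⟩
  | add f₁ f₂ _ _ h₁ h₂ =>
    obtain ⟨K₁, g₁, hg₁, e₁⟩ := h₁
    obtain ⟨K₂, g₂, hg₂, e₂⟩ := h₂
    refine ⟨K₁ ∪ K₂, fun k t => (if k ∈ K₁ then g₁ k t else 0) + (if k ∈ K₂ then g₂ k t else 0),
      fun k => ?_, fun x => ?_⟩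
    · refine ContDiff.add ?_ ?_
      · by_cases hk : k ∈ K₁
        · simpa [hk] using hg₁ k
        · simpa [hk] using contDiff_const
      · by_cases hk : k ∈ K₂
        · simpa [hk] using hg₂ k
        · simpa [hk] using contDiff_const
    · rw [ContinuousMap.add_apply, e₁ x, e₂ x]
      simp only [msum, add_mul, Finset.sum_add_distrib, ite_mul, zero_mul]
      rw [Finset.sum_ite_mem, Finset.sum_ite_mem, Finset.union_inter_cancel_left,
        Finset.union_inter_cancel_right]
  | smul c f _ h =>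
    obtain ⟨K, g, hg, e⟩ := h
    refine ⟨K, fun k t => c * g k t, fun k => contDiff_const.mul (hg k), fun x => ?_⟩
    rw [ContinuousMap.smul_apply, e x]
    simp only [msum, smul_eq_mul, Finset.mul_sum, mul_assoc]

theorem approx_msum (b : OrthonormalBasis (Fin 3) ℝ E3) (R L : ℝ) (hR : 0 < R) (hRL : R < L)
    (F : E3 → ℂ) (hF : Continuous F) (hs : ∀ x, R ≤ ‖x‖ → F x = 0) (η : ℝ) (hη : 0 < η) :
    ∃ (K : Finset (ℤ × ℤ)) (g : ℤ × ℤ → ℝ → ℂ), (∀ k, ContDiff ℝ ∞ (g k)) ∧
      ∀ x ∈ cell b L, ‖F x - msum b L K g x‖ ≤ η := by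
  obtain ⟨Ft, hFt⟩ := ESW_torus b R L hR hRL F hF hs
  have hmem : Ft ∈ (Submodule.span ℂ
      (Set.range (UnitAddTorus.mFourier (d := Fin 3)))).topologicalClosure := by
    rw [UnitAddTorus.span_mFourier_closure_eq_top]
    trivial
  have hmem' : Ft ∈ closure ((Submodule.span ℂ
      (Set.range (UnitAddTorus.mFourier (d := Fin 3))) : Submodule ℂ _) :
        Set C(UnitAddTorus (Fin 3), ℂ)) := hmem
  obtain ⟨f, hf, hd⟩ := Metric.mem_closure_iff.mp hmem' η hη
  obtain ⟨K, g, hg, e⟩ := ESW_span b L (hR.trans hRL) f hf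
  refine ⟨K, g, hg, fun x hx => ?_⟩
  rw [← e x, ← hFt x hx, ← dist_eq_norm]
  exact (ContinuousMap.dist_apply_le_dist _).trans hd.le

end Vale.Agent.P136
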