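import Vale.Agent.P136.EOc
import Vale.Agent.P136.EPars
import Vale.Agent.P136.ESW
import Vale.Agent.P136.EDer

/-! Approximate solvability of `Δ y = F` with the convexified weight.

Plan. Extend `α` to an orthonormal basis `b` with `b 0 = α`
(`Orthonormal.exists_orthonormalBasis_extension_of_card_eq`, or
`exists_orthonormalBasis_extension_of_card_eq`). Put `L = R + 1`. The weight
`w = wφ α τ ε` is continuous, bounded by some `Wm` on the compact cell of volume `Vm`. Take `K, g` from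
`approx_msum` with `η² Wm Vm ≤ δ`, `Y k` from `mode_solve` for `lamk L k` and `g k` (`choose`), and
`y = msum b L K Y`. Then `lap y = msum b L K g` (`fderiv_msum`, `lap_msum`), so the first bound holds.
`∫_cell w ‖msum g‖² ≤ 2 ∫_cell w ‖F‖² + 2δ = 2 ∫_ball w ‖F‖² + 2δ` (`F = 0` off the ball,
`setIntegral_eq_of_subset_of_forall_diff_eq_zero`). Integrals over the ball are at most the
integrals over the cell, which by `parseval_cell` are `(2L)² ∑ wI (coefficients)`; pointwise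
`‖dco (ee j) Y k s‖² ≤ 2‖Y'‖² + 2λ²‖Y‖²` and
`‖dco (ee i) (dco (ee j) Y) k s‖² ≤ 3‖Y''‖² + 12 λ²‖Y'‖² + 3λ⁴‖Y‖²` (`dco_dco`, `frq_le`,
`inner_ee_le`). Any large absolute constant works, e.g. `C = 10^7`. -/

open MeasureTheory Metric Real
open scoped ContDiff

namespace Vale.Agent.P136

/-- The weight `exp (-2 Φ(⟨α, x⟩))`. -/
noncomputable def wφ (α : E3) (τ ε : ℝ) (x : E3) : ℝ := Real.exp (-2 * phi τ ε (inner ℝ α x))

theorem EMain_basis (α : E3) (hα : ‖α‖ = 1) : ∃ b : OrthonormalBasis (Fin 3) ℝ E3, b 0 = α := by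
  have h : Orthonormal ℝ (({0} : Set (Fin 3)).domRestrict fun _ => α) :=
    ⟨fun _ => hα, fun i j hij => (hij (Subsingleton.elim i j)).elim⟩
  obtain ⟨b, hb⟩ := h.exists_orthonormalBasis_extension_of_card_eq (by simp)
  exact ⟨b, hb 0 rfl⟩

theorem EMain_w1 (τ ε : ℝ) : Continuous fun s => Real.exp (-2 * phi τ ε s) := by
  unfold phi
  fun_prop

theorem EMain_w (α : E3) (τ ε : ℝ) : Continuous (wφ α τ ε) :=
  (EMain_w1 τ ε).comp (continuous_const.inner continuous_id)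

theorem EMain_w0 (α : E3) (τ ε : ℝ) (x : E3) : 0 ≤ wφ α τ ε x := (Real.exp_pos _).le

theorem EMain_ib {f : E3 → ℝ} (hf : Continuous f) (R : ℝ) : IntegrableOn f (ball (0 : E3) R) :=
  (hf.continuousOn.integrableOn_compact (isCompact_closedBall 0 R)).mono_set ball_subset_closedBall

theorem EMain_ic {f : E3 → ℝ} (hf : Continuous f) (b : OrthonormalBasis (Fin 3) ℝ E3) (L : ℝ) :
    IntegrableOn f (cell b L) := hf.continuousOn.integrableOn_compact (isCompact_cell b L)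

theorem EMain_le {f : E3 → ℝ} (hf : Continuous f) (h0 : ∀ x, 0 ≤ f x)
    (b : OrthonormalBasis (Fin 3) ℝ E3) {R L : ℝ} (h : R ≤ L) :
    ∫ x in ball (0 : E3) R, f x ≤ ∫ x in cell b L, f x :=
  setIntegral_mono_set (EMain_ic hf b L) (Filter.Eventually.of_forall h0)
    (ball_subset_cell b h).eventuallyLE

theorem EMain_pars (b : OrthonormalBasis (Fin 3) ℝ E3) {R L : ℝ} (hL : 0 < L) (h : R ≤ L)
    (τ ε : ℝ) (K : Finset (ℤ × ℤ)) {g : ℤ × ℤ → ℝ → ℂ} (hg : ∀ k, ContDiff ℝ ∞ (g k)) :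
    ∫ x in ball (0 : E3) R, wφ (b 0) τ ε x * ‖msum b L K g x‖ ^ 2 ≤
      (2 * L) ^ 2 * ∑ k ∈ K, wI L τ ε (g k) :=
  (EMain_le ((EMain_w _ τ ε).mul ((msum_smooth b L K g hg).continuous.norm.pow 2))
    (fun x => mul_nonneg (EMain_w0 _ _ _ x) (sq_nonneg _)) b h).trans
    (parseval_cell b L hL K g (fun k => (hg k).continuous) _ (EMain_w1 τ ε)).le

theorem EMain_wI {L : ℝ} (hL : 0 < L) (τ ε : ℝ) {h u v z : ℝ → ℂ} (hh : Continuous h)
    (hu : Continuous u) (hv : Continuous v) (hz : Continuous z) {A B C : ℝ}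
    (H : ∀ s, ‖h s‖ ^ 2 ≤ A * ‖u s‖ ^ 2 + B * ‖v s‖ ^ 2 + C * ‖z s‖ ^ 2) :
    wI L τ ε h ≤ A * wI L τ ε u + B * wI L τ ε v + C * wI L τ ε z := by
  have hi : ∀ {f : ℝ → ℂ}, Continuous f → IntervalIntegrable
      (fun s => Real.exp (-2 * phi τ ε s) * ‖f s‖ ^ 2) volume (-L) L := fun hf =>
    ((EMain_w1 τ ε).mul (hf.norm.pow 2)).intervalIntegrable _ _
  unfold wI
  rw [← intervalIntegral.integral_const_mul, ← intervalIntegral.integral_const_mul,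
    ← intervalIntegral.integral_const_mul,
    ← intervalIntegral.integral_add ((hi hu).const_mul A) ((hi hv).const_mul B),
    ← intervalIntegral.integral_add (((hi hu).const_mul A).add ((hi hv).const_mul B))
      ((hi hz).const_mul C)]
  refine intervalIntegral.integral_mono_on (by linarith) (hi hh)
    ((((hi hu).const_mul A).add ((hi hv).const_mul B)).add ((hi hz).const_mul C)) fun s _ => ?_
  have := mul_le_mul_of_nonneg_left (H s) (Real.exp_pos (-2 * phi τ ε s)).le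
  linarith

theorem EMain_three {a b c : ℂ} {x y z : ℝ} (ha : ‖a‖ ≤ x) (hb : ‖b‖ ≤ y) (hc : ‖c‖ ≤ z) :
    ‖a + b - c‖ ^ 2 ≤ 3 * x ^ 2 + 3 * y ^ 2 + 3 * z ^ 2 := by
  have h1 : ‖a + b - c‖ ≤ x + y + z :=
    (norm_sub_le _ _).trans (add_le_add ((norm_add_le _ _).trans (add_le_add ha hb)) hc)
  have h2 := pow_le_pow_left₀ (norm_nonneg _) h1 2
  nlinarith [sq_nonneg (x - y), sq_nonneg (x - z), sq_nonneg (y - z)]

theorem EMain_mul (r : ℝ) {m : ℝ} (h : |r| ≤ m) (u : ℂ) : ‖(r : ℂ) * u‖ ≤ m * ‖u‖ := by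
  rw [norm_mul, Complex.norm_real, Real.norm_eq_abs]
  exact mul_le_mul_of_nonneg_right h (norm_nonneg _)

theorem EMain_imul (r : ℝ) {m : ℝ} (h : |r| ≤ m) (u : ℂ) :
    ‖Complex.I * (r : ℂ) * u‖ ≤ m * ‖u‖ := by
  rw [mul_assoc, norm_mul, Complex.norm_I, one_mul]
  exact EMain_mul r h u

theorem EMain_d1 (b : OrthonormalBasis (Fin 3) ℝ E3) {L : ℝ} (hL : 0 < L) (j : Fin 3)
    (Y : ℤ × ℤ → ℝ → ℂ) (k : ℤ × ℤ) (s : ℝ) : ‖dco b L (ee j) Y k s‖ ^ 2 ≤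
      3 * ‖deriv (Y k) s‖ ^ 2 + 3 * lamk L k ^ 2 * ‖Y k s‖ ^ 2 + 0 * ‖Y k s‖ ^ 2 := by
  have h := EMain_three (EMain_mul _ (inner_ee_le b 0 j) (deriv (Y k) s))
    (EMain_imul _ (frq_le b hL k j) (Y k s)) (norm_zero (E := ℂ)).le
  rw [sub_zero] at h
  unfold dco
  nlinarith [h]

theorem EMain_d2 (b : OrthonormalBasis (Fin 3) ℝ E3) {L : ℝ} (hL : 0 < L) (i j : Fin 3)
    {Y : ℤ × ℤ → ℝ → ℂ} (hY : ∀ k, ContDiff ℝ ∞ (Y k)) (k : ℤ × ℤ) (s : ℝ) :
    ‖dco b L (ee i) (dco b L (ee j) Y) k s‖ ^ 2 ≤ 3 * ‖deriv (deriv (Y k)) s‖ ^ 2 +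
      12 * lamk L k ^ 2 * ‖deriv (Y k) s‖ ^ 2 + 3 * lamk L k ^ 4 * ‖Y k s‖ ^ 2 := by
  have a1 := inner_ee_le b 0 i
  have a2 := inner_ee_le b 0 j
  have f1 := frq_le b hL k i
  have f2 := frq_le b hL k j
  have l0 := lamk_nonneg hL k
  have h1 : |inner ℝ (b 0) (ee i) * inner ℝ (b 0) (ee j)| ≤ 1 := by
    rw [abs_mul]
    exact mul_le_one₀ a1 (abs_nonneg _) a2
  have h2 : |inner ℝ (b 0) (ee i) * frq b L k (ee j) + inner ℝ (b 0) (ee j) * frq b L k (ee i)| ≤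
      2 * lamk L k := by
    refine (abs_add_le _ _).trans ?_
    rw [abs_mul, abs_mul]
    have := mul_le_mul a1 f2 (abs_nonneg _) zero_le_one
    have := mul_le_mul a2 f1 (abs_nonneg _) zero_le_one
    linarith
  have h3 : |frq b L k (ee i) * frq b L k (ee j)| ≤ lamk L k * lamk L k := by
    rw [abs_mul]
    exact mul_le_mul f1 f2 (abs_nonneg _) l0
  have h := EMain_three (EMain_mul _ h1 (deriv (deriv (Y k)) s)) (EMain_imul _ h2 (deriv (Y k) s))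
    (EMain_mul _ h3 (Y k s))
  rw [dco_dco b L _ _ Y hY]
  nlinarith [h]

theorem EMain_app (b : OrthonormalBasis (Fin 3) ℝ E3) {R : ℝ} (hR : 0 < R) (τ ε : ℝ) (F : Sm)
    (hF : ∀ x, R ≤ ‖x‖ → F.1 x = 0) {δ : ℝ} (hδ : 0 < δ) :
    ∃ (K : Finset (ℤ × ℤ)) (g : ℤ × ℤ → ℝ → ℂ), (∀ k, ContDiff ℝ ∞ (g k)) ∧
      (∫ x in ball (0 : E3) R, wφ (b 0) τ ε x * ‖msum b (R + 1) K g x - F.1 x‖ ^ 2 ≤ δ) ∧
      (2 * (R + 1)) ^ 2 * ∑ k ∈ K, wI (R + 1) τ ε (g k) ≤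
        2 * ((∫ x in ball (0 : E3) R, wφ (b 0) τ ε x * ‖F.1 x‖ ^ 2) + δ) := by
  have hw := EMain_w (b 0) τ ε
  have hm := (isCompact_cell b (R + 1)).measurableSet
  set M := ∫ x in cell b (R + 1), wφ (b 0) τ ε x with hM
  have M0 : 0 ≤ M := integral_nonneg fun x => EMain_w0 _ _ _ x
  obtain ⟨K, g, hg, h⟩ := approx_msum b R (R + 1) hR (by linarith) F.1 (Sm.cont F) hF
    (√(δ / (M + 1))) (by positivity)
  have hs := (msum_smooth b (R + 1) K g hg).continuous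
  have hc1 : Continuous fun x => wφ (b 0) τ ε x * ‖msum b (R + 1) K g x - F.1 x‖ ^ 2 :=
    hw.mul ((hs.sub (Sm.cont F)).norm.pow 2)
  have hc2 : Continuous fun x => wφ (b 0) τ ε x * ‖F.1 x‖ ^ 2 := hw.mul ((Sm.cont F).norm.pow 2)
  have h1 : ∫ x in cell b (R + 1), wφ (b 0) τ ε x * ‖msum b (R + 1) K g x - F.1 x‖ ^ 2 ≤ δ := by
    calc _ ≤ ∫ x in cell b (R + 1), δ / (M + 1) * wφ (b 0) τ ε x := by
          refine setIntegral_mono_on (EMain_ic hc1 b _) (EMain_ic (continuous_const.mul hw) b _) hm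
            fun x hx => ?_
          rw [mul_comm, norm_sub_rev]
          refine mul_le_mul_of_nonneg_right ?_ (EMain_w0 _ _ _ x)
          exact (Real.le_sqrt (norm_nonneg _) (by positivity)).1 (h x hx)
      _ = δ / (M + 1) * M := integral_const_mul _ _
      _ ≤ δ / (M + 1) * (M + 1) := by gcongr; linarith
      _ = δ := by field_simp
  refine ⟨K, g, hg, (EMain_le hc1 (fun x => mul_nonneg (EMain_w0 _ _ _ x) (sq_nonneg _)) b
    (by linarith)).trans h1, ?_⟩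
  have h2 : ∫ x in cell b (R + 1), wφ (b 0) τ ε x * ‖F.1 x‖ ^ 2 =
      ∫ x in ball (0 : E3) R, wφ (b 0) τ ε x * ‖F.1 x‖ ^ 2 := by
    refine setIntegral_eq_of_subset_of_forall_sdiff_eq_zero hm (ball_subset_cell b (by linarith))
      fun x hx => ?_
    rw [hF x (by simpa using hx.2)]
    simp
  calc _ = ∫ x in cell b (R + 1), wφ (b 0) τ ε x * ‖msum b (R + 1) K g x‖ ^ 2 :=
        (parseval_cell b (R + 1) (by linarith) K g (fun k => (hg k).continuous) _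
          (EMain_w1 τ ε)).symm
    _ ≤ ∫ x in cell b (R + 1), (2 * (wφ (b 0) τ ε x * ‖F.1 x‖ ^ 2) +
          2 * (wφ (b 0) τ ε x * ‖msum b (R + 1) K g x - F.1 x‖ ^ 2)) := by
        refine setIntegral_mono_on (EMain_ic (hw.mul (hs.norm.pow 2)) b _)
          (EMain_ic ((continuous_const.mul hc2).add (continuous_const.mul hc1)) b _) hm
          fun x _ => ?_
        have a1 := norm_add_le (F.1 x) (msum b (R + 1) K g x - F.1 x)
        rw [add_sub_cancel] at a1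
        have a2 : ‖msum b (R + 1) K g x‖ ^ 2 ≤
            2 * ‖F.1 x‖ ^ 2 + 2 * ‖msum b (R + 1) K g x - F.1 x‖ ^ 2 := by
          have := pow_le_pow_left₀ (norm_nonneg _) a1 2
          nlinarith [sq_nonneg (‖F.1 x‖ - ‖msum b (R + 1) K g x - F.1 x‖)]
        have := mul_le_mul_of_nonneg_left a2 (EMain_w0 (b 0) τ ε x)
        linarith
    _ ≤ _ := by
        rw [integral_add ((EMain_ic hc2 b _).const_mul 2) ((EMain_ic hc1 b _).const_mul 2),
          integral_const_mul, integral_const_mul, h2]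
        linarith

theorem EMain_sum {K : Finset (ℤ × ℤ)} {a g : ℤ × ℤ → ℝ} {c I L : ℝ}
    (h : I ≤ (2 * L) ^ 2 * ∑ k ∈ K, a k) (H : ∀ k, a k ≤ c * g k) :
    I ≤ c * ((2 * L) ^ 2 * ∑ k ∈ K, g k) := by
  refine h.trans ?_
  rw [mul_left_comm, Finset.mul_sum K g c]
  exact mul_le_mul_of_nonneg_left (Finset.sum_le_sum fun k _ => H k) (sq_nonneg _)

theorem lap_solve : ∃ C : ℝ, 0 < C ∧ ∀ (α : E3), ‖α‖ = 1 → ∀ R : ℝ, 0 < R → ∀ ε : ℝ, 0 < ε →
    ε ≤ 1 → ∀ τ : ℝ, 1 ≤ τ → 2 * (R + 1) / ε ≤ τ → ∀ F : Sm, (∀ x, R ≤ ‖x‖ → F.1 x = 0) →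
    ∀ δ : ℝ, 0 < δ → ∃ y : Sm,
      (∫ x in ball (0 : E3) R, wφ α τ ε x * ‖(lap y - F).1 x‖ ^ 2 ≤ δ) ∧
      (∫ x in ball (0 : E3) R,
          wφ α τ ε x * (τ ^ 2 * ‖y.1 x‖ ^ 2 + ∑ j, ‖(dd j y).1 x‖ ^ 2)
        ≤ C * ε * ((∫ x in ball (0 : E3) R, wφ α τ ε x * ‖F.1 x‖ ^ 2) + δ)) ∧
      ∫ x in ball (0 : E3) R, wφ α τ ε x * ∑ i, ∑ j, ‖(dd i (dd j y)).1 x‖ ^ 2
        ≤ C * τ ^ 2 * ((∫ x in ball (0 : E3) R, wφ α τ ε x * ‖F.1 x‖ ^ 2) + δ) := by
  refine ⟨10 ^ 7, by norm_num, fun α hα R hR ε hε hε1 τ hτ1 hτ F hF δ hδ => ?_⟩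
  obtain ⟨b, rfl⟩ := EMain_basis α hα
  obtain ⟨K, g, hg, h1, h2⟩ := EMain_app b hR τ ε F hF hδ
  have hL : 0 < R + 1 := by linarith
  have hRL : R ≤ R + 1 := by linarith
  set L := R + 1 with hL'
  choose Y hY hode e1 e2 e3 e4 e5 e6 using fun k =>
    mode_solve L ε τ (lamk L k) hL hε hε1 hτ1 hτ (lamk_nonneg hL k) (g k) (hg k)
  let y : Sm := ⟨msum b L K Y, msum_smooth b L K Y hY⟩
  have hY1 := fun j => dco_smooth b L (ee j) Y hY
  have hY2 := fun i j => dco_smooth b L (ee i) _ (hY1 j)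
  have d1 : ∀ j, (dd j y).1 = msum b L K (dco b L (ee j) Y) := fun j =>
    funext fun x => fderiv_msum b L K Y hY _ x
  have d2 : ∀ i j, (dd i (dd j y)).1 = msum b L K (dco b L (ee i) (dco b L (ee j) Y)) :=
    fun i j => funext fun x => by rw [dd_apply, d1, fderiv_msum b L K _ (hY1 j)]
  have hlap : ∀ x, (lap y - F).1 x = msum b L K g x - F.1 x := fun x => by
    change (lap y).1 x - F.1 x = _
    rw [lap, sum_val]
    simp only [d2]
    rw [lap_msum b L K Y hY]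
    simp only [hode, add_sub_cancel_left]
  have c0 := fun k => (hY k).continuous
  have c1 := fun k => (hY k).continuous_deriv (by simp)
  have c2 := fun k => ((contDiff_infty_iff_deriv.1 (hY k)).2).continuous_deriv (by simp)
  have hi : ∀ f : Sm, IntegrableOn (fun x => wφ (b 0) τ ε x * ‖f.1 x‖ ^ 2) (ball (0 : E3) R) :=
    fun f => EMain_ib ((EMain_w _ τ ε).mul ((Sm.cont f).norm.pow 2)) R
  set G := (2 * L) ^ 2 * ∑ k ∈ K, wI L τ ε (g k) with hG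
  set Q := (∫ x in ball (0 : E3) R, wφ (b 0) τ ε x * ‖F.1 x‖ ^ 2) + δ with hQ
  have Q0 : 0 ≤ Q := add_nonneg
    (integral_nonneg fun x => mul_nonneg (EMain_w0 _ _ _ x) (sq_nonneg _)) hδ.le
  refine ⟨y, by simpa only [hlap] using h1, ?_, ?_⟩
  · have b0 : τ ^ 2 * ∫ x in ball (0 : E3) R, wφ (b 0) τ ε x * ‖y.1 x‖ ^ 2 ≤ 5000 * ε * G := by
      refine EMain_sum (a := fun k => τ ^ 2 * wI L τ ε (Y k)) ?_ e1
      rw [← Finset.mul_sum, mul_left_comm]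
      exact mul_le_mul_of_nonneg_left (EMain_pars b hL hRL τ ε K hY) (sq_nonneg _)
    have b1 : ∀ j, ∫ x in ball (0 : E3) R, wφ (b 0) τ ε x * ‖(dd j y).1 x‖ ^ 2 ≤
        30000 * ε * G := fun j => by
      rw [d1]
      refine EMain_sum (EMain_pars b hL hRL τ ε K (hY1 j)) fun k => ?_
      have := EMain_wI hL τ ε (hY1 j k).continuous (c1 k) (c0 k) (c0 k) (EMain_d1 b hL j Y k)
      linarith [e2 k, e3 k]
    have e : ∀ x, wφ (b 0) τ ε x * (τ ^ 2 * ‖y.1 x‖ ^ 2 + ∑ j, ‖(dd j y).1 x‖ ^ 2) =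
        τ ^ 2 * (wφ (b 0) τ ε x * ‖y.1 x‖ ^ 2) + ∑ j, wφ (b 0) τ ε x * ‖(dd j y).1 x‖ ^ 2 :=
      fun x => by rw [← Finset.mul_sum]; ring
    simp only [e]
    rw [integral_add ((hi y).const_mul _) (integrable_finsetSum _ fun j _ => hi _),
      integral_const_mul, integral_finsetSum _ fun j _ => hi _, Fin.sum_univ_three]
    have := mul_le_mul_of_nonneg_left h2 hε.le
    have := mul_nonneg hε.le Q0
    linarith [b1 0, b1 1, b1 2]
  · have b2 : ∀ i j, ∫ x in ball (0 : E3) R, wφ (b 0) τ ε x * ‖(dd i (dd j y)).1 x‖ ^ 2 ≤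
        360000 * τ ^ 2 * G := fun i j => by
      rw [d2]
      refine EMain_sum (EMain_pars b hL hRL τ ε K (hY2 i j)) fun k => ?_
      have := EMain_wI hL τ ε (hY2 i j k).continuous (c2 k) (c1 k) (c0 k)
        (EMain_d2 b hL i j hY k)
      linarith [e4 k, e5 k, e6 k]
    simp only [Finset.mul_sum]
    rw [integral_finsetSum _ fun i _ => integrable_finsetSum _ fun j _ => hi _]
    have e := fun i => integral_finsetSum Finset.univ fun j _ => hi (dd i (dd j y))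
    simp only [e]
    simp only [Fin.sum_univ_three]
    have := mul_le_mul_of_nonneg_left h2 (sq_nonneg τ)
    have := mul_nonneg (sq_nonneg τ) Q0
    linarith [b2 0 0, b2 0 1, b2 0 2, b2 1 0, b2 1 1, b2 1 2, b2 2 0, b2 2 1, b2 2 2]

end Vale.Agent.P136
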