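import Vale.Agent.P136.Basic

/-! A weighted energy inequality for `z' = c z + h` on an interval.

Plan. `s ↦ om s * exp (-2 Φ s) * ‖z s‖²` has derivative
`exp (-2Φ) * (-2 ((Φ' - c) om - om'/2) ‖z‖² + 2 om Re (h conj z))` (write `‖z‖² = z.re² + z.im²` or use
`HasDerivAt.norm_sq`). Integrate (`intervalIntegral.integral_eq_sub_of_hasDerivAt`): the boundary
term is `≥ 0`, hence `2κ ∫ e ‖z‖² ≤ ∫ e 4 ‖h‖ ‖z‖ ≤ ∫ e (κ ‖z‖² + 4 ‖h‖² / κ)`
(`intervalIntegral.integral_mono_on`). -/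

open MeasureTheory Metric Real
open scoped ContDiff

namespace Vale.Agent.P136

theorem energy_ode (a b : ℝ) (hab : a ≤ b) (Φ Φ' om om' : ℝ → ℝ)
    (hΦ : ∀ s, HasDerivAt Φ (Φ' s) s) (hΦ' : Continuous Φ')
    (hom : ∀ s ∈ Set.Icc a b, HasDerivAt om (om' s) s) (hom' : ContinuousOn om' (Set.Icc a b))
    (z h : ℝ → ℂ) (c κ : ℝ) (hz : ∀ s, HasDerivAt z (c * z s + h s) s) (hh : Continuous h)
    (hκ : 0 < κ) (hom2 : ∀ s ∈ Set.Icc a b, |om s| ≤ 2)
    (hpos : ∀ s ∈ Set.Icc a b, κ ≤ (Φ' s - c) * om s - om' s / 2)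
    (ha : om a * ‖z a‖ ^ 2 ≤ 0) (hb : 0 ≤ om b * ‖z b‖ ^ 2) :
    κ ^ 2 * ∫ s in a..b, Real.exp (-2 * Φ s) * ‖z s‖ ^ 2
      ≤ 4 * ∫ s in a..b, Real.exp (-2 * Φ s) * ‖h s‖ ^ 2 := by
  have cΦ : Continuous Φ := continuous_iff_continuousAt.2 fun s => (hΦ s).continuousAt
  have cz : Continuous z := continuous_iff_continuousAt.2 fun s => (hz s).continuousAt
  have c1 : Continuous fun s => Real.exp (-2 * Φ s) * ‖z s‖ ^ 2 := by fun_prop
  have c2 : Continuous fun s => Real.exp (-2 * Φ s) * ‖h s‖ ^ 2 := by fun_prop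
  have hN : ∀ s, HasDerivAt (fun s => ‖z s‖ ^ 2)
      (2 * (c * ‖z s‖ ^ 2 + ((z s).re * (h s).re + (z s).im * (h s).im))) s := by
    intro s
    refine (hz s).norm_sq.congr_deriv ?_
    rw [Complex.inner, Complex.sq_norm, Complex.normSq_apply]
    simp
    ring
  have hF : ∀ s ∈ Set.Icc a b, HasDerivAt (fun s => κ * (Real.exp (-2 * Φ s) * (om s * ‖z s‖ ^ 2)))
      (κ * (Real.exp (-2 * Φ s) * (-2 * Φ' s) * (om s * ‖z s‖ ^ 2) + Real.exp (-2 * Φ s) *
        (om' s * ‖z s‖ ^ 2 + om s * (2 * (c * ‖z s‖ ^ 2 +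
          ((z s).re * (h s).re + (z s).im * (h s).im)))))) s := fun s hs =>
    ((((hΦ s).const_mul (-2)).exp).mul ((hom s hs).mul (hN s))).const_mul κ
  have key := intervalIntegral.sub_le_integral_of_hasDeriv_right_of_le hab
    (fun s hs => (hF s hs).continuousAt.continuousWithinAt)
    (fun s hs => (hF s (Set.Ioo_subset_Icc_self hs)).hasDerivWithinAt)
    (φ := fun s => 4 * (Real.exp (-2 * Φ s) * ‖h s‖ ^ 2) - κ ^ 2 * (Real.exp (-2 * Φ s) * ‖z s‖ ^ 2))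
    (Continuous.integrableOn_Icc (by fun_prop)) (fun s hs => by
      have hs' := Set.Ioo_subset_Icc_self hs
      have h1 := hpos s hs'
      have h2 : om s ^ 2 ≤ 4 := by
        have := abs_le.1 (hom2 s hs')
        nlinarith
      have hE := Real.exp_pos (-2 * Φ s)
      have h3 : κ * (-2 * Φ' s * (om s * ‖z s‖ ^ 2) + (om' s * ‖z s‖ ^ 2 + om s *
          (2 * (c * ‖z s‖ ^ 2 + ((z s).re * (h s).re + (z s).im * (h s).im))))) ≤
          4 * ‖h s‖ ^ 2 - κ ^ 2 * ‖z s‖ ^ 2 := by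
        have h4 := mul_le_mul_of_nonneg_right h1 (mul_nonneg hκ.le (sq_nonneg ‖z s‖))
        have h5 := mul_le_mul_of_nonneg_right h2 (sq_nonneg ‖h s‖)
        simp only [Complex.sq_norm, Complex.normSq_apply] at h4 h5 ⊢
        nlinarith [sq_nonneg (κ * (z s).re - om s * (h s).re),
          sq_nonneg (κ * (z s).im - om s * (h s).im)]
      nlinarith [mul_le_mul_of_nonneg_left h3 hE.le])
  rw [intervalIntegral.integral_sub ((c2.const_mul 4).intervalIntegrable a b)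
    ((c1.const_mul _).intervalIntegrable a b), intervalIntegral.integral_const_mul,
    intervalIntegral.integral_const_mul] at key
  have e1 := mul_nonneg hκ.le (mul_nonneg (Real.exp_pos (-2 * Φ b)).le hb)
  have e2 := mul_nonpos_of_nonneg_of_nonpos hκ.le
    (mul_nonpos_of_nonneg_of_nonpos (Real.exp_pos (-2 * Φ a)).le ha)
  linarith

/-- Smooth solutions of `z' = c z + h` with `z s₀ = 0`:
`z s = e^{c s} ∫_{s₀}^s e^{-c t} h t dt`. -/
theorem exists_ode (c s₀ : ℝ) (h : ℝ → ℂ) (hh : ContDiff ℝ ∞ h) :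
    ∃ z : ℝ → ℂ, ContDiff ℝ ∞ z ∧ z s₀ = 0 ∧ ∀ s, HasDerivAt z (c * z s + h s) s := by
  have hE : ∀ d : ℝ, ContDiff ℝ ∞ fun s : ℝ => Complex.exp (d * s) := fun d =>
    (contDiff_const.mul Complex.ofRealCLM.contDiff).cexp
  have hg : ContDiff ℝ ∞ fun t : ℝ => Complex.exp ((-c : ℝ) * t) * h t := (hE _).mul hh
  have hW : ∀ s : ℝ, HasDerivAt (fun s => ∫ t in s₀..s, Complex.exp ((-c : ℝ) * t) * h t)
      (Complex.exp ((-c : ℝ) * s) * h s) s := fun s =>
    (hg.continuous.integral_hasStrictDerivAt s₀ s).hasDerivAt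
  have hW' : ContDiff ℝ ∞ fun s => ∫ t in s₀..s, Complex.exp ((-c : ℝ) * t) * h t := by
    refine contDiff_infty_iff_deriv.2 ⟨fun s => (hW s).differentiableAt, ?_⟩
    rw [funext fun s => (hW s).deriv]
    exact hg
  refine ⟨fun s => Complex.exp (c * s) * ∫ t in s₀..s, Complex.exp ((-c : ℝ) * t) * h t,
    (hE c).mul hW', by simp, fun s => ?_⟩
  have h1 : HasDerivAt (fun s : ℝ => Complex.exp (c * s)) (Complex.exp (c * s) * (c * 1)) s :=
    (((hasDerivAt_id s).ofReal_comp).const_mul (c : ℂ)).cexp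
  refine (h1.mul (hW s)).congr_deriv ?_
  rw [← mul_assoc (Complex.exp (c * s)) _ (h s), ← Complex.exp_add]
  simp
  ring

end Vale.Agent.P136
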