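import Vale.Agent.P136.EOa

/-! The first factor `z' = λ z + F` with the convexified weight.

Plan. `Φ = phi τ ε`, `Φ' s = τ + s / ε ∈ [τ/2, 3τ/2]` on `[-L, L]`. Let
`s₀ = max (-L) (min L (ε (λ - τ)))`, and `z` from `exists_ode λ s₀ F`.
If `s₀ < L` then `Φ' s - λ ≥ (s - s₀)/ε` on `[s₀, L]`; if `-L < s₀` then
`Φ' s - λ ≤ -(s₀ - s)/ε` on `[-L, s₀]` (degenerate intervals contribute zero).
On `[s₀, L]` use `energy_ode` with `om s = 1 + 1 / (1 + (s - s₀)/√ε)`, `κ = 1 / (8 √ε)`: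
with `σ = (s - s₀)/√ε ≥ 0`, `(Φ' - λ) om - om'/2 ≥ (σ + 1 / (2 (1+σ)²)) / √ε ≥ 1 / (8 √ε)`.
On `[-L, s₀]` use `om s = -(1 + 1 / (1 + (s₀ - s)/√ε))`. Add
(`intervalIntegral.integral_add_adjacent_intervals`): `∫ w‖z‖² ≤ 256 ε ∫ w‖F‖²`.
Second bound: if `λ ≤ 2τ` it follows from the first (`ε ≤ 1`); if `λ ≥ 2τ` then `s₀ = L`,
`om = -1`, `κ = λ/4` give `λ² ∫ w‖z‖² ≤ 64 ∫ w‖F‖²`, and `1 ≤ τ`. -/

open MeasureTheory Metric Real
open scoped ContDiff

namespace Vale.Agent.P136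

/-- The convexified phase `τ s + s² / (2ε)`. -/
noncomputable def phi (τ ε s : ℝ) : ℝ := τ * s + s ^ 2 / (2 * ε)

theorem EOb_phi_deriv (τ ε s : ℝ) (hε : 0 < ε) : HasDerivAt (phi τ ε) (τ + s / ε) s := by
  have h1 : HasDerivAt (fun s : ℝ => τ * s) τ s := by
    simpa using (hasDerivAt_id s).const_mul τ
  have h2 : HasDerivAt (fun s : ℝ => s ^ 2 / (2 * ε)) ((2 * s) / (2 * ε)) s := by
    simpa using (hasDerivAt_pow 2 s).div_const (2 * ε)
  have h3 := h1.add h2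
  have e : (2 * s) / (2 * ε) = s / ε := by field_simp
  rw [e] at h3
  exact h3

theorem EOb_key (σ : ℝ) (hσ : 0 ≤ σ) : 1 / 8 ≤ σ + 1 / (2 * (1 + σ) ^ 2) := by
  rcases le_total σ 1 with h | h
  · have h1 : 2 * (1 + σ) ^ 2 ≤ 8 := by nlinarith
    have h2 : 1 / 8 ≤ 1 / (2 * (1 + σ) ^ 2) := one_div_le_one_div_of_le (by positivity) h1
    linarith
  · have : 0 ≤ 1 / (2 * (1 + σ) ^ 2) := by positivity
    linarith

theorem EOb_fin (ε I J : ℝ) (hε : 0 < ε) (h : (1 / (8 * √ε)) ^ 2 * I ≤ 4 * J) :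
    I ≤ 256 * ε * J := by
  have hr : 0 < √ε := Real.sqrt_pos.2 hε
  have e : (1 / (8 * √ε)) ^ 2 = 1 / (64 * ε) := by
    rw [div_pow, mul_pow, Real.sq_sqrt hε.le]; norm_num
  rw [e, one_div, inv_mul_le_iff₀ (by positivity)] at h
  linarith

theorem EOb_right (a b ε τ lam : ℝ) (hab : a ≤ b) (hε : 0 < ε) (F z : ℝ → ℂ)
    (hF : Continuous F) (hz : ∀ s, HasDerivAt z (lam * z s + F s) s) (hza : z a = 0)
    (hs : ∀ s ∈ Set.Icc a b, (s - a) / ε ≤ τ + s / ε - lam) :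
    ∫ s in a..b, Real.exp (-2 * phi τ ε s) * ‖z s‖ ^ 2
      ≤ 256 * ε * ∫ s in a..b, Real.exp (-2 * phi τ ε s) * ‖F s‖ ^ 2 := by
  have hr : 0 < √ε := Real.sqrt_pos.2 hε
  have hr2 : √ε * √ε = ε := Real.mul_self_sqrt hε.le
  have hpos : ∀ s ∈ Set.Icc a b, 0 ≤ (s - a) / √ε := fun s h =>
    div_nonneg (sub_nonneg.2 h.1) hr.le
  apply EOb_fin _ _ _ hε
  refine energy_ode a b hab (phi τ ε) (fun s => τ + s / ε)
    (fun s => 1 + (1 + (s - a) / √ε)⁻¹) (fun s => -(1 / √ε) / (1 + (s - a) / √ε) ^ 2)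
    (fun s => EOb_phi_deriv τ ε s hε) (by fun_prop) ?_ ?_ z F lam (1 / (8 * √ε)) hz hF
    (by positivity) ?_ ?_ (by simp [hza]) ?_
  · intro s h
    have h1 : HasDerivAt (fun s : ℝ => 1 + (s - a) / √ε) (1 / √ε) s := by
      simpa using (((hasDerivAt_id s).sub_const a).div_const (√ε)).const_add 1
    have h2 : 1 + (s - a) / √ε ≠ 0 := by have := hpos s h; positivity
    exact (h1.inv h2).const_add 1
  · refine ContinuousOn.div continuousOn_const (by fun_prop) fun s h => ?_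
    have := hpos s h
    positivity
  · intro s h
    have h0 := hpos s h
    have h1 : (1 + (s - a) / √ε)⁻¹ ≤ 1 := inv_le_one_of_one_le₀ (by linarith)
    have h2 : 0 ≤ (1 + (s - a) / √ε)⁻¹ := by positivity
    rw [abs_le]; constructor <;> linarith
  · intro s h
    have h0 := hpos s h
    have h2 : 0 ≤ (1 + (s - a) / √ε)⁻¹ := by positivity
    have h3 := hs s h
    have h4 : (s - a) / ε = (s - a) / √ε / √ε := by rw [div_div, hr2]
    have h5 := EOb_key _ h0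
    set σ := (s - a) / √ε with hσ
    have h6 : 0 ≤ σ / √ε := by positivity
    have h7 : σ / √ε ≤ (τ + s / ε - lam) * (1 + (1 + σ)⁻¹) := by nlinarith
    have h8 : -(-(1 / √ε) / (1 + σ) ^ 2 / 2) = 1 / (2 * (1 + σ) ^ 2) / √ε := by
      field_simp
    have h9 : 1 / (8 * √ε) = 1 / 8 / √ε := by field_simp
    have h10 : 1 / 8 / √ε ≤ (σ + 1 / (2 * (1 + σ) ^ 2)) / √ε :=
      div_le_div_of_nonneg_right h5 hr.le
    rw [add_div] at h10
    show 1 / (8 * √ε) ≤ (τ + s / ε - lam) * (1 + (1 + σ)⁻¹) - -(1 / √ε) / (1 + σ) ^ 2 / 2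
    linarith
  · have h0 := hpos b ⟨hab, le_rfl⟩
    positivity

theorem EOb_left (a b ε τ lam : ℝ) (hab : a ≤ b) (hε : 0 < ε) (F z : ℝ → ℂ)
    (hF : Continuous F) (hz : ∀ s, HasDerivAt z (lam * z s + F s) s) (hzb : z b = 0)
    (hs : ∀ s ∈ Set.Icc a b, τ + s / ε - lam ≤ -((b - s) / ε)) :
    ∫ s in a..b, Real.exp (-2 * phi τ ε s) * ‖z s‖ ^ 2
      ≤ 256 * ε * ∫ s in a..b, Real.exp (-2 * phi τ ε s) * ‖F s‖ ^ 2 := by
  have hr : 0 < √ε := Real.sqrt_pos.2 hε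
  have hr2 : √ε * √ε = ε := Real.mul_self_sqrt hε.le
  have hpos : ∀ s ∈ Set.Icc a b, 0 ≤ (b - s) / √ε := fun s h =>
    div_nonneg (sub_nonneg.2 h.2) hr.le
  apply EOb_fin _ _ _ hε
  refine energy_ode a b hab (phi τ ε) (fun s => τ + s / ε)
    (fun s => -(1 + (1 + (b - s) / √ε)⁻¹)) (fun s => -(-(-1 / √ε) / (1 + (b - s) / √ε) ^ 2))
    (fun s => EOb_phi_deriv τ ε s hε) (by fun_prop) ?_ ?_ z F lam (1 / (8 * √ε)) hz hF
    (by positivity) ?_ ?_ ?_ (by simp [hzb])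
  · intro s h
    have h1 : HasDerivAt (fun s : ℝ => 1 + (b - s) / √ε) (-1 / √ε) s := by
      simpa using (((hasDerivAt_id s).const_sub b).div_const (√ε)).const_add 1
    have h2 : 1 + (b - s) / √ε ≠ 0 := by have := hpos s h; positivity
    exact ((h1.inv h2).const_add 1).neg
  · refine ContinuousOn.neg (ContinuousOn.div continuousOn_const (by fun_prop) fun s h => ?_)
    have := hpos s h
    positivity
  · intro s h
    have h0 := hpos s h
    have h1 : (1 + (b - s) / √ε)⁻¹ ≤ 1 := inv_le_one_of_one_le₀ (by linarith)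
    have h2 : 0 ≤ (1 + (b - s) / √ε)⁻¹ := by positivity
    rw [abs_le]; constructor <;> linarith
  · intro s h
    have h0 := hpos s h
    have h2 : 0 ≤ (1 + (b - s) / √ε)⁻¹ := by positivity
    have h3 := hs s h
    have h4 : (b - s) / ε = (b - s) / √ε / √ε := by rw [div_div, hr2]
    have h5 := EOb_key _ h0
    set σ := (b - s) / √ε with hσ
    have h6 : 0 ≤ σ / √ε := by positivity
    have h7 : σ / √ε ≤ (τ + s / ε - lam) * -(1 + (1 + σ)⁻¹) := by nlinarith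
    have h8 : -(-(-(-1 / √ε) / (1 + σ) ^ 2) / 2) = 1 / (2 * (1 + σ) ^ 2) / √ε := by
      field_simp
    have h9 : 1 / (8 * √ε) = 1 / 8 / √ε := by field_simp
    have h10 : 1 / 8 / √ε ≤ (σ + 1 / (2 * (1 + σ) ^ 2)) / √ε :=
      div_le_div_of_nonneg_right h5 hr.le
    rw [add_div] at h10
    show 1 / (8 * √ε) ≤ (τ + s / ε - lam) * -(1 + (1 + σ)⁻¹) -
      -(-(-1 / √ε) / (1 + σ) ^ 2) / 2
    linarith
  · have h0 := hpos a ⟨le_rfl, hab⟩
    have : 0 ≤ (1 + (1 + (b - a) / √ε)⁻¹) * ‖z a‖ ^ 2 := by positivity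
    linarith

theorem mode_first (L ε τ lam : ℝ) (hL : 0 < L) (hε : 0 < ε) (hε1 : ε ≤ 1) (hτ1 : 1 ≤ τ)
    (hτ : 2 * L / ε ≤ τ) (hlam : 0 ≤ lam) (F : ℝ → ℂ) (hF : ContDiff ℝ ∞ F) :
    ∃ z : ℝ → ℂ, ContDiff ℝ ∞ z ∧ (∀ s, HasDerivAt z (lam * z s + F s) s) ∧
      (∫ s in -L..L, Real.exp (-2 * phi τ ε s) * ‖z s‖ ^ 2
        ≤ 256 * ε * ∫ s in -L..L, Real.exp (-2 * phi τ ε s) * ‖F s‖ ^ 2) ∧
      lam ^ 2 * ∫ s in -L..L, Real.exp (-2 * phi τ ε s) * ‖z s‖ ^ 2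
        ≤ 1024 * τ ^ 2 * ∫ s in -L..L, Real.exp (-2 * phi τ ε s) * ‖F s‖ ^ 2 := by
  set m := ε * (lam - τ) with hm
  set s₀ := max (-L) (min L m) with hs₀
  obtain ⟨z, hzs, hz0, hz⟩ := exists_ode lam s₀ F hF
  have hFc : Continuous F := hF.continuous
  have hzc : Continuous z := hzs.continuous
  have hphi : Continuous (phi τ ε) := by unfold phi; fun_prop
  have hL1 : -L ≤ s₀ := le_max_left _ _
  have hL2 : s₀ ≤ L := max_le (by linarith) (min_le_left _ _)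
  have hsm : ∀ s, τ + s / ε - lam = (s - m) / ε := fun s => by rw [hm]; field_simp; ring
  have hi : ∀ (g : ℝ → ℂ), Continuous g → ∀ a b : ℝ,
      IntervalIntegrable (fun s => Real.exp (-2 * phi τ ε s) * ‖g s‖ ^ 2) volume a b :=
    fun g hg a b => Continuous.intervalIntegrable (by fun_prop) a b
  have hJ : 0 ≤ ∫ s in -L..L, Real.exp (-2 * phi τ ε s) * ‖F s‖ ^ 2 :=
    intervalIntegral.integral_nonneg (by linarith) fun s _ => by positivity
  have h1 : ∫ s in s₀..L, Real.exp (-2 * phi τ ε s) * ‖z s‖ ^ 2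
      ≤ 256 * ε * ∫ s in s₀..L, Real.exp (-2 * phi τ ε s) * ‖F s‖ ^ 2 := by
    rcases hL2.eq_or_lt with h | h
    · rw [h]; simp
    · refine EOb_right s₀ L ε τ lam hL2 hε F z hFc hz hz0 fun s _ => ?_
      have hm1 : m ≤ s₀ := by
        rcases le_total L m with h' | h'
        · rw [hs₀, min_eq_left h'] at h
          exact absurd (le_max_right (-L) L) (not_le.2 h)
        · rw [hs₀, min_eq_right h']; exact le_max_right _ _
      rw [hsm]
      exact div_le_div_of_nonneg_right (by linarith) hε.le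
  have h2 : ∫ s in -L..s₀, Real.exp (-2 * phi τ ε s) * ‖z s‖ ^ 2
      ≤ 256 * ε * ∫ s in -L..s₀, Real.exp (-2 * phi τ ε s) * ‖F s‖ ^ 2 := by
    rcases hL1.eq_or_lt with h | h
    · rw [← h]; simp
    · refine EOb_left (-L) s₀ ε τ lam hL1 hε F z hFc hz hz0 fun s _ => ?_
      have hm1 : s₀ ≤ m := by
        rcases le_total (-L) (min L m) with h' | h'
        · rw [hs₀, max_eq_right h']; exact min_le_right _ _
        · rw [hs₀, max_eq_left h'] at h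
          exact absurd h (lt_irrefl _)
      rw [hsm, ← neg_div]
      exact div_le_div_of_nonneg_right (by linarith) hε.le
  have h3 : ∫ s in -L..L, Real.exp (-2 * phi τ ε s) * ‖z s‖ ^ 2
      ≤ 256 * ε * ∫ s in -L..L, Real.exp (-2 * phi τ ε s) * ‖F s‖ ^ 2 := by
    rw [← intervalIntegral.integral_add_adjacent_intervals (hi z hzc (-L) s₀) (hi z hzc s₀ L),
      ← intervalIntegral.integral_add_adjacent_intervals (hi F hFc (-L) s₀) (hi F hFc s₀ L)]
    linarith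
  refine ⟨z, hzs, hz, h3, ?_⟩
  rcases le_total lam (2 * τ) with hl | hl
  · have h4 : lam ^ 2 ≤ 4 * τ ^ 2 := by nlinarith
    calc lam ^ 2 * ∫ s in -L..L, Real.exp (-2 * phi τ ε s) * ‖z s‖ ^ 2
        ≤ lam ^ 2 * (256 * ε * ∫ s in -L..L, Real.exp (-2 * phi τ ε s) * ‖F s‖ ^ 2) :=
          mul_le_mul_of_nonneg_left h3 (sq_nonneg _)
      _ ≤ (4 * τ ^ 2) * (256 * 1 * ∫ s in -L..L, Real.exp (-2 * phi τ ε s) * ‖F s‖ ^ 2) := by
          gcongr
      _ = _ := by ring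
  · have hLε : 2 * L ≤ τ * ε := by rwa [div_le_iff₀ hε] at hτ
    have hm1 : L ≤ m := by rw [hm]; nlinarith
    have hs1 : s₀ = L := by rw [hs₀, min_eq_left hm1, max_eq_right (by linarith)]
    have h4 := energy_ode (-L) L (by linarith) (phi τ ε) (fun s => τ + s / ε)
      (fun _ => -1) (fun _ => 0) (fun s => EOb_phi_deriv τ ε s hε) (by fun_prop)
      (fun s _ => hasDerivAt_const s _) continuousOn_const z F lam (lam / 4) hz hFc
      (by linarith) (fun s _ => by norm_num) (fun s h => ?_) (by simp)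
      (by rw [← hs1, hz0]; simp)
    · have h5 : (64 : ℝ) ≤ 1024 * τ ^ 2 := by nlinarith
      have h6 := mul_le_mul_of_nonneg_right h5 hJ
      linarith
    · have h5 : s / ε ≤ τ / 2 := by
        rw [div_le_iff₀ hε]; linarith [h.2]
      show lam / 4 ≤ (τ + s / ε - lam) * -1 - 0 / 2
      linarith

end Vale.Agent.P136
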