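import Vale.Agent.P136.EOb

/-! One Fourier mode: `Y'' = λ² Y + F` with weighted bounds.

Plan. `z` from `mode_first`, `Y` from `exists_ode (-λ) (-L) z`, so `Y' = z - λ Y`,
`Y'' = λ² Y + F`. `energy_ode` with `om = 1`, `c = -λ`, `κ = τ/2 + λ` gives
`(τ/2 + λ)² ∫ w‖Y‖² ≤ 4 ∫ w‖z‖²`; so `τ² ‖Y‖² ≤ 16 ‖z‖²`, `λ² ‖Y‖² ≤ 4 ‖z‖²` (in the weighted
integral sense), `‖Y'‖² ≤ 2‖z‖² + 2λ²‖Y‖² ≤ 10 ‖z‖²`, `‖Y''‖² ≤ 2λ⁴‖Y‖² + 2‖F‖²`. -/

open MeasureTheory Metric Real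
open scoped ContDiff

namespace Vale.Agent.P136

/-- Weighted square integral on `[-L, L]`. -/
noncomputable def wI (L τ ε : ℝ) (g : ℝ → ℂ) : ℝ :=
  ∫ s in -L..L, Real.exp (-2 * phi τ ε s) * ‖g s‖ ^ 2

theorem EOc_nonneg {L : ℝ} (hL : 0 < L) (τ ε : ℝ) (g : ℝ → ℂ) : 0 ≤ wI L τ ε g :=
  intervalIntegral.integral_nonneg (by linarith) fun _ _ => by positivity

theorem EOc_le {L : ℝ} (hL : 0 < L) (τ ε c : ℝ) {f g h : ℝ → ℂ} (hf : Continuous f)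
    (hg : Continuous g) (e : ∀ s, h s = c * f s + g s) :
    wI L τ ε h ≤ 2 * c ^ 2 * wI L τ ε f + 2 * wI L τ ε g := by
  obtain rfl : h = fun s => c * f s + g s := funext e
  have i : ∀ {k : ℝ → ℂ}, Continuous k → Continuous fun s =>
      Real.exp (-2 * phi τ ε s) * ‖k s‖ ^ 2 := fun hk => by
    unfold phi
    fun_prop
  unfold wI
  rw [← intervalIntegral.integral_const_mul, ← intervalIntegral.integral_const_mul,
    ← intervalIntegral.integral_add (((i hf).const_mul _).intervalIntegrable _ _)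
      (((i hg).const_mul _).intervalIntegrable _ _)]
  refine intervalIntegral.integral_mono_on (by linarith)
    ((i (by fun_prop)).intervalIntegrable _ _)
    ((((i hf).const_mul _).add ((i hg).const_mul _)).intervalIntegrable _ _) fun s _ => ?_
  have h1 : ‖c * f s + g s‖ ≤ |c| * ‖f s‖ + ‖g s‖ := by
    refine (norm_add_le _ _).trans ?_
    rw [norm_mul, Complex.norm_real, Real.norm_eq_abs]
  have h2 : ‖c * f s + g s‖ ^ 2 ≤ 2 * c ^ 2 * ‖f s‖ ^ 2 + 2 * ‖g s‖ ^ 2 := by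
    refine (pow_le_pow_left₀ (norm_nonneg _) h1 2).trans ?_
    rw [← sq_abs c]
    nlinarith [sq_nonneg (|c| * ‖f s‖ - ‖g s‖)]
  nlinarith [Real.exp_pos (-2 * phi τ ε s)]

theorem mode_solve (L ε τ lam : ℝ) (hL : 0 < L) (hε : 0 < ε) (hε1 : ε ≤ 1) (hτ1 : 1 ≤ τ)
    (hτ : 2 * L / ε ≤ τ) (hlam : 0 ≤ lam) (F : ℝ → ℂ) (hF : ContDiff ℝ ∞ F) :
    ∃ Y : ℝ → ℂ, ContDiff ℝ ∞ Y ∧ (∀ s, deriv (deriv Y) s = (lam : ℂ) ^ 2 * Y s + F s) ∧
      τ ^ 2 * wI L τ ε Y ≤ 5000 * ε * wI L τ ε F ∧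
      lam ^ 2 * wI L τ ε Y ≤ 5000 * ε * wI L τ ε F ∧
      wI L τ ε (deriv Y) ≤ 5000 * ε * wI L τ ε F ∧
      lam ^ 4 * wI L τ ε Y ≤ 20000 * τ ^ 2 * wI L τ ε F ∧
      lam ^ 2 * wI L τ ε (deriv Y) ≤ 20000 * τ ^ 2 * wI L τ ε F ∧
      wI L τ ε (deriv (deriv Y)) ≤ 20000 * τ ^ 2 * wI L τ ε F := by
  obtain ⟨z, z1, z2, z3, z4⟩ := mode_first L ε τ lam hL hε hε1 hτ1 hτ hlam F hF
  obtain ⟨Y, y1, y2, y3⟩ := exists_ode (-lam) (-L) z z1
  have d1 : deriv Y = fun s => ((-lam : ℝ) : ℂ) * Y s + z s := funext fun s => (y3 s).deriv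
  have d2 : ∀ s, deriv (deriv Y) s = ((lam ^ 2 : ℝ) : ℂ) * Y s + F s := fun s => by
    rw [d1]
    refine (((y3 s).const_mul ((-lam : ℝ) : ℂ)).add (z2 s)).deriv.trans ?_
    push_cast
    ring
  have h1 := energy_ode (-L) L (by linarith) (phi τ ε) (fun s => τ + s / ε) (fun _ => 1)
    (fun _ => 0) (fun s => by
      have := ((hasDerivAt_id s).const_mul τ).add (((hasDerivAt_id s).pow 2).div_const (2 * ε))
      refine this.congr_deriv ?_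
      simp only [id]
      field_simp
      norm_num
      ring) (by fun_prop) (fun s _ => hasDerivAt_const s 1) continuousOn_const Y z (-lam)
    (τ / 2 + lam) y3 z1.continuous (by linarith) (fun _ _ => by norm_num) (fun s hs => by
      have h2 : -L / ε ≤ s / ε := div_le_div_of_nonneg_right hs.1 hε.le
      rw [neg_div] at h2
      rw [mul_div_assoc] at hτ
      linarith) (by simp [y2]) (by positivity)
  have h2 := EOc_le hL τ ε (-lam) y1.continuous z1.continuous (congrFun d1)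
  have h3 := EOc_le hL τ ε (lam ^ 2) y1.continuous hF.continuous d2
  change _ * wI L τ ε Y ≤ 4 * wI L τ ε z at h1
  change wI L τ ε z ≤ _ * wI L τ ε F at z3
  change _ * wI L τ ε z ≤ _ * wI L τ ε F at z4
  have n1 := EOc_nonneg hL τ ε Y
  have n2 := EOc_nonneg hL τ ε F
  have n3 := mul_nonneg hε.le n2
  have n4 : wI L τ ε F ≤ τ ^ 2 * wI L τ ε F := le_mul_of_one_le_left n2 (one_le_pow₀ hτ1)
  have a1 : (τ / 2) ^ 2 * wI L τ ε Y ≤ (τ / 2 + lam) ^ 2 * wI L τ ε Y := by gcongr; linarith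
  have a2 : lam ^ 2 * wI L τ ε Y ≤ (τ / 2 + lam) ^ 2 * wI L τ ε Y := by gcongr; linarith
  have a3 := mul_le_mul_of_nonneg_left (a2.trans h1) (sq_nonneg lam)
  have a4 := mul_le_mul_of_nonneg_left h2 (sq_nonneg lam)
  refine ⟨Y, y1, fun s => by rw [d2, Complex.ofReal_pow], ?_, ?_, ?_, ?_, ?_, ?_⟩ <;> linarith

end Vale.Agent.P136
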