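import Vale.Agent.P136.Basic

/-! The complex bilinear energy density for smooth fields. -/

open MeasureTheory Metric Real
open scoped ContDiff

namespace Vale.Agent.P136

/-- Strain. -/
noncomputable def strain (U : Fin 3 → Sm) (i j : Fin 3) : Sm :=
  (1 / 2 : ℂ) • (dd j (U i) + dd i (U j))

/-- Energy density `λ div U div V + 2 μ e(U) : e(V)`. -/
noncomputable def form (lam mu : Sm) (U V : Fin 3 → Sm) : Sm :=
  lam * dvg U * dvg V + 2 * mu * ∑ i, ∑ j, strain U i j * strain V i j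

/-- Complex test functions. -/
def IsTestC (Ω : Set E3) (ψ : Sm) : Prop := HasCompactSupport ψ.1 ∧ tsupport ψ.1 ⊆ Ω

/-- `U` solves the Lamé system up to an error `ε` in the dual norm. -/
def Approx (Ω : Set E3) (lam mu : Sm) (U : Fin 3 → Sm) (ε : ℝ) : Prop :=
  ∀ ψ : Fin 3 → Sm, (∀ i, IsTestC Ω (ψ i)) →
    ‖∫ x in Ω, (form lam mu U ψ).1 x‖ ≤ ε * Real.sqrt (∫ x in Ω, (jet0 ψ x + jet1 ψ x))

/-- The integral identity for approximate solutions. -/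
def HId (Ω : Set E3) (lam₁ mu₁ lam₂ mu₂ : Sm) : Prop :=
  ∀ M η : ℝ, 0 < η → ∃ ε : ℝ, 0 < ε ∧ ∀ U₁ U₂ : Fin 3 → Sm,
    ∫ x in Ω, jet1 U₁ x ≤ M → ∫ x in Ω, jet1 U₂ x ≤ M →
    Approx Ω lam₁ mu₁ U₁ ε → Approx Ω lam₂ mu₂ U₂ ε →
    ‖∫ x in Ω, (form (lam₁ - lam₂) (mu₁ - mu₂) U₁ U₂).1 x‖ ≤ η

end Vale.Agent.P136
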