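import Vale.Agent.P136.Basic

/-! The Lamé energy as a bounded symmetric bilinear form on square integrable gradients.

Plan. `lam, mu` are continuous hence bounded on the bounded set `Ω` (`IsBounded.isCompact_closure`).
Products of two `L²` functions are integrable (`MemLp.integrable_mul`), times a bounded continuous
function still integrable (`Integrable.bdd_mul`-type lemmas with `ae_restrict_of_forall_mem`).
For `energy_bound` use the pointwise bound `|density| ≤ C₀ * a x * b x` with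
`a x = sqrt (∑ G²)`, `b x = sqrt (∑ H²)`, or simply: each of the finitely many products satisfies
`|∫ c G H| ≤ C₀ sqrt (∫ G²) sqrt (∫ H²) ≤ C₀ sqrt (gsq G) sqrt (gsq H)` (Cauchy-Schwarz:
`integral_mul_le_Lp_mul_Lq_of_nonneg`, or from `0 ≤ ∫ (t|G| - |H|)²` and `discrim_le_zero`).
Test functions and their derivatives are continuous with compact support
(`Continuous.memLp_of_hasCompactSupport`, `MemLp.restrict`, `HasCompactSupport.fderiv_apply`). -/

open MeasureTheory Metric Real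
open scoped ContDiff

namespace Vale.Agent.P136

/-- Squared `L²` norm of a matrix field. -/
noncomputable def gsq (Ω : Set E3) (G : Fin 3 → Fin 3 → E3 → ℝ) : ℝ :=
  ∑ i, ∑ j, ∫ x in Ω, G i j x ^ 2

/-- Squared `L²` norm of a vector field. -/
noncomputable def usq (Ω : Set E3) (u : Fin 3 → E3 → ℝ) : ℝ := ∑ i, ∫ x in Ω, u i x ^ 2

/-- Classical gradient. -/
noncomputable def grd (ψ : Fin 3 → E3 → ℝ) : Fin 3 → Fin 3 → E3 → ℝ := fun i j => pd j (ψ i)

/-- Square integrable matrix fields. -/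
def L2G (Ω : Set E3) (G : Fin 3 → Fin 3 → E3 → ℝ) : Prop :=
  ∀ i j, MemLp (G i j) 2 (volume.restrict Ω)

theorem gsq_nonneg (Ω : Set E3) (G : Fin 3 → Fin 3 → E3 → ℝ) : 0 ≤ gsq Ω G :=
  Finset.sum_nonneg fun _ _ => Finset.sum_nonneg fun _ _ => integral_nonneg fun _ => sq_nonneg _

theorem usq_nonneg (Ω : Set E3) (u : Fin 3 → E3 → ℝ) : 0 ≤ usq Ω u :=
  Finset.sum_nonneg fun _ _ => integral_nonneg fun _ => sq_nonneg _

theorem L2G.add {Ω : Set E3} {G H : Fin 3 → Fin 3 → E3 → ℝ} (hG : L2G Ω G) (hH : L2G Ω H) :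
    L2G Ω (G + H) := fun i j => (hG i j).add (hH i j)

theorem L2G.sub {Ω : Set E3} {G H : Fin 3 → Fin 3 → E3 → ℝ} (hG : L2G Ω G) (hH : L2G Ω H) :
    L2G Ω (G - H) := fun i j => (hG i j).sub (hH i j)

theorem IsTest.memLp {Ω : Set E3} {φ : E3 → ℝ} (h : IsTest Ω φ) :
    MemLp φ 2 (volume.restrict Ω) := (h.1.continuous.memLp_of_hasCompactSupport h.2.1).restrict _

theorem IsTest.pd {Ω : Set E3} {φ : E3 → ℝ} (h : IsTest Ω φ) (j : Fin 3) :
    IsTest Ω (pd j φ) :=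
  ⟨(h.1.fderiv_right (m := ∞) (by simp)).clm_apply contDiff_const, h.2.1.fderiv_apply ℝ _,
    (tsupport_fderiv_apply_subset ℝ _).trans h.2.2⟩

theorem IsTest.add {Ω : Set E3} {φ φ' : E3 → ℝ} (h : IsTest Ω φ) (h' : IsTest Ω φ') :
    IsTest Ω (φ + φ') :=
  ⟨h.1.add h'.1, h.2.1.add h'.2.1, (tsupport_add _ _).trans (Set.union_subset h.2.2 h'.2.2)⟩

theorem IsTest.smul {Ω : Set E3} {φ : E3 → ℝ} (h : IsTest Ω φ) (c : ℝ) :
    IsTest Ω (c • φ) :=
  ⟨h.1.const_smul c, h.2.1.smul_left (f := fun _ => c),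
    (tsupport_smul_subset_right (fun _ => c) φ).trans h.2.2⟩

theorem isTest_zero (Ω : Set E3) : IsTest Ω 0 := ⟨contDiff_const, HasCompactSupport.zero, by simp⟩

theorem pd_add {φ φ' : E3 → ℝ} (h : ContDiff ℝ ∞ φ) (h' : ContDiff ℝ ∞ φ') (j : Fin 3) :
    pd j (φ + φ') = pd j φ + pd j φ' := funext fun x => by
  simp [pd, fderiv_add (h.differentiable (by simp) x) (h'.differentiable (by simp) x)]

theorem pd_smul {φ : E3 → ℝ} (h : ContDiff ℝ ∞ φ) (c : ℝ) (j : Fin 3) :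
    pd j (c • φ) = c • pd j φ := funext fun x => by
  simp [pd, fderiv_const_smul (h.differentiable (by simp) x)]

theorem l2G_grd {Ω : Set E3} {ψ : Fin 3 → E3 → ℝ} (h : ∀ i, IsTest Ω (ψ i)) :
    L2G Ω (grd ψ) := fun i j => ((h i).pd j).memLp

theorem HBil_cs {μ : Measure E3} {a b d : E3 → ℝ} {C : ℝ} (hC : 0 ≤ C) (ha : Integrable a μ)
    (hb : Integrable b μ) (hd : Integrable d μ) (ha0 : 0 ≤ ∫ x, a x ∂μ) (hb0 : 0 ≤ ∫ x, b x ∂μ)
    (h : ∀ᵐ x ∂μ, ∀ t : ℝ, 0 ≤ C * (t * t) * a x + 2 * t * d x + C * b x) :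
    |∫ x, d x ∂μ| ≤ C * √(∫ x, a x ∂μ) * √(∫ x, b x ∂μ) := by
  have := discrim_le_zero (a := C * ∫ x, a x ∂μ) (b := 2 * ∫ x, d x ∂μ) (c := C * ∫ x, b x ∂μ)
    fun t => by
      have := integral_nonneg_of_ae (h.mono fun x hx => hx t)
      rw [integral_add (by exact (ha.const_mul _).add (hd.const_mul _)) (hb.const_mul _),
        integral_add (ha.const_mul _) (hd.const_mul _), integral_const_mul, integral_const_mul,
        integral_const_mul] at this
      linarith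
  refine abs_le_of_sq_le_sq ?_ (by positivity)
  rw [mul_pow, mul_pow, sq_sqrt ha0, sq_sqrt hb0]
  unfold discrim at this
  linarith

theorem HBil_mul {Ω : Set E3} {G H : Fin 3 → Fin 3 → E3 → ℝ} (hG : L2G Ω G) (hH : L2G Ω H) :
    Integrable (fun x => ∑ i, ∑ j, G i j x * H i j x) (volume.restrict Ω) :=
  integrable_finsetSum _ fun i _ => integrable_finsetSum _ fun j _ =>
    (hG i j).integrable_mul (hH i j)

theorem HBil_sq {Ω : Set E3} {G : Fin 3 → Fin 3 → E3 → ℝ} (hG : L2G Ω G) :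
    Integrable (fun x => ∑ i, ∑ j, G i j x ^ 2) (volume.restrict Ω) :=
  integrable_finsetSum _ fun i _ => integrable_finsetSum _ fun j _ => (hG i j).integrable_sq

theorem HBil_gsq {Ω : Set E3} {G : Fin 3 → Fin 3 → E3 → ℝ} (hG : L2G Ω G) :
    gsq Ω G = ∫ x in Ω, ∑ i, ∑ j, G i j x ^ 2 := by
  rw [integral_finsetSum _ fun i _ => integrable_finsetSum _ fun j _ => (hG i j).integrable_sq]
  exact Finset.sum_congr rfl fun i _ =>
    (integral_finsetSum _ fun j _ => (hG i j).integrable_sq).symm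

theorem sqrt_gsq_add {Ω : Set E3} {G H : Fin 3 → Fin 3 → E3 → ℝ} (hG : L2G Ω G) (hH : L2G Ω H) :
    Real.sqrt (gsq Ω (G + H)) ≤ Real.sqrt (gsq Ω G) + Real.sqrt (gsq Ω H) := by
  have a := gsq_nonneg Ω G
  have b := gsq_nonneg Ω H
  have h := HBil_cs zero_le_one (HBil_sq hG) (HBil_sq hH) (HBil_mul hG hH) (HBil_gsq hG ▸ a)
    (HBil_gsq hH ▸ b) (ae_of_all _ fun x t => (Finset.sum_nonneg (s := Finset.univ) fun i _ =>
      Finset.sum_nonneg (s := Finset.univ) fun j _ => sq_nonneg (t * G i j x + H i j x)).trans_eq (by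
        simp only [Fin.sum_univ_three]
        ring))
  have e : gsq Ω (G + H) = gsq Ω G + 2 * (∫ x in Ω, ∑ i, ∑ j, G i j x * H i j x) + gsq Ω H := by
    rw [HBil_gsq hG, HBil_gsq hH, HBil_gsq (hG.add hH), ← integral_const_mul,
      ← integral_add (HBil_sq hG) ((HBil_mul hG hH).const_mul _),
      ← integral_add (by exact (HBil_sq hG).add ((HBil_mul hG hH).const_mul _)) (HBil_sq hH)]
    refine integral_congr_ae (ae_of_all _ fun x => ?_)
    simp only [Fin.sum_univ_three, Pi.add_apply]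
    ring
  rw [← HBil_gsq hG, ← HBil_gsq hH] at h
  refine sqrt_le_iff.2 ⟨by positivity, ?_⟩
  rw [e, add_sq, sq_sqrt a, sq_sqrt b]
  linarith [le_abs_self (∫ x in Ω, ∑ i, ∑ j, G i j x * H i j x)]

theorem gsq_neg (Ω : Set E3) (G : Fin 3 → Fin 3 → E3 → ℝ) : gsq Ω (-G) = gsq Ω G := by
  simp [gsq]

theorem energy_symm (Ω : Set E3) (lam mu : E3 → ℝ) (G H : Fin 3 → Fin 3 → E3 → ℝ) :
    energy Ω lam mu G H = energy Ω lam mu H G :=
  integral_congr_ae (ae_of_all _ fun x => by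
    simp only [Fin.sum_univ_three]
    ring)

theorem HBil_bdd {Ω : Set E3} (hΩ : IsOpen Ω) (hb : Bornology.IsBounded Ω) {lam : E3 → ℝ}
    (hl : Continuous lam) : ∃ K, 0 ≤ K ∧ ∀ᵐ x ∂volume.restrict Ω, |lam x| ≤ K := by
  obtain ⟨K, hK⟩ := hb.isCompact_closure.exists_bound_of_continuousOn hl.continuousOn
  exact ⟨_, abs_nonneg K, ae_restrict_of_forall_mem hΩ.measurableSet fun x hx =>
    (hK x (subset_closure hx)).trans (le_abs_self K)⟩

theorem HBil_int {Ω : Set E3} (hΩ : IsOpen Ω) (hb : Bornology.IsBounded Ω) {lam mu : E3 → ℝ}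
    (hl : Continuous lam) (hm : Continuous mu) {G H : Fin 3 → Fin 3 → E3 → ℝ}
    (hG : L2G Ω G) (hH : L2G Ω H) : Integrable (fun x => lam x * (∑ i, G i i x) * (∑ i, H i i x) +
      2 * mu x * ∑ i, ∑ j, ((G i j x + G j i x) / 2) * ((H i j x + H j i x) / 2))
      (volume.restrict Ω) := by
  obtain ⟨K, -, hK⟩ := HBil_bdd hΩ hb hl
  obtain ⟨K', -, hK'⟩ := HBil_bdd hΩ hb (lam := fun x => 2 * mu x) (by fun_prop)
  have s : ∀ {G}, L2G Ω G → L2G Ω fun i j x => (G i j x + G j i x) / 2 := fun h i j =>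
    ((h i j).add (h j i)).mul_const _
  simp only [mul_assoc (lam _)]
  exact (((memLp_finsetSum _ fun i _ => hG i i).integrable_mul
    (memLp_finsetSum _ fun i _ => hH i i)).bdd_mul hl.aestronglyMeasurable hK).add
    ((HBil_mul (s hG) (s hH)).bdd_mul (by fun_prop) hK')

theorem energy_add {Ω : Set E3} (hΩ : IsOpen Ω) (hb : Bornology.IsBounded Ω) {lam mu : E3 → ℝ}
    (hl : Continuous lam) (hm : Continuous mu) {G H H' : Fin 3 → Fin 3 → E3 → ℝ}
    (hG : L2G Ω G) (hH : L2G Ω H) (hH' : L2G Ω H') :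
    energy Ω lam mu G (H + H') = energy Ω lam mu G H + energy Ω lam mu G H' := by
  refine Eq.trans (integral_congr_ae (ae_of_all _ fun x => ?_))
    (integral_add (HBil_int hΩ hb hl hm hG hH) (HBil_int hΩ hb hl hm hG hH'))
  simp only [Fin.sum_univ_three, Pi.add_apply]
  ring

theorem energy_sub {Ω : Set E3} (hΩ : IsOpen Ω) (hb : Bornology.IsBounded Ω) {lam mu : E3 → ℝ}
    (hl : Continuous lam) (hm : Continuous mu) {G H H' : Fin 3 → Fin 3 → E3 → ℝ}
    (hG : L2G Ω G) (hH : L2G Ω H) (hH' : L2G Ω H') :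
    energy Ω lam mu G (H - H') = energy Ω lam mu G H - energy Ω lam mu G H' := by
  refine Eq.trans (integral_congr_ae (ae_of_all _ fun x => ?_))
    (integral_sub (HBil_int hΩ hb hl hm hG hH) (HBil_int hΩ hb hl hm hG hH'))
  simp only [Fin.sum_univ_three, Pi.sub_apply]
  ring

theorem energy_smul (Ω : Set E3) (lam mu : E3 → ℝ) (G H : Fin 3 → Fin 3 → E3 → ℝ) (c : ℝ) :
    energy Ω lam mu G (c • H) = c * energy Ω lam mu G H := by
  refine Eq.trans (integral_congr_ae (ae_of_all _ fun x => ?_)) (integral_const_mul _ _)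
  simp only [Fin.sum_univ_three, Pi.smul_apply, smul_eq_mul]
  ring

theorem energy_congr {Ω : Set E3} (lam mu : E3 → ℝ) (G : Fin 3 → Fin 3 → E3 → ℝ)
    {H H' : Fin 3 → Fin 3 → E3 → ℝ} (h : ∀ i j, H i j =ᵐ[volume.restrict Ω] H' i j) :
    energy Ω lam mu G H = energy Ω lam mu G H' :=
  integral_congr_ae ((ae_all_iff.2 fun i => ae_all_iff.2 (h i)).mono fun x hx => by
    simp only [hx])

theorem HBil_pt {l m K : ℝ} (hl : |l| ≤ K) (hm : |m| ≤ K) (G H : Fin 3 → Fin 3 → ℝ) (t : ℝ) :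
    0 ≤ 5 * K * (t * t) * (∑ i, ∑ j, G i j ^ 2) + 2 * t * (l * (∑ i, G i i) * (∑ i, H i i) +
      2 * m * ∑ i, ∑ j, ((G i j + G j i) / 2) * ((H i j + H j i) / 2)) +
      5 * K * ∑ i, ∑ j, H i j ^ 2 := by
  have hK := (abs_nonneg l).trans hl
  have a : ∀ c, |c| ≤ K → ∀ p q : ℝ, 0 ≤ K * (p ^ 2 + q ^ 2) + 2 * c * p * q := fun c h p q => by
    nlinarith [mul_nonneg (sub_nonneg.2 (abs_le.1 h).1) (sq_nonneg (p + q)),
      mul_nonneg (sub_nonneg.2 (abs_le.1 h).2) (sq_nonneg (p - q))]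
  have b : ∀ G : Fin 3 → Fin 3 → ℝ, (∑ i, G i i) ^ 2 + 2 * ∑ i, ∑ j, ((G i j + G j i) / 2) ^ 2 ≤
      5 * ∑ i, ∑ j, G i j ^ 2 := fun G => by
    simp only [Fin.sum_univ_three]
    linarith [sq_nonneg (G 0 0 - G 1 1), sq_nonneg (G 0 0 - G 2 2), sq_nonneg (G 1 1 - G 2 2),
      sq_nonneg (G 0 1 - G 1 0), sq_nonneg (G 0 2 - G 2 0), sq_nonneg (G 1 2 - G 2 1),
      sq_nonneg (G 0 1), sq_nonneg (G 0 2), sq_nonneg (G 1 0), sq_nonneg (G 1 2), sq_nonneg (G 2 0),
      sq_nonneg (G 2 1)]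
  have c := Finset.sum_nonneg (s := Finset.univ) fun i _ => Finset.sum_nonneg (s := Finset.univ)
    fun j _ => a m hm (t * ((G i j + G j i) / 2)) ((H i j + H j i) / 2)
  have d := a l hl (t * ∑ i, G i i) (∑ i, H i i)
  have e := mul_le_mul_of_nonneg_left (b G) (mul_nonneg hK (mul_self_nonneg t))
  have f := mul_le_mul_of_nonneg_left (b H) hK
  simp only [Fin.sum_univ_three] at c d e f ⊢
  linarith

theorem energy_bound {Ω : Set E3} (hΩ : IsOpen Ω) (hb : Bornology.IsBounded Ω) {lam mu : E3 → ℝ}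
    (hl : Continuous lam) (hm : Continuous mu) :
    ∃ C : ℝ, 0 ≤ C ∧ ∀ G H : Fin 3 → Fin 3 → E3 → ℝ, L2G Ω G → L2G Ω H →
      |energy Ω lam mu G H| ≤ C * Real.sqrt (gsq Ω G) * Real.sqrt (gsq Ω H) := by
  obtain ⟨K, h0, hK⟩ := HBil_bdd hΩ hb hl
  obtain ⟨K', h0', hK'⟩ := HBil_bdd hΩ hb hm
  refine ⟨5 * (K + K'), by positivity, fun G H hG hH => ?_⟩
  rw [HBil_gsq hG, HBil_gsq hH]
  refine HBil_cs (by positivity) (HBil_sq hG) (HBil_sq hH) (HBil_int hΩ hb hl hm hG hH)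
    (HBil_gsq hG ▸ gsq_nonneg Ω G) (HBil_gsq hH ▸ gsq_nonneg Ω H) ?_
  filter_upwards [hK, hK'] with x h1 h2 t
  exact HBil_pt (by linarith) (by linarith) (fun i j => G i j x) (fun i j => H i j x) t

end Vale.Agent.P136
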