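import Vale.Agent.P136.HMain
import Vale.Agent.P136.Form
import Vale.Agent.P136.Jet

/-! The integral identity for complex smooth approximate solutions.

Plan. For a real linear `T : ℂ →L[ℝ] ℝ` (`Complex.reCLM` or `Complex.imCLM`) and `U : Fin 3 → Sm`
build `toH1 T U : H1 Ω` with `u i = T ∘ U i`, `g i j = T ∘ dd j (U i)` (bounded continuous on the
bounded set `Ω`, `MemLp.of_bound`; the weak identity is integration by parts against a test
function, `integral_mul_fderiv_eq_neg_fderiv_mul_of_integrable`, after replacing the set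
integrals by full integrals). `gsq (toH1 T U).g ≤ ∫ jet1 U`. For a real test field `ψ` let `ψc` be
its complexification in `Sm`, `(dd j (ψc i)).1 x = pd j (ψ i) x`; on `Ω` the coefficients are real,
so `T ((form lam mu U ψc).1 x)` is the real energy density of `(toH1 T U).g` and `grd ψ`, and
`T` commutes with the integral (`ContinuousLinearMap.integral_comp_comm`): `Approx` gives
`ApproxR` with the same `ε`. Finally on `Ω` the real and imaginary parts of
`form (L₁ - L₂) (M₁ - M₂) U₁ U₂` are `(re,re) - (im,im)` and `(re,im) + (im,re)` differences of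
real densities; apply `real_identity` four times and choose `ε ≤ 1` with
`4 C ε (2 sqrt M + 1) ≤ η`. -/

open MeasureTheory Metric Real
open scoped ContDiff

namespace Vale.Agent.P136

/-- the energy density -/
def HCx_den {K : Type} [Field K] (l m : K) (G H : Fin 3 → Fin 3 → K) : K :=
  l * (∑ i, G i i) * (∑ i, H i i) +
    2 * m * ∑ i, ∑ j, ((G i j + G j i) / 2) * ((H i j + H j i) / 2)

theorem HCx_form (L M : Sm) (U V : Fin 3 → Sm) (x : E3) : (form L M U V).1 x =
    HCx_den (L.1 x) (M.1 x) (fun i j => (dd j (U i)).1 x) fun i j => (dd j (V i)).1 x := by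
  simp only [← ev_apply, form, dvg, strain, HCx_den, map_add, map_mul, map_sum, map_smul,
    map_ofNat, smul_eq_mul, one_div_mul_eq_div]

theorem HCx_re (l m : ℝ) (G H : Fin 3 → Fin 3 → ℂ) : (HCx_den (l : ℂ) m G H).re =
    HCx_den l m (fun i j => (G i j).re) (fun i j => (H i j).re) -
      HCx_den l m (fun i j => (G i j).im) fun i j => (H i j).im := by
  simp [HCx_den, Fin.sum_univ_three]
  ring

theorem HCx_im (l m : ℝ) (G H : Fin 3 → Fin 3 → ℂ) : (HCx_den (l : ℂ) m G H).im =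
    HCx_den l m (fun i j => (G i j).re) (fun i j => (H i j).im) +
      HCx_den l m (fun i j => (G i j).im) fun i j => (H i j).re := by
  simp [HCx_den, Fin.sum_univ_three]
  ring

theorem HCx_sub (l m l' m' : ℂ) (G H : Fin 3 → Fin 3 → ℂ) :
    HCx_den (l - l') (m - m') G H = HCx_den l m G H - HCx_den l' m' G H := by
  unfold HCx_den
  ring

variable {Ω : Set E3} {R : ℝ}

theorem HCx_mem (hR : Ω ⊆ ball 0 R) {f : E3 → ℝ} (hf : Continuous f) :
    MemLp f 2 (volume.restrict Ω) :=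
  (memLp_two_iff_integrable_sq hf.aestronglyMeasurable).2
    (integrableOn_of_subset_ball (hf.pow 2) hR)

/-- a real part of a smooth field -/
noncomputable def HCx_H1 (hR : Ω ⊆ ball 0 R) (T : ℂ →L[ℝ] ℝ) (U : Fin 3 → Sm) : H1 Ω where
  u i x := T ((U i).1 x)
  g i j x := T ((dd j (U i)).1 x)
  mem_u i := HCx_mem hR (T.continuous.comp (Sm.cont _))
  mem_g i j := HCx_mem hR (T.continuous.comp (Sm.cont _))
  weak i j φ hφ := by
    have h1 : ∀ x, HasFDerivAt (fun x => T ((U i).1 x)) (T.comp (fderiv ℝ (U i).1 x)) x :=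
      fun x => T.hasFDerivAt.comp x (Sm.diff _ x).hasFDerivAt
    have h2 : ∀ x, T ((dd j (U i)).1 x) = fderiv ℝ (fun x => T ((U i).1 x)) x (ee j) := fun x => by
      rw [(h1 x).fderiv]
      rfl
    have h3 := hφ.pd j
    have c1 : Continuous fun x => T ((U i).1 x) := T.continuous.comp (Sm.cont _)
    have c2 : Continuous fun x => T ((dd j (U i)).1 x) := T.continuous.comp (Sm.cont _)
    rw [setIntegral_eq_integral_of_forall_compl_eq_zero fun x hx => by
        rw [image_eq_zero_of_notMem_tsupport fun h => hx (h3.2.2 h), mul_zero],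
      setIntegral_eq_integral_of_forall_compl_eq_zero fun x hx => by
        rw [image_eq_zero_of_notMem_tsupport fun h => hx (hφ.2.2 h), mul_zero]]
    have i1 := (c2.mul hφ.1.continuous).integrable_of_hasCompactSupport (μ := volume)
      hφ.2.1.mul_left
    simp only [h2] at i1 ⊢
    exact integral_mul_fderiv_eq_neg_fderiv_mul_of_integrable i1
      ((c1.mul h3.1.continuous).integrable_of_hasCompactSupport h3.2.1.mul_left)
      ((c1.mul hφ.1.continuous).integrable_of_hasCompactSupport hφ.2.1.mul_left)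
      (fun x _ => (h1 x).differentiableAt) fun x _ => hφ.1.differentiable (by simp) x

theorem HCx_jet0 (hR : Ω ⊆ ball 0 R) (U : Fin 3 → Sm) :
    ∫ x in Ω, jet0 U x = ∑ i, ∫ x in Ω, ‖(U i).1 x‖ ^ 2 :=
  integral_finsetSum _ fun _ _ => integrableOn_of_subset_ball ((Sm.cont _).norm.pow 2) hR

theorem HCx_jet1 (hR : Ω ⊆ ball 0 R) (U : Fin 3 → Sm) :
    ∫ x in Ω, jet1 U x = ∑ i, ∑ j, ∫ x in Ω, ‖(dd j (U i)).1 x‖ ^ 2 :=
  (integral_finsetSum _ fun i _ =>
    integrableOn_of_subset_ball (jet0_cont fun j => dd j (U i)) hR).trans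
    (Finset.sum_congr rfl fun i _ => HCx_jet0 hR fun j => dd j (U i))

theorem HCx_le {T : ℂ →L[ℝ] ℝ} (hT : T = Complex.reCLM ∨ T = Complex.imCLM) (z : ℂ) :
    |T z| ≤ ‖z‖ := by
  rcases hT with rfl | rfl
  exacts [Complex.abs_re_le_norm z, Complex.abs_im_le_norm z]

theorem HCx_gsq (hR : Ω ⊆ ball 0 R) {T : ℂ →L[ℝ] ℝ} (hT : T = Complex.reCLM ∨ T = Complex.imCLM)
    (U : Fin 3 → Sm) : gsq Ω (HCx_H1 hR T U).g ≤ ∫ x in Ω, jet1 U x := by
  rw [HCx_jet1 hR]
  refine Finset.sum_le_sum fun i _ => Finset.sum_le_sum fun j _ => integral_mono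
    ((HCx_H1 hR T U).mem_g i j).integrable_sq
    (integrableOn_of_subset_ball ((Sm.cont _).norm.pow 2) hR) fun x => ?_
  exact sq_le_sq.2 ((HCx_le hT _).trans (le_abs_self _))

theorem HCx_approx (hΩ : IsOpen Ω) (hR : Ω ⊆ ball 0 R) {T : ℂ →L[ℝ] ℝ}
    (hT : T = Complex.reCLM ∨ T = Complex.imCLM) {lam mu : E3 → ℝ} {L M : Sm}
    (hL : ∀ x ∈ Ω, L.1 x = lam x) (hM : ∀ x ∈ Ω, M.1 x = mu x) {U : Fin 3 → Sm} {ε : ℝ}
    (h : Approx Ω L M U ε) : ApproxR Ω lam mu (HCx_H1 hR T U).g ε := by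
  intro ψ hψ
  let ψc : Fin 3 → Sm := fun i =>
    ⟨fun x => (ψ i x : ℂ), Complex.ofRealCLM.contDiff.comp (hψ i).1⟩
  have h1 : ∀ i j x, (dd j (ψc i)).1 x = (pd j (ψ i) x : ℂ) := fun i j x =>
    congrArg (· (ee j)) (Complex.ofRealCLM.hasFDerivAt.comp x
      ((hψ i).1.differentiable (by simp) x).hasFDerivAt).fderiv
  have h0 : ∀ i x, (ψc i).1 x = (ψ i x : ℂ) := fun _ _ => rfl
  have h2 := h ψc fun i => ⟨(hψ i).2.1.comp_left Complex.ofReal_zero,
    (closure_mono (Function.support_comp_subset Complex.ofReal_zero (ψ i))).trans (hψ i).2.2⟩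
  rw [integral_add (integrableOn_of_subset_ball (jet0_cont _) hR)
    (integrableOn_of_subset_ball (jet1_cont _) hR), HCx_jet0 hR, HCx_jet1 hR] at h2
  simp only [h1, h0, Complex.norm_real, Real.norm_eq_abs, sq_abs] at h2
  refine le_trans (le_of_eq ?_) ((HCx_le hT _).trans h2)
  rw [← T.integral_comp_comm (integrableOn_of_subset_ball (Sm.cont _) hR)]
  refine congrArg _ (setIntegral_congr_fun hΩ.measurableSet fun x hx => ?_)
  simp only [HCx_form, h1, hL x hx, hM x hx]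
  rcases hT with rfl | rfl
  · rw [Complex.reCLM_apply, HCx_re]
    simp [HCx_den, HCx_H1, grd]
  · rw [Complex.imCLM_apply, HCx_im]
    simp [HCx_den, HCx_H1, grd]

theorem HCx_cont {lam mu : E3 → ℝ} (hl : Continuous lam) (hm : Continuous mu)
    {G H : E3 → Fin 3 → Fin 3 → ℝ} (hG : ∀ i j, Continuous fun x => G x i j)
    (hH : ∀ i j, Continuous fun x => H x i j) :
    Continuous fun x => HCx_den (lam x) (mu x) (G x) (H x) := by
  unfold HCx_den
  fun_prop

theorem HCx_int (hR : Ω ⊆ ball 0 R) {lam mu : E3 → ℝ} (hl : Continuous lam) (hm : Continuous mu)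
    {T T' : ℂ → ℝ} (hT : Continuous T) (hT' : Continuous T') (U V : Fin 3 → Sm) :
    IntegrableOn (fun x => HCx_den (lam x) (mu x) (fun i j => T ((dd j (U i)).1 x))
      fun i j => T' ((dd j (V i)).1 x)) Ω := by
  exact integrableOn_of_subset_ball (HCx_cont hl hm (fun _ _ => hT.comp (Sm.cont _))
    fun _ _ => hT'.comp (Sm.cont _)) hR

theorem hId_of_DN {Ω : Set E3} (hΩ : IsOpen Ω) (hb : Bornology.IsBounded Ω)
    {lam₁ mu₁ lam₂ mu₂ : E3 → ℝ} (h₁ : Admissible Ω lam₁ mu₁) (h₂ : Admissible Ω lam₂ mu₂)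
    (hDN : DN Ω lam₁ mu₁ = DN Ω lam₂ mu₂) (L₁ M₁ L₂ M₂ : Sm)
    (hL₁ : ∀ x ∈ Ω, L₁.1 x = lam₁ x) (hM₁ : ∀ x ∈ Ω, M₁.1 x = mu₁ x)
    (hL₂ : ∀ x ∈ Ω, L₂.1 x = lam₂ x) (hM₂ : ∀ x ∈ Ω, M₂.1 x = mu₂ x) :
    HId Ω L₁ M₁ L₂ M₂ := by
  intro M η hη
  obtain ⟨R, hR⟩ := hb.subset_ball 0
  obtain ⟨C, hC, H⟩ := real_identity hΩ hb h₁ h₂ hDN
  have hK : 0 < 4 * (C + 1) * (2 * √M + 1) := by positivity
  refine ⟨min 1 (η / (4 * (C + 1) * (2 * √M + 1))), lt_min one_pos (div_pos hη hK),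
    fun U₁ U₂ b₁ b₂ a₁ a₂ => ?_⟩
  have e1 := min_le_left 1 (η / (4 * (C + 1) * (2 * √M + 1)))
  have e2 := (le_div_iff₀ hK).1 (min_le_right 1 (η / (4 * (C + 1) * (2 * √M + 1))))
  have e0 := (lt_min one_pos (div_pos hη hK)).le
  generalize min 1 (η / (4 * (C + 1) * (2 * √M + 1))) = ε at *
  have key : ∀ T T' : ℂ →L[ℝ] ℝ, T = Complex.reCLM ∨ T = Complex.imCLM →
      T' = Complex.reCLM ∨ T' = Complex.imCLM →
      |energy Ω lam₁ mu₁ (HCx_H1 hR T U₁).g (HCx_H1 hR T' U₂).g -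
        energy Ω lam₂ mu₂ (HCx_H1 hR T U₁).g (HCx_H1 hR T' U₂).g| ≤ η / 4 := fun T T' hT hT' => by
    refine (H _ _ ε e0 (HCx_approx hΩ hR hT hL₁ hM₁ a₁) (HCx_approx hΩ hR hT' hL₂ hM₂ a₂)).trans ?_
    have s1 := Real.sqrt_le_sqrt ((HCx_gsq hR hT U₁).trans b₁)
    have s2 := Real.sqrt_le_sqrt ((HCx_gsq hR hT' U₂).trans b₂)
    refine (mul_le_mul_of_nonneg_left (add_le_add (add_le_add s1 s2) e1) (mul_nonneg hC e0)).trans ?_
    nlinarith [mul_nonneg e0 (Real.sqrt_nonneg M)]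
  have i0 := integrableOn_of_subset_ball (Sm.cont (form (L₁ - L₂) (M₁ - M₂) U₁ U₂)) hR
  have i1 := @HCx_int Ω R hR _ _ h₁.1.continuous h₁.2.1.continuous
  have i2 := @HCx_int Ω R hR _ _ h₂.1.continuous h₂.2.1.continuous
  have r := Complex.continuous_re
  have i := Complex.continuous_im
  have e : ∀ x ∈ Ω, (form (L₁ - L₂) (M₁ - M₂) U₁ U₂).1 x =
      HCx_den (lam₁ x : ℂ) (mu₁ x) (fun i j => (dd j (U₁ i)).1 x) (fun i j => (dd j (U₂ i)).1 x) -
      HCx_den (lam₂ x : ℂ) (mu₂ x) (fun i j => (dd j (U₁ i)).1 x) fun i j => (dd j (U₂ i)).1 x :=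
    fun x hx => by
      rw [HCx_form, ← HCx_sub, ← hL₁ x hx, ← hL₂ x hx, ← hM₁ x hx, ← hM₂ x hx]
      rfl
  have k1 := key _ _ (Or.inl rfl) (Or.inl rfl)
  have k2 := key _ _ (Or.inr rfl) (Or.inr rfl)
  have k3 := key _ _ (Or.inl rfl) (Or.inr rfl)
  have k4 := key _ _ (Or.inr rfl) (Or.inl rfl)
  refine (Complex.norm_le_abs_re_add_abs_im _).trans ?_
  rw [← Complex.reCLM_apply, ← Complex.imCLM_apply, ← Complex.reCLM.integral_comp_comm i0,
    ← Complex.imCLM.integral_comp_comm i0,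
    setIntegral_congr_fun hΩ.measurableSet fun x hx => by
      beta_reduce
      rw [e x hx, Complex.reCLM_apply, Complex.sub_re, HCx_re, HCx_re],
    setIntegral_congr_fun (f := fun x => Complex.imCLM _) hΩ.measurableSet fun x hx => by
      beta_reduce
      rw [e x hx, Complex.imCLM_apply, Complex.sub_im, HCx_im, HCx_im],
    integral_sub (by exact (i1 r r _ _).sub (i1 i i _ _)) (by exact (i2 r r _ _).sub (i2 i i _ _)),
    integral_sub (i1 r r _ _) (i1 i i _ _), integral_sub (i2 r r _ _) (i2 i i _ _),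
    integral_sub (by exact (i1 r i _ _).add (i1 i r _ _)) (by exact (i2 r i _ _).add (i2 i r _ _)),
    integral_add (i1 r i _ _) (i1 i r _ _), integral_add (i2 r i _ _) (i2 i r _ _),
    sub_sub_sub_comm, add_sub_add_comm]
  exact (add_le_add ((abs_sub _ _).trans (add_le_add k1 k2))
    ((abs_add_le _ _).trans (add_le_add k3 k4))).trans (le_of_eq (by ring))

end Vale.Agent.P136
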