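import Mathlib

/-! Lax-Milgram on the closure of a subspace.

Plan. `S.topologicalClosure` is complete. Restrict `B` to it
(`B.bilinearComp T.subtypeL T.subtypeL` or `(B.comp T.subtypeL).flip.comp T.subtypeL |>.flip`);
coercivity passes to the closure since `{z | c ‖z‖² ≤ B z z}` is closed. Use
`IsCoercive.continuousLinearEquivOfBilin` (and `continuousLinearEquivOfBilin_apply`) with the
Riesz representative (`InnerProductSpace.toDual`) of `w ↦ B f w` on the closure. -/

namespace Vale.Agent.P136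

theorem lax_milgram_closure {X : Type} [NormedAddCommGroup X] [InnerProductSpace ℝ X]
    [CompleteSpace X] (S : Submodule ℝ X) (B : X →L[ℝ] X →L[ℝ] ℝ) (c : ℝ) (hc : 0 < c)
    (hB : ∀ s ∈ S, c * ‖s‖ ^ 2 ≤ B s s) (f : X) :
    ∃ z ∈ closure (S : Set X), ∀ s ∈ S, B z s = B f s := by
  have h1 : ∀ z ∈ closure (S : Set X), c * ‖z‖ ^ 2 ≤ B z z := fun z hz =>
    closure_minimal (t := {z | c * ‖z‖ ^ 2 ≤ B z z}) hB (isClosed_le (by fun_prop) (by fun_prop)) hz
  let T := S.topologicalClosure
  have h2 : IsCoercive (B.bilinearComp T.subtypeL T.subtypeL) :=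
    ⟨c, hc, fun u => by simpa [sq, mul_assoc] using h1 u u.2⟩
  obtain ⟨z, hz⟩ := h2.continuousLinearEquivOfBilin.surjective
    ((InnerProductSpace.toDual ℝ T).symm ((B f).comp T.subtypeL))
  refine ⟨z, z.2, fun s hs => ?_⟩
  have h3 := h2.continuousLinearEquivOfBilin_apply z ⟨s, S.le_topologicalClosure hs⟩
  rw [hz, InnerProductSpace.toDual_symm_apply] at h3
  exact h3.symm

end Vale.Agent.P136
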