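import Vale.Agent.P136.HKorn
import Vale.Agent.P136.HLM

/-! Existence of the weak solution with prescribed trace.

Plan. `μ = volume.restrict Ω`, `X = PiLp 2 (fun _ : Fin 3 × Option (Fin 3) => Lp ℝ 2 μ)`
(component `(i, none)` is `u i`, component `(i, some j)` is `g i j`);
`‖z‖² = usq + gsq` of the components (`PiLp.norm_sq_eq_of_L2`, `L2.inner_def`,
`real_inner_self_eq_norm_sq`). `B z w = energy (gradient components)`, bilinear by
`energy_add`, `energy_smul`, `energy_symm`, `energy_congr` (`Lp.coeFn_add` etc. under `PiLp`),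
bounded by `energy_bound` (`LinearMap.mkContinuous₂`, `LinearMap.mk₂`). `S` is the set of `z` whose
components agree a.e. with `(ψ, grd ψ)` for some test field `ψ` (a submodule by `IsTest.add`,
`pd_add`, …); coercive by `poincare` and `korn_coercive`. Take `z` from `lax_milgram_closure` for
the lift of `f`; `u := f - z` componentwise. The weak derivative identity holds on `S` (integration
by parts for test functions) and is a closed condition in `X` (both sides are inner products with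
fixed `L²` elements), so it holds for `z`. `SameTrace u f`: pick `s ∈ S` with `‖z - s‖² < ε` and use
the test field `-ψ`. -/

open MeasureTheory Metric Real
open scoped ContDiff

namespace Vale.Agent.P136

/-- The ambient Hilbert space. -/
abbrev HEx_X (Ω : Set E3) : Type :=
  PiLp 2 (fun _ : Fin 3 × Option (Fin 3) => Lp ℝ 2 (volume.restrict Ω))

/-- `z` represents the pair `(u, g)`. -/
def HEx_R {Ω : Set E3} (z : HEx_X Ω) (u : Fin 3 → E3 → ℝ) (g : Fin 3 → Fin 3 → E3 → ℝ) : Prop :=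
  (∀ i, z (i, none) =ᵐ[volume.restrict Ω] u i) ∧
    ∀ i j, z (i, some j) =ᵐ[volume.restrict Ω] g i j

/-- The gradient components. -/
noncomputable def HEx_g {Ω : Set E3} (z : HEx_X Ω) : Fin 3 → Fin 3 → E3 → ℝ :=
  fun i j => z (i, some j)

/-- The function components. -/
noncomputable def HEx_u {Ω : Set E3} (z : HEx_X Ω) : Fin 3 → E3 → ℝ := fun i => z (i, none)

theorem HEx_self {Ω : Set E3} (z : HEx_X Ω) : HEx_R z (HEx_u z) (HEx_g z) :=
  ⟨fun _ => Filter.EventuallyEq.rfl, fun _ _ => Filter.EventuallyEq.rfl⟩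

theorem HEx_l2 {Ω : Set E3} (z : HEx_X Ω) : L2G Ω (HEx_g z) := fun _ _ => Lp.memLp _

theorem HEx_lift {Ω : Set E3} {u : Fin 3 → E3 → ℝ} {g : Fin 3 → Fin 3 → E3 → ℝ}
    (hu : ∀ i, MemLp (u i) 2 (volume.restrict Ω)) (hg : L2G Ω g) : ∃ z : HEx_X Ω, HEx_R z u g :=
  ⟨WithLp.toLp 2 fun p => p.2.elim ((hu p.1).toLp _) fun j => (hg p.1 j).toLp _,
    fun i => (hu i).coeFn_toLp, fun i j => (hg i j).coeFn_toLp⟩

theorem HEx_add {Ω : Set E3} {z w : HEx_X Ω} {u u' : Fin 3 → E3 → ℝ}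
    {g g' : Fin 3 → Fin 3 → E3 → ℝ} (h : HEx_R z u g) (h' : HEx_R w u' g') :
    HEx_R (z + w) (u + u') (g + g') :=
  ⟨fun i => (Lp.coeFn_add (z (i, none)) (w (i, none))).trans ((h.1 i).add (h'.1 i)),
    fun i j => (Lp.coeFn_add (z (i, some j)) (w (i, some j))).trans ((h.2 i j).add (h'.2 i j))⟩

theorem HEx_sub {Ω : Set E3} {z w : HEx_X Ω} {u u' : Fin 3 → E3 → ℝ}
    {g g' : Fin 3 → Fin 3 → E3 → ℝ} (h : HEx_R z u g) (h' : HEx_R w u' g') :
    HEx_R (z - w) (u - u') (g - g') :=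
  ⟨fun i => (Lp.coeFn_sub (z (i, none)) (w (i, none))).trans ((h.1 i).sub (h'.1 i)),
    fun i j => (Lp.coeFn_sub (z (i, some j)) (w (i, some j))).trans ((h.2 i j).sub (h'.2 i j))⟩

theorem HEx_smul {Ω : Set E3} {z : HEx_X Ω} {u : Fin 3 → E3 → ℝ}
    {g : Fin 3 → Fin 3 → E3 → ℝ} (c : ℝ) (h : HEx_R z u g) : HEx_R (c • z) (c • u) (c • g) :=
  ⟨fun i => (Lp.coeFn_smul c (z (i, none))).trans ((h.1 i).const_smul c),
    fun i j => (Lp.coeFn_smul c (z (i, some j))).trans ((h.2 i j).const_smul c)⟩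

theorem HEx_inner {Ω : Set E3} (a b : Lp ℝ 2 (volume.restrict Ω)) {f g : E3 → ℝ}
    (ha : a =ᵐ[volume.restrict Ω] f) (hb : b =ᵐ[volume.restrict Ω] g) :
    inner ℝ a b = ∫ x in Ω, f x * g x := by
  rw [L2.inner_def]
  refine integral_congr_ae ?_
  filter_upwards [ha, hb] with x h1 h2
  rw [h1, h2, mul_comm]
  rfl

theorem HEx_norm {Ω : Set E3} {z : HEx_X Ω} {u : Fin 3 → E3 → ℝ}
    {g : Fin 3 → Fin 3 → E3 → ℝ} (h : HEx_R z u g) : ‖z‖ ^ 2 = usq Ω u + gsq Ω g := by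
  rw [PiLp.norm_sq_eq_of_L2, Fintype.sum_prod_type, usq, gsq, ← Finset.sum_add_distrib]
  refine Finset.sum_congr rfl fun i _ => ?_
  rw [Fintype.sum_option, ← real_inner_self_eq_norm_sq, HEx_inner _ _ (h.1 i) (h.1 i)]
  congr 1
  · simp only [sq]
  · refine Finset.sum_congr rfl fun j _ => ?_
    rw [← real_inner_self_eq_norm_sq, HEx_inner _ _ (h.2 i j) (h.2 i j)]
    simp only [sq]

theorem HEx_energy {Ω : Set E3} (lam mu : E3 → ℝ) {z w : HEx_X Ω} {u u' : Fin 3 → E3 → ℝ}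
    {g g' : Fin 3 → Fin 3 → E3 → ℝ} (h : HEx_R z u g) (h' : HEx_R w u' g') :
    energy Ω lam mu (HEx_g z) (HEx_g w) = energy Ω lam mu g g' := by
  rw [energy_congr lam mu _ (H := HEx_g w) h'.2, energy_symm,
    energy_congr lam mu _ (H := HEx_g z) h.2, energy_symm]

theorem HEx_form {Ω : Set E3} (hΩ : IsOpen Ω) (hb : Bornology.IsBounded Ω) {lam mu : E3 → ℝ}
    (hl : Continuous lam) (hm : Continuous mu) : ∃ B : HEx_X Ω →L[ℝ] HEx_X Ω →L[ℝ] ℝ,
      ∀ z w, B z w = energy Ω lam mu (HEx_g z) (HEx_g w) := by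
  obtain ⟨C, hC, h⟩ := energy_bound hΩ hb hl hm
  have e1 : ∀ z w w' : HEx_X Ω, energy Ω lam mu (HEx_g z) (HEx_g (w + w')) =
      energy Ω lam mu (HEx_g z) (HEx_g w) + energy Ω lam mu (HEx_g z) (HEx_g w') := by
    intro z w w'
    rw [HEx_energy lam mu (HEx_self z) (HEx_add (HEx_self w) (HEx_self w')),
      energy_add hΩ hb hl hm (HEx_l2 z) (HEx_l2 w) (HEx_l2 w')]
  have e2 : ∀ (c : ℝ) (z w : HEx_X Ω), energy Ω lam mu (HEx_g z) (HEx_g (c • w)) =
      c • energy Ω lam mu (HEx_g z) (HEx_g w) := by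
    intro c z w
    rw [HEx_energy lam mu (HEx_self z) (HEx_smul c (HEx_self w)), energy_smul, smul_eq_mul]
  have e3 : ∀ z : HEx_X Ω, Real.sqrt (gsq Ω (HEx_g z)) ≤ ‖z‖ := fun z =>
    Real.sqrt_le_iff.2 ⟨norm_nonneg _, by
      rw [HEx_norm (HEx_self z)]
      linarith [usq_nonneg Ω (HEx_u z)]⟩
  refine ⟨(LinearMap.mk₂ ℝ (fun z w : HEx_X Ω => energy Ω lam mu (HEx_g z) (HEx_g w))
    (fun z z' w => by rw [energy_symm, e1, energy_symm _ _ _ (HEx_g z), energy_symm _ _ _ (HEx_g z')])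
    (fun c z w => by rw [energy_symm, e2, energy_symm]) e1 e2).mkContinuous₂ C fun z w => ?_,
    fun _ _ => rfl⟩
  rw [LinearMap.mk₂_apply, Real.norm_eq_abs]
  refine (h _ _ (HEx_l2 z) (HEx_l2 w)).trans ?_
  have := e3 z
  have := e3 w
  gcongr

theorem HEx_grd_add {Ω : Set E3} {ψ ψ' : Fin 3 → E3 → ℝ} (h : ∀ i, IsTest Ω (ψ i))
    (h' : ∀ i, IsTest Ω (ψ' i)) : grd (ψ + ψ') = grd ψ + grd ψ' := by
  funext i j
  exact pd_add (h i).1 (h' i).1 j

theorem HEx_grd_smul {Ω : Set E3} {ψ : Fin 3 → E3 → ℝ} (h : ∀ i, IsTest Ω (ψ i)) (c : ℝ) :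
    grd (c • ψ) = c • grd ψ := by
  funext i j
  exact pd_smul (h i).1 c j

/-- The test fields inside the ambient space. -/
def HEx_S (Ω : Set E3) : Submodule ℝ (HEx_X Ω) where
  carrier := {z | ∃ ψ : Fin 3 → E3 → ℝ, (∀ i, IsTest Ω (ψ i)) ∧ HEx_R z ψ (grd ψ)}
  add_mem' := fun ⟨ψ, h1, h2⟩ ⟨ψ', h1', h2'⟩ => ⟨ψ + ψ', fun i => (h1 i).add (h1' i), by
    rw [HEx_grd_add h1 h1']
    exact HEx_add h2 h2'⟩
  zero_mem' := by
    have h0 : ∀ i, IsTest Ω ((0 : Fin 3 → E3 → ℝ) i) := fun _ => isTest_zero Ω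
    obtain ⟨z, hz⟩ := HEx_lift (fun i => (h0 i).memLp) (l2G_grd h0)
    have h := HEx_smul 0 hz
    rw [← HEx_grd_smul h0, zero_smul] at h
    exact ⟨_, fun i => (h0 i).smul 0, h⟩
  smul_mem' := fun c _ ⟨ψ, h1, h2⟩ => ⟨c • ψ, fun i => (h1 i).smul c, by
    rw [HEx_grd_smul h1]
    exact HEx_smul c h2⟩

theorem HEx_ibp {Ω : Set E3} {ψ φ : E3 → ℝ} (hψ : IsTest Ω ψ) (hφ : IsTest Ω φ) (j : Fin 3) :
    ∫ x in Ω, ψ x * pd j φ x = - ∫ x in Ω, pd j ψ x * φ x := by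
  have k : ∀ {a b : E3 → ℝ}, IsTest Ω a → IsTest Ω b → Integrable fun x => a x * b x :=
    fun ha hb => (ha.1.continuous.mul hb.1.continuous).integrable_of_hasCompactSupport
      ha.2.1.mul_right
  have k' : ∀ {a b : E3 → ℝ}, IsTest Ω a → ∫ x in Ω, a x * b x = ∫ x, a x * b x :=
    fun ha => setIntegral_eq_integral_of_forall_compl_eq_zero fun x hx => by
      rw [image_eq_zero_of_notMem_tsupport fun h => hx (ha.2.2 h), zero_mul]
  rw [k' hψ, k' (hψ.pd j)]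
  exact integral_mul_fderiv_eq_neg_fderiv_mul_of_integrable (k (hψ.pd j) hφ) (k hψ (hφ.pd j))
    (k hψ hφ) (fun x _ => hψ.1.differentiable (by simp) x)
    fun x _ => hφ.1.differentiable (by simp) x

theorem HEx_weak {Ω : Set E3} {z : HEx_X Ω} (hz : z ∈ closure (HEx_S Ω : Set (HEx_X Ω)))
    (i j : Fin 3) {φ : E3 → ℝ} (hφ : IsTest Ω φ) :
    ∫ x in Ω, HEx_u z i x * pd j φ x = - ∫ x in Ω, HEx_g z i j x * φ x := by
  have h1 := (hφ.pd j).memLp.coeFn_toLp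
  have h2 := hφ.memLp.coeFn_toLp
  have hc : IsClosed {z : HEx_X Ω | inner ℝ (z (i, none)) ((hφ.pd j).memLp.toLp _) =
      - inner ℝ (z (i, some j)) (hφ.memLp.toLp _)} := isClosed_eq (by fun_prop) (by fun_prop)
  have h3 : inner ℝ (z (i, none)) ((hφ.pd j).memLp.toLp _) =
      - inner ℝ (z (i, some j)) (hφ.memLp.toLp _) := by
    refine closure_minimal ?_ hc hz
    rintro s ⟨ψ, hψ, hs⟩
    rw [Set.mem_ofPred_eq, HEx_inner _ _ (hs.1 i) h1, HEx_inner _ _ (hs.2 i j) h2]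
    exact HEx_ibp (hψ i) hφ j
  rwa [HEx_inner _ _ ((HEx_self z).1 i) h1, HEx_inner _ _ ((HEx_self z).2 i j) h2] at h3

theorem exists_sol {Ω : Set E3} (hΩ : IsOpen Ω) (hb : Bornology.IsBounded Ω)
    {lam mu : E3 → ℝ} (ha : Admissible Ω lam mu) (f : H1 Ω) :
    ∃ u : H1 Ω, IsSol Ω lam mu u ∧ SameTrace Ω u f := by
  have hl := ha.1.continuous
  have hm := ha.2.1.continuous
  obtain ⟨B, hB⟩ := HEx_form hΩ hb hl hm
  obtain ⟨C, hC, hP⟩ := poincare hΩ hb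
  obtain ⟨c, hc, hK⟩ := korn_coercive hΩ hb ha
  obtain ⟨F, hF⟩ := HEx_lift f.mem_u (g := f.g) f.mem_g
  obtain ⟨z, hz, hz'⟩ := lax_milgram_closure (HEx_S Ω) B (c / (C + 1)) (by positivity)
    (fun s ⟨ψ, hψ, hs⟩ => by
      rw [hB, HEx_energy lam mu hs hs, HEx_norm hs]
      refine le_trans ?_ (hK ψ hψ)
      rw [div_mul_eq_mul_div, div_le_iff₀ (by positivity), mul_assoc]
      refine mul_le_mul_of_nonneg_left ?_ hc.le
      linarith [hP ψ hψ]) F
  have hu : ∀ i, MemLp (HEx_u z i) 2 (volume.restrict Ω) := fun _ => Lp.memLp _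
  refine ⟨⟨f.u - HEx_u z, f.g - HEx_g z, fun i => (f.mem_u i).sub (hu i),
    L2G.sub f.mem_g (HEx_l2 z), fun i j φ hφ => ?_⟩, fun ψ hψ => ?_, fun ε hε => ?_⟩
  · simp only [Pi.sub_apply, sub_mul]
    have k : ∀ {a b : E3 → ℝ}, MemLp a 2 (volume.restrict Ω) → IsTest Ω b →
        Integrable (fun x => a x * b x) (volume.restrict Ω) := fun h1 h2 =>
      h1.integrable_mul h2.memLp
    rw [integral_sub (k (f.mem_u i) (hφ.pd j)) (k (hu i) (hφ.pd j)),
      integral_sub (k (f.mem_g i j) hφ) (k (HEx_l2 z i j) hφ), f.weak i j φ hφ, HEx_weak hz i j hφ]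
    ring
  · obtain ⟨s, hs⟩ := HEx_lift (fun i => (hψ i).memLp) (l2G_grd hψ)
    have h1 := hz' s ⟨ψ, hψ, hs⟩
    rw [hB, hB, HEx_energy lam mu (HEx_self z) hs, HEx_energy lam mu hF hs] at h1
    change energy Ω lam mu (f.g - HEx_g z) (grd ψ) = 0
    rw [energy_symm, energy_sub hΩ hb hl hm (l2G_grd hψ) f.mem_g (HEx_l2 z), energy_symm, ← h1,
      energy_symm, sub_self]
  · obtain ⟨s, ⟨ψ, hψ, hs⟩, hd⟩ := Metric.mem_closure_iff.1 hz _ (Real.sqrt_pos.2 hε)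
    rw [dist_eq_norm, Real.lt_sqrt (norm_nonneg _), HEx_norm (HEx_sub (HEx_self z) hs)] at hd
    refine ⟨(-1 : ℝ) • ψ, fun i => (hψ i).smul _, lt_of_eq_of_lt ?_ hd⟩
    have e : ∀ i j, pd j ((-1 : ℝ) • ψ i) = (-1 : ℝ) • grd ψ i j := fun i j =>
      pd_smul (hψ i).1 _ j
    simp only [e, usq, gsq, Pi.sub_apply, Pi.smul_apply, smul_eq_mul]
    congr 1
    · refine Finset.sum_congr rfl fun i _ => integral_congr_ae (.of_forall fun x => ?_)
      beta_reduce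
      ring
    · refine Finset.sum_congr rfl fun i _ => Finset.sum_congr rfl fun j _ =>
        integral_congr_ae (.of_forall fun x => ?_)
      beta_reduce
      ring

end Vale.Agent.P136
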