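import Vale.Agent.P136.HBil

/-! Poincaré and Korn inequalities for test fields.

Plan. For test functions the integrals over `Ω` equal the integrals over the whole space
(`setIntegral_eq_integral_of_forall_compl_eq_zero`, `image_eq_zero_of_notMem_tsupport`).
`∫ pd j f = 0` for smooth compactly supported `f`
(`integral_bilinear_hasLineDerivAt_right_eq_neg_left_of_integrable` /
`integral_mul_fderiv_eq_neg_fderiv_mul_of_integrable`).
Poincaré: `Ω ⊆ ball 0 R`; `∫ φ² = -∫ 2 x₀ φ ∂₀φ ≤ ∫ (φ²/2 + 2R² (∂₀φ)²)`, so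
`∫ φ² ≤ 4R² ∫ (∂₀φ)²`.
Korn: integrating by parts twice (symmetry of second derivatives, see `dv_comm` in Basic for the
complex analogue) `∫ ∂_jψ_i ∂_iψ_j = ∫ ∂_iψ_i ∂_jψ_j`, so
`∑ ∫ e_ij² = (1/2) gsq + (1/2) ∫ (div ψ)² ≥ gsq / 2`. Pointwise, with `c₀ > 0` a lower bound of
`min (2μ) (3λ + 2μ)` on the compact closure, `λ (tr e)² + 2μ |e|² ≥ c₀ |e|²` because
`(tr e)² ≤ 3 |e|²` (if `λ ≥ 0` trivial, else `λ (tr e)² ≥ 3λ|e|²`). -/

open MeasureTheory Metric Real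
open scoped ContDiff

namespace Vale.Agent.P136

theorem HKorn_smooth {f : E3 → ℝ} (hf : ContDiff ℝ ∞ f) (j : Fin 3) : ContDiff ℝ ∞ (pd j f) :=
  (hf.fderiv_right (m := ∞) (by simp)).clm_apply contDiff_const

theorem HKorn_comm {f : E3 → ℝ} (hf : ContDiff ℝ ∞ f) (i j : Fin 3) :
    pd i (pd j f) = pd j (pd i f) := by
  funext x
  have h2 : ContDiffAt ℝ 2 f x := (hf.of_le (by norm_cast)).contDiffAt
  have hd : DifferentiableAt ℝ (fderiv ℝ f) x :=
    ((hf.fderiv_right (m := ∞) (by simp)).differentiable (by simp)) x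
  have key : ∀ a b : E3, fderiv ℝ (fun y => fderiv ℝ f y b) x a = fderiv ℝ (fderiv ℝ f) x a b := by
    intro a b
    rw [fderiv_clm_apply hd (differentiableAt_const _)]
    simp
  exact (key _ _).trans (((h2.isSymmSndFDerivAt (by simp)).eq _ _).trans (key _ _).symm)

theorem HKorn_ibp {Ω : Set E3} {f g : E3 → ℝ} (hf : ContDiff ℝ ∞ f) (hg : IsTest Ω g) (j : Fin 3) :
    ∫ x in Ω, f x * pd j g x = -∫ x in Ω, pd j f x * g x := by
  have h1 : ∀ {a b : E3 → ℝ}, IsTest Ω b → ∫ x in Ω, a x * b x = ∫ x, a x * b x := fun hb =>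
    setIntegral_eq_integral_of_forall_compl_eq_zero fun x hx => by
      rw [image_eq_zero_of_notMem_tsupport fun h => hx (hb.2.2 h), mul_zero]
  have h2 : ∀ {a b : E3 → ℝ}, ContDiff ℝ ∞ a → IsTest Ω b → Integrable fun x => a x * b x :=
    fun ha hb => (ha.continuous.mul hb.1.continuous).integrable_of_hasCompactSupport hb.2.1.mul_left
  rw [h1 hg, h1 (hg.pd j)]
  exact integral_mul_fderiv_eq_neg_fderiv_mul_of_integrable (h2 (HKorn_smooth hf j) hg)
    (h2 hf (hg.pd j)) (h2 hf hg) (fun x _ => hf.differentiable (by simp) x)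
    fun x _ => hg.1.differentiable (by simp) x

theorem HKorn_io {Ω : Set E3} (hb : Bornology.IsBounded Ω) {f : E3 → ℝ} (hf : Continuous f) :
    IntegrableOn f Ω :=
  (hf.continuousOn.integrableOn_compact hb.isCompact_closure).mono_set subset_closure

theorem HKorn_poin {Ω : Set E3} (hΩ : IsOpen Ω) (hb : Bornology.IsBounded Ω) {R : ℝ}
    (hR : ∀ x ∈ Ω, ‖x‖ ≤ R) {φ : E3 → ℝ} (h : IsTest Ω φ) :
    ∫ x in Ω, φ x ^ 2 ≤ 4 * R ^ 2 * ∫ x in Ω, pd 0 φ x ^ 2 := by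
  have c1 := h.1.continuous
  have c2 := (h.pd 0).1.continuous
  have h1 := HKorn_ibp (f := fun x => x 0) (g := fun x => φ x * φ x)
    (EuclideanSpace.proj (0 : Fin 3) : E3 →L[ℝ] ℝ).contDiff
    ⟨h.1.mul h.1, h.2.1.mul_left, tsupport_mul_subset_left.trans h.2.2⟩ 0
  have h2 : ∀ x, pd 0 (fun x => φ x * φ x) x = 2 * φ x * pd 0 φ x := fun x => by
    have hd := h.1.differentiable (by simp) x
    unfold pd
    rw [fderiv_fun_mul hd hd]
    simp only [add_apply, smul_apply, smul_eq_mul]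
    ring
  have h3 : ∀ x, pd 0 (fun x : E3 => x 0) x = 1 := fun x =>
    (congrArg (· (EuclideanSpace.single 0 1))
      (EuclideanSpace.proj (0 : Fin 3) : E3 →L[ℝ] ℝ).fderiv).trans (by simp)
  simp only [h2, h3, one_mul] at h1
  simp only [← sq] at h1
  have h4 := setIntegral_mono_on (μ := volume) (s := Ω)
    (f := fun x => -(x 0 * (2 * φ x * pd 0 φ x)))
    (g := fun x => 1 / 2 * φ x ^ 2 + 2 * R ^ 2 * pd 0 φ x ^ 2) (HKorn_io hb (by fun_prop))
    (HKorn_io hb (by fun_prop)) hΩ.measurableSet fun x hx => by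
      have h5 : x 0 ^ 2 ≤ R ^ 2 :=
        sq_le_sq' (abs_le.1 ((PiLp.norm_apply_le x 0).trans (hR x hx))).1
          (abs_le.1 ((PiLp.norm_apply_le x 0).trans (hR x hx))).2
      nlinarith [sq_nonneg (φ x + 2 * x 0 * pd 0 φ x),
        mul_le_mul_of_nonneg_right h5 (sq_nonneg (pd 0 φ x))]
  rw [integral_neg, h1, integral_add (HKorn_io hb (by fun_prop)) (HKorn_io hb (by fun_prop)),
    integral_const_mul, integral_const_mul] at h4
  linarith

theorem HKorn_swap {Ω : Set E3} {a b : E3 → ℝ} (ha : IsTest Ω a) (hb : IsTest Ω b) (i j : Fin 3) :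
    ∫ x in Ω, pd j a x * pd i b x = ∫ x in Ω, pd i a x * pd j b x := by
  rw [HKorn_ibp (ha.pd j).1 hb, HKorn_ibp (ha.pd i).1 hb, HKorn_comm ha.1]

theorem HKorn_pt {c l m : ℝ} (hc : 0 < c) (h1 : c ≤ 2 * m) (h2 : c ≤ 3 * l + 2 * m)
    (G : Fin 3 → Fin 3 → ℝ) :
    c / 2 * ∑ i, ∑ j, (G i j ^ 2 + (G i j * G j i - G i i * G j j)) ≤
      l * (∑ i, G i i) * (∑ i, G i i) +
        2 * m * ∑ i, ∑ j, ((G i j + G j i) / 2) * ((G i j + G j i) / 2) := by
  set E := ∑ i, ∑ j, ((G i j + G j i) / 2) * ((G i j + G j i) / 2) with hE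
  set t := ∑ i, G i i with ht
  have e1 : ∑ i, ∑ j, (G i j ^ 2 + (G i j * G j i - G i i * G j j)) = 2 * E - t ^ 2 := by
    simp only [hE, ht, Fin.sum_univ_three]
    ring
  have e2 : t ^ 2 ≤ 3 * E := by
    simp only [hE, ht, Fin.sum_univ_three]
    nlinarith [sq_nonneg (G 0 0 - G 1 1), sq_nonneg (G 0 0 - G 2 2), sq_nonneg (G 1 1 - G 2 2),
      sq_nonneg (G 0 1 + G 1 0), sq_nonneg (G 0 2 + G 2 0), sq_nonneg (G 1 2 + G 2 1)]
  have e3 := sq_nonneg t
  have e4 := mul_nonneg hc.le e3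
  rw [e1]
  rcases le_total 0 l with h | h
  · nlinarith [mul_nonneg h e3, mul_nonneg (sub_nonneg.2 h1) (show 0 ≤ E by linarith)]
  · nlinarith [mul_le_mul_of_nonpos_left e2 h,
      mul_nonneg (sub_nonneg.2 h2) (show 0 ≤ E by linarith)]

theorem poincare {Ω : Set E3} (hΩ : IsOpen Ω) (hb : Bornology.IsBounded Ω) :
    ∃ C : ℝ, 0 ≤ C ∧ ∀ ψ : Fin 3 → E3 → ℝ, (∀ i, IsTest Ω (ψ i)) →
      usq Ω ψ ≤ C * gsq Ω (grd ψ) := by
  obtain ⟨R, hR⟩ := hb.exists_norm_le
  refine ⟨4 * R ^ 2, by positivity, fun ψ hψ => ?_⟩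
  unfold usq gsq
  rw [Finset.mul_sum]
  refine Finset.sum_le_sum fun i _ => (HKorn_poin hΩ hb hR (hψ i)).trans ?_
  exact mul_le_mul_of_nonneg_left (Finset.single_le_sum
    (f := fun j => ∫ x in Ω, grd ψ i j x ^ 2) (fun j _ => integral_nonneg fun x => sq_nonneg _)
    (Finset.mem_univ 0)) (by positivity)

theorem korn_coercive {Ω : Set E3} (hΩ : IsOpen Ω) (hb : Bornology.IsBounded Ω)
    {lam mu : E3 → ℝ} (ha : Admissible Ω lam mu) :
    ∃ c : ℝ, 0 < c ∧ ∀ ψ : Fin 3 → E3 → ℝ, (∀ i, IsTest Ω (ψ i)) →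
      c * gsq Ω (grd ψ) ≤ energy Ω lam mu (grd ψ) (grd ψ) := by
  have c1 := ha.1.continuous
  have c2 := ha.2.1.continuous
  obtain ⟨c, hc, h⟩ := hb.isCompact_closure.exists_forall_le'
    (f := fun x => min (2 * mu x) (3 * lam x + 2 * mu x)) (by fun_prop) (a := 0)
    fun x hx => lt_min (by linarith [(ha.2.2 x hx).1]) (ha.2.2 x hx).2
  refine ⟨c / 2, by positivity, fun ψ hψ => ?_⟩
  have c3 : ∀ i j, Continuous (grd ψ i j) := fun i j => ((hψ i).pd j).1.continuous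
  refine le_of_eq_of_le ?_ (setIntegral_mono_on (HKorn_io hb (by fun_prop))
    (HKorn_io hb (by fun_prop)) hΩ.measurableSet fun x hx =>
      HKorn_pt hc (le_min_iff.1 (h x (subset_closure hx))).1
        (le_min_iff.1 (h x (subset_closure hx))).2 fun i j => grd ψ i j x)
  rw [integral_const_mul, integral_finsetSum _ fun i _ => HKorn_io hb (by fun_prop)]
  refine congrArg _ (Finset.sum_congr rfl fun i _ => ?_)
  rw [integral_finsetSum _ fun j _ => HKorn_io hb (by fun_prop)]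
  refine Finset.sum_congr rfl fun j _ => ?_
  rw [integral_add (HKorn_io hb (by fun_prop)) (HKorn_io hb (by fun_prop)),
    integral_sub (HKorn_io hb (by fun_prop)) (HKorn_io hb (by fun_prop))]
  exact (add_eq_left.2 (sub_eq_zero.2 (HKorn_swap (hψ i) (hψ j) i j))).symm

end Vale.Agent.P136
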