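import Vale.Agent.P136.HTr
import Vale.Agent.P136.HEx

/-! The integral identity for approximate solutions (real version).

Plan. `DN_eq`: if `IsSol u` is any solution chosen in the definition of `DN` for `f`, then for
every `v`, `DN f (tr v) = energy u.g v.g`, because `Quot.out (tr v)` has the same trace as `v`
(`Quot.out_eq`, `tr_eq_iff`) and a solution annihilates differences with equal traces
(`ext_bound` with `ε = 0`; note `IsSol` uses `fun i j => pd j (ψ i)`, which is `grd ψ`).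
Main: let `w₁` be a solution for `(lam₁, mu₁)` with the trace of `u₁` (`exists_sol`), and let
`a₁, a₂` be the solutions for the two media given by `DN_eq` for `f = tr u₂`. Then
`E₁(a₁, w₁) = E₂(a₂, w₁)` and `E₁(a₁, w₁) = E₁(w₁, a₁) = E₁(w₁, a₂)`. With `D₁ = w₁.g - u₁.g`,
`c gsq D₁ ≤ E₁(D₁, D₁) = -E₁(u₁.g, D₁) ≤ Cp ε₁ sqrt (gsq D₁)`, so `sqrt (gsq D₁) ≤ Cp ε₁ / c`; same for
`D₂ = a₂.g - u₂.g`. Expand `E₁(w₁, a₂) - E₂(w₁, a₂) = 0` bilinearly and use `energy_bound`. -/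

open MeasureTheory Metric Real
open scoped ContDiff

namespace Vale.Agent.P136

/-- `u` solves the equation up to an error `ε` in the dual norm. -/
def ApproxR (Ω : Set E3) (lam mu : E3 → ℝ) (G : Fin 3 → Fin 3 → E3 → ℝ) (ε : ℝ) : Prop :=
  ∀ ψ : Fin 3 → E3 → ℝ, (∀ i, IsTest Ω (ψ i)) →
    |energy Ω lam mu G (grd ψ)| ≤ ε * Real.sqrt (usq Ω ψ + gsq Ω (grd ψ))

theorem HMain_sol {Ω : Set E3} (hΩ : IsOpen Ω) (hb : Bornology.IsBounded Ω)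
    {lam mu : E3 → ℝ} (ha : Admissible Ω lam mu) {a u v : H1 Ω} (h : IsSol Ω lam mu a)
    (huv : SameTrace Ω u v) : energy Ω lam mu a.g u.g = energy Ω lam mu a.g v.g := by
  obtain ⟨Cp, -, hC⟩ := ext_bound hΩ hb
  have h1 := hC lam mu ha.1.continuous ha.2.1.continuous a.g 0 a.mem_g le_rfl (fun ψ hψ => by
    rw [zero_mul]
    exact (abs_eq_zero.2 (h ψ hψ)).le) u v huv
  rw [mul_zero, zero_mul, energy_sub hΩ hb ha.1.continuous ha.2.1.continuous a.mem_g u.mem_g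
    v.mem_g] at h1
  exact sub_eq_zero.1 (abs_nonpos_iff.1 h1)

theorem HMain_err {Ω : Set E3} (hΩ : IsOpen Ω) (hb : Bornology.IsBounded Ω)
    {lam mu : E3 → ℝ} (ha : Admissible Ω lam mu) : ∃ C : ℝ, 0 ≤ C ∧ ∀ (u w : H1 Ω) (ε : ℝ), 0 ≤ ε →
      ApproxR Ω lam mu u.g ε → IsSol Ω lam mu w → SameTrace Ω w u →
      Real.sqrt (gsq Ω (w.g - u.g)) ≤ C * ε := by
  obtain ⟨Cp, C0, hC⟩ := ext_bound hΩ hb
  obtain ⟨c, hc, hK⟩ := ext_coercive hΩ hb ha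
  have hl := ha.1.continuous
  have hm := ha.2.1.continuous
  refine ⟨Cp / c, by positivity, fun u w ε hε hu hw hwu => ?_⟩
  have hD : L2G Ω (w.g - u.g) := L2G.sub w.mem_g u.mem_g
  have a1 := hK w u hwu
  have a2 := hC lam mu hl hm u.g ε u.mem_g hε hu w u hwu
  have a3 : energy Ω lam mu w.g (w.g - u.g) = 0 := by
    rw [energy_sub hΩ hb hl hm w.mem_g w.mem_g u.mem_g, HMain_sol hΩ hb ha hw hwu, sub_self]
  rw [energy_sub hΩ hb hl hm hD w.mem_g u.mem_g, energy_symm Ω lam mu _ w.g,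
    energy_symm Ω lam mu _ u.g, a3, ← Real.sq_sqrt (gsq_nonneg Ω (w.g - u.g))] at a1
  obtain ⟨n, hn⟩ : ∃ n, n = Real.sqrt (gsq Ω (w.g - u.g)) := ⟨_, rfl⟩
  rw [← hn] at a1 a2 ⊢
  rw [div_mul_eq_mul_div, le_div_iff₀ hc]
  by_contra h
  have b1 := not_le.1 h
  have b2 : 0 ≤ Cp * ε := by positivity
  have b3 : 0 < n := (mul_pos_iff_of_pos_right hc).1 (lt_of_le_of_lt b2 b1)
  have b4 := mul_lt_mul_of_pos_right b1 b3
  nlinarith [(abs_le.1 a2).1]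

theorem HMain_exp {Ω : Set E3} (hΩ : IsOpen Ω) (hb : Bornology.IsBounded Ω)
    {lam mu : E3 → ℝ} (ha : Admissible Ω lam mu) : ∃ K : ℝ, 0 ≤ K ∧
      ∀ (G H G' H' : Fin 3 → Fin 3 → E3 → ℝ) (a b : ℝ), L2G Ω G → L2G Ω H → L2G Ω G' → L2G Ω H' →
      Real.sqrt (gsq Ω (G' - G)) ≤ a → Real.sqrt (gsq Ω (H' - H)) ≤ b →
      |energy Ω lam mu G' H' - energy Ω lam mu G H| ≤
        K * ((Real.sqrt (gsq Ω G) + a) * b + a * Real.sqrt (gsq Ω H)) := by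
  have hl := ha.1.continuous
  have hm := ha.2.1.continuous
  obtain ⟨K, K0, hB⟩ := energy_bound hΩ hb hl hm
  refine ⟨K, K0, fun G H G' H' a b hG hH hG' hH' h1 h2 => ?_⟩
  have a0 : 0 ≤ a := (Real.sqrt_nonneg _).trans h1
  have a1 := hB _ _ hG' (hH'.sub hH)
  have a2 := hB _ _ hH (hG'.sub hG)
  have a3 : Real.sqrt (gsq Ω G') ≤ Real.sqrt (gsq Ω G) + a := by
    have := sqrt_gsq_add hG (hG'.sub hG)
    rw [add_sub_cancel] at this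
    linarith
  have a4 := a1.trans (mul_le_mul (mul_le_mul_of_nonneg_left a3 K0) h2 (Real.sqrt_nonneg _)
    (by positivity))
  have a5 := a2.trans (mul_le_mul_of_nonneg_left h1 (by positivity))
  rw [energy_sub hΩ hb hl hm hG' hH' hH] at a4
  rw [energy_sub hΩ hb hl hm hH hG' hG, energy_symm Ω lam mu H G', energy_symm Ω lam mu H G] at a5
  have a6 := abs_le.1 a4
  have a7 := abs_le.1 a5
  rw [abs_le]
  constructor <;> linarith [a6.1, a6.2, a7.1, a7.2]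

theorem DN_eq {Ω : Set E3} (hΩ : IsOpen Ω) (hb : Bornology.IsBounded Ω)
    {lam mu : E3 → ℝ} (ha : Admissible Ω lam mu) (f : H1 Ω) :
    ∃ a : H1 Ω, IsSol Ω lam mu a ∧ SameTrace Ω a f ∧
      ∀ v : H1 Ω, DN Ω lam mu (tr f) (tr v) = energy Ω lam mu a.g v.g := by
  obtain ⟨w, hw, hwf⟩ := exists_sol hΩ hb ha f
  have h : ∃ u : H1 Ω, IsSol Ω lam mu u ∧ tr u = tr f := ⟨w, hw, (tr_eq_iff _ _).2 hwf⟩
  obtain ⟨h1, h2⟩ := Classical.choose_spec h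
  refine ⟨Classical.choose h, h1, (tr_eq_iff _ _).1 h2, fun v => ?_⟩
  unfold DN
  rw [dif_pos h]
  exact HMain_sol hΩ hb ha h1 ((tr_eq_iff _ _).1 (Quot.out_eq (tr v)))

theorem real_identity {Ω : Set E3} (hΩ : IsOpen Ω) (hb : Bornology.IsBounded Ω)
    {lam₁ mu₁ lam₂ mu₂ : E3 → ℝ} (h₁ : Admissible Ω lam₁ mu₁) (h₂ : Admissible Ω lam₂ mu₂)
    (hDN : DN Ω lam₁ mu₁ = DN Ω lam₂ mu₂) :
    ∃ C : ℝ, 0 ≤ C ∧ ∀ (u₁ u₂ : H1 Ω) (ε : ℝ), 0 ≤ ε → ApproxR Ω lam₁ mu₁ u₁.g ε →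
      ApproxR Ω lam₂ mu₂ u₂.g ε →
      |energy Ω lam₁ mu₁ u₁.g u₂.g - energy Ω lam₂ mu₂ u₁.g u₂.g|
        ≤ C * ε * (Real.sqrt (gsq Ω u₁.g) + Real.sqrt (gsq Ω u₂.g) + ε) := by
  obtain ⟨C₁, c1, e1⟩ := HMain_err hΩ hb h₁
  obtain ⟨C₂, c2, e2⟩ := HMain_err hΩ hb h₂
  obtain ⟨K₁, k1, x1⟩ := HMain_exp hΩ hb h₁
  obtain ⟨K₂, k2, x2⟩ := HMain_exp hΩ hb h₂
  refine ⟨(K₁ + K₂) * (C₁ + C₂ + C₁ * C₂), by positivity, fun u₁ u₂ ε hε p1 p2 => ?_⟩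
  obtain ⟨w, hw, hwu⟩ := exists_sol hΩ hb h₁ u₁
  obtain ⟨a₁, -, t1, d1⟩ := DN_eq hΩ hb h₁ u₂
  obtain ⟨a₂, s2, t2, d2⟩ := DN_eq hΩ hb h₂ u₂
  have q1 : energy Ω lam₁ mu₁ w.g a₂.g = energy Ω lam₂ mu₂ w.g a₂.g := by
    rw [HMain_sol hΩ hb h₁ hw ((sameTrace_equiv Ω).trans t2 ((sameTrace_equiv Ω).symm t1)),
      energy_symm, ← d1, hDN, d2, energy_symm]
  have q2 := e1 u₁ w ε hε p1 hw hwu
  have q3 := e2 u₂ a₂ ε hε p2 s2 t2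
  have q4 := abs_le.1 (x1 _ _ _ _ _ _ u₁.mem_g u₂.mem_g w.mem_g a₂.mem_g q2 q3)
  have q5 := abs_le.1 (x2 _ _ _ _ _ _ u₁.mem_g u₂.mem_g w.mem_g a₂.mem_g q2 q3)
  obtain ⟨n₁, hn₁⟩ : ∃ n, n = Real.sqrt (gsq Ω u₁.g) := ⟨_, rfl⟩
  obtain ⟨n₂, hn₂⟩ : ∃ n, n = Real.sqrt (gsq Ω u₂.g) := ⟨_, rfl⟩
  have z1 : 0 ≤ n₁ := hn₁ ▸ Real.sqrt_nonneg _
  have z2 : 0 ≤ n₂ := hn₂ ▸ Real.sqrt_nonneg _
  rw [← hn₁, ← hn₂] at q4 q5 ⊢
  have q6 : (n₁ + C₁ * ε) * (C₂ * ε) + C₁ * ε * n₂ ≤ (C₁ + C₂ + C₁ * C₂) * ε * (n₁ + n₂ + ε) := by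
    have : 0 ≤ ε * (C₁ * (n₁ + ε) + C₂ * (n₂ + ε) + C₁ * C₂ * (n₁ + n₂)) := by positivity
    nlinarith
  have q7 := mul_le_mul_of_nonneg_left q6 (add_nonneg k1 k2)
  rw [abs_le]
  constructor <;> nlinarith [q4.1, q4.2, q5.1, q5.2]

end Vale.Agent.P136
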