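import Vale.Agent.P136.HKorn

/-! Traces: `SameTrace` is an equivalence relation, and estimates for test fields extend to
differences with equal traces.

Plan. Reflexive: `ψ = 0`. Symmetric: `-ψ`. Transitive: `ψ + ψ'`, `(a+b)² ≤ 2a² + 2b²` with
integrability from `MemLp.integrable_sq`. `tr_eq_iff`: `Equivalence.quot_mk_eq_iff`.
`approx_grad`: the second sum in `SameTrace` is `gsq (u.g - v.g - grd ψ)`.
With `D = u.g - v.g` and `ψ` with `s := sqrt (gsq (D - grd ψ))` arbitrarily small: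
`energy G D = energy G (grd ψ) + energy G (D - grd ψ)`, `sqrt (gsq (grd ψ)) ≤ sqrt (gsq D) + s`,
`usq ψ + gsq (grd ψ) ≤ (C + 1) gsq (grd ψ)`; let `s → 0` (`le_of_forall_pos_le_add`).
Similarly for coercivity, using `energy_bound`. -/

open MeasureTheory Metric Real
open scoped ContDiff

namespace Vale.Agent.P136

theorem HTr_two {μ : Measure E3} {a b d : E3 → ℝ} (ha : MemLp a 2 μ) (hb : MemLp b 2 μ)
    (h : ∀ x, d x = a x + b x) :
    ∫ x, d x ^ 2 ∂μ ≤ 2 * ∫ x, a x ^ 2 ∂μ + 2 * ∫ x, b x ^ 2 ∂μ := by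
  rw [← integral_const_mul, ← integral_const_mul,
    ← integral_add (ha.integrable_sq.const_mul _) (hb.integrable_sq.const_mul _)]
  refine integral_mono_of_nonneg (.of_forall fun x => sq_nonneg _)
    ((ha.integrable_sq.const_mul _).add (hb.integrable_sq.const_mul _)) (.of_forall fun x => ?_)
  beta_reduce
  rw [h]
  nlinarith [sq_nonneg (a x - b x)]

theorem HTr_lim {a b k : ℝ} (hk : 0 ≤ k) (h : ∀ s, 0 < s → s ≤ 1 → a ≤ b + k * s) : a ≤ b := by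
  refine le_of_forall_pos_le_add fun δ hδ => ?_
  have h1 := h (min 1 (δ / (k + 1))) (by positivity) (min_le_left _ _)
  have h2 : (k + 1) * min 1 (δ / (k + 1)) ≤ δ := by
    rw [← le_div_iff₀' (by positivity)]
    exact min_le_right _ _
  have h3 : 0 < min 1 (δ / (k + 1)) := by positivity
  nlinarith

theorem sameTrace_equiv (Ω : Set E3) : Equivalence (SameTrace Ω) := by
  refine ⟨fun u ε hε => ⟨0, fun _ => isTest_zero Ω, ?_⟩, fun {u v} h ε hε => ?_,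
    fun {u v w} h h' ε hε => ?_⟩
  · simpa [pd] using hε
  · obtain ⟨ψ, hψ, h1⟩ := h ε hε
    refine ⟨(-1 : ℝ) • ψ, fun i => (hψ i).smul _, lt_of_eq_of_lt ?_ h1⟩
    have e : ∀ i j, pd j ((-1 : ℝ) • ψ i) = (-1 : ℝ) • pd j (ψ i) := fun i j =>
      pd_smul (hψ i).1 _ j
    simp only [e, Pi.smul_apply, smul_eq_mul]
    refine congrArg₂ (· + ·) ?_ ?_
    · refine Finset.sum_congr rfl fun i _ => integral_congr_ae (.of_forall fun x => ?_)
      beta_reduce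
      ring
    · refine Finset.sum_congr rfl fun i _ => Finset.sum_congr rfl fun j _ =>
        integral_congr_ae (.of_forall fun x => ?_)
      beta_reduce
      ring
  · obtain ⟨ψ, hψ, h1⟩ := h (ε / 4) (by positivity)
    obtain ⟨ψ', hψ', h2⟩ := h' (ε / 4) (by positivity)
    refine ⟨ψ + ψ', fun i => (hψ i).add (hψ' i), ?_⟩
    have a1 : (∑ i, ∫ x in Ω, (u.u i x - w.u i x - (ψ + ψ') i x) ^ 2) ≤
        2 * (∑ i, ∫ x in Ω, (u.u i x - v.u i x - ψ i x) ^ 2) +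
        2 * ∑ i, ∫ x in Ω, (v.u i x - w.u i x - ψ' i x) ^ 2 := by
      rw [Finset.mul_sum, Finset.mul_sum, ← Finset.sum_add_distrib]
      refine Finset.sum_le_sum fun i _ => HTr_two
        (((u.mem_u i).sub (v.mem_u i)).sub (hψ i).memLp)
        (((v.mem_u i).sub (w.mem_u i)).sub (hψ' i).memLp) fun x => ?_
      simp only [Pi.add_apply]
      ring
    have a2 : (∑ i, ∑ j, ∫ x in Ω, (u.g i j x - w.g i j x - pd j ((ψ + ψ') i) x) ^ 2) ≤
        2 * (∑ i, ∑ j, ∫ x in Ω, (u.g i j x - v.g i j x - pd j (ψ i) x) ^ 2) +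
        2 * ∑ i, ∑ j, ∫ x in Ω, (v.g i j x - w.g i j x - pd j (ψ' i) x) ^ 2 := by
      rw [Finset.mul_sum, Finset.mul_sum, ← Finset.sum_add_distrib]
      refine Finset.sum_le_sum fun i _ => ?_
      rw [Finset.mul_sum, Finset.mul_sum, ← Finset.sum_add_distrib]
      refine Finset.sum_le_sum fun j _ => HTr_two
        (((u.mem_g i j).sub (v.mem_g i j)).sub ((hψ i).pd j).memLp)
        (((v.mem_g i j).sub (w.mem_g i j)).sub ((hψ' i).pd j).memLp) fun x => ?_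
      rw [Pi.add_apply, pd_add (hψ i).1 (hψ' i).1]
      simp only [Pi.add_apply]
      ring
    linarith

theorem tr_eq_iff {Ω : Set E3} (u v : H1 Ω) : tr u = tr v ↔ SameTrace Ω u v := by
  exact (sameTrace_equiv Ω).quot_mk_eq_iff u v

theorem approx_grad {Ω : Set E3} {u v : H1 Ω} (h : SameTrace Ω u v) (s : ℝ) (hs : 0 < s) :
    ∃ ψ : Fin 3 → E3 → ℝ, (∀ i, IsTest Ω (ψ i)) ∧
      Real.sqrt (gsq Ω (u.g - v.g - grd ψ)) ≤ s := by
  obtain ⟨ψ, hψ, h1⟩ := h (s ^ 2) (by positivity)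
  refine ⟨ψ, hψ, Real.sqrt_le_iff.2 ⟨hs.le, le_trans ?_ h1.le⟩⟩
  exact le_add_of_nonneg_left
    (Finset.sum_nonneg fun _ _ => integral_nonneg fun _ => sq_nonneg _)

theorem HTr_near {Ω : Set E3} {D P : Fin 3 → Fin 3 → E3 → ℝ} (hD : L2G Ω D) (hP : L2G Ω P) :
    Real.sqrt (gsq Ω P) ≤ Real.sqrt (gsq Ω D) + Real.sqrt (gsq Ω (D - P)) ∧
      Real.sqrt (gsq Ω D) ≤ Real.sqrt (gsq Ω P) + Real.sqrt (gsq Ω (D - P)) := by
  constructor
  · have := sqrt_gsq_add hD (hP.sub hD)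
    rwa [add_sub_cancel, ← neg_sub D P, gsq_neg] at this
  · have := sqrt_gsq_add hP (hD.sub hP)
    rwa [add_sub_cancel] at this

theorem ext_bound {Ω : Set E3} (hΩ : IsOpen Ω) (hb : Bornology.IsBounded Ω) :
    ∃ Cp : ℝ, 0 ≤ Cp ∧ ∀ lam mu : E3 → ℝ, Continuous lam → Continuous mu →
      ∀ (G : Fin 3 → Fin 3 → E3 → ℝ) (ε : ℝ), L2G Ω G → 0 ≤ ε →
      (∀ ψ : Fin 3 → E3 → ℝ, (∀ i, IsTest Ω (ψ i)) →
        |energy Ω lam mu G (grd ψ)| ≤ ε * Real.sqrt (usq Ω ψ + gsq Ω (grd ψ))) →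
      ∀ u v : H1 Ω, SameTrace Ω u v →
        |energy Ω lam mu G (u.g - v.g)| ≤ Cp * ε * Real.sqrt (gsq Ω (u.g - v.g)) := by
  obtain ⟨C, hC, hP⟩ := poincare hΩ hb
  refine ⟨Real.sqrt (C + 1), Real.sqrt_nonneg _, fun lam mu hl hm G ε hG hε h u v huv => ?_⟩
  obtain ⟨K, hK, hB⟩ := energy_bound hΩ hb hl hm
  have hD : L2G Ω (u.g - v.g) := L2G.sub u.mem_g v.mem_g
  refine HTr_lim (k := Real.sqrt (C + 1) * ε + K * Real.sqrt (gsq Ω G)) (by positivity)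
    fun s hs _ => ?_
  obtain ⟨ψ, hψ, h1⟩ := approx_grad huv s hs
  have hψ' := l2G_grd hψ
  have a1 := energy_sub hΩ hb hl hm hG hD hψ'
  have a2 := hB G _ hG (hD.sub hψ')
  have a3 := (HTr_near hD hψ').1
  have a4 : Real.sqrt (usq Ω ψ + gsq Ω (grd ψ)) ≤
      Real.sqrt (C + 1) * Real.sqrt (gsq Ω (grd ψ)) := by
    rw [← Real.sqrt_mul (by positivity)]
    exact Real.sqrt_le_sqrt (by linarith [hP ψ hψ])
  have a5 := (h ψ hψ).trans (mul_le_mul_of_nonneg_left (a4.trans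
    (mul_le_mul_of_nonneg_left (a3.trans (add_le_add_right h1 _)) (Real.sqrt_nonneg _))) hε)
  have a6 := a2.trans (mul_le_mul_of_nonneg_left h1 (by positivity))
  rw [a1] at a6
  have a7 := abs_le.1 a5
  have a8 := abs_le.1 a6
  rw [abs_le]
  constructor <;> linarith [a7.1, a7.2, a8.1, a8.2]

theorem ext_coercive {Ω : Set E3} (hΩ : IsOpen Ω) (hb : Bornology.IsBounded Ω)
    {lam mu : E3 → ℝ} (ha : Admissible Ω lam mu) :
    ∃ c : ℝ, 0 < c ∧ ∀ u v : H1 Ω, SameTrace Ω u v →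
      c * gsq Ω (u.g - v.g) ≤ energy Ω lam mu (u.g - v.g) (u.g - v.g) := by
  obtain ⟨c, hc, hK⟩ := korn_coercive hΩ hb ha
  have hl := ha.1.continuous
  have hm := ha.2.1.continuous
  obtain ⟨K, K0, hB⟩ := energy_bound hΩ hb hl hm
  refine ⟨c, hc, fun u v huv => ?_⟩
  have hD : L2G Ω (u.g - v.g) := L2G.sub u.mem_g v.mem_g
  obtain ⟨n, hn⟩ : ∃ n, n = Real.sqrt (gsq Ω (u.g - v.g)) := ⟨_, rfl⟩
  have n0 : 0 ≤ n := hn ▸ Real.sqrt_nonneg _
  refine HTr_lim (k := K * n + K * (n + 1) + 2 * c * (n + 1) + c) (by positivity)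
    fun s hs hs1 => ?_
  obtain ⟨ψ, hψ, h1⟩ := approx_grad huv s hs
  have hψ' := l2G_grd hψ
  have a1 := energy_sub hΩ hb hl hm hD hD hψ'
  have a2 := energy_sub hΩ hb hl hm hψ' hD hψ'
  have a3 := (hB _ _ hD (hD.sub hψ')).trans (mul_le_mul_of_nonneg_left h1 (by positivity))
  have a4 := (hB _ _ hψ' (hD.sub hψ')).trans (mul_le_mul_of_nonneg_left h1 (by positivity))
  obtain ⟨a5, a6⟩ := HTr_near hD hψ'
  have a7 := hK ψ hψ
  rw [a1] at a3
  rw [a2, energy_symm Ω lam mu (grd ψ) (u.g - v.g)] at a4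
  rw [← Real.sq_sqrt (gsq_nonneg Ω (grd ψ))] at a7
  rw [← Real.sq_sqrt (gsq_nonneg Ω (u.g - v.g))]
  rw [← hn] at a3 a5 a6 ⊢
  obtain ⟨m, hm'⟩ : ∃ m, m = Real.sqrt (gsq Ω (grd ψ)) := ⟨_, rfl⟩
  have m0 : 0 ≤ m := hm' ▸ Real.sqrt_nonneg _
  rw [← hm'] at a4 a5 a6 a7
  have b1 : m ≤ n + 1 := by linarith
  have b2 : n ^ 2 ≤ (m + s) ^ 2 := pow_le_pow_left₀ n0 (by linarith) 2
  have b3 := mul_le_mul_of_nonneg_left b2 hc.le
  have b4 := mul_le_mul_of_nonneg_left b1 (mul_nonneg K0 hs.le)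
  have b5 := mul_le_mul_of_nonneg_left b1 (mul_nonneg hc.le hs.le)
  have b6 := mul_le_mul_of_nonneg_left hs1 (mul_nonneg hc.le hs.le)
  have b7 := (abs_le.1 a3).1
  have b8 := (abs_le.1 a4).1
  nlinarith

end Vale.Agent.P136
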