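import Vale.Agent.P136.Med
import Vale.Agent.P136.Jet

/-! Bilinearity and bounds for the coefficients of the pairing.

Plan. `ans`, `al`, `ta`, `EE`, `strain`, `dvg` are additive and homogeneous in the amplitude (unfold,
`Pi.add_apply`, `map_add`, `Derivation.map_smul`, `smul_mul_assoc`, `mul_smul_comm`, `ring`/`module`).
For the bounds introduce
`JB R J := ∃ C ≥ 0, ∀ Y x, ‖x‖ ≤ R → ‖(J Y).1 x‖ ≤ C * sqrt (jetA Y x)` for
`J : (Option (Fin 3) → Sm) → Sm`; it holds for `Y a`, `dd j (Y a)`, `dd i (dd j (Y a))`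
(`sq_le_jet0/1/2`) and is closed under sums, negation, scalars and multiplication by fixed elements of
`Sm` (`Sm.bound`). Then `al · i`, `dd j (ans · i)` (after the Leibniz rule), `strain`, `dvg`, `ta`, `EE`
satisfy `JB`, and a product `c * J Y * J' Z` is bounded by `C (jetA Y + jetA Z)` (AM-GM); a second
predicate for bilinear expressions closed under sums is convenient. -/

open MeasureTheory Metric
open scoped ContDiff

namespace Vale.Agent.P136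

variable (M₁ M₂ : Med) (θ : Fin 3 → ℂ)

theorem IBd_ans_add (M : Med) (Y Y' : Option (Fin 3) → Sm) :
    M.ans (Y + Y') = M.ans Y + M.ans Y' := funext fun i => by
  simp only [Med.ans, Pi.add_apply, map_add]
  ring
theorem IBd_ans_smul (M : Med) (c : ℂ) (Y : Option (Fin 3) → Sm) :
    M.ans (c • Y) = c • M.ans Y := funext fun i => by
  simp only [Med.ans, Pi.smul_apply, Derivation.map_smul, mul_smul_comm, smul_mul_assoc, smul_add,
    smul_sub]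
theorem IBd_al_add (M : Med) (Y Y' : Option (Fin 3) → Sm) :
    M.al (Y + Y') = M.al Y + M.al Y' := funext fun i => by
  simp only [Med.al, Pi.add_apply, map_add]
  ring
theorem IBd_al_smul (M : Med) (c : ℂ) (Y : Option (Fin 3) → Sm) :
    M.al (c • Y) = c • M.al Y := funext fun i => by
  simp only [Med.al, Pi.smul_apply, Derivation.map_smul, mul_smul_comm, smul_add]
theorem IBd_cdot_add (U V : Fin 3 → Sm) : cdot θ (U + V) = cdot θ U + cdot θ V := by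
  simp only [cdot, Pi.add_apply, smul_add, Finset.sum_add_distrib]
theorem IBd_cdot_smul (c : ℂ) (U : Fin 3 → Sm) : cdot θ (c • U) = c • cdot θ U := by
  simp only [cdot, Pi.smul_apply, Finset.smul_sum, smul_comm c]
theorem IBd_strain_add (U V : Fin 3 → Sm) : strain (U + V) = strain U + strain V :=
  funext fun i => funext fun j => by
    simp only [strain, Pi.add_apply, map_add, ← smul_add]
    exact congrArg _ (by ring)
theorem IBd_strain_smul (c : ℂ) (U : Fin 3 → Sm) : strain (c • U) = c • strain U :=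
  funext fun i => funext fun j => by
    simp only [strain, Pi.smul_apply, Derivation.map_smul, ← smul_add, smul_comm c]
theorem IBd_dvg_add (U V : Fin 3 → Sm) : dvg (U + V) = dvg U + dvg V := by
  simp only [dvg, Pi.add_apply, map_add, Finset.sum_add_distrib]
theorem IBd_dvg_smul (c : ℂ) (U : Fin 3 → Sm) : dvg (c • U) = c • dvg U := by
  simp only [dvg, Pi.smul_apply, Derivation.map_smul, Finset.smul_sum]
theorem IBd_ta_add (M : Med) (Y Y' : Option (Fin 3) → Sm) :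
    M.ta θ (Y + Y') = M.ta θ Y + M.ta θ Y' := by
  rw [Med.ta, IBd_al_add, IBd_cdot_add, Med.ta, Med.ta]
theorem IBd_ta_smul (M : Med) (c : ℂ) (Y : Option (Fin 3) → Sm) :
    M.ta θ (c • Y) = c • M.ta θ Y := by
  rw [Med.ta, IBd_al_smul, IBd_cdot_smul, Med.ta]
theorem IBd_EE_add (M : Med) (Y Y' : Option (Fin 3) → Sm) :
    M.EE θ (Y + Y') = M.EE θ Y + M.EE θ Y' := by
  simp only [Med.EE, IBd_ans_add, IBd_strain_add, Pi.add_apply, IBd_cdot_add, smul_add,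
    Finset.sum_add_distrib]
theorem IBd_EE_smul (M : Med) (c : ℂ) (Y : Option (Fin 3) → Sm) :
    M.EE θ (c • Y) = c • M.EE θ Y := by
  simp only [Med.EE, IBd_ans_smul, IBd_strain_smul, Pi.smul_apply, IBd_cdot_smul, Finset.smul_sum,
    smul_comm c]
theorem IBd_Ev_add (M : Med) (Y Y' : Option (Fin 3) → Sm) (v : Fin 3 → Sm) :
    M.Ev θ (Y + Y') v = M.Ev θ Y v + M.Ev θ Y' v := by
  simp only [Med.Ev, IBd_ans_add, IBd_strain_add, Pi.add_apply, add_mul, smul_add,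
    Finset.sum_add_distrib]
theorem IBd_Ev_add' (M : Med) (Y : Option (Fin 3) → Sm) (v v' : Fin 3 → Sm) :
    M.Ev θ Y (v + v') = M.Ev θ Y v + M.Ev θ Y v' := by
  simp only [Med.Ev, Pi.add_apply, mul_add, smul_add, Finset.sum_add_distrib]
theorem IBd_Ev_smul (M : Med) (c : ℂ) (Y : Option (Fin 3) → Sm) (v : Fin 3 → Sm) :
    M.Ev θ (c • Y) v = c • M.Ev θ Y v := by
  simp only [Med.Ev, IBd_ans_smul, IBd_strain_smul, Pi.smul_apply, smul_mul_assoc, Finset.smul_sum,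
    smul_comm c]
theorem IBd_Ev_smul' (M : Med) (c : ℂ) (Y : Option (Fin 3) → Sm) (v : Fin 3 → Sm) :
    M.Ev θ Y (c • v) = c • M.Ev θ Y v := by
  simp only [Med.Ev, Pi.smul_apply, mul_smul_comm, Finset.smul_sum, smul_comm c]

theorem P2_add_left (Y Y' Z : Option (Fin 3) → Sm) :
    P2 M₁ M₂ θ (Y + Y') Z = P2 M₁ M₂ θ Y Z + P2 M₁ M₂ θ Y' Z := by
  simp only [P2, IBd_ta_add, IBd_EE_add, Pi.add_apply]
  ring

theorem P2_add_right (Y Z Z' : Option (Fin 3) → Sm) :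
    P2 M₁ M₂ θ Y (Z + Z') = P2 M₁ M₂ θ Y Z + P2 M₁ M₂ θ Y Z' := by
  simp only [P2, IBd_ta_add, IBd_EE_add, Pi.add_apply]
  ring

theorem P2_smul_left (c : ℂ) (Y Z : Option (Fin 3) → Sm) :
    P2 M₁ M₂ θ (c • Y) Z = c • P2 M₁ M₂ θ Y Z := by
  simp only [P2, IBd_ta_smul, IBd_EE_smul, Pi.smul_apply]
  simp only [Algebra.smul_def]
  ring

theorem P2_smul_right (c : ℂ) (Y Z : Option (Fin 3) → Sm) :
    P2 M₁ M₂ θ Y (c • Z) = c • P2 M₁ M₂ θ Y Z := by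
  simp only [P2, IBd_ta_smul, IBd_EE_smul, Pi.smul_apply]
  simp only [Algebra.smul_def]
  ring

theorem P1_add_left (Y Y' Z : Option (Fin 3) → Sm) :
    P1 M₁ M₂ θ (Y + Y') Z = P1 M₁ M₂ θ Y Z + P1 M₁ M₂ θ Y' Z := by
  simp only [P1, IBd_ta_add, IBd_ans_add, IBd_al_add, IBd_dvg_add, IBd_Ev_add, IBd_Ev_add']
  ring

theorem P1_add_right (Y Z Z' : Option (Fin 3) → Sm) :
    P1 M₁ M₂ θ Y (Z + Z') = P1 M₁ M₂ θ Y Z + P1 M₁ M₂ θ Y Z' := by
  simp only [P1, IBd_ta_add, IBd_ans_add, IBd_al_add, IBd_dvg_add, IBd_Ev_add, IBd_Ev_add']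
  ring

theorem P1_smul_left (c : ℂ) (Y Z : Option (Fin 3) → Sm) :
    P1 M₁ M₂ θ (c • Y) Z = c • P1 M₁ M₂ θ Y Z := by
  simp only [P1, IBd_ta_smul, IBd_ans_smul, IBd_al_smul, IBd_dvg_smul, IBd_Ev_smul, IBd_Ev_smul']
  simp only [Algebra.smul_def]
  ring

theorem P1_smul_right (c : ℂ) (Y Z : Option (Fin 3) → Sm) :
    P1 M₁ M₂ θ Y (c • Z) = c • P1 M₁ M₂ θ Y Z := by
  simp only [P1, IBd_ta_smul, IBd_ans_smul, IBd_al_smul, IBd_dvg_smul, IBd_Ev_smul, IBd_Ev_smul']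
  simp only [Algebra.smul_def]
  ring

/-- linear bound by the 2-jet -/
def IBd_J (R : ℝ) (J : (Option (Fin 3) → Sm) → Sm) : Prop :=
  ∃ C : ℝ, 0 ≤ C ∧ ∀ Y x, ‖x‖ ≤ R → ‖(J Y).1 x‖ ≤ C * √(jetA Y x)

/-- quadratic bound by the 2-jets -/
def IBd_B (R : ℝ) (J : (Option (Fin 3) → Sm) → (Option (Fin 3) → Sm) → Sm) : Prop :=
  ∃ C : ℝ, 0 ≤ C ∧ ∀ Y Z x, ‖x‖ ≤ R → ‖(J Y Z).1 x‖ ≤ C * (jetA Y x + jetA Z x)

section bd
variable {R : ℝ} {J J' : (Option (Fin 3) → Sm) → Sm}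
  {K K' : (Option (Fin 3) → Sm) → (Option (Fin 3) → Sm) → Sm}

theorem IBd_J0 (R : ℝ) (a : Option (Fin 3)) : IBd_J R fun Y => Y a :=
  ⟨1, zero_le_one, fun Y x _ => by rw [one_mul]; exact Real.le_sqrt_of_sq_le (sq_le_jet0 Y a x)⟩
theorem IBd_J1 (R : ℝ) (j : Fin 3) (a : Option (Fin 3)) : IBd_J R fun Y => dd j (Y a) :=
  ⟨1, zero_le_one, fun Y x _ => by rw [one_mul]; exact Real.le_sqrt_of_sq_le (sq_le_jet1 Y a j x)⟩
theorem IBd_J2 (R : ℝ) (i j : Fin 3) (a : Option (Fin 3)) : IBd_J R fun Y => dd i (dd j (Y a)) :=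
  ⟨1, zero_le_one, fun Y x _ => by
    rw [one_mul]; exact Real.le_sqrt_of_sq_le (sq_le_jet2 Y a i j x)⟩
theorem IBd_J.add (h : IBd_J R J) (h' : IBd_J R J') : IBd_J R fun Y => J Y + J' Y := by
  obtain ⟨C, c0, h⟩ := h
  obtain ⟨C', c0', h'⟩ := h'
  refine ⟨C + C', by positivity, fun Y x hx => ?_⟩
  rw [add_mul]
  exact norm_add_le_of_le (h Y x hx) (h' Y x hx)
theorem IBd_J.mul (h : IBd_J R J) (c : Sm) : IBd_J R fun Y => c * J Y := by
  obtain ⟨C, c0, h⟩ := h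
  obtain ⟨D, d0, hd⟩ := Sm.bound c R
  refine ⟨D * C, by positivity, fun Y x hx => ?_⟩
  rw [mul_assoc]
  exact (norm_mul_le (c.1 x) ((J Y).1 x)).trans (mul_le_mul (hd x hx) (h Y x hx) (norm_nonneg _) d0)
theorem IBd_J.congr (h : IBd_J R J) (e : ∀ Y, J' Y = J Y) : IBd_J R J' := by
  rwa [show J' = J from funext e]
theorem IBd_J.smul (h : IBd_J R J) (c : ℂ) : IBd_J R fun Y => c • J Y :=
  (h.mul (algebraMap ℂ Sm c)).congr fun _ => Algebra.smul_def _ _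
theorem IBd_J.sum {f : Fin 3 → (Option (Fin 3) → Sm) → Sm} (h : ∀ i, IBd_J R (f i)) :
    IBd_J R fun Y => ∑ i, f i Y :=
  (((h 0).add (h 1)).add (h 2)).congr fun _ => Fin.sum_univ_three _

theorem IBd_B.add (h : IBd_B R K) (h' : IBd_B R K') : IBd_B R fun Y Z => K Y Z + K' Y Z := by
  obtain ⟨C, c0, h⟩ := h
  obtain ⟨C', c0', h'⟩ := h'
  refine ⟨C + C', by positivity, fun Y Z x hx => ?_⟩
  rw [add_mul]
  exact norm_add_le_of_le (h Y Z x hx) (h' Y Z x hx)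
theorem IBd_B.mul (h : IBd_B R K) (c : Sm) : IBd_B R fun Y Z => c * K Y Z := by
  obtain ⟨C, c0, h⟩ := h
  obtain ⟨D, d0, hd⟩ := Sm.bound c R
  refine ⟨D * C, by positivity, fun Y Z x hx => ?_⟩
  rw [mul_assoc]
  exact (norm_mul_le (c.1 x) ((K Y Z).1 x)).trans
    (mul_le_mul (hd x hx) (h Y Z x hx) (norm_nonneg _) d0)
theorem IBd_B.congr (h : IBd_B R K) (e : ∀ Y Z, K' Y Z = K Y Z) : IBd_B R K' := by
  rwa [show K' = K from funext fun Y => funext (e Y)]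
theorem IBd_B.smul (h : IBd_B R K) (c : ℂ) : IBd_B R fun Y Z => c • K Y Z :=
  (h.mul (algebraMap ℂ Sm c)).congr fun _ _ => Algebra.smul_def _ _
theorem IBd_B.sum {f : Fin 3 → (Option (Fin 3) → Sm) → (Option (Fin 3) → Sm) → Sm}
    (h : ∀ i, IBd_B R (f i)) : IBd_B R fun Y Z => ∑ i, f i Y Z :=
  (((h 0).add (h 1)).add (h 2)).congr fun _ _ => Fin.sum_univ_three _
theorem IBd_B.swap (h : IBd_B R K) : IBd_B R fun Y Z => K Z Y := by
  obtain ⟨C, c0, h⟩ := h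
  exact ⟨C, c0, fun Y Z x hx => by rw [add_comm]; exact h Z Y x hx⟩
theorem IBd_J.prod (h : IBd_J R J) (h' : IBd_J R J') : IBd_B R fun Y Z => J Y * J' Z := by
  obtain ⟨C, c0, h⟩ := h
  obtain ⟨C', c0', h'⟩ := h'
  refine ⟨C * C', by positivity, fun Y Z x hx => ?_⟩
  refine ((norm_mul_le ((J Y).1 x) ((J' Z).1 x)).trans
    (mul_le_mul (h Y x hx) (h' Z x hx) (norm_nonneg _) (by positivity))).trans ?_
  rw [mul_mul_mul_comm]
  refine mul_le_mul_of_nonneg_left ?_ (by positivity)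
  have a := Real.sq_sqrt (jetA_nonneg Y x)
  have b := Real.sq_sqrt (jetA_nonneg Z x)
  nlinarith [sq_nonneg (√(jetA Y x) - √(jetA Z x)), jetA_nonneg Y x, jetA_nonneg Z x]
end bd

theorem IBd_al (M : Med) (R : ℝ) (i : Fin 3) : IBd_J R fun Y => M.al Y i :=
  ((IBd_J1 R i none).mul _).add ((IBd_J0 R (some i)).mul _)

theorem IBd_dans (M : Med) (R : ℝ) (i j : Fin 3) : IBd_J R fun Y => dd j (M.ans Y i) :=
  (((((((IBd_J1 R j (some i)).mul M.n).add ((IBd_J0 R (some i)).mul (dd j M.n))).add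
    ((IBd_J2 R j i none).mul M.m)).add ((IBd_J1 R i none).mul (dd j M.m))).add
    ((IBd_J0 R none).mul (-dd j (dd i M.m)))).add ((IBd_J1 R j none).mul (-dd i M.m))).congr
    fun Y => by
      simp only [Med.ans, map_add, map_sub, Derivation.leibniz, smul_eq_mul]
      ring

theorem IBd_strain (M : Med) (R : ℝ) (i j : Fin 3) : IBd_J R fun Y => strain (M.ans Y) i j :=
  ((IBd_dans M R i j).add (IBd_dans M R j i)).smul _

theorem IBd_dvg (M : Med) (R : ℝ) : IBd_J R fun Y => dvg (M.ans Y) :=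
  IBd_J.sum fun j => IBd_dans M R j j

theorem IBd_ta (M : Med) (R : ℝ) : IBd_J R fun Y => M.ta θ Y :=
  IBd_J.sum fun j => (IBd_al M R j).smul _

theorem IBd_EE (M : Med) (R : ℝ) : IBd_J R fun Y => M.EE θ Y :=
  IBd_J.sum fun i => (IBd_J.sum fun j => (IBd_strain M R i j).smul _).smul _

theorem IBd_Ev (M M' : Med) (R : ℝ) : IBd_B R fun Y Z => M.Ev θ Y (M'.al Z) :=
  IBd_B.sum fun i => (IBd_B.sum fun j => (IBd_strain M R i j).prod (IBd_al M' R j)).smul _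

theorem P_bound (R : ℝ) : ∃ C : ℝ, 0 ≤ C ∧ ∀ (Y Z : Option (Fin 3) → Sm) (x : E3), ‖x‖ ≤ R →
    ‖(P2 M₁ M₂ θ Y Z).1 x‖ ≤ C * (jetA Y x + jetA Z x) ∧
    ‖(P1 M₁ M₂ θ Y Z).1 x‖ ≤ C * (jetA Y x + jetA Z x) ∧
    ‖(P0 M₁ M₂ Y Z).1 x‖ ≤ C * (jetA Y x + jetA Z x) := by
  have h2 : IBd_B R (P2 M₁ M₂ θ) :=
    (((((IBd_ta θ M₁ R).prod (IBd_ta θ M₂ R)).mul (-dlam M₁ M₂ - dmu M₁ M₂)).add
      (((IBd_J0 R none).prod (IBd_EE θ M₂ R)).mul (dmu M₁ M₂ * 2 * M₁.m))).add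
      (((IBd_EE θ M₁ R).prod (IBd_J0 R none)).mul (dmu M₁ M₂ * 2 * M₂.m))).congr fun Y Z => by
      unfold P2
      ring
  have h1 : IBd_B R (P1 M₁ M₂ θ) :=
    ((((((IBd_dvg M₁ R).prod (IBd_ta θ M₂ R)).mul (dlam M₁ M₂)).add
      (((IBd_ta θ M₁ R).prod (IBd_dvg M₂ R)).mul (-dlam M₁ M₂))).add
      ((IBd_Ev θ M₁ M₂ R).mul (2 * dmu M₁ M₂))).add
      ((IBd_Ev θ M₂ M₁ R).swap.mul (-(2 * dmu M₁ M₂)))).congr fun Y Z => by
      unfold P1
      ring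
  have h0 : IBd_B R (P0 M₁ M₂) :=
    ((((IBd_dvg M₁ R).prod (IBd_dvg M₂ R)).mul (dlam M₁ M₂)).add
      ((IBd_B.sum fun i => IBd_B.sum fun j => (IBd_strain M₁ R i j).prod (IBd_strain M₂ R i j)).mul
        (2 * dmu M₁ M₂))).congr fun Y Z => by
      unfold P0 form
      ring
  obtain ⟨C2, c2, h2⟩ := h2
  obtain ⟨C1, c1, h1⟩ := h1
  obtain ⟨C0, c0, h0⟩ := h0
  refine ⟨C2 + C1 + C0, by positivity, fun Y Z x hx => ?_⟩
  have a := add_nonneg (jetA_nonneg Y x) (jetA_nonneg Z x)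
  exact ⟨(h2 Y Z x hx).trans (mul_le_mul_of_nonneg_right (by linarith) a),
    (h1 Y Z x hx).trans (mul_le_mul_of_nonneg_right (by linarith) a),
    (h0 Y Z x hx).trans (mul_le_mul_of_nonneg_right (by linarith) a)⟩

theorem ans_bound (M : Med) (R : ℝ) : ∃ C : ℝ, 0 ≤ C ∧ ∀ (Y : Option (Fin 3) → Sm) (x : E3),
    ‖x‖ ≤ R → jet1 (M.ans Y) x ≤ C * jetA Y x := by
  choose C c0 hC using IBd_dans M R
  refine ⟨∑ i, ∑ j, C i j ^ 2, by positivity, fun Y x hx => ?_⟩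
  rw [jet1, Finset.sum_mul]
  refine Finset.sum_le_sum fun i _ => ?_
  rw [Finset.sum_mul]
  refine Finset.sum_le_sum fun j _ => ?_
  rw [← Real.sq_sqrt (jetA_nonneg Y x), ← mul_pow]
  exact pow_le_pow_left₀ (norm_nonneg _) (hC i j Y x hx) 2

end Vale.Agent.P136
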