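import Vale.Agent.P136.IBd
import Vale.Agent.P136.AlgB
import Vale.Agent.P136.AnsW
import Vale.Agent.P136.CGO

/-! Passing to the limit in the integral identity.

Plan. Apply `cgo` for `M₁` with direction `-θ` (`opT A (-θ) Y = -opT A θ Y`, `IsNull (-θ)`) to
`Y₀, Y₁`, and for `M₂` with direction `θ` to `Z₀, Z₁` (`Z₁` from `next_term`). Fix `τ` large and
`η > 0`. For any `δ` we get `Y = Y₀ + τ⁻¹Y₁ + τ⁻²Y'`, `Z = Z₀ + τ⁻¹(Z₁ + τ⁻¹Z')` with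
`∫ jetA Y' ≤ C`, `∫ jetA Z' ≤ C`; all amplitudes `Y, Z, Y₁ + τ⁻¹Y', Z₁ + τ⁻¹Z'` have
`∫_ball jetA ≤ K` with `K` independent of `τ ≥ 1` and `δ` (`jetA_add`, `jetA_smul`). The fields
`U₁ = M₁.ans (ex (τ • -θ) * Y)`, `U₂ = M₂.ans (ex (τ • θ) * Z)` have `∫_Ω jet1 ≤ Mτ` independent of `δ`
(`ans_bound`, `jetA_mul_ex`, `exp (2 Re lin ζ x)` is bounded on the ball), and are `C sqrt δ`
approximate solutions (`approx_ans`; `Approx` is monotone in `ε`). Choose `ε` from `hid Mτ η`, then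
`δ`. By `pairing`, `hP` and bilinearity the density is `τ • (P2 Y₁ Z₀ + P1 Y₀ Z₀) + Rem` with
`Rem = P2 Y₁ Z'' + P2 Y' Z + P1 Y₀ Z'' + P1 (Y₁ + τ⁻¹Y') Z + P0 Y Z`, `Z'' = Z₁ + τ⁻¹Z'`, and
`‖∫ Rem‖ ≤ K'` (`P_bound`). So `τ ‖I‖ ≤ η + K'` for all large `τ` (take `η = 1`), hence `I = 0`. -/

open MeasureTheory Metric
open scoped ContDiff

namespace Vale.Agent.P136

theorem ILim_mono {Ω : Set E3} {R : ℝ} (hsub : Ω ⊆ ball 0 R) (Y : Option (Fin 3) → Sm) :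
    ∫ x in Ω, jetA Y x ≤ ∫ x in ball (0 : E3) R, jetA Y x :=
  setIntegral_mono_set (integrableOn_of_subset_ball (jetA_cont Y) subset_rfl)
    (Filter.Eventually.of_forall fun x => jetA_nonneg Y x) hsub.eventuallyLE

theorem ILim_nonneg (R : ℝ) (Y : Option (Fin 3) → Sm) : 0 ≤ ∫ x in ball (0 : E3) R, jetA Y x :=
  integral_nonneg fun x => jetA_nonneg Y x

theorem ILim_add {R a b : ℝ} {c : ℂ} (hc : ‖c‖ ≤ 1) {Y Z : Option (Fin 3) → Sm}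
    (hY : ∫ x in ball (0 : E3) R, jetA Y x ≤ a) (hZ : ∫ x in ball (0 : E3) R, jetA Z x ≤ b) :
    ∫ x in ball (0 : E3) R, jetA (Y + c • Z) x ≤ 2 * a + 2 * b := by
  have iY : IntegrableOn (jetA Y) (ball (0 : E3) R) :=
    integrableOn_of_subset_ball (jetA_cont Y) subset_rfl
  have iZ : IntegrableOn (jetA Z) (ball (0 : E3) R) :=
    integrableOn_of_subset_ball (jetA_cont Z) subset_rfl
  have h1 : ∫ x in ball (0 : E3) R, jetA (Y + c • Z) x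
      ≤ ∫ x in ball (0 : E3) R, (2 * jetA Y x + 2 * jetA Z x) := by
    refine integral_mono (integrableOn_of_subset_ball (jetA_cont _) subset_rfl)
      ((iY.const_mul 2).add (iZ.const_mul 2)) fun x => ?_
    have h2 := jetA_add Y (c • Z) x
    rw [jetA_smul] at h2
    have h3 : ‖c‖ ^ 2 ≤ 1 := pow_le_one₀ (norm_nonneg _) hc
    have h4 := jetA_nonneg Z x
    have h5 : ‖c‖ ^ 2 * jetA Z x ≤ jetA Z x := by nlinarith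
    change jetA (Y + c • Z) x ≤ 2 * jetA Y x + 2 * jetA Z x
    linarith
  rw [integral_add (iY.const_mul 2) (iZ.const_mul 2), integral_const_mul, integral_const_mul] at h1
  linarith

theorem ILim_P {Ω : Set E3} {R C K : ℝ} (hΩ : IsOpen Ω) (hsub : Ω ⊆ ball 0 R) (hC : 0 ≤ C)
    {f : Sm} {Y Z : Option (Fin 3) → Sm}
    (hf : ∀ x : E3, ‖x‖ ≤ R → ‖f.1 x‖ ≤ C * (jetA Y x + jetA Z x))
    (hY : ∫ x in ball (0 : E3) R, jetA Y x ≤ K) (hZ : ∫ x in ball (0 : E3) R, jetA Z x ≤ K) :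
    ‖∫ x in Ω, f.1 x‖ ≤ C * (2 * K) := by
  have iY : IntegrableOn (jetA Y) Ω := integrableOn_of_subset_ball (jetA_cont Y) hsub
  have iZ : IntegrableOn (jetA Z) Ω := integrableOn_of_subset_ball (jetA_cont Z) hsub
  have h1 : ‖∫ x in Ω, f.1 x‖ ≤ ∫ x in Ω, C * (jetA Y x + jetA Z x) := by
    refine norm_integral_le_of_norm_le ((iY.add iZ).const_mul C) ?_
    refine (ae_restrict_iff' hΩ.measurableSet).2 (Filter.Eventually.of_forall fun x hx => ?_)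
    exact hf x (le_of_lt (mem_ball_zero_iff.1 (hsub hx)))
  rw [integral_const_mul, integral_add iY iZ] at h1
  have h2 := ILim_mono hsub Y
  have h3 := ILim_mono hsub Z
  refine h1.trans (mul_le_mul_of_nonneg_left ?_ hC)
  linarith

theorem ILim_U (M : Med) {Ω : Set E3} {R : ℝ} (hΩ : IsOpen Ω) (hsub : Ω ⊆ ball 0 R)
    (ζ : Fin 3 → ℂ) : ∃ D : ℝ, 0 ≤ D ∧ ∀ Y : Option (Fin 3) → Sm,
      ∫ x in Ω, jet1 (M.ans fun b => ex ζ * Y b) x ≤ D * ∫ x in ball (0 : E3) R, jetA Y x := by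
  obtain ⟨C, hC, hb⟩ := ans_bound M R
  obtain ⟨E, hE, he⟩ := Sm.bound (ex ζ) R
  refine ⟨C * (100 * (1 + ‖ζ‖) ^ 4 * E ^ 2), by positivity, fun Y => ?_⟩
  have iY : IntegrableOn (jetA Y) Ω := integrableOn_of_subset_ball (jetA_cont Y) hsub
  have h1 : ∫ x in Ω, jet1 (M.ans fun b => ex ζ * Y b) x
      ≤ ∫ x in Ω, C * (100 * (1 + ‖ζ‖) ^ 4 * E ^ 2) * jetA Y x := by
    refine setIntegral_mono_on (integrableOn_of_subset_ball (jet1_cont _) hsub)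
      (iY.const_mul _) hΩ.measurableSet fun x hx => ?_
    have hx' : ‖x‖ ≤ R := le_of_lt (mem_ball_zero_iff.1 (hsub hx))
    refine (hb _ x hx').trans ?_
    rw [mul_assoc C]
    refine mul_le_mul_of_nonneg_left ((jetA_mul_ex ζ Y x).trans ?_) hC
    rw [mul_assoc (100 * (1 + ‖ζ‖) ^ 4)]
    refine mul_le_mul_of_nonneg_left ?_ (by positivity)
    refine mul_le_mul_of_nonneg_right ?_ (jetA_nonneg Y x)
    rw [← norm_ex_sq]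
    exact pow_le_pow_left₀ (norm_nonneg _) (he x hx') 2
  rw [integral_const_mul] at h1
  exact h1.trans (mul_le_mul_of_nonneg_left (ILim_mono hsub Y) (by positivity))

theorem ILim_approx {Ω : Set E3} {lam mu : Sm} {U : Fin 3 → Sm} {ε ε' : ℝ}
    (h : Approx Ω lam mu U ε) (hle : ε ≤ ε') : Approx Ω lam mu U ε' := fun ψ hψ =>
  (h ψ hψ).trans (mul_le_mul_of_nonneg_right hle (Real.sqrt_nonneg _))

theorem ILim_iadd {Ω : Set E3} {R : ℝ} (hsub : Ω ⊆ ball 0 R) (f g : Sm) :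
    ∫ x in Ω, (f + g).1 x = (∫ x in Ω, f.1 x) + ∫ x in Ω, g.1 x :=
  integral_add (integrableOn_of_subset_ball (Sm.cont f) hsub)
    (integrableOn_of_subset_ball (Sm.cont g) hsub)

theorem ILim_ismul (Ω : Set E3) (c : ℂ) (f : Sm) :
    ∫ x in Ω, (c • f).1 x = c * ∫ x in Ω, f.1 x := by
  rw [← integral_const_mul]
  rfl

theorem ILim_exp (M₁ M₂ : Med) (θ : Fin 3 → ℂ) {τ : ℂ} (hτ : τ ≠ 0)
    (Y₀ Y₁ Y' Z₀ Z₂ : Option (Fin 3) → Sm) (hP : ∀ Z, P2 M₁ M₂ θ Y₀ Z = 0) :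
    τ ^ 2 • P2 M₁ M₂ θ (Y₀ + τ⁻¹ • (Y₁ + τ⁻¹ • Y')) (Z₀ + τ⁻¹ • Z₂)
      + τ • P1 M₁ M₂ θ (Y₀ + τ⁻¹ • (Y₁ + τ⁻¹ • Y')) (Z₀ + τ⁻¹ • Z₂)
      = τ • (P2 M₁ M₂ θ Y₁ Z₀ + P1 M₁ M₂ θ Y₀ Z₀) + (P2 M₁ M₂ θ Y₁ Z₂
        + P2 M₁ M₂ θ Y' (Z₀ + τ⁻¹ • Z₂) + P1 M₁ M₂ θ Y₀ Z₂
        + P1 M₁ M₂ θ (Y₁ + τ⁻¹ • Y') (Z₀ + τ⁻¹ • Z₂)) := by
  have e1 : P2 M₁ M₂ θ (Y₀ + τ⁻¹ • (Y₁ + τ⁻¹ • Y')) (Z₀ + τ⁻¹ • Z₂)
      = τ⁻¹ • (P2 M₁ M₂ θ Y₁ Z₀ + τ⁻¹ • P2 M₁ M₂ θ Y₁ Z₂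
        + τ⁻¹ • P2 M₁ M₂ θ Y' (Z₀ + τ⁻¹ • Z₂)) := by
    rw [P2_add_left, hP, zero_add, P2_smul_left, P2_add_left, P2_smul_left,
      P2_add_right M₁ M₂ θ Y₁, P2_smul_right]
  have e2 : P1 M₁ M₂ θ (Y₀ + τ⁻¹ • (Y₁ + τ⁻¹ • Y')) (Z₀ + τ⁻¹ • Z₂)
      = P1 M₁ M₂ θ Y₀ Z₀ + τ⁻¹ • P1 M₁ M₂ θ Y₀ Z₂
        + τ⁻¹ • P1 M₁ M₂ θ (Y₁ + τ⁻¹ • Y') (Z₀ + τ⁻¹ • Z₂) := by
    rw [P1_add_left, P1_smul_left, P1_add_right M₁ M₂ θ Y₀, P1_smul_right]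
  rw [e1, e2]
  have h1 : τ * τ⁻¹ = 1 := mul_inv_cancel₀ hτ
  have h2 : τ ^ 2 * τ⁻¹ = τ := by field_simp
  simp only [smul_add, smul_smul, ← mul_assoc, h1, h2, one_smul]
  abel

theorem pair_limit (M₁ M₂ : Med) {Ω : Set E3} {R : ℝ} (hΩ : IsOpen Ω) (hR : 0 < R)
    (hsub : Ω ⊆ ball 0 R) (hid : HId Ω M₁.lam M₁.mu M₂.lam M₂.mu) {θ : Fin 3 → ℂ}
    (hθ : IsNull θ) (h0 : θ ≠ 0) (Y₀ Y₁ Z₀ : Option (Fin 3) → Sm)
    (hY₀ : ∀ a, M₁.Tr θ Y₀ a ∈ van R) (hY₁ : ∀ a, M₁.Tr θ Y₁ a - M₁.B Y₀ a ∈ van R)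
    (hP : ∀ Z, P2 M₁ M₂ θ Y₀ Z = 0) (hZ₀ : ∀ a, M₂.Tr θ Z₀ a ∈ van R) :
    ∫ x in Ω, (P2 M₁ M₂ θ Y₁ Z₀ + P1 M₁ M₂ θ Y₀ Z₀).1 x = 0 := by
  have hθ' : IsNull (-θ) := by
    unfold IsNull at hθ ⊢
    simpa using hθ
  have hneg : ∀ Y a, opT M₁.A (-θ) Y a = -M₁.Tr θ Y a := fun Y a => by
    have := CGO_T_scale M₁.A θ (-1) Y a
    rw [neg_one_smul, neg_one_smul] at this
    exact this
  obtain ⟨C₁, τ₁, H₁⟩ := cgo M₁.A M₁.A₀ hθ' (neg_ne_zero.2 h0) R hR Y₀ Y₁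
    (fun a => by rw [hneg]; exact (van R).neg_mem (hY₀ a))
    (fun a => by
      rw [hneg]
      have := (van R).neg_mem (hY₁ a)
      rw [neg_sub, sub_eq_neg_add] at this
      exact this)
  obtain ⟨Z₁, hZ₁⟩ := next_term M₂.A M₂.A₀ hθ h0 R hR Z₀
  obtain ⟨C₂, τ₂, H₂⟩ := cgo M₂.A M₂.A₀ hθ h0 R hR Z₀ Z₁ hZ₀ hZ₁
  obtain ⟨Cp, hCp, hPb⟩ := P_bound M₁ M₂ θ R
  obtain ⟨A₁, hA₁, ha₁⟩ := approx_ans M₁ hΩ hsub
  obtain ⟨A₂, hA₂, ha₂⟩ := approx_ans M₂ hΩ hsub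
  obtain ⟨K, hK, k1, k2, k3, k4, k5, k6⟩ : ∃ K : ℝ, 0 ≤ K ∧
      (∫ x in ball (0 : E3) R, jetA Y₀ x) ≤ K ∧ (∫ x in ball (0 : E3) R, jetA Y₁ x) ≤ K ∧
      (∫ x in ball (0 : E3) R, jetA Z₀ x) ≤ K ∧ (∫ x in ball (0 : E3) R, jetA Z₁ x) ≤ K ∧
      C₁ ≤ K ∧ C₂ ≤ K := by
    have n1 := ILim_nonneg R Y₀
    have n2 := ILim_nonneg R Y₁
    have n3 := ILim_nonneg R Z₀
    have n4 := ILim_nonneg R Z₁
    have n5 := abs_nonneg C₁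
    have n6 := abs_nonneg C₂
    have n7 := le_abs_self C₁
    have n8 := le_abs_self C₂
    refine ⟨(∫ x in ball (0 : E3) R, jetA Y₀ x) + (∫ x in ball (0 : E3) R, jetA Y₁ x)
      + (∫ x in ball (0 : E3) R, jetA Z₀ x) + (∫ x in ball (0 : E3) R, jetA Z₁ x) + |C₁| + |C₂|,
      ?_, ?_, ?_, ?_, ?_, ?_, ?_⟩ <;> linarith
  generalize hI : (∫ x in Ω, (P2 M₁ M₂ θ Y₁ Z₀ + P1 M₁ M₂ θ Y₀ Z₀).1 x) = I
  have key : ∀ τ : ℝ, τ₁ ≤ τ → τ₂ ≤ τ → 1 ≤ τ → τ * ‖I‖ ≤ 1 + 5 * (Cp * (2 * (10 * K))) := by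
    intro τ t1 t2 t3
    have hτ : (τ : ℂ) ≠ 0 := by
      have : τ ≠ 0 := by linarith
      exact_mod_cast this
    have hc : ‖(τ : ℂ)⁻¹‖ ≤ 1 := by
      rw [norm_inv, Complex.norm_real, Real.norm_of_nonneg (by linarith)]
      exact inv_le_one_of_one_le₀ t3
    obtain ⟨D₁, hD₁, hd₁⟩ := ILim_U M₁ hΩ hsub ((τ : ℂ) • -θ)
    obtain ⟨D₂, hD₂, hd₂⟩ := ILim_U M₂ hΩ hsub ((τ : ℂ) • θ)
    obtain ⟨ε, hε, hE⟩ := hid ((D₁ + D₂) * (10 * K)) 1 one_pos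
    have hA : 0 < A₁ + A₂ + 1 := by linarith
    have hδ : 0 < (ε / (A₁ + A₂ + 1)) ^ 2 := by positivity
    have hs : Real.sqrt ((ε / (A₁ + A₂ + 1)) ^ 2) = ε / (A₁ + A₂ + 1) :=
      Real.sqrt_sq (by positivity)
    have hs1 : A₁ * Real.sqrt ((ε / (A₁ + A₂ + 1)) ^ 2) ≤ ε := by
      rw [hs, ← mul_div_assoc, div_le_iff₀ hA]
      nlinarith
    have hs2 : A₂ * Real.sqrt ((ε / (A₁ + A₂ + 1)) ^ 2) ≤ ε := by
      rw [hs, ← mul_div_assoc, div_le_iff₀ hA]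
      nlinarith
    obtain ⟨Y', hY', hBY⟩ := H₁ τ t1 t3 _ hδ
    obtain ⟨Z', hZ', hBZ⟩ := H₂ τ t2 t3 _ hδ
    have eY : Y₀ + (τ : ℂ)⁻¹ • Y₁ + ((τ : ℂ)⁻¹) ^ 2 • Y'
        = Y₀ + (τ : ℂ)⁻¹ • (Y₁ + (τ : ℂ)⁻¹ • Y') := by
      rw [smul_add, smul_smul, pow_two, add_assoc]
    have eZ : Z₀ + (τ : ℂ)⁻¹ • Z₁ + ((τ : ℂ)⁻¹) ^ 2 • Z'
        = Z₀ + (τ : ℂ)⁻¹ • (Z₁ + (τ : ℂ)⁻¹ • Z') := by
      rw [smul_add, smul_smul, pow_two, add_assoc]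
    rw [eY] at hBY
    rw [eZ] at hBZ
    have bY2 := ILim_add hc k2 (hY'.trans k5)
    have bZ2 := ILim_add hc k4 (hZ'.trans k6)
    have bY := ILim_add hc k1 bY2
    have bZ := ILim_add hc k3 bZ2
    generalize hZ2 : Z₁ + (τ : ℂ)⁻¹ • Z' = Z₂ at hBZ bZ2 bZ
    have q0 : (∫ x in ball (0 : E3) R, jetA Y₀ x) ≤ 10 * K := by linarith
    have q1 : (∫ x in ball (0 : E3) R, jetA Y₁ x) ≤ 10 * K := by linarith
    have q2 : (∫ x in ball (0 : E3) R, jetA Y' x) ≤ 10 * K := by linarith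
    have q3 : (∫ x in ball (0 : E3) R, jetA (Y₁ + (τ : ℂ)⁻¹ • Y') x) ≤ 10 * K := by linarith
    have q4 : (∫ x in ball (0 : E3) R, jetA (Y₀ + (τ : ℂ)⁻¹ • (Y₁ + (τ : ℂ)⁻¹ • Y')) x)
        ≤ 10 * K := by linarith
    have q5 : (∫ x in ball (0 : E3) R, jetA Z₂ x) ≤ 10 * K := by linarith
    have q6 : (∫ x in ball (0 : E3) R, jetA (Z₀ + (τ : ℂ)⁻¹ • Z₂) x) ≤ 10 * K := by linarith
    have hK' : 0 ≤ 10 * K := by linarith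
    have u1 := (hd₁ _).trans ((mul_le_mul_of_nonneg_left q4 hD₁).trans
      (mul_le_mul_of_nonneg_right (le_add_of_nonneg_right hD₂) hK'))
    have u2 := (hd₂ _).trans ((mul_le_mul_of_nonneg_left q6 hD₂).trans
      (mul_le_mul_of_nonneg_right (le_add_of_nonneg_left hD₁) hK'))
    have hmain := hE _ _ u1 u2 (ILim_approx (ha₁ _ _ hBY) hs1) (ILim_approx (ha₂ _ _ hBZ) hs2)
    have hpair := pairing M₁ M₂ hθ (τ : ℂ) (Y₀ + (τ : ℂ)⁻¹ • (Y₁ + (τ : ℂ)⁻¹ • Y'))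
      (Z₀ + (τ : ℂ)⁻¹ • Z₂)
    rw [ILim_exp M₁ M₂ θ hτ Y₀ Y₁ Y' Z₀ Z₂ hP] at hpair
    unfold dlam dmu at hpair
    rw [hpair, ILim_iadd hsub, ILim_iadd hsub, ILim_iadd hsub, ILim_iadd hsub, ILim_iadd hsub,
      ILim_ismul, hI] at hmain
    have r1 := ILim_P hΩ hsub hCp (fun x hx => (hPb Y₁ Z₂ x hx).1) q1 q5
    have r2 := ILim_P hΩ hsub hCp (fun x hx => (hPb Y' _ x hx).1) q2 q6
    have r3 := ILim_P hΩ hsub hCp (fun x hx => (hPb Y₀ Z₂ x hx).2.1) q0 q5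
    have r4 := ILim_P hΩ hsub hCp (fun x hx => (hPb _ _ x hx).2.1) q3 q6
    have r5 := ILim_P hΩ hsub hCp (fun x hx => (hPb _ _ x hx).2.2) q4 q6
    have gen : ∀ a b c d e s : ℂ, ‖s‖ ≤ ‖s + (a + b + c + d) + e‖ + (‖a‖ + ‖b‖ + ‖c‖ + ‖d‖ + ‖e‖) := by
      intro a b c d e s
      have e1 : s = (s + (a + b + c + d) + e) - (a + b + c + d + e) := by ring
      have e2 := norm_sub_le (s + (a + b + c + d) + e) (a + b + c + d + e)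
      rw [← e1] at e2
      have e3 := norm_add_le (a + b + c + d) e
      have e4 := norm_add_le (a + b + c) d
      have e5 := norm_add_le (a + b) c
      have e6 := norm_add_le a b
      linarith
    have fin := (gen _ _ _ _ _ _).trans (add_le_add hmain
      (add_le_add (add_le_add (add_le_add (add_le_add r1 r2) r3) r4) r5))
    rw [norm_mul, Complex.norm_real, Real.norm_of_nonneg (by linarith)] at fin
    linarith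
  by_contra hne
  have hpos : 0 < ‖I‖ := norm_pos_iff.2 hne
  set L := 1 + 5 * (Cp * (2 * (10 * K))) with hL
  have h1 := key (max (max τ₁ τ₂) (max 1 ((L + 1) / ‖I‖)))
    ((le_max_left _ _).trans (le_max_left _ _)) ((le_max_right _ _).trans (le_max_left _ _))
    ((le_max_left _ _).trans (le_max_right _ _))
  have h2 : (L + 1) / ‖I‖ ≤ max (max τ₁ τ₂) (max 1 ((L + 1) / ‖I‖)) :=
    (le_max_right _ _).trans (le_max_right _ _)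
  rw [div_le_iff₀ hpos] at h2
  linarith

end Vale.Agent.P136
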