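import Vale.Agent.P136.TW
import Vale.Agent.P136.Quot

/-! A Bezout identity for functions annihilated by `θ · ∇`.

Plan. The open sets `{y | (d x).1 y ≠ 0}` cover the compact `closedBall 0 (R+1)`; take a finite
subcover `s` (`IsCompact.elim_nhds_subcover`). With `χ` from `exists_cut R` the real function
`q = ∑_{x ∈ s} ‖d x‖² + (1 - Re χ)` is smooth and positive everywhere; let
`φ x := conj (d x) / q ∈ Sm`. On the ball `∑ φ x * d x = 1`, hence (apply `DD_mem_van`)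
`∑ DD (φ x) * d x ∈ van R`. Let `u x y` solve `D u = φ x * D (φ y)` (`solve_prim`) and
`h x = φ x + ∑_{y ∈ s} (u x y - u y x) * d y`. The double sum in `∑ h x * d x` cancels by
antisymmetry (`Finset.sum_comm`), and
`D (h x) ≡ D φ x + φ x * ∑ D (φ y) * d y - D (φ x) * ∑ φ y * d y ≡ 0`.
(The quotient ring of `Quot.lean` may be convenient.) -/

open MeasureTheory Metric
open scoped ContDiff

namespace Vale.Agent.P136

theorem KBez_alg {A ι : Type} [CommRing A] [Algebra ℂ A] (D : Derivation ℂ A A) (s : Finset ι)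
    (φ d : ι → A) (u : ι → ι → A) (h1 : ∑ x ∈ s, φ x * d x = 1) (hd : ∀ x, D (d x) = 0)
    (hu : ∀ x y, D (u x y) = φ x * D (φ y)) (x : ι) :
    D (φ x + ∑ y ∈ s, (u x y - u y x) * d y) = 0 := by
  have h2 : ∑ y ∈ s, D (φ y) * d y = 0 := by
    have := congrArg D h1
    rw [map_sum, Derivation.map_one_eq_zero] at this
    rw [← this]
    refine Finset.sum_congr rfl fun y _ => ?_
    rw [Derivation.leibniz, hd, smul_zero, zero_add, smul_eq_mul, mul_comm]
  have h3 : ∀ y, D ((u x y - u y x) * d y) =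
      φ x * (D (φ y) * d y) - D (φ x) * (φ y * d y) := fun y => by
    rw [Derivation.leibniz, hd, smul_zero, zero_add, smul_eq_mul, map_sub, hu, hu]
    ring
  rw [map_add, map_sum]
  simp only [h3]
  rw [Finset.sum_sub_distrib, ← Finset.mul_sum, ← Finset.mul_sum, h1, h2]
  ring

theorem KBez_anti {A ι : Type} [CommRing A] (s : Finset ι) (φ d : ι → A) (u : ι → ι → A) :
    ∑ x ∈ s, (φ x + ∑ y ∈ s, (u x y - u y x) * d y) * d x = ∑ x ∈ s, φ x * d x := by
  simp only [add_mul, Finset.sum_add_distrib, Finset.sum_mul, sub_mul, Finset.sum_sub_distrib]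
  rw [Finset.sum_comm (f := fun x y => u y x * d y * d x)]
  have : ∑ x ∈ s, ∑ y ∈ s, u x y * d y * d x = ∑ x ∈ s, ∑ y ∈ s, u x y * d x * d y :=
    Finset.sum_congr rfl fun x _ => Finset.sum_congr rfl fun y _ => by ring
  rw [this, sub_self, add_zero]

theorem KBez_part (R : ℝ) (hR : 0 < R) (d : E3 → Sm) (hx : ∀ x, (d x).1 x ≠ 0) :
    ∃ (s : Finset E3) (φ : E3 → Sm), ∑ x ∈ s, φ x * d x - 1 ∈ van R := by
  obtain ⟨s, -, hs⟩ := (isCompact_closedBall (0 : E3) (R + 1)).elim_nhds_subcover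
    (fun x => {y | (d x).1 y ≠ 0}) fun x _ => (Sm.cont (d x)).continuousAt.eventually_ne (hx x)
  obtain ⟨χ, hχ1, hχ0, hχt⟩ := exists_cut R hR
  have hconj : ∀ x, ContDiff ℝ ∞ fun y => (starRingEnd ℂ) ((d x).1 y) := fun x =>
    Complex.conjCLE.contDiff.comp (Sm.smooth (d x))
  let q : E3 → ℂ := fun y => ∑ x ∈ s, (starRingEnd ℂ) ((d x).1 y) * (d x).1 y + (1 - χ.1 y)
  have hq : ContDiff ℝ ∞ q :=
    (ContDiff.sum fun x _ => (hconj x).mul (Sm.smooth (d x))).add (contDiff_const.sub (Sm.smooth χ))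
  have hq0 : ∀ y, q y ≠ 0 := by
    intro y
    obtain ⟨t, t0, t1, ht⟩ := hχt y
    have he : q y = ((∑ x ∈ s, ‖(d x).1 y‖ ^ 2 + (1 - t) : ℝ) : ℂ) := by
      simp only [q, ht, Complex.conj_mul']
      push_cast
      rfl
    rw [he, Complex.ofReal_ne_zero]
    have hn : 0 ≤ ∑ x ∈ s, ‖(d x).1 y‖ ^ 2 := Finset.sum_nonneg fun x _ => by positivity
    by_cases hy : ‖y‖ ≤ R + 1
    · obtain ⟨x, hxs, hxy⟩ := Set.mem_iUnion₂.1 (hs (show y ∈ closedBall (0 : E3) (R + 1) by simpa))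
      have : 0 < ∑ x ∈ s, ‖(d x).1 y‖ ^ 2 :=
        Finset.sum_pos' (fun x _ => by positivity) ⟨x, hxs, pow_pos (norm_pos_iff.2 hxy) 2⟩
      linarith
    · have h0 := hχ0 y (le_of_lt (not_le.1 hy))
      rw [ht, Complex.ofReal_eq_zero] at h0
      rw [h0]
      linarith
  refine ⟨s, fun x => ⟨fun y => (starRingEnd ℂ) ((d x).1 y) * (q y)⁻¹, (hconj x).mul (hq.inv hq0)⟩,
    fun y hy => ?_⟩
  have hy' : ‖y‖ ≤ R := le_of_lt (by simpa using hy)
  change (∑ x ∈ s, (_ : Sm)).1 y - 1 = 0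
  rw [sum_val]
  change ∑ x ∈ s, (starRingEnd ℂ) ((d x).1 y) * (q y)⁻¹ * (d x).1 y - 1 = 0
  have he : q y = ∑ x ∈ s, (starRingEnd ℂ) ((d x).1 y) * (d x).1 y := by
    simp only [q, hχ1 y hy', sub_self, add_zero]
  simp only [mul_right_comm _ (q y)⁻¹]
  rw [← Finset.sum_mul, ← he, mul_inv_cancel₀ (hq0 y), sub_self]

theorem exists_bezout {θ : Fin 3 → ℂ} (hθ : IsNull θ) (h0 : θ ≠ 0) (R : ℝ) (hR : 0 < R)
    (d : E3 → Sm) (hd : ∀ x, DD θ (d x) ∈ van R) (hx : ∀ x, (d x).1 x ≠ 0) :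
    ∃ (s : Finset E3) (h : E3 → Sm), (∀ x, DD θ (h x) ∈ van R) ∧
      ∑ x ∈ s, h x * d x - 1 ∈ van R := by
  obtain ⟨s, φ, hφ⟩ := KBez_part R hR d hx
  choose u hu using fun x y : E3 => solve_prim hθ h0 R hR (φ x * DD θ (φ y))
  refine ⟨s, fun x => φ x + ∑ y ∈ s, (u x y - u y x) * d y, fun x => ?_, by rwa [KBez_anti]⟩
  rw [mem_van_iff, qq_DD]
  simp only [map_add, map_sum, map_mul, map_sub]
  rw [← map_sum, ← map_add]
  refine KBez_alg (DQ R θ) s (fun x => qq R (φ x)) (fun x => qq R (d x))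
    (fun x y => qq R (u x y)) ?_ (fun x => ?_) (fun x y => ?_) x
  · have := sub_mem_van_iff.1 hφ
    simpa only [map_sum, map_mul, map_one] using this
  · rw [← qq_DD]
    exact mem_van_iff.1 (hd x)
  · have := sub_mem_van_iff.1 (hu x y)
    rwa [map_mul, qq_DD, qq_DD] at this

end Vale.Agent.P136
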