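import Vale.Agent.P136.TW
import Vale.Agent.P136.Quot

/-! Frames of solutions that are invertible near a given point.

Plan. Apply `solve_bd` twice with index type `ι × ι` and centre `x₀`:
`Y` solves `D Y = B Y + B` (matrix `tens B 0`, source `B`), `Y'` solves `D Y' = -Y' B - B`
(matrix `tens 0 (fun b b' => -B b' b)`, source `-B`); use `tens_sum`. `C = 1 + Y`, `E = 1 + Y'` as
matrices over `Sm`. The entries of `B` are bounded by some `b` on the ball of radius `R + 1`
(`Sm.bound`-type compactness argument, `one_le_wt`), so the entries of `Y, Y'` at `x₀` have norm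
at most `ε b` (`wt_self`); by continuity of `(Y, Y') ↦ det ((1 + Y') * (1 + Y))` at `0` choose `ε`
first such that this determinant is not zero. `H = E * C` has entries in the subring
`{f | DD θ f ∈ van R}`; hence so do `det H` and `adjugate H` (lift `H` to a matrix over the
subring and use `RingHom.map_det`, `RingHom.map_adjugate`). Put `X = adjugate H * E`, `d = det H`;
`C * X = C * adjugate C * adjugate E * E = det C * det E` (`Matrix.adjugate_mul_distrib`).
The value of `d` at `x₀` is computed with the algebra map `ev x₀` (`AlgHom.map_det`). -/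

open MeasureTheory Metric
open scoped ContDiff

namespace Vale.Agent.P136

/-- The constants of a derivation. -/
def KFr_ker {A : Type} [CommRing A] [Algebra ℂ A] (D : Derivation ℂ A A) : Subring A where
  carrier := {f | D f = 0}
  mul_mem' := fun {f g} (hf : D f = 0) (hg : D g = 0) => by
    change D (f * g) = 0
    rw [Derivation.leibniz, hf, hg, smul_zero, smul_zero, add_zero]
  one_mem' := D.map_one_eq_zero
  add_mem' := fun {f g} (hf : D f = 0) (hg : D g = 0) => by
    change D (f + g) = 0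
    rw [map_add, hf, hg, add_zero]
  zero_mem' := map_zero D
  neg_mem' := fun {f} (hf : D f = 0) => by
    change D (-f) = 0
    rw [map_neg, hf, neg_zero]

theorem KFr_det {A ι : Type} [CommRing A] [Fintype ι] [DecidableEq ι] (S : Subring A)
    (H : Matrix ι ι A) (hH : ∀ a b, H a b ∈ S) : H.det ∈ S := by
  rw [Matrix.det_apply']
  exact S.sum_mem fun σ _ => S.mul_mem (intCast_mem S _) (S.prod_mem fun i _ => hH _ _)

theorem KFr_adj {A ι : Type} [CommRing A] [Fintype ι] [DecidableEq ι] (S : Subring A)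
    (H : Matrix ι ι A) (hH : ∀ a b, H a b ∈ S) (a b : ι) : H.adjugate a b ∈ S := by
  rw [Matrix.adjugate_apply]
  refine KFr_det S _ fun i j => ?_
  rw [Matrix.updateRow_apply]
  split_ifs
  · rw [Pi.single_apply]
    split_ifs
    · exact S.one_mem
    · exact S.zero_mem
  · exact hH _ _

theorem KFr_alg {A ι : Type} [CommRing A] [Algebra ℂ A] [Fintype ι] [DecidableEq ι]
    (D : Derivation ℂ A A) (B C E : Matrix ι ι A) (hC : C.map D = B * C) (hE : E.map D = -(E * B)) :
    D (E * C).det = 0 ∧ ((E * C).adjugate * E).map D + (E * C).adjugate * E * B = 0 := by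
  have hm : ∀ P Q : Matrix ι ι A, (P * Q).map D = P.map D * Q + P * Q.map D := by
    intro P Q
    ext a b
    simp only [Matrix.map_apply, Matrix.mul_apply, Matrix.add_apply, map_sum, Derivation.leibniz,
      smul_eq_mul, ← Finset.sum_add_distrib]
    exact Finset.sum_congr rfl fun c _ => by ring
  have hH : ∀ a b, (E * C) a b ∈ KFr_ker D := fun a b => by
    have : (E * C).map D = 0 := by
      rw [hm, hC, hE, Matrix.neg_mul, Matrix.mul_assoc, neg_add_cancel]
    exact congrFun (congrFun this a) b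
  refine ⟨KFr_det _ _ hH, ?_⟩
  have : (E * C).adjugate.map D = 0 := by
    ext a b
    exact KFr_adj _ _ hH a b
  rw [hm, this, hE, Matrix.zero_mul, zero_add, Matrix.mul_neg, Matrix.mul_assoc, neg_add_cancel]

theorem KFr_small (ι : Type) [Fintype ι] [DecidableEq ι] : ∃ δ : ℝ, 0 < δ ∧
    ∀ Y Z : Matrix ι ι ℂ, (∀ a b, ‖Y a b‖ ≤ δ) → (∀ a b, ‖Z a b‖ ≤ δ) →
      ((1 + Z) * (1 + Y)).det ≠ 0 := by
  let f : (ι → ι → ℂ) → ℂ := fun Y => (1 + Matrix.of Y).det
  have hf : Continuous f := Continuous.matrix_det (continuous_const.add continuous_id)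
  have h0 : f 0 ≠ 0 := by
    have : (Matrix.of (0 : ι → ι → ℂ)) = 0 := rfl
    simp [f, this]
  obtain ⟨δ, hδ, h⟩ := Metric.nhds_basis_closedBall.eventually_iff.1
    (hf.continuousAt.eventually_ne h0)
  have key : ∀ Y : Matrix ι ι ℂ, (∀ a b, ‖Y a b‖ ≤ δ) → (1 + Y).det ≠ 0 := fun Y hY =>
    h (x := fun a b => Y a b) (by
      rw [mem_closedBall, dist_zero_right, pi_norm_le_iff_of_nonneg hδ.le]
      intro a
      rw [pi_norm_le_iff_of_nonneg hδ.le]
      exact hY a)
  refine ⟨δ, hδ, fun Y Z hY hZ => ?_⟩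
  rw [Matrix.det_mul]
  exact mul_ne_zero (key Z hZ) (key Y hY)

theorem KFr_bd {ι : Type} [Fintype ι] (R : ℝ) (B : ι → ι → Sm) :
    ∃ b : ℝ, 0 < b ∧ ∀ a c x, ‖x‖ ≤ R + 1 → ‖(B a c).1 x‖ ≤ b := by
  have hc : Continuous fun x : E3 => fun a c => (B a c).1 x :=
    continuous_pi fun a => continuous_pi fun c => Sm.cont (B a c)
  obtain ⟨C, hC⟩ := (isCompact_closedBall (0 : E3) (R + 1)).exists_bound_of_continuousOn
    hc.continuousOn
  refine ⟨max C 1, lt_of_lt_of_le one_pos (le_max_right _ _), fun a c x hx => ?_⟩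
  refine le_trans ?_ ((hC x (by simpa using hx)).trans (le_max_left _ _))
  exact (norm_le_pi_norm (fun c => (B a c).1 x) c).trans
    (norm_le_pi_norm (fun a c => (B a c).1 x) a)

theorem KFr_sol {ι : Type} [Fintype ι] {θ : Fin 3 → ℂ} (hθ : IsNull θ) (h0 : θ ≠ 0) (R : ℝ)
    (hR : 0 < R) (A : ι → ι → Sm) (ψ : ι → Sm) (b δ : ℝ) (hb : 0 < b) (hδ : 0 < δ)
    (hψ : ∀ a x, ‖x‖ ≤ R + 1 → ‖(ψ a).1 x‖ ≤ b) (x₀ : E3) :
    ∃ Y : ι → Sm, Solves θ R A Y ψ ∧ ∀ a, ‖(Y a).1 x₀‖ ≤ δ := by
  obtain ⟨N, hN, H⟩ := solve_bd hθ h0 A R hR (δ / b) (div_pos hδ hb)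
  obtain ⟨Y, hY, hB⟩ := H N le_rfl x₀ ψ
  refine ⟨Y, hY, fun a => ?_⟩
  have := hB b hb.le (fun a x hx => (hψ a x hx).trans
    (le_mul_of_one_le_right hb.le (one_le_wt hN.le θ x₀ x))) a x₀
  rwa [wt_self, mul_one, div_mul_cancel₀ _ hb.ne'] at this

theorem KFr_one {A ι : Type} [CommRing A] [Algebra ℂ A] [DecidableEq ι] (D : Derivation ℂ A A)
    (P : Matrix ι ι A) : (1 + P).map D = P.map D := by
  ext a c
  simp only [Matrix.map_apply, Matrix.add_apply, map_add, Matrix.one_apply]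
  split_ifs <;> simp

theorem KFr_gen {A A' ι : Type} [CommRing A] [Algebra ℂ A] [CommRing A'] [Algebra ℂ A'] [Fintype ι]
    [DecidableEq ι] (π : A →ₐ[ℂ] A') (D : Derivation ℂ A A) (D' : Derivation ℂ A' A')
    (hD : ∀ f, π (D f) = D' (π f)) (B Y Z : Matrix ι ι A)
    (hY : ∀ a c, π (D (Y a c)) = π (∑ b, B a b * Y b c + B a c))
    (hZ : ∀ a c, π (D (Z a c)) = π (∑ b, -B b c * Z a b + -B a c)) :
    (∀ c a, π (D ((1 + Y) a c)) = π (∑ b, B a b * (1 + Y) b c)) ∧
      (∀ c a, π (D ((((1 + Z) * (1 + Y)).adjugate * (1 + Z)) c a) +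
        ∑ b, (((1 + Z) * (1 + Y)).adjugate * (1 + Z)) c b * B b a) = 0) ∧
      π (D ((1 + Z) * (1 + Y)).det) = 0 := by
  let q : Matrix ι ι A →ₐ[ℂ] Matrix ι ι A' := π.mapMatrix
  have hq : ∀ (P : Matrix ι ι A) a c, q P a c = π (P a c) := fun _ _ _ => rfl
  have hC : (q (1 + Y)).map D' = q B * q (1 + Y) := by
    rw [map_add, map_one, KFr_one, mul_add, mul_one, ← map_mul, ← map_add]
    ext a c
    rw [Matrix.map_apply, hq, hq, ← hD, hY, Matrix.add_apply, Matrix.mul_apply, add_comm]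
  have hE : (q (1 + Z)).map D' = -(q (1 + Z) * q B) := by
    rw [map_add, map_one, KFr_one, add_mul, one_mul, ← map_mul, ← map_add, ← map_neg]
    ext a c
    rw [Matrix.map_apply, hq, hq, ← hD, hZ, Matrix.neg_apply, Matrix.add_apply, Matrix.mul_apply,
      neg_add, add_comm, ← Finset.sum_neg_distrib]
    congr 2
    exact Finset.sum_congr rfl fun b _ => by ring
  obtain ⟨k1, k2⟩ := KFr_alg D' _ _ _ hC hE
  refine ⟨fun c a => ?_, fun c a => ?_, ?_⟩
  · have := congrFun (congrFun hC a) c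
    rw [← map_mul, Matrix.map_apply, hq, hq, ← hD, Matrix.mul_apply] at this
    exact this
  · have := congrFun (congrFun k2 c) a
    rw [← map_mul q, ← AlgHom.map_adjugate, ← map_mul q, ← map_mul q, Matrix.add_apply,
      Matrix.map_apply, hq, hq, ← hD, ← map_add, Matrix.mul_apply (N := B)] at this
    exact this
  · rw [← map_mul q, ← AlgHom.map_det, ← hD] at k1
    exact k1

theorem KFr_inv {A ι : Type} [CommRing A] [Fintype ι] [DecidableEq ι] (C E : Matrix ι ι A)
    (a c : ι) : ∑ b, C a b * ((E * C).adjugate * E) b c = if a = c then (E * C).det else 0 := by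
  have : C * ((E * C).adjugate * E) = (E * C).det • (1 : Matrix ι ι A) := by
    rw [Matrix.adjugate_mul_distrib, ← Matrix.mul_assoc, ← Matrix.mul_assoc, Matrix.mul_adjugate,
      Matrix.mul_assoc, Matrix.adjugate_mul, Matrix.det_mul, smul_mul_smul_comm, mul_one, mul_comm]
  have := congrFun (congrFun this a) c
  rw [Matrix.mul_apply, Matrix.smul_apply, Matrix.one_apply, smul_eq_mul, mul_ite, mul_one,
    mul_zero] at this
  exact this

theorem KFr_ev {A ι : Type} [CommRing A] [Fintype ι] [DecidableEq ι] (π : A →+* ℂ)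
    (Y Z : Matrix ι ι A) :
    π ((1 + Z) * (1 + Y)).det = ((1 + Z.map π) * (1 + Y.map π)).det := by
  rw [RingHom.map_det, map_mul, map_add, map_add, map_one]
  rfl

theorem exists_frame {ι : Type} [Fintype ι] [DecidableEq ι] {θ : Fin 3 → ℂ} (hθ : IsNull θ)
    (h0 : θ ≠ 0) (R : ℝ) (hR : 0 < R) (B : ι → ι → Sm) (x₀ : E3) :
    ∃ (C X : ι → ι → Sm) (d : Sm), (∀ c, Solves θ R B (fun a => C a c) 0) ∧
      (∀ c a, DD θ (X c a) + ∑ b, X c b * B b a ∈ van R) ∧ DD θ d ∈ van R ∧ d.1 x₀ ≠ 0 ∧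
      ∀ a b, ∑ c, C a c * X c b = if a = b then d else 0 := by
  obtain ⟨δ, hδ, hdet⟩ := KFr_small ι
  obtain ⟨b, hb, hB⟩ := KFr_bd R B
  obtain ⟨Y, hY, hY0⟩ := KFr_sol hθ h0 R hR (tens B 0) (fun p => B p.1 p.2) b δ hb hδ
    (fun p => hB p.1 p.2) x₀
  obtain ⟨Z, hZ, hZ0⟩ := KFr_sol hθ h0 R hR (tens 0 fun a c => -B c a) (fun p => -B p.1 p.2) b δ
    hb hδ (fun p x hx => by
      change ‖-(B p.1 p.2).1 x‖ ≤ b
      rw [norm_neg]
      exact hB p.1 p.2 x hx) x₀
  let YM : Matrix ι ι Sm := Matrix.of fun a c => Y (a, c)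
  let ZM : Matrix ι ι Sm := Matrix.of fun a c => Z (a, c)
  obtain ⟨k1, k2, k3⟩ := KFr_gen (A := Sm) (A' := Qr R) (qq R) (DD θ) (DQ R θ) (qq_DD R θ)
    (Matrix.of B) YM ZM
    (fun a c => by
      have := hY (a, c)
      rw [tens_sum, sub_sub, sub_mem_van_iff] at this
      simp only [Pi.zero_apply, zero_mul, Finset.sum_const_zero, add_zero] at this
      exact this)
    (fun a c => by
      have := hZ (a, c)
      rw [tens_sum, sub_sub, sub_mem_van_iff] at this
      simp only [Pi.zero_apply, zero_mul, Finset.sum_const_zero, zero_add] at this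
      exact this)
  refine ⟨fun a c => (1 + YM) a c, fun a c => (((1 + ZM) * (1 + YM)).adjugate * (1 + ZM)) a c,
    ((1 + ZM) * (1 + YM)).det, fun c a => ?_, fun c a => mem_van_iff.2 (k2 c a),
    mem_van_iff.2 k3, ?_, KFr_inv _ _⟩
  · rw [Pi.zero_apply, sub_zero]
    exact sub_mem_van_iff.2 (k1 c a)
  · have := KFr_ev (ev x₀).toRingHom YM ZM
    exact fun h => hdet _ _ (fun a c => hY0 (a, c)) (fun a c => hZ0 (a, c)) (this.symm.trans h)

end Vale.Agent.P136
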