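import Vale.Agent.P136.KFr
import Vale.Agent.P136.KBez
import Vale.Agent.P136.Quot

/-! A functional that kills all products of solutions kills all solutions of the tensor system.

Plan. For each `x₀` take `C, X, d` from `exists_frame` for `B₁`. If `Y` solves the tensor system
(`tens_sum`), then for each `c` the vector `z c b = ∑ a, X c a * Y (a, b)` solves the system `B₂`, and
`d * Y (a, b) = ∑ c, C a c * z c b`, i.e. `d • Y = ∑ c, tp (C · c) (z c)`, so `F (d • Y) = 0`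
(`map_sum`). With `s, h` from `exists_bezout`, `h x • Y` again solves the tensor system and
`Y ≡ ∑_{x ∈ s} d x • (h x • Y)` modulo `van R`. -/

open MeasureTheory Metric
open scoped ContDiff

namespace Vale.Agent.P136

theorem KMain_row {ι κ : Type} [Fintype ι] [DecidableEq ι] [Fintype κ] [DecidableEq κ]
    {θ : Fin 3 → ℂ} {R : ℝ} {B₁ : ι → ι → Sm} {B₂ : κ → κ → Sm} {X : ι → Sm}
    (hX : ∀ a, DD θ (X a) + ∑ b, X b * B₁ b a ∈ van R) {Y : ι × κ → Sm}
    (hY : Solves θ R (tens B₁ B₂) Y 0) : Solves θ R B₂ (fun b => ∑ a, X a * Y (a, b)) 0 := by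
  intro b
  have h1 : ∑ a, (DD θ (X a) + ∑ b, X b * B₁ b a) * Y (a, b) ∈ van R :=
    Ideal.sum_mem _ fun a _ => Ideal.mul_mem_right _ _ (hX a)
  have h2 : ∑ a, X a * (DD θ (Y (a, b)) - ∑ q, tens B₁ B₂ (a, b) q * Y q - 0) ∈ van R :=
    Ideal.sum_mem _ fun a _ => Ideal.mul_mem_left _ _ (hY (a, b))
  have e1 : ∑ a, (∑ a', X a' * B₁ a' a) * Y (a, b) = ∑ a, X a * ∑ a', B₁ a a' * Y (a', b) := by
    simp only [Finset.sum_mul, Finset.mul_sum, mul_assoc]
    exact Finset.sum_comm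
  have e2 : ∑ b', B₂ b b' * ∑ a, X a * Y (a, b') = ∑ a, X a * ∑ b', B₂ b b' * Y (a, b') := by
    simp only [Finset.mul_sum, mul_left_comm (B₂ b _)]
    exact Finset.sum_comm
  have e3 : DD θ (∑ a, X a * Y (a, b)) =
      ∑ a, X a * DD θ (Y (a, b)) + ∑ a, DD θ (X a) * Y (a, b) := by
    rw [map_sum, ← Finset.sum_add_distrib]
    refine Finset.sum_congr rfl fun a _ => ?_
    rw [Derivation.leibniz, smul_eq_mul, smul_eq_mul, mul_comm (Y (a, b))]
  have h3 := (van R).add_mem h1 h2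
  simp only [tens_sum, add_mul, mul_sub, mul_add, sub_zero, Finset.sum_add_distrib,
    Finset.sum_sub_distrib, e1] at h3
  change DD θ (∑ a, X a * Y (a, b)) - ∑ b', B₂ b b' * ∑ a, X a * Y (a, b') - 0 ∈ van R
  rw [e2, e3]
  refine (congrArg (· ∈ van R) ?_).mp h3
  ring

theorem KMain_mul {ι : Type} [Fintype ι] {θ : Fin 3 → ℂ} {R : ℝ} {B : ι → ι → Sm} {h : Sm}
    (hh : DD θ h ∈ van R) {Y : ι → Sm} (hY : Solves θ R B Y 0) :
    Solves θ R B (fun p => h * Y p) 0 := by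
  intro a
  have h3 := (van R).add_mem (Ideal.mul_mem_left _ h (hY a)) (Ideal.mul_mem_left _ (Y a) hh)
  change DD θ (h * Y a) - ∑ b, B a b * (h * Y b) - 0 ∈ van R
  simp only [mul_left_comm _ h, ← Finset.mul_sum]
  rw [Derivation.leibniz, smul_eq_mul, smul_eq_mul]
  refine (congrArg (· ∈ van R) ?_).mp h3
  rw [Pi.zero_apply]
  ring

theorem kernel_vanish {ι κ : Type} [Fintype ι] [DecidableEq ι] [Fintype κ] [DecidableEq κ]
    {θ : Fin 3 → ℂ} (hθ : IsNull θ) (h0 : θ ≠ 0) (R : ℝ) (hR : 0 < R)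
    (B₁ : ι → ι → Sm) (B₂ : κ → κ → Sm) (F : (ι × κ → Sm) →+ ℂ)
    (hF : ∀ Y, (∀ p, Y p ∈ van R) → F Y = 0)
    (hprod : ∀ y z, Solves θ R B₁ y 0 → Solves θ R B₂ z 0 → F (tp y z) = 0)
    (Y : ι × κ → Sm) (hY : Solves θ R (tens B₁ B₂) Y 0) : F Y = 0 := by
  choose C X d hC hX hd hx hCX using exists_frame hθ h0 R hR B₁
  have h1 : ∀ x (W : ι × κ → Sm), Solves θ R (tens B₁ B₂) W 0 → F (fun p => d x * W p) = 0 := by
    intro x W hW
    have e : (fun p => d x * W p) =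
        ∑ c, tp (fun a => C x a c) fun b => ∑ a, X x c a * W (a, b) := by
      funext p
      rw [Finset.sum_apply]
      simp only [tp, Finset.mul_sum, ← mul_assoc]
      rw [Finset.sum_comm]
      simp only [← Finset.sum_mul, hCX, ite_mul, zero_mul, Finset.sum_ite_eq, Finset.mem_univ,
        if_true]
    rw [e, map_sum]
    exact Finset.sum_eq_zero fun c _ => hprod _ _ (hC x c) (KMain_row (hX x c) hW)
  obtain ⟨s, h, hh, hs⟩ := exists_bezout hθ h0 R hR d hd hx
  have h2 : F (∑ x ∈ s, fun p => d x * (h x * Y p)) = 0 := by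
    rw [map_sum]
    exact Finset.sum_eq_zero fun x _ => h1 x _ (KMain_mul (hh x) hY)
  have h3 := hF ((∑ x ∈ s, fun p => d x * (h x * Y p)) - Y) fun p => by
    refine (congrArg (· ∈ van R) ?_).mp (Ideal.mul_mem_right (Y p) _ hs)
    rw [Pi.sub_apply, Finset.sum_apply, sub_mul, one_mul, Finset.sum_mul]
    congr 1
    exact Finset.sum_congr rfl fun x _ => by ring
  rwa [map_sub, h2, zero_sub, neg_eq_zero] at h3

end Vale.Agent.P136
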