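import Vale.Agent.P136.LDefs
import Vale.Agent.P136.Quot

/-! Algebraic facts on the tensor transport system.

Plan. Unfold, `Fin.sum_univ_two`, `Fin.sum_univ_three`, `Fintype.sum_option`, `fin_cases`,
`Complex.I_sq` / `Complex.I_mul_I`, `ring` / `linear_combination`; scalar multiples in `Sm` can be
handled with `Algebra.smul_def` and `map_mul`, `map_add` for `algebraMap`, or with `module`.
For the `Solves` statements either use ideal membership (`Ideal.add_mem`, `Ideal.mul_mem_left`,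
`smul_mem_van`) after exhibiting the expression as a combination of the hypotheses, or pass to the
quotient ring (`mem_van_iff`, `qq_DD`). `tens_sum` computes the tensor matrix. -/

open MeasureTheory Metric
open scoped ContDiff

namespace Vale.Agent.P136

theorem LBas_th0 (p : ℂ × ℂ) : th p 0 = p.1 ^ 2 - p.2 ^ 2 := by
  simp [th, va, vb, vc]; ring
theorem LBas_th1 (p : ℂ × ℂ) : th p 1 = Complex.I * (p.1 ^ 2 + p.2 ^ 2) := by
  simp [th, va, vb, vc]; ring
theorem LBas_th2 (p : ℂ × ℂ) : th p 2 = 2 * p.1 * p.2 := by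
  simp [th, va, vb, vc]
theorem LBas_eta0 (p : ℂ × ℂ) (j : Fin 3) : eta p 0 j = p.1 * va j + p.2 * vb j := rfl
theorem LBas_eta1 (p : ℂ × ℂ) (j : Fin 3) : eta p 1 j = p.1 * vb j + p.2 * vc j := rfl
theorem LBas_pc0 (p : ℂ × ℂ) : pc p 0 = p.1 := rfl
theorem LBas_pc1 (p : ℂ × ℂ) : pc p 1 = p.2 := rfl

theorem LBas_mem {R : ℝ} {f g : Sm} (h : f ∈ van R) (e : g = f) : g ∈ van R := e ▸ h

theorem th_null (p : ℂ × ℂ) : IsNull (th p) := by
  rw [IsNull, Fin.sum_univ_three, LBas_th0, LBas_th1, LBas_th2]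
  linear_combination (p.1 ^ 2 + p.2 ^ 2) ^ 2 * Complex.I_sq
theorem th_ne {p : ℂ × ℂ} (hp : p ≠ 0) : th p ≠ 0 := by
  intro h
  have h0 : p.1 ^ 2 - p.2 ^ 2 = 0 := (LBas_th0 p).symm.trans (congrFun h 0)
  have h1 : Complex.I * (p.1 ^ 2 + p.2 ^ 2) = 0 := (LBas_th1 p).symm.trans (congrFun h 1)
  have h2 := (mul_eq_zero.1 h1).resolve_left Complex.I_ne_zero
  have h3 : p.1 ^ 2 = 0 := by linear_combination (h0 + h2) / 2
  have h4 : p.2 ^ 2 = 0 := by linear_combination (h2 - h0) / 2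
  exact hp (Prod.ext (pow_eq_zero_iff two_ne_zero |>.1 h3) (pow_eq_zero_iff two_ne_zero |>.1 h4))
theorem th_zero : th 0 = 0 := by
  funext j
  simp [th]
theorem th_smul (c : ℂ) (p : ℂ × ℂ) (j : Fin 3) : th (c • p) j = c ^ 2 * th p j := by
  simp only [th, Prod.smul_fst, Prod.smul_snd, smul_eq_mul]
  ring
theorem eta_smul (c : ℂ) (p : ℂ × ℂ) (A : Fin 2) (j : Fin 3) :
    eta (c • p) A j = c * eta p A j := by
  revert A
  rw [Fin.forall_fin_two]
  simp only [LBas_eta0, LBas_eta1, Prod.smul_fst, Prod.smul_snd, smul_eq_mul]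
  constructor <;> ring
theorem pc_smul (c : ℂ) (p : ℂ × ℂ) (A : Fin 2) : pc (c • p) A = c * pc p A := by
  revert A
  rw [Fin.forall_fin_two]
  exact ⟨rfl, rfl⟩
theorem th_eq_sum (p : ℂ × ℂ) (j : Fin 3) : th p j = ∑ A, pc p A * eta p A j := by
  rw [Fin.sum_univ_two, LBas_eta0, LBas_eta1, LBas_pc0, LBas_pc1, th]
  ring
theorem th_eta (p : ℂ × ℂ) (A : Fin 2) : ∑ j, th p j * eta p A j = 0 := by
  revert A
  rw [Fin.forall_fin_two]
  simp only [Fin.sum_univ_three, LBas_th0, LBas_th1, LBas_th2, LBas_eta0, LBas_eta1]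
  simp [va, vb, vc]
  constructor
  · linear_combination (p.1 ^ 2 + p.2 ^ 2) * p.1 * Complex.I_sq
  · linear_combination (p.1 ^ 2 + p.2 ^ 2) * p.2 * Complex.I_sq
theorem th_contDiff (j : Fin 3) : ContDiff ℂ ∞ fun p => th p j := by
  unfold th
  fun_prop
theorem eta_contDiff (A : Fin 2) (j : Fin 3) : ContDiff ℂ ∞ fun p => eta p A j := by
  revert A
  rw [Fin.forall_fin_two]
  simp only [LBas_eta0, LBas_eta1]
  constructor <;> fun_prop
theorem pc_contDiff (A : Fin 2) : ContDiff ℂ ∞ fun p => pc p A := by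
  revert A
  rw [Fin.forall_fin_two]
  exact ⟨contDiff_fst, contDiff_snd⟩

theorem cdot_rv (p : ℂ × ℂ) (y : Option (Fin 2) → Sm) : cdot (th p) (rv p y) = 0 := by
  simp only [cdot, rv, Finset.smul_sum, smul_smul]
  rw [Finset.sum_comm]
  simp only [← Finset.sum_smul, th_eta, zero_smul, Finset.sum_const_zero]

theorem rv_emb (p : ℂ × ℂ) (y : Option Unit → Sm) (i : Fin 3) :
    rv p (emb p y) i = th p i • y (some ()) := by
  simp only [rv, emb, smul_smul, th_eq_sum, Finset.sum_smul, mul_comm]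

theorem LBas_cdot_th (p : ℂ × ℂ) (u : Fin 3 → Sm) :
    cdot (th p) u = pc p 0 • cdot (eta p 0) u + pc p 1 • cdot (eta p 1) u := by
  simp only [cdot, th_eq_sum, Fin.sum_univ_three, Fin.sum_univ_two]
  module

theorem solves_emb {e : Sm} {l : Fin 3 → Sm} {T : Fin 3 → Fin 3 → Sm} {p : ℂ × ℂ} {R : ℝ}
    {y ψ : Option Unit → Sm} (h : Solves (th p) R (Bsub e l T p) y ψ) :
    Solves (th p) R (B1of e l T p) (emb p y) (emb p ψ) := by
  rintro (_ | A)
  · refine LBas_mem (h none) ?_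
    simp only [Fintype.sum_option, Fintype.sum_unique, B1of, Bsub, emb, Fin.sum_univ_two,
      Fin.sum_univ_three, LBas_cdot_th]
    simp only [Algebra.smul_def]
    ring
  · refine LBas_mem (smul_mem_van (pc p A) (h (some ()))) ?_
    simp only [Fintype.sum_option, Fintype.sum_unique, B1of, Bsub, emb, Fin.sum_univ_two,
      LBas_cdot_th, Derivation.map_smul]
    simp only [Algebra.smul_def]
    ring

theorem solves_rv {e : Sm} {l : Fin 3 → Sm} {T : Fin 3 → Fin 3 → Sm} {p : ℂ × ℂ} {R : ℝ}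
    {y : Option (Fin 2) → Sm} (h : Solves (th p) R (B1of e l T p) y 0) :
    DD (th p) (y none) - ∑ i, th p i • ∑ j, T i j * rv p y j ∈ van R ∧
      ∀ i, DD (th p) (rv p y i) - th p i • (e * y none + ∑ j, l j * rv p y j) ∈ van R := by
  refine ⟨LBas_mem (h none) ?_, fun i => LBas_mem ((van R).add_mem
    (smul_mem_van (eta p 0 i) (h (some 0))) (smul_mem_van (eta p 1 i) (h (some 1)))) ?_⟩
  · simp only [Fintype.sum_option, B1of, rv, cdot, Fin.sum_univ_two, Fin.sum_univ_three,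
      Pi.zero_apply]
    simp only [Algebra.smul_def]
    ring
  · simp only [Fintype.sum_option, B1of, rv, cdot, Fin.sum_univ_two, Fin.sum_univ_three,
      Pi.zero_apply, map_add, Derivation.map_smul, th_eq_sum]
    simp only [Algebra.smul_def, map_add, map_mul]
    ring

theorem solves_tp_cvec {ι : Type} [Fintype ι] [DecidableEq ι] {e : Sm} {l : Fin 3 → Sm}
    {T : Fin 3 → Fin 3 → Sm} {θ v : Fin 3 → ℂ} {R : ℝ} {B : ι → ι → Sm} {y ψ : ι → Sm}
    (h : Solves θ R B y ψ) (hv : ∑ j, θ j * v j = 0) :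
    Solves θ R (tens B (B2of e l T θ)) (tp y (cvec v)) (tp ψ (cvec v)) := by
  have hv' := congrArg (algebraMap ℂ Sm) hv
  simp only [Fin.sum_univ_three, map_add, map_mul, map_zero] at hv'
  rintro ⟨a, _ | j⟩
  · refine LBas_mem (van R).zero_mem ?_
    rw [tens_sum]
    simp only [tp, cvec, B2of, Fintype.sum_option, Fin.sum_univ_three, mul_zero, map_zero,
      Finset.sum_const_zero]
    simp only [Algebra.smul_def]
    linear_combination e * y a * hv'
  · refine LBas_mem (smul_mem_van (v j) (h a)) ?_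
    rw [tens_sum]
    simp only [tp, cvec, B2of, Fintype.sum_option, Fin.sum_univ_three, mul_zero, mul_smul_comm,
      mul_one, Derivation.map_smul, ← Finset.smul_sum]
    simp only [Algebra.smul_def]
    linear_combination l j * y a * hv'

/-- Embedding of tensors over the subsystem. -/
noncomputable def embT (p : ℂ × ℂ) (y : Option Unit × Option (Fin 3) → Sm) (q : Ix) : Sm :=
  emb p (fun c => y (c, q.2)) q.1

theorem solves_embT (D : Dat) {p : ℂ × ℂ} {R : ℝ} {y ψ : Option Unit × Option (Fin 3) → Sm}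
    (h : Solves (th p) R (tens (D.Bs p) (D.B₂ p)) y ψ) :
    Solves (th p) R (D.BT p) (embT p y) (embT p ψ) := by
  rintro ⟨a, b⟩
  have h1 : Solves (th p) R (Bsub D.e₁ D.l₁ D.T₁ p) (fun c => y (c, b))
      fun c => ψ (c, b) + ∑ b', D.B₂ p b b' * y (c, b') := fun c => LBas_mem (h (c, b)) (by
    rw [tens_sum, Dat.Bs]
    ring)
  refine LBas_mem (solves_emb h1 a) ?_
  rw [Dat.BT, tens_sum, Dat.B₁]
  cases a with
  | none =>
    simp only [embT, emb]
    ring
  | some A =>
    simp only [embT, emb, mul_smul_comm, ← Finset.smul_sum, smul_add]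
    ring

theorem Solves.add {ι : Type} [Fintype ι] {θ : Fin 3 → ℂ} {R : ℝ} {A : ι → ι → Sm}
    {Y ψ Y' ψ' : ι → Sm} (h : Solves θ R A Y ψ) (h' : Solves θ R A Y' ψ') :
    Solves θ R A (Y + Y') (ψ + ψ') := fun a => LBas_mem ((van R).add_mem (h a) (h' a)) (by
  simp only [Pi.add_apply, map_add, mul_add, Finset.sum_add_distrib]
  ring)

theorem Solves.smul {ι : Type} [Fintype ι] {θ : Fin 3 → ℂ} {R : ℝ} {A : ι → ι → Sm}
    {Y ψ : ι → Sm} (c : ℂ) (h : Solves θ R A Y ψ) : Solves θ R A (c • Y) (c • ψ) :=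
  fun a => LBas_mem (smul_mem_van c (h a)) (by
    simp only [Pi.smul_apply, Derivation.map_smul, mul_smul_comm, ← Finset.smul_sum, smul_sub])

theorem LBas_rv_mul (p : ℂ × ℂ) (y : Option (Fin 2) → Sm) (w : Sm) :
    rv p (fun a => y a * w) = fun i => rv p y i * w := by
  funext i
  simp only [rv, Finset.sum_mul, smul_mul_assoc]

theorem LBas_cdot_mul (θ : Fin 3 → ℂ) (w : Sm) (u : Fin 3 → Sm) :
    cdot θ (fun j => w * u j) = w * cdot θ u := by
  simp only [cdot, Finset.mul_sum, mul_smul_comm]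

theorem LBas_rv_add (p : ℂ × ℂ) (y z : Option (Fin 2) → Sm) :
    rv p (fun a => y a + z a) = fun i => rv p y i + rv p z i := by
  funext i
  simp only [rv, smul_add, Finset.sum_add_distrib]

theorem LBas_cdot_add (θ : Fin 3 → ℂ) (u w : Fin 3 → Sm) :
    cdot θ (fun j => u j + w j) = cdot θ u + cdot θ w := by
  simp only [cdot, smul_add, Finset.sum_add_distrib]

theorem LBas_dvg_add (u w : Fin 3 → Sm) : dvg (fun j => u j + w j) = dvg u + dvg w := by
  simp only [dvg, map_add, Finset.sum_add_distrib]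

theorem LBas_rv_smul (p : ℂ × ℂ) (c : ℂ) (y : Option (Fin 2) → Sm) :
    rv p (fun a => c • y a) = fun i => c • rv p y i := by
  funext i
  simp only [rv, Finset.smul_sum, smul_comm c]

theorem LBas_cdot_smul (θ : Fin 3 → ℂ) (c : ℂ) (u : Fin 3 → Sm) :
    cdot θ (fun j => c • u j) = c • cdot θ u := by
  simp only [cdot, Finset.smul_sum, smul_comm c]

theorem LBas_dvg_smul (c : ℂ) (u : Fin 3 → Sm) : dvg (fun j => c • u j) = c • dvg u := by
  simp only [dvg, Derivation.map_smul, Finset.smul_sum]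

theorem LBas_rv_van (p : ℂ × ℂ) {R : ℝ} {y : Option (Fin 2) → Sm} (h : ∀ a, y a ∈ van R)
    (i : Fin 3) : rv p y i ∈ van R := Ideal.sum_mem _ fun _ _ => smul_mem_van _ (h _)

theorem LBas_cdot_van (θ : Fin 3 → ℂ) {R : ℝ} {u : Fin 3 → Sm} (h : ∀ j, u j ∈ van R) :
    cdot θ u ∈ van R := Ideal.sum_mem _ fun _ _ => smul_mem_van _ (h _)

theorem LBas_dvg_van {R : ℝ} {u : Fin 3 → Sm} (h : ∀ j, u j ∈ van R) : dvg u ∈ van R :=
  Ideal.sum_mem _ fun _ _ => dd_mem_van _ (h _)

theorem LBas_cdot_sc (c : ℂ) (p : ℂ × ℂ) (u : Fin 3 → Sm) :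
    cdot (th (c • p)) u = c ^ 2 • cdot (th p) u := by
  simp only [cdot, th_smul, Finset.smul_sum, smul_smul]

theorem LBas_cdot_eta (c : ℂ) (p : ℂ × ℂ) (A : Fin 2) (u : Fin 3 → Sm) :
    cdot (eta (c • p) A) u = c • cdot (eta p A) u := by
  simp only [cdot, eta_smul, Finset.smul_sum, smul_smul]

theorem LBas_DD_sc (c : ℂ) (p : ℂ × ℂ) (f : Sm) : DD (th (c • p)) f = c ^ 2 • DD (th p) f := by
  simp only [DD_apply, th_smul, Finset.smul_sum, smul_smul]

theorem LBas_rv_sc (p : ℂ × ℂ) {c : ℂ} (hc : c ≠ 0) {y y' : Option (Fin 2) → Sm}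
    (h : ∀ A, y' (some A) = c⁻¹ • y (some A)) : rv (c • p) y' = rv p y := by
  funext i
  refine Finset.sum_congr rfl fun A _ => ?_
  rw [h, eta_smul, smul_smul, mul_right_comm, mul_inv_cancel₀ hc, one_mul]

namespace Dat

variable (D : Dat)

theorem G_tp (p : ℂ × ℂ) (y : Option (Fin 2) → Sm) (z : Option (Fin 3) → Sm) :
    D.G p (tp y z) = D.Gv (th p) (y none) (rv p y) z := by
  simp only [G, Gv, tp, LBas_cdot_mul, LBas_rv_mul, Fin.sum_univ_three]
  ring

theorem G_add (p : ℂ × ℂ) (Y Z : Ix → Sm) : D.G p (Y + Z) = D.G p Y + D.G p Z := by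
  simp only [G, Pi.add_apply, LBas_cdot_add, LBas_rv_add, LBas_dvg_add, Fin.sum_univ_three]
  ring

theorem G_smul (p : ℂ × ℂ) (c : ℂ) (Y : Ix → Sm) : D.G p (c • Y) = c • D.G p Y := by
  simp only [G, Pi.smul_apply, LBas_cdot_smul, LBas_rv_smul, LBas_dvg_smul, Fin.sum_univ_three]
  simp only [Algebra.smul_def]
  ring

theorem G_van (p : ℂ × ℂ) {R : ℝ} {Y : Ix → Sm} (h : ∀ q, Y q ∈ van R) : D.G p Y ∈ van R := by
  have h1 : ∀ a, cdot (th p) (fun j => Y (a, some j)) ∈ van R := fun a =>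
    LBas_cdot_van _ fun _ => h _
  have h2 : ∀ b i, rv p (fun a => Y (a, b)) i ∈ van R := fun b => LBas_rv_van p fun _ => h _
  have h3 := LBas_rv_van p h1
  unfold G
  refine add_mem (add_mem (add_mem (add_mem (add_mem (add_mem ?_ ?_) ?_) ?_) ?_) ?_) ?_
  · exact Ideal.mul_mem_left _ _ (h _)
  · exact Ideal.sum_mem _ fun i _ => Ideal.mul_mem_left _ _ (h2 _ i)
  · exact Ideal.mul_mem_left _ _ (h1 _)
  · exact Ideal.sum_mem _ fun i _ => Ideal.mul_mem_left _ _ (h3 i)
  · exact Ideal.mul_mem_left _ _ (Ideal.sum_mem _ fun i _ => h2 _ i)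
  · exact Ideal.mul_mem_left _ _ (LBas_dvg_van (h2 _))
  · exact Ideal.mul_mem_left _ _ (LBas_dvg_van h3)

theorem G_tp_cvec (p : ℂ × ℂ) (y : Option (Fin 2) → Sm) {v : Fin 3 → ℂ}
    (hv : ∑ j, th p j * v j = 0) :
    D.G p (tp y (cvec v)) = cdot (th p) D.c * cdot v (rv p y) := by
  have h1 : cdot (th p) (fun j => cvec v (some j)) = 0 := by
    simp only [cdot, cvec, smul_smul, ← Finset.sum_smul, hv, zero_smul]
  rw [G_tp, Gv, h1]
  simp only [cvec, dvg, mul_zero, map_zero, Finset.sum_const_zero, add_zero, zero_add,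
    mul_smul_comm, mul_one]
  rfl

theorem G_embT (p : ℂ × ℂ) (y : Option Unit × Option (Fin 3) → Sm) :
    D.G p (embT p y) = cdot (th p) D.a₀ * y (none, none)
      + (∑ i, th p i • cdot (th p) (D.a₁ i)) * y (some (), none)
      + D.b₀ * cdot (th p) (fun j => y (none, some j))
      + (cdot (th p) D.b₁ + cdot (th p) D.c) * cdot (th p) (fun j => y (some (), some j))
      + cdot (th p) D.hs * DD (th p) (y (some (), none))
      + D.hr * cdot (th p) (fun j => DD (th p) (y (some (), some j))) := by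
  have h1 : ∀ b, rv p (fun a => embT p y (a, b)) = fun i => th p i • y (some (), b) := fun b =>
    funext fun i => rv_emb p (fun c => y (c, b)) i
  have h2 : rv p (fun a => cdot (th p) fun j => embT p y (a, some j)) =
      fun i => th p i • cdot (th p) fun j => y (some (), some j) := by
    funext i
    rw [← rv_emb p (fun c => cdot (th p) fun j => y (c, some j)) i]
    refine Finset.sum_congr rfl fun A _ => ?_
    simp only [embT, emb, LBas_cdot_smul]
  have h3 : ∀ w : Sm, dvg (fun i => th p i • w) = DD (th p) w := fun w => by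
    simp only [dvg, Derivation.map_smul, DD_apply]
  have h4 : ∀ u : Fin 3 → Sm, DD (th p) (cdot (th p) u) = cdot (th p) fun j => DD (th p) (u j) :=
    fun u => by simp only [cdot, map_sum, Derivation.map_smul]
  have h5 : ∀ b, embT p y (none, b) = y (none, b) := fun _ => rfl
  have h6 : ∑ j, th p j • y (some (), some j) = cdot (th p) fun j => y (some (), some j) := rfl
  simp only [G, h1, h2, h3, h4, h5, h6]
  rw [show cdot (th p) D.b₁ = ∑ j, th p j • D.b₁ j from rfl]
  simp only [Fin.sum_univ_three, Algebra.smul_def]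
  ring

/-- Rescaling of tensors. -/
noncomputable def resc (c : ℂ) (Y : Ix → Sm) : Ix → Sm
  | (none, b) => Y (none, b)
  | (some A, b) => c⁻¹ • Y (some A, b)

theorem G_resc (p : ℂ × ℂ) {c : ℂ} (hc : c ≠ 0) (Y : Ix → Sm) :
    D.G (c • p) (resc c Y) = c ^ 2 • D.G p Y := by
  have h1 : ∀ b, rv (c • p) (fun a => resc c Y (a, b)) = rv p fun a => Y (a, b) := fun b =>
    LBas_rv_sc p hc fun _ => rfl
  have h2 : rv (c • p) (fun a => cdot (th p) fun j => resc c Y (a, some j)) =
      rv p fun a => cdot (th p) fun j => Y (a, some j) :=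
    LBas_rv_sc p hc fun _ => LBas_cdot_smul _ _ _
  have h3 : ∀ b, resc c Y (none, b) = Y (none, b) := fun _ => rfl
  simp only [G, LBas_cdot_sc, LBas_rv_smul, LBas_dvg_smul, h1, h2, h3, Fin.sum_univ_three]
  simp only [Algebra.smul_def]
  ring

theorem solves_resc {p : ℂ × ℂ} {c : ℂ} (hc : c ≠ 0) {R : ℝ} {Y ψ : Ix → Sm}
    (h : Solves (th p) R (D.BT p) Y ψ) :
    Solves (th (c • p)) R (D.BT (c • p)) (resc c Y) (c ^ 2 • resc c ψ) := by
  have h2 : ∀ b b', D.B₂ (c • p) b b' = c ^ 2 • D.B₂ p b b' := by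
    rintro (_ | i) (_ | j) <;>
      simp only [B₂, B2of, th_smul, LBas_cdot_sc, smul_zero, smul_neg, smul_smul]
  rintro ⟨_ | A, b⟩
  · refine LBas_mem (smul_mem_van (c ^ 2) (h (none, b))) ?_
    simp only [BT, tens_sum, h2, B₁, B1of, resc, Fintype.sum_option, Fin.sum_univ_two,
      Fin.sum_univ_three, Pi.smul_apply, LBas_DD_sc, LBas_cdot_eta, th_smul, zero_mul,
      add_mul, smul_mul_assoc, mul_smul_comm]
    match_scalars <;> field_simp
  · refine LBas_mem (smul_mem_van c (h (some A, b))) ?_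
    simp only [BT, tens_sum, h2, B₁, B1of, resc, Fintype.sum_option, Fin.sum_univ_two,
      Fin.sum_univ_three, Pi.smul_apply, LBas_DD_sc, LBas_cdot_eta, pc_smul,
      Derivation.map_smul, smul_mul_assoc, mul_smul_comm]
    match_scalars <;> field_simp

end Dat

end Vale.Agent.P136
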