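import Vale.Agent.P136.Basic

/-! The tensor transport system on the null cone and the functional `F`. -/

open MeasureTheory Metric
open scoped ContDiff

namespace Vale.Agent.P136

/-- `(1, i, 0)`. -/
noncomputable def va : Fin 3 → ℂ := ![1, Complex.I, 0]
/-- `(0, 0, 1)`. -/
noncomputable def vb : Fin 3 → ℂ := ![0, 0, 1]
/-- `(-1, i, 0)`. -/
noncomputable def vc : Fin 3 → ℂ := ![-1, Complex.I, 0]

/-- The null vector of a spinor. -/
noncomputable def th (p : ℂ × ℂ) (j : Fin 3) : ℂ :=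
  p.1 ^ 2 * va j + 2 * p.1 * p.2 * vb j + p.2 ^ 2 * vc j

/-- A basis of the orthogonal complement of `th p`. -/
noncomputable def eta (p : ℂ × ℂ) (A : Fin 2) (j : Fin 3) : ℂ :=
  ![p.1 * va j + p.2 * vb j, p.1 * vb j + p.2 * vc j] A

/-- Components of the spinor. -/
def pc (p : ℂ × ℂ) (A : Fin 2) : ℂ := ![p.1, p.2] A

/-- The vector field `∑ y_A η_A`. -/
noncomputable def rv (p : ℂ × ℂ) (y : Option (Fin 2) → Sm) (i : Fin 3) : Sm :=
  ∑ A, eta p A i • y (some A)

/-- The transport matrix for amplitudes `(s, r)`. -/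
noncomputable def B2of (e : Sm) (l : Fin 3 → Sm) (T : Fin 3 → Fin 3 → Sm) (θ : Fin 3 → ℂ) :
    Option (Fin 3) → Option (Fin 3) → Sm
  | none, none => 0
  | none, some j => -(θ j • e)
  | some i, none => -cdot θ (T i)
  | some i, some j => -(θ j • l i)

/-- The dual transport matrix in the frame `η`. -/
noncomputable def B1of (e : Sm) (l : Fin 3 → Sm) (T : Fin 3 → Fin 3 → Sm) (p : ℂ × ℂ) :
    Option (Fin 2) → Option (Fin 2) → Sm
  | none, none => 0
  | none, some A => ∑ i, th p i • cdot (eta p A) (T i)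
  | some A, none => pc p A • e
  | some A, some B => pc p A • cdot (eta p B) l

/-- The invariant rank two subsystem. -/
noncomputable def Bsub (e : Sm) (l : Fin 3 → Sm) (T : Fin 3 → Fin 3 → Sm) (p : ℂ × ℂ) :
    Option Unit → Option Unit → Sm
  | none, none => 0
  | none, some _ => ∑ i, th p i • cdot (th p) (T i)
  | some _, none => e
  | some _, some _ => cdot (th p) l

/-- Its embedding. -/
noncomputable def emb (p : ℂ × ℂ) (y : Option Unit → Sm) : Option (Fin 2) → Sm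
  | none => y none
  | some A => pc p A • y (some ())

/-- The constant amplitude `(0, v)`. -/
noncomputable def cvec (v : Fin 3 → ℂ) : Option (Fin 3) → Sm
  | none => 0
  | some j => v j • (1 : Sm)

/-- Coefficient data. -/
structure Dat where
  e₁ : Sm
  e₂ : Sm
  l₁ : Fin 3 → Sm
  l₂ : Fin 3 → Sm
  T₁ : Fin 3 → Fin 3 → Sm
  T₂ : Fin 3 → Fin 3 → Sm
  a₀ : Fin 3 → Sm
  a₁ : Fin 3 → Fin 3 → Sm
  b₀ : Sm
  b₁ : Fin 3 → Sm
  c : Fin 3 → Sm
  hs : Fin 3 → Sm
  hr : Sm

/-- Index type of the tensor system. -/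
abbrev Ix : Type := Option (Fin 2) × Option (Fin 3)

namespace Dat

variable (D : Dat)

/-- First factor. -/
noncomputable def B₁ (p : ℂ × ℂ) := B1of D.e₁ D.l₁ D.T₁ p
/-- Second factor. -/
noncomputable def B₂ (p : ℂ × ℂ) := B2of D.e₂ D.l₂ D.T₂ (th p)
/-- Subsystem of the first factor. -/
noncomputable def Bs (p : ℂ × ℂ) := Bsub D.e₁ D.l₁ D.T₁ p
/-- Tensor system. -/
noncomputable def BT (p : ℂ × ℂ) : Ix → Ix → Sm := tens (D.B₁ p) (D.B₂ p)

/-- The density on products, in vector form. -/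
noncomputable def Gv (θ : Fin 3 → ℂ) (ss : Sm) (rs : Fin 3 → Sm) (z : Option (Fin 3) → Sm) : Sm :=
  cdot θ D.a₀ * ss * z none + (∑ i, cdot θ (D.a₁ i) * rs i) * z none
    + D.b₀ * ss * cdot θ (fun j => z (some j))
    + (∑ i, D.b₁ i * rs i) * cdot θ (fun j => z (some j))
    + cdot θ D.c * ∑ j, rs j * z (some j)
    + cdot θ D.hs * dvg (fun i => rs i * z none)
    + D.hr * dvg (fun i => rs i * cdot θ (fun j => z (some j)))

/-- The density on tensors. -/
noncomputable def G (p : ℂ × ℂ) (Y : Ix → Sm) : Sm :=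
  cdot (th p) D.a₀ * Y (none, none)
    + ∑ i, cdot (th p) (D.a₁ i) * rv p (fun a => Y (a, none)) i
    + D.b₀ * cdot (th p) (fun j => Y (none, some j))
    + ∑ i, D.b₁ i * rv p (fun a => cdot (th p) fun j => Y (a, some j)) i
    + cdot (th p) D.c * ∑ j, rv p (fun a => Y (a, some j)) j
    + cdot (th p) D.hs * dvg (rv p fun a => Y (a, none))
    + D.hr * dvg (rv p fun a => cdot (th p) fun j => Y (a, some j))

/-- The functional. -/
noncomputable def F (Ω : Set E3) (p : ℂ × ℂ) (Y : Ix → Sm) : ℂ := ∫ x in Ω, (D.G p Y).1 x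

/-- The functional kills products of solutions. -/
def Prod (Ω : Set E3) (R : ℝ) : Prop :=
  ∀ p : ℂ × ℂ, p ≠ 0 → ∀ y z, Solves (th p) R (D.B₁ p) y 0 → Solves (th p) R (D.B₂ p) z 0 →
    D.F Ω p (tp y z) = 0

/-- All coefficients of the functional lie in the ideal generated by `b₀` and `hr`. -/
def Ctl : Prop :=
  (∀ j, D.a₀ j ∈ Ideal.span {D.b₀, D.hr}) ∧ (∀ i j, D.a₁ i j ∈ Ideal.span {D.b₀, D.hr}) ∧
    (∀ j, D.b₁ j ∈ Ideal.span {D.b₀, D.hr}) ∧ (∀ j, D.c j ∈ Ideal.span {D.b₀, D.hr}) ∧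
    ∀ j, D.hs j ∈ Ideal.span {D.b₀, D.hr}

open Classical in
/-- The functional evaluated on a solution with source `ψ`. -/
noncomputable def W (Ω : Set E3) (R : ℝ) (p : ℂ × ℂ) (ψ : Ix → Sm) : ℂ :=
  if h : ∃ Y, Solves (th p) R (D.BT p) Y ψ then D.F Ω p (Classical.choose h) else 0

end Dat

/-- Standing assumptions of the abstract argument. -/
structure Setup (D : Dat) (Ω : Set E3) (R : ℝ) : Prop where
  hΩ : IsOpen Ω
  hR : 0 < R
  sub : Ω ⊆ ball 0 R
  prod : D.Prod Ω R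

end Vale.Agent.P136
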