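import Vale.Agent.P136.TW
import Vale.Agent.P136.Jet

/-! Holomorphic dependence of the functional on the direction.

Plan. Fix `p₀` with `θ p₀ ≠ 0`; take `U, Y` from `solve_par` (any `N`, `x₀ = 0`), shrink `U` so that
`θ p ≠ 0` on `U`. On `U`, `W p = ∫ x in Ω, g (p, x)` with
`g (p, x) = (fun1 (c₀ p) (c₁ p) (Y p)).1 x`, jointly smooth on `U ×ˢ univ` (note
`(dd j (Y p a)).1 x = fderiv ℝ y_a (p, x) (0, ee j)` for `y_a q = (Y q.1 a).1 q.2`).
`hasFDerivAt_integral_of_dominated_of_fderiv_le` (constant bound on a compact set, `Ω` has finite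
measure) gives a real derivative `W' v = ∫ fderiv ℝ g (p₀, x) (v, 0)`. For `v : ℂ × ℂ` let
`Z v a : Sm` be `x ↦ fderiv ℝ y_a (p₀, x) (v, 0)`; mixed derivatives commute
(`ContDiffAt.isSymmSndFDerivAt`), so `dd j (Z v a)` is the `v`-derivative of `dd j (Y p a)`.
Differentiate the equation (valid for `p ∈ U`, `x` in the ball) in direction `v`. For a complex
differentiable `m : ℂ × ℂ → ℂ`, `fderiv ℝ m p (I • v) = I * fderiv ℝ m p v`
(`HasFDerivAt.restrictScalars`). Hence `Z (I • v) - I • Z v` solves the homogeneous system at `p₀`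
and `W' (I • v) - I * W' v = ∫ fun1 (c₀ p₀) (c₁ p₀) (Z (I • v) - I • Z v) = 0`. So `W'` is complex
linear; build the `ℂ`-linear map and use `hasFDerivAt_of_restrictScalars` /
`differentiableAt_iff_restrictScalars`. -/

open MeasureTheory Metric
open scoped ContDiff

namespace Vale.Agent.P136

/-- A first order linear expression. -/
noncomputable def fun1 {ι : Type} [Fintype ι] (c₀ : ι → Sm) (c₁ : ι → Fin 3 → Sm) (Y : ι → Sm) :
    Sm := ∑ a, c₀ a * Y a + ∑ a, ∑ j, c₁ a j * dd j (Y a)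

/-- Families of smooth functions that depend holomorphically on a parameter. -/
def Hol (f : ℂ × ℂ → Sm) : Prop :=
  ContDiff ℝ ∞ (fun q : (ℂ × ℂ) × E3 => (f q.1).1 q.2) ∧
    ∀ x, Differentiable ℂ fun p => (f p).1 x

open Complex in
/-- `z` is the Cauchy-Riemann defect of `m` at `p` in the direction `v`. -/
def LGen_D (p v : ℂ × ℂ) (m : ℂ × ℂ → ℂ) (z : ℂ) : Prop :=
  ∃ L : ℂ × ℂ →L[ℝ] ℂ, HasFDerivAt m L p ∧ z = L (I • v) - I * L v

section
variable {p v : ℂ × ℂ} {m n : ℂ × ℂ → ℂ} {z w : ℂ} {U : Set (ℂ × ℂ)}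

theorem LGen_add (h : LGen_D p v m z) (h' : LGen_D p v n w) :
    LGen_D p v (fun p => m p + n p) (z + w) := by
  obtain ⟨L, h1, rfl⟩ := h
  obtain ⟨L', h2, rfl⟩ := h'
  refine ⟨L + L', h1.add h2, ?_⟩
  simp only [_root_.add_apply]
  ring

theorem LGen_sub (h : LGen_D p v m z) (h' : LGen_D p v n w) :
    LGen_D p v (fun p => m p - n p) (z - w) := by
  obtain ⟨L, h1, rfl⟩ := h
  obtain ⟨L', h2, rfl⟩ := h'
  refine ⟨L - L', h1.sub h2, ?_⟩
  simp only [_root_.sub_apply]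
  ring

theorem LGen_sum {ι : Type} [Fintype ι] {m : ι → ℂ × ℂ → ℂ} {z : ι → ℂ}
    (h : ∀ i, LGen_D p v (m i) (z i)) : LGen_D p v (fun p => ∑ i, m i p) (∑ i, z i) := by
  choose L h1 h2 using h
  exact ⟨∑ i, L i, HasFDerivAt.fun_sum fun i _ => h1 i, by simp [h2, Finset.mul_sum]⟩

theorem LGen_mul (hm : DifferentiableAt ℂ m p) (hn : LGen_D p v n z) :
    LGen_D p v (fun p => m p * n p) (m p * z) := by
  obtain ⟨L, h1, rfl⟩ := hn
  refine ⟨_, (hm.hasFDerivAt.restrictScalars ℝ).mul h1, ?_⟩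
  simp only [_root_.add_apply, _root_.smul_apply, smul_eq_mul,
    ContinuousLinearMap.coe_restrictScalars', map_smul]
  ring

theorem LGen_cx {L : ℂ × ℂ →L[ℝ] ℂ} (h : HasFDerivAt m L p)
    (hL : ∀ v, L (Complex.I • v) = Complex.I * L v) : DifferentiableAt ℂ m p := by
  have e : ∀ (r : ℝ) (v : ℂ × ℂ), (r : ℂ) • v = r • v := fun _ _ => rfl
  refine (hasFDerivAt_of_restrictScalars ℝ (𝕜' := ℂ)
    (f' := ⟨⟨⟨L, L.map_add⟩, fun c v => ?_⟩, L.continuous⟩) h rfl).differentiableAt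
  change L (c • v) = c * L v
  rw [← Complex.re_add_im c, add_smul, mul_smul, e, e, map_add, map_smul, map_smul, hL]
  simp only [Complex.real_smul]
  ring

theorem LGen_s1 {g : (ℂ × ℂ) × E3 → ℂ} {x : E3} (h : DifferentiableAt ℝ g (p, x)) (w : E3) :
    fderiv ℝ (fun y => g (p, y)) x w = fderiv ℝ g (p, x) (0, w) :=
  congrArg (· w) (h.hasFDerivAt.comp x (hasFDerivAt_prodMk_right p x)).fderiv

theorem LGen_at {W : Type} [NormedAddCommGroup W] [NormedSpace ℝ W] {g : (ℂ × ℂ) × E3 → W}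
    (hU : IsOpen U) (hp : p ∈ U) (hg : ContDiffOn ℝ ∞ g (U ×ˢ Set.univ)) (x : E3) :
    ContDiffAt ℝ ∞ g (p, x) :=
  hg.contDiffAt ((hU.prod isOpen_univ).mem_nhds ⟨hp, trivial⟩)

theorem LGen_s2 {g : (ℂ × ℂ) × E3 → ℂ} (hU : IsOpen U) (hp : p ∈ U)
    (hg : ContDiffOn ℝ ∞ g (U ×ˢ Set.univ)) (x : E3) : HasFDerivAt (fun p => g (p, x))
      ((fderiv ℝ g (p, x)).comp (ContinuousLinearMap.inl ℝ _ _)) p :=
  ((LGen_at hU hp hg x).differentiableAt (by simp)).hasFDerivAt.comp p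
    (hasFDerivAt_prodMk_left p x)

theorem LGen_fd {g : (ℂ × ℂ) × E3 → ℂ} (hU : IsOpen U) (hg : ContDiffOn ℝ ∞ g (U ×ˢ Set.univ)) :
    ContDiffOn ℝ ∞ (fderiv ℝ g) (U ×ˢ Set.univ) :=
  hg.fderiv_of_isOpen (hU.prod isOpen_univ) (by simp)

theorem LGen_dd {f : ℂ × ℂ → Sm} (hU : IsOpen U)
    (hf : ContDiffOn ℝ ∞ (fun q : (ℂ × ℂ) × E3 => (f q.1).1 q.2) (U ×ˢ Set.univ)) (j : Fin 3) :
    ContDiffOn ℝ ∞ (fun q : (ℂ × ℂ) × E3 => (dd j (f q.1)).1 q.2) (U ×ˢ Set.univ) :=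
  ((LGen_fd hU hf).clm_apply (contDiffOn_const (c := (0, ee j)))).congr fun q hq =>
    LGen_s1 ((LGen_at hU hq.1 hf q.2).differentiableAt (by simp)) _

theorem LGen_Z {f : ℂ × ℂ → Sm} (hU : IsOpen U) (hp : p ∈ U)
    (hf : ContDiffOn ℝ ∞ (fun q : (ℂ × ℂ) × E3 => (f q.1).1 q.2) (U ×ˢ Set.univ)) (v : ℂ × ℂ) :
    ∃ Z : Sm, ∀ x, LGen_D p v (fun p => (f p).1 x) (Z.1 x) ∧
      ∀ j, LGen_D p v (fun p => (dd j (f p)).1 x) ((dd j Z).1 x) := by
  set g := fun q : (ℂ × ℂ) × E3 => (f q.1).1 q.2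
  have h1 := fun w => (LGen_fd hU hf).clm_apply (contDiffOn_const (c := w))
  let Z : ℂ × ℂ → Sm := fun v => ⟨fun x => fderiv ℝ g (p, x) (v, 0),
    (h1 _).comp_contDiff (contDiff_const.prodMk contDiff_id) fun y => ⟨hp, trivial⟩⟩
  refine ⟨Z (Complex.I • v) - Complex.I • Z v, fun x => ⟨⟨_, LGen_s2 hU hp hf x, rfl⟩, fun j => ?_⟩⟩
  have hd := (LGen_at hU hp (LGen_fd hU hf) x).differentiableAt (by simp)
  have key : ∀ a b, fderiv ℝ (fun y => fderiv ℝ g y b) (p, x) a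
      = fderiv ℝ (fderiv ℝ g) (p, x) a b := fun a b => by
    rw [fderiv_clm_apply hd (differentiableAt_const _)]
    simp
  have hs := ((LGen_at hU hp hf x).of_le (m := 2) (by norm_cast)).isSymmSndFDerivAt (by simp)
  have h2 : ∀ v, (dd j (Z v)).1 x = fderiv ℝ (fun y => fderiv ℝ g y (0, ee j)) (p, x) (v, 0) :=
    fun v => (LGen_s1 ((LGen_at hU hp (h1 (v, 0)) x).differentiableAt (by simp)) _).trans (by
      rw [key, key, hs.eq])
  refine ⟨_, (LGen_s2 hU hp (h1 (0, ee j)) x).congr_of_eventuallyEq ?_, ?_⟩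
  · filter_upwards [hU.mem_nhds hp] with p' hp'
    exact LGen_s1 ((LGen_at hU hp' hf x).differentiableAt (by simp)) _
  · rw [map_sub, Derivation.map_smul]
    exact congrArg₂ (· - Complex.I * ·) (h2 _) (h2 _)

theorem LGen_int {g : (ℂ × ℂ) × E3 → ℂ} (hU : IsOpen U) (hp : p ∈ U)
    (hg : ContDiffOn ℝ ∞ g (U ×ˢ Set.univ)) {Ω : Set E3} {R : ℝ} (hΩ : IsOpen Ω)
    (hR : Ω ⊆ ball 0 R) : ∃ L : ℂ × ℂ →L[ℝ] ℂ, HasFDerivAt (fun p => ∫ x in Ω, g (p, x)) L p ∧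
      ∀ v (z : E3 → ℂ), (∀ x, LGen_D p v (fun p => g (p, x)) (z x)) →
        L (Complex.I • v) - Complex.I * L v = ∫ x in Ω, z x := by
  have h1 : ContinuousOn (fun q => (fderiv ℝ g q).comp (ContinuousLinearMap.inl ℝ _ _))
      (U ×ˢ Set.univ) := (LGen_fd hU hg).continuousOn.clm_comp continuousOn_const
  obtain ⟨ε, hε, hK⟩ := nhds_basis_closedBall.mem_iff.1 (hU.mem_nhds hp)
  obtain ⟨C, hC⟩ := ((isCompact_closedBall p ε).prod
    (isCompact_closedBall (0 : E3) R)).exists_bound_of_continuousOn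
    (h1.mono (Set.prod_mono hK (Set.subset_univ _)))
  have h2 : ∀ p ∈ U, Continuous fun x => g (p, x) := fun p hp =>
    hg.continuousOn.comp_continuous (by fun_prop) fun y => ⟨hp, trivial⟩
  have h3 : Integrable (fun x => (fderiv ℝ g (p, x)).comp (ContinuousLinearMap.inl ℝ _ _))
      (volume.restrict Ω) := integrableOn_of_subset_ball
    (h1.comp_continuous (f := fun x => (p, x)) (by fun_prop) fun y => ⟨hp, trivial⟩) hR
  refine ⟨_, hasFDerivAt_integral_of_dominated_of_fderiv_le (bound := fun _ => C)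
    (F := fun p x => g (p, x))
    (F' := fun p x => (fderiv ℝ g (p, x)).comp (ContinuousLinearMap.inl ℝ _ _))
    (closedBall_mem_nhds p hε) ?_ (integrableOn_of_subset_ball (h2 p hp) hR) h3.1
    (ae_restrict_of_forall_mem hΩ.measurableSet fun x hx p' hp' =>
      hC (p', x) ⟨hp', ball_subset_closedBall (hR hx)⟩)
    (integrableOn_of_subset_ball continuous_const hR)
    (ae_of_all _ fun x p' hp' => LGen_s2 hU (hK hp') hg x), fun v z hz => ?_⟩
  · filter_upwards [hU.mem_nhds hp] with p' hp' using (h2 p' hp').aestronglyMeasurable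
  · rw [ContinuousLinearMap.integral_apply h3, ContinuousLinearMap.integral_apply h3,
      ← integral_const_mul, ← integral_sub (h3.apply_continuousLinearMap _)
        ((h3.apply_continuousLinearMap _).const_mul _)]
    refine integral_congr_ae (ae_of_all _ fun x => ?_)
    obtain ⟨L, hL, e⟩ := hz x
    rw [hL.unique (LGen_s2 hU hp hg x)] at e
    exact e.symm

end

theorem LGen_val {ι : Type} [Fintype ι] (c₀ : ι → Sm) (c₁ : ι → Fin 3 → Sm) (Y : ι → Sm)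
    (x : E3) : (fun1 c₀ c₁ Y).1 x =
      ∑ a, (c₀ a).1 x * (Y a).1 x + ∑ a, ∑ j, (c₁ a j).1 x * (dd j (Y a)).1 x := by
  simp only [← ev_apply, fun1, map_add, map_sum, map_mul]

theorem LGen_eqn {ι : Type} [Fintype ι] (θ : Fin 3 → ℂ) (A : ι → Sm) (Y : ι → Sm) (y ψ : Sm)
    (x : E3) : (DD θ y - ∑ b, A b * Y b - ψ).1 x =
      ∑ j, θ j * (dd j y).1 x - ∑ b, (A b).1 x * (Y b).1 x - ψ.1 x := by
  simp only [← ev_apply, DD_apply, map_sub, map_sum, map_mul, map_smul, smul_eq_mul]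

theorem hol_gen {ι : Type} [Fintype ι] (θ : ℂ × ℂ → Fin 3 → ℂ)
    (hθ : ∀ j, ContDiff ℂ ∞ fun p => θ p j) (hnull : ∀ p, IsNull (θ p))
    (A : ℂ × ℂ → ι → ι → Sm) (hA : ∀ a b, Hol fun p => A p a b)
    (c₀ : ℂ × ℂ → ι → Sm) (hc₀ : ∀ a, Hol fun p => c₀ p a)
    (c₁ : ℂ × ℂ → ι → Fin 3 → Sm) (hc₁ : ∀ a j, Hol fun p => c₁ p a j)
    (R : ℝ) (hR : 0 < R) (Ω : Set E3) (hΩ : IsOpen Ω) (hΩR : Ω ⊆ ball 0 R)
    (hker : ∀ p, θ p ≠ 0 → ∀ Y, Solves (θ p) R (A p) Y 0 →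
      ∫ x in Ω, (fun1 (c₀ p) (c₁ p) Y).1 x = 0)
    (ψ : ι → Sm) (W : ℂ × ℂ → ℂ)
    (hW : ∀ p, θ p ≠ 0 → ∀ Y, Solves (θ p) R (A p) Y ψ →
      W p = ∫ x in Ω, (fun1 (c₀ p) (c₁ p) Y).1 x) :
    DifferentiableOn ℂ W {p | θ p ≠ 0} := by
  intro p hp
  have hθ' := contDiff_pi.2 fun j => (hθ j).restrict_scalars ℝ
  obtain ⟨N, -, H⟩ := solve_par θ hθ' hnull p hp A (fun a b => (hA a b).1) R hR 1 one_pos
  obtain ⟨U, Y, hU, hpU, hY, hS, -⟩ := H N le_rfl 0 ψ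
  obtain ⟨L, hL, hz⟩ := LGen_int (g := fun q => (fun1 (c₀ q.1) (c₁ q.1) (Y q.1)).1 q.2) hU hpU (by
    simp only [LGen_val]
    exact (ContDiffOn.sum fun a _ => (hc₀ a).1.contDiffOn.mul (hY a)).add (ContDiffOn.sum
      fun a _ => ContDiffOn.sum fun j _ =>
        (hc₁ a j).1.contDiffOn.mul (LGen_dd (f := fun p => Y p a) hU (hY a) j))) hΩ hΩR
  refine (LGen_cx (hL.congr_of_eventuallyEq ?_) fun v => ?_).differentiableWithinAt
  · filter_upwards [hU.mem_nhds hpU, hθ'.continuous.continuousAt.eventually_ne hp] with p' h1 h2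
    exact hW p' h2 _ (hS p' h1)
  choose Z hZ using fun a => LGen_Z (f := fun p => Y p a) hU hpU (hY a) v
  rw [← sub_eq_zero, hz v fun x => (fun1 (c₀ p) (c₁ p) Z).1 x]
  · refine hker p hp Z fun a x hx => ?_
    obtain ⟨L, h1, h2⟩ := LGen_sub (LGen_sub
      (LGen_sum fun j => LGen_mul ((hθ j).differentiable (by simp) p) ((hZ a x).2 j))
      (LGen_sum fun b => LGen_mul ((hA a b).2 x p) (hZ b x).1))
      (⟨0, hasFDerivAt_const ((ψ a).1 x) p, by simp⟩ : LGen_D p v _ 0)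
    rw [h1.unique ((hasFDerivAt_const 0 p).congr_of_eventuallyEq ?_)] at h2
    · rw [LGen_eqn]
      simpa using h2
    · filter_upwards [hU.mem_nhds hpU] with p' h1
      exact (LGen_eqn _ _ _ _ _ x).symm.trans (hS p' h1 a x hx)
  · intro x
    simp only [LGen_val]
    exact LGen_add (LGen_sum fun a => LGen_mul ((hc₀ a).2 x p) (hZ a x).1)
      (LGen_sum fun a => LGen_sum fun j => LGen_mul ((hc₁ a j).2 x p) ((hZ a x).2 j))

end Vale.Agent.P136
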