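import Vale.Agent.P136.LW
import Vale.Agent.P136.LGen

/-! `W` depends holomorphically on the spinor.

Plan. Closure properties of `Hol`: constants, sums (`Finset` sums), products, negation, and
`fun p => m p • f p` for `ContDiff ℂ ∞ m` (`ContDiff.restrict_scalars`). Write `D.G p Y` as
`fun1 (c₀ p) (c₁ p) Y` with explicit coefficients defined by cases on the index
(`c₁ p (some A, none) j = cdot (th p) hs * eta p A j`, `c₁ p (some A, some l) j =
hr * th p l * eta p A j`, zero on `(none, _)`; `c₀` collects the algebraic terms), expand with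
`Fintype.sum_prod_type`, `Fintype.sum_option`, `Fin.sum_univ_two/three`. Entries of `D.BT p` are
`Hol` (cases on the indices, `tens` has `if`s that do not depend on `p`). Apply `hol_gen` with
`F_ker`, `W_eq`, and `{p | th p ≠ 0} = {p | p ≠ 0}` (`th_ne`, `th_zero`). -/

open MeasureTheory Metric
open scoped ContDiff

namespace Vale.Agent.P136

section
variable {f g : ℂ × ℂ → Sm} {m : ℂ × ℂ → ℂ} {κ : Type} [Fintype κ]

theorem LHol_const (f : Sm) : Hol fun _ => f :=
  ⟨(Sm.smooth f).comp contDiff_snd, fun _ => differentiable_const _⟩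

theorem LHol_add (h : Hol f) (h' : Hol g) : Hol fun p => f p + g p :=
  ⟨h.1.add h'.1, fun x => (h.2 x).add (h'.2 x)⟩

theorem LHol_mul (h : Hol f) (h' : Hol g) : Hol fun p => f p * g p :=
  ⟨h.1.mul h'.1, fun x => (h.2 x).mul (h'.2 x)⟩

theorem LHol_neg (h : Hol f) : Hol fun p => -f p := ⟨h.1.neg, fun x => (h.2 x).neg⟩

theorem LHol_smul (hm : ContDiff ℂ ∞ m) (h : Hol f) : Hol fun p => m p • f p :=
  ⟨((hm.restrict_scalars ℝ).comp contDiff_fst).mul h.1,
    fun x => (hm.differentiable (by simp)).mul (h.2 x)⟩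

theorem LHol_sum {f : κ → ℂ × ℂ → Sm} (h : ∀ k, Hol (f k)) : Hol fun p => ∑ k, f k p := by
  unfold Hol
  simp only [sum_val]
  exact ⟨ContDiff.sum fun k _ => (h k).1, fun x => Differentiable.fun_sum fun k _ => (h k).2 x⟩

theorem LHol_cdot {θ : ℂ × ℂ → Fin 3 → ℂ} (hθ : ∀ j, ContDiff ℂ ∞ fun p => θ p j)
    (u : Fin 3 → Sm) : Hol fun p => cdot (θ p) u :=
  LHol_sum fun j => LHol_smul (hθ j) (LHol_const _)

theorem LHol_ite (c : Prop) [Decidable c] (h : Hol f) : Hol fun p => if c then f p else 0 := by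
  split_ifs
  exacts [h, LHol_const 0]

theorem LHol_BT (D : Dat) (a b : Ix) : Hol fun p => D.BT p a b := by
  obtain ⟨a, a'⟩ := a
  obtain ⟨b, b'⟩ := b
  refine LHol_add (LHol_ite _ ?_) (LHol_ite _ ?_)
  · cases a <;> cases b
    exacts [LHol_const 0,
      LHol_sum fun i => LHol_smul (th_contDiff i) (LHol_cdot (eta_contDiff _) _),
      LHol_smul (pc_contDiff _) (LHol_const _),
      LHol_smul (pc_contDiff _) (LHol_cdot (eta_contDiff _) _)]
  · cases a' <;> cases b'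
    exacts [LHol_const 0, LHol_neg (LHol_smul (th_contDiff _) (LHol_const _)),
      LHol_neg (LHol_cdot th_contDiff _), LHol_neg (LHol_smul (th_contDiff _) (LHol_const _))]

/-- First order expressions with holomorphic coefficients. -/
def LHol_F (E : ℂ × ℂ → (Ix → Sm) → Sm) : Prop :=
  ∃ (c₀ : ℂ × ℂ → Ix → Sm) (c₁ : ℂ × ℂ → Ix → Fin 3 → Sm), (∀ a, Hol fun p => c₀ p a) ∧
    (∀ a j, Hol fun p => c₁ p a j) ∧ ∀ p Y, E p Y = fun1 (c₀ p) (c₁ p) Y

variable {E E' : ℂ × ℂ → (Ix → Sm) → Sm}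

theorem LHol_Fadd (h : LHol_F E) (h' : LHol_F E') : LHol_F fun p Y => E p Y + E' p Y := by
  obtain ⟨c₀, c₁, h0, h1, h⟩ := h
  obtain ⟨c₀', c₁', h0', h1', h'⟩ := h'
  refine ⟨_, _, fun a => LHol_add (h0 a) (h0' a), fun a j => LHol_add (h1 a j) (h1' a j),
    fun p Y => ?_⟩
  simp only [h, h', fun1, add_mul, Finset.sum_add_distrib]
  exact add_add_add_comm _ _ _ _

theorem LHol_Fsum {E : κ → ℂ × ℂ → (Ix → Sm) → Sm} (h : ∀ k, LHol_F (E k)) :
    LHol_F fun p Y => ∑ k, E k p Y := by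
  have := Finset.sum_induction E LHol_F (fun _ _ => LHol_Fadd) ⟨_, _, fun _ => LHol_const 0,
    fun _ _ => LHol_const 0, fun p Y => by simp [fun1]⟩ fun k (_ : k ∈ Finset.univ) => h k
  rwa [show ∑ k, E k = fun p Y => ∑ k, E k p Y from funext₂ fun p Y => by simp] at this

theorem LHol_Fmul (hf : Hol f) (h : LHol_F E) : LHol_F fun p Y => f p * E p Y := by
  obtain ⟨c₀, c₁, h0, h1, h⟩ := h
  refine ⟨_, _, fun a => LHol_mul hf (h0 a), fun a j => LHol_mul hf (h1 a j), fun p Y => ?_⟩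
  simp only [h, fun1, mul_add, Finset.mul_sum, mul_assoc]

theorem LHol_Fsmul (hm : ContDiff ℂ ∞ m) (h : LHol_F E) : LHol_F fun p Y => m p • E p Y := by
  simpa only [smul_one_mul] using LHol_Fmul (LHol_smul hm (LHol_const 1)) h

theorem LHol_Fev (a : Ix) : LHol_F fun _ Y => Y a :=
  ⟨_, _, fun b => LHol_const (if b = a then 1 else 0), fun _ _ => LHol_const 0,
    fun p Y => by simp [fun1]⟩

theorem LHol_Fdd (a : Ix) (j : Fin 3) : LHol_F fun _ Y => dd j (Y a) :=
  ⟨_, _, fun _ => LHol_const 0,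
    fun b k => LHol_const (if k = j then if b = a then 1 else 0 else 0),
    fun p Y => by simp [fun1]⟩

theorem LHol_G (D : Dat) : LHol_F D.G := by
  have t := th_contDiff
  have e := eta_contDiff
  have c : ∀ u : Fin 3 → Sm, Hol fun p => ∑ j, th p j • u j := LHol_cdot t
  unfold Dat.G
  simp only [dvg, rv, cdot, map_sum, Derivation.map_smul]
  exact LHol_Fadd (LHol_Fadd (LHol_Fadd (LHol_Fadd (LHol_Fadd (LHol_Fadd
    (LHol_Fmul (c _) (LHol_Fev _))
    (LHol_Fsum fun i => LHol_Fmul (c _) (LHol_Fsum fun A => LHol_Fsmul (e A i) (LHol_Fev _))))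
    (LHol_Fmul (LHol_const _) (LHol_Fsum fun j => LHol_Fsmul (t j) (LHol_Fev _))))
    (LHol_Fsum fun i => LHol_Fmul (LHol_const _) (LHol_Fsum fun A => LHol_Fsmul (e A i)
      (LHol_Fsum fun j => LHol_Fsmul (t j) (LHol_Fev _)))))
    (LHol_Fmul (c _) (LHol_Fsum fun i => LHol_Fsum fun A => LHol_Fsmul (e A i) (LHol_Fev _))))
    (LHol_Fmul (c _) (LHol_Fsum fun i => LHol_Fsum fun A => LHol_Fsmul (e A i) (LHol_Fdd _ _))))
    (LHol_Fmul (LHol_const _) (LHol_Fsum fun i => LHol_Fsum fun A => LHol_Fsmul (e A i)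
      (LHol_Fsum fun j => LHol_Fsmul (t j) (LHol_Fdd _ _))))

end

theorem W_hol {D : Dat} {Ω : Set E3} {R : ℝ} (hS : Setup D Ω R) (ψ : Ix → Sm) :
    DifferentiableOn ℂ (fun p => D.W Ω R p ψ) {p | p ≠ 0} := by
  obtain ⟨c₀, c₁, h0, h1, h⟩ := LHol_G D
  have n : ∀ {p}, th p ≠ 0 → p ≠ 0 := fun hp e => hp (e ▸ th_zero)
  refine (hol_gen th th_contDiff th_null D.BT (LHol_BT D) c₀ h0 c₁ h1 R hS.hR Ω hS.hΩ hS.sub
    (fun p hp Y hY => ?_) ψ _ fun p hp Y hY => ?_).mono fun p hp => th_ne hp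
  · rw [← h]
    exact F_ker hS (n hp) hY
  · rw [← h]
    exact W_eq hS (n hp) hY

end Vale.Agent.P136
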