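import Mathlib

/-! Homogeneous holomorphic functions on `ℂ² \ 0` of degree zero or one.

Plan. `W` is continuous on the compact unit sphere, bounded by `M` there; by homogeneity with
`c = ‖(1, t)‖ ≤ 1 + ‖t‖`, `‖W (1, t)‖ ≤ M` resp. `≤ M (1 + ‖t‖)`. `f t = W (1, t)` is entire.
Degree zero: `Differentiable.apply_eq_apply_of_bounded`. Degree one: `dslope f 0` is entire
(`differentiableOn_dslope` / `Complex.differentiableOn_dslope`) and bounded (continuous on the unit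
disc, `≤ (M (1 + ‖t‖) + ‖f 0‖)/‖t‖` outside), hence constant. -/

namespace Vale.Agent.P136

theorem LPoly_ne (t : ℂ) : ((1 : ℂ), t) ≠ 0 := fun h => one_ne_zero (congrArg Prod.fst h)

theorem LPoly_diff {W : ℂ × ℂ → ℂ} (hW : DifferentiableOn ℂ W {p | p ≠ 0}) :
    Differentiable ℂ fun t : ℂ => W (1, t) := fun t =>
  (hW.differentiableAt (isOpen_ne.mem_nhds (LPoly_ne t))).comp t
    ((differentiableAt_const _).prodMk differentiableAt_id)

theorem LPoly_bd {W : ℂ × ℂ → ℂ} (hW : DifferentiableOn ℂ W {p | p ≠ 0}) :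
    ∃ M : ℝ, 0 ≤ M ∧ ∀ t : ℂ, ∃ (c : ℂ) (q : ℂ × ℂ), c ≠ 0 ∧ q ≠ 0 ∧ c • q = (1, t) ∧
      ‖c‖ ≤ 1 + ‖t‖ ∧ ‖W q‖ ≤ M := by
  obtain ⟨M, hM⟩ := (isCompact_sphere (0 : ℂ × ℂ) 1).exists_bound_of_continuousOn
    (hW.continuousOn.mono fun p hp => ne_zero_of_mem_unit_sphere ⟨p, hp⟩)
  refine ⟨max M 0, le_max_right _ _, fun t => ?_⟩
  have h0 : ‖((1 : ℂ), t)‖ ≠ 0 := norm_ne_zero_iff.2 (LPoly_ne t)
  have h1 : ((‖((1 : ℂ), t)‖ : ℝ) : ℂ) ≠ 0 := Complex.ofReal_ne_zero.2 h0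
  refine ⟨(‖((1 : ℂ), t)‖ : ℝ), ((‖((1 : ℂ), t)‖ : ℝ) : ℂ)⁻¹ • (1, t), h1,
    smul_ne_zero (inv_ne_zero h1) (LPoly_ne t), smul_inv_smul₀ h1 _, ?_,
    (hM _ ?_).trans (le_max_left _ _)⟩
  · rw [Complex.norm_real, norm_norm, Prod.norm_def, norm_one]
    exact max_le (by linarith [norm_nonneg t]) (by linarith)
  · rw [mem_sphere_zero_iff_norm, norm_smul, norm_inv, Complex.norm_real, norm_norm,
      inv_mul_cancel₀ h0]

theorem homog_zero (W : ℂ × ℂ → ℂ) (hW : DifferentiableOn ℂ W {p | p ≠ 0})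
    (hh : ∀ (c : ℂ) (p : ℂ × ℂ), c ≠ 0 → p ≠ 0 → W (c • p) = W p) (t : ℂ) :
    W (1, t) = W (1, 0) := by
  obtain ⟨M, -, hM⟩ := LPoly_bd hW
  refine (LPoly_diff hW).apply_eq_apply_of_bounded ?_ t 0
  refine isBounded_iff_forall_norm_le.2 ⟨M, ?_⟩
  rintro _ ⟨s, rfl⟩
  obtain ⟨c, q, hc, hq, e, -, h⟩ := hM s
  change ‖W (1, s)‖ ≤ M
  rw [← e, hh c q hc hq]
  exact h

theorem homog_one (W : ℂ × ℂ → ℂ) (hW : DifferentiableOn ℂ W {p | p ≠ 0})
    (hh : ∀ (c : ℂ) (p : ℂ × ℂ), c ≠ 0 → p ≠ 0 → W (c • p) = c * W p) :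
    ∃ v : ℂ, ∀ t : ℂ, W (1, t) = W (1, 0) + t * v := by
  obtain ⟨M, hM0, hM⟩ := LPoly_bd hW
  have hb : ∀ s : ℂ, ‖W (1, s)‖ ≤ (1 + ‖s‖) * M := fun s => by
    obtain ⟨c, q, hc, hq, e, h1, h⟩ := hM s
    rw [← e, hh c q hc hq, norm_mul]
    exact mul_le_mul h1 h (norm_nonneg _) (by positivity)
  have hd : Differentiable ℂ (dslope (fun t : ℂ => W (1, t)) 0) :=
    differentiableOn_univ.1 ((Complex.differentiableOn_dslope Filter.univ_mem).2
      (LPoly_diff hW).differentiableOn)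
  obtain ⟨K, hK⟩ := (isCompact_closedBall (0 : ℂ) 1).exists_bound_of_continuousOn
    hd.continuous.continuousOn
  have hc : ∀ s, dslope (fun t : ℂ => W (1, t)) 0 s = dslope (fun t : ℂ => W (1, t)) 0 0 := by
    intro s
    refine hd.apply_eq_apply_of_bounded (isBounded_iff_forall_norm_le.2 ⟨max K (3 * M), ?_⟩) s 0
    rintro _ ⟨z, rfl⟩
    rcases le_or_gt ‖z‖ 1 with h | h
    · exact (hK z (mem_closedBall_zero_iff.2 h)).trans (le_max_left _ _)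
    · refine le_trans ?_ (le_max_right _ _)
      have hz : z ≠ 0 := norm_pos_iff.1 (by linarith)
      rw [dslope_of_ne _ hz, slope_def_field, sub_zero, norm_div, div_le_iff₀ (by linarith)]
      have h1 := norm_sub_le (W (1, z)) (W (1, 0))
      have h2 := hb z
      have h3 := hb 0
      rw [norm_zero] at h3
      nlinarith
  refine ⟨dslope (fun t : ℂ => W (1, t)) 0 0, fun t => ?_⟩
  have h := sub_smul_dslope (fun t : ℂ => W (1, t)) 0 t
  rw [hc t, sub_zero, smul_eq_mul] at h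
  linear_combination -h

end Vale.Agent.P136
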