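import Vale.Agent.P136.LHol
import Vale.Agent.P136.LPoly

/-! Consequences of the Liouville theorem.

Plan. (1) For every first index `a` and `p ≠ 0`:
`∑ j, th p j * W p (single (a, some j) φ) = W p (tp (single a φ) (cvec (th p))) = 0`: solve the first
factor system with source `single a φ` (`solve_ex`), use `solves_tp_cvec` (with `th_null`), `W_eq`,
`G_tp_cvec`, `cdot_rv`.
(2) `∑ A j, pc p A * eta p 1 j * W p (single (some A, some j) φ) = 0`: the source is
`tp (emb p (single (some ()) φ)) (cvec (eta p 1))`; solve the subsystem, `solves_emb`,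
`solves_tp_cvec` (with `th_eta`), `G_tp_cvec`, `rv_emb`, and `cdot (eta p 1) (th p • _) = 0`.
`W_none`: `v j = W (1, t) (single (none, some j) φ)` does not depend on `t` (`homog_zero`); (1) at
`t = 0, 1, -1` gives `v·a = v·b = v·c = 0`, so `v = 0`.
`W_rel`: `W (1, t) (single (some A, some j) φ) = u A j + t * v A j` (`homog_one`). (1) for
`a = some 0` is a cubic polynomial identity in `t`, (2) a quadratic or cubic one; evaluate at
`t = 0, 1, -1, 2` (or compare coefficients): `u₀·a = 0`, `u₀·c + 2 v₀·b = 0`,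
`u₀·c + v₀·b + u₁·b = 0`, hence `u 1 2 = u 0 0`. -/

open MeasureTheory Metric
open scoped ContDiff

namespace Vale.Agent.P136

theorem LRel_cubic {c₀ c₁ c₂ c₃ : ℂ} (h : ∀ t : ℂ, c₀ + c₁ * t + c₂ * t ^ 2 + c₃ * t ^ 3 = 0) :
    c₀ = 0 ∧ c₁ = 0 ∧ c₂ = 0 := by
  refine ⟨by linear_combination h 0, ?_, ?_⟩
  · linear_combination (-1 / 2) * h 0 + h 1 + (-1 / 3) * h (-1) + (-1 / 6) * h 2
  · linear_combination (-1) * h 0 + (1 / 2) * h 1 + (1 / 2) * h (-1)

theorem LRel_F_zero {D : Dat} {Ω : Set E3} {p : ℂ × ℂ} {Y : Ix → Sm} (h : D.G p Y = 0) :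
    D.F Ω p Y = 0 := by
  unfold Dat.F
  rw [h]
  simp

theorem LRel_src (a : Option (Fin 2)) (φ : Sm) (v : Fin 3 → ℂ) :
    tp (Pi.single a φ : Option (Fin 2) → Sm) (cvec v)
      = ∑ j, v j • (Pi.single (a, some j) φ : Ix → Sm) := by
  funext q
  obtain ⟨a', b⟩ := q
  rw [Finset.sum_apply]
  by_cases ha : a' = a
  · subst ha
    cases b with
    | none => simp [tp, cvec]
    | some j => simp [tp, cvec, Pi.single_apply]
  · simp [tp, ha]

theorem LRel_one {D : Dat} {Ω : Set E3} {R : ℝ} (hS : Setup D Ω R) {p : ℂ × ℂ} (hp : p ≠ 0)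
    (a : Option (Fin 2)) (φ : Sm) :
    ∑ j, th p j * D.W Ω R p (Pi.single (a, some j) φ) = 0 := by
  obtain ⟨y, hy⟩ := solve_ex (th_null p) (th_ne hp) (D.B₁ p) R hS.hR (Pi.single a φ)
  have h1 : Solves (th p) R (D.BT p) _ _ := solves_tp_cvec hy (th_null p)
  have h2 := W_eq hS hp h1
  rw [LRel_F_zero (by rw [D.G_tp_cvec p y (th_null p), cdot_rv, mul_zero]), LRel_src,
    W_sum hS hp] at h2
  simpa only [W_smul hS hp] using h2

theorem LRel_src2 (p : ℂ × ℂ) (φ : Sm) (v : Fin 3 → ℂ) :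
    tp (emb p (Pi.single (some ()) φ)) (cvec v)
      = ∑ A, pc p A • ∑ j, v j • (Pi.single (some A, some j) φ : Ix → Sm) := by
  simp only [← LRel_src]
  funext q
  obtain ⟨a, b⟩ := q
  rw [Finset.sum_apply]
  cases a with
  | none => simp [tp, emb]
  | some A => simp [tp, emb, Pi.single_apply]

theorem LRel_two {D : Dat} {Ω : Set E3} {R : ℝ} (hS : Setup D Ω R) {p : ℂ × ℂ} (hp : p ≠ 0)
    (φ : Sm) :
    ∑ A, pc p A * ∑ j, eta p 1 j * D.W Ω R p (Pi.single (some A, some j) φ) = 0 := by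
  obtain ⟨y, hy⟩ := solve_ex (th_null p) (th_ne hp) (D.Bs p) R hS.hR (Pi.single (some ()) φ)
  have h1 : Solves (th p) R (D.BT p) _ _ := solves_tp_cvec (solves_emb hy) (th_eta p 1)
  have h2 := W_eq hS hp h1
  have h3 : cdot (eta p 1) (rv p (emb p y)) = 0 := by
    have h4 : ∑ j, eta p 1 j * th p j = 0 := by
      rw [← th_eta p 1]
      exact Finset.sum_congr rfl fun j _ => mul_comm _ _
    simp only [cdot, rv_emb, smul_smul]
    rw [← Finset.sum_smul, h4, zero_smul]
  rw [LRel_F_zero (by rw [D.G_tp_cvec p _ (th_eta p 1), h3, mul_zero]), LRel_src2,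
    W_sum hS hp] at h2
  simpa only [W_smul hS hp, W_sum hS hp] using h2

theorem W_none {D : Dat} {Ω : Set E3} {R : ℝ} (hS : Setup D Ω R) (j : Fin 3) (φ : Sm) :
    D.W Ω R (1, 0) (Pi.single (none, some j) φ) = 0 := by
  obtain ⟨v, hv⟩ : ∃ v : Fin 3 → ℂ, ∀ j t, D.W Ω R (1, t) (Pi.single (none, some j) φ) = v j :=
    ⟨_, fun j t => homog_zero (fun p => D.W Ω R p (Pi.single (none, some j) φ)) (W_hol hS _)
      (fun c p hc hp => W_homog_none hS hp hc _ φ) t⟩
  have h : ∀ t : ℂ, (v 0 + Complex.I * v 1) + (2 * v 2) * t + (-v 0 + Complex.I * v 1) * t ^ 2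
      + 0 * t ^ 3 = 0 := fun t => by
    have h1 := LRel_one hS (LPoly_ne t) none φ
    simp only [hv, Fin.sum_univ_three, th, va, vb, vc, Matrix.cons_val_zero, Matrix.cons_val_one,
      Matrix.cons_val] at h1
    linear_combination h1
  obtain ⟨h0, h1, h2⟩ := LRel_cubic h
  rw [hv]
  have e0 : v 0 = 0 := by linear_combination (1 / 2) * h0 - (1 / 2) * h2
  have e1 : v 1 = 0 := by
    have e : Complex.I * v 1 = 0 := by linear_combination (1 / 2) * h0 + (1 / 2) * h2
    exact (mul_eq_zero.1 e).resolve_left Complex.I_ne_zero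
  have e2 : v 2 = 0 := by linear_combination (1 / 2) * h1
  fin_cases j
  exacts [e0, e1, e2]

theorem W_rel {D : Dat} {Ω : Set E3} {R : ℝ} (hS : Setup D Ω R) (φ : Sm) :
    D.W Ω R (1, 0) (Pi.single (some 0, some 0) φ)
      = D.W Ω R (1, 0) (Pi.single (some 1, some 2) φ) := by
  have hv := fun (A : Fin 2) (j : Fin 3) =>
    homog_one (fun p => D.W Ω R p (Pi.single (some A, some j) φ)) (W_hol hS _)
      (fun c p hc hp => W_homog_some hS hp hc A _ φ)
  choose v hv using hv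
  obtain ⟨u, hu⟩ : ∃ u : Fin 2 → Fin 3 → ℂ, ∀ A j,
      D.W Ω R (1, 0) (Pi.single (some A, some j) φ) = u A j := ⟨_, fun _ _ => rfl⟩
  have hw : ∀ A j t, D.W Ω R (1, t) (Pi.single (some A, some j) φ) = u A j + t * v A j :=
    fun A j t => by rw [← hu]; exact hv A j t
  have h : ∀ t : ℂ, (u 0 0 + Complex.I * u 0 1) + (2 * u 0 2 + (v 0 0 + Complex.I * v 0 1)) * t
      + ((-u 0 0 + Complex.I * u 0 1) + 2 * v 0 2) * t ^ 2
      + (-v 0 0 + Complex.I * v 0 1) * t ^ 3 = 0 := fun t => by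
    have h1 := LRel_one hS (LPoly_ne t) (some 0) φ
    simp only [hw, Fin.sum_univ_three, th, va, vb, vc, Matrix.cons_val_zero, Matrix.cons_val_one,
      Matrix.cons_val] at h1
    linear_combination h1
  have h' : ∀ t : ℂ, u 0 2 + ((-u 0 0 + Complex.I * u 0 1) + v 0 2 + u 1 2) * t
      + ((-v 0 0 + Complex.I * v 0 1) + (-u 1 0 + Complex.I * u 1 1) + v 1 2) * t ^ 2
      + (-v 1 0 + Complex.I * v 1 1) * t ^ 3 = 0 := fun t => by
    have h1 := LRel_two hS (LPoly_ne t) φ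
    simp only [hw, Fin.sum_univ_three, Fin.sum_univ_two, eta, pc, va, vb, vc, Matrix.cons_val_zero,
      Matrix.cons_val_one, Matrix.cons_val] at h1
    linear_combination h1
  obtain ⟨h0, -, h2⟩ := LRel_cubic h
  obtain ⟨-, h3, -⟩ := LRel_cubic h'
  rw [hu, hu]
  linear_combination (1 / 2) * h0 + (1 / 2) * h2 - h3

end Vale.Agent.P136
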