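import Vale.Agent.P136.LBas
import Vale.Agent.P136.KMain
import Vale.Agent.P136.Jet

/-! The functional `W` is well defined, linear and homogeneous.

Plan. `F` is additive (`G_add`, `integral_add`, `integrableOn_of_subset_ball`), homogeneous, and
vanishes on tensors with entries in `van R` (`G_van`, `setIntegral_congr_fun`); so
`kernel_vanish` (with `AddMonoidHom.mk'`) gives `F_ker`. `W_eq`: the difference of two solutions
solves the homogeneous system (`Solves.add`, `Solves.smul`). The rest follows from `solve_ex`,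
`G_resc`, `solves_resc` (`c ^ 2 • resc c (Pi.single (none, b) φ) = c ^ 2 • Pi.single (none, b) φ`,
`c ^ 2 • resc c (Pi.single (some A, b) φ) = c • Pi.single (some A, b) φ`). -/

open MeasureTheory Metric
open scoped ContDiff

namespace Vale.Agent.P136

variable {D : Dat} {Ω : Set E3} {R : ℝ}

theorem F_add (hS : Setup D Ω R) (p : ℂ × ℂ) (Y Z : Ix → Sm) :
    D.F Ω p (Y + Z) = D.F Ω p Y + D.F Ω p Z := by
  unfold Dat.F
  rw [Dat.G_add, ← integral_add (integrableOn_of_subset_ball (Sm.cont _) hS.sub)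
    (integrableOn_of_subset_ball (Sm.cont _) hS.sub)]
  rfl

theorem F_smul (p : ℂ × ℂ) (c : ℂ) (Y : Ix → Sm) : D.F Ω p (c • Y) = c * D.F Ω p Y := by
  unfold Dat.F
  rw [Dat.G_smul, ← integral_const_mul]
  rfl

theorem F_ker (hS : Setup D Ω R) {p : ℂ × ℂ} (hp : p ≠ 0) {Y : Ix → Sm}
    (hY : Solves (th p) R (D.BT p) Y 0) : D.F Ω p Y = 0 := by
  refine kernel_vanish (th_null p) (th_ne hp) R hS.hR (D.B₁ p) (D.B₂ p)
    (AddMonoidHom.mk' (D.F Ω p) (F_add hS p)) (fun Z hZ => ?_) (hS.prod p hp) Y hY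
  exact setIntegral_eq_zero_of_forall_eq_zero fun x hx => Dat.G_van D p hZ x (hS.sub hx)

theorem W_eq (hS : Setup D Ω R) {p : ℂ × ℂ} (hp : p ≠ 0) {Y ψ : Ix → Sm}
    (hY : Solves (th p) R (D.BT p) Y ψ) : D.W Ω R p ψ = D.F Ω p Y := by
  have h : ∃ Y, Solves (th p) R (D.BT p) Y ψ := ⟨Y, hY⟩
  have h1 := (Classical.choose_spec h).add (hY.smul (-1))
  rw [neg_one_smul ℂ ψ, add_neg_cancel] at h1
  have h2 := F_ker hS hp h1
  rw [F_add hS, F_smul] at h2
  rw [Dat.W, dif_pos h]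
  linear_combination h2

theorem W_add (hS : Setup D Ω R) {p : ℂ × ℂ} (hp : p ≠ 0) (ψ ψ' : Ix → Sm) :
    D.W Ω R p (ψ + ψ') = D.W Ω R p ψ + D.W Ω R p ψ' := by
  obtain ⟨Y, hY⟩ := solve_ex (th_null p) (th_ne hp) (D.BT p) R hS.hR ψ
  obtain ⟨Y', hY'⟩ := solve_ex (th_null p) (th_ne hp) (D.BT p) R hS.hR ψ'
  rw [W_eq hS hp hY, W_eq hS hp hY', W_eq hS hp (hY.add hY'), F_add hS]

theorem W_smul (hS : Setup D Ω R) {p : ℂ × ℂ} (hp : p ≠ 0) (c : ℂ) (ψ : Ix → Sm) :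
    D.W Ω R p (c • ψ) = c * D.W Ω R p ψ := by
  obtain ⟨Y, hY⟩ := solve_ex (th_null p) (th_ne hp) (D.BT p) R hS.hR ψ
  rw [W_eq hS hp hY, W_eq hS hp (hY.smul c), F_smul]

theorem W_sum (hS : Setup D Ω R) {p : ℂ × ℂ} (hp : p ≠ 0) {κ : Type} (s : Finset κ)
    (ψ : κ → Ix → Sm) : D.W Ω R p (∑ k ∈ s, ψ k) = ∑ k ∈ s, D.W Ω R p (ψ k) := by
  classical
  induction s using Finset.induction_on with
  | empty => simpa using W_smul hS hp 0 0
  | insert k s hk ih => rw [Finset.sum_insert hk, Finset.sum_insert hk, W_add hS hp, ih]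

theorem LW_resc (hS : Setup D Ω R) {p : ℂ × ℂ} (hp : p ≠ 0) {c : ℂ} (hc : c ≠ 0) (ψ : Ix → Sm) :
    D.W Ω R (c • p) (Dat.resc c ψ) = D.W Ω R p ψ := by
  obtain ⟨Y, hY⟩ := solve_ex (th_null p) (th_ne hp) (D.BT p) R hS.hR ψ
  have h1 := W_eq hS (smul_ne_zero hc hp) (Dat.solves_resc D hc hY)
  have h2 : D.F Ω (c • p) (Dat.resc c Y) = c ^ 2 * D.F Ω p Y := by
    unfold Dat.F
    rw [Dat.G_resc D p hc, ← integral_const_mul]
    rfl
  rw [W_smul hS (smul_ne_zero hc hp), h2, ← W_eq hS hp hY] at h1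
  exact mul_left_cancel₀ (pow_ne_zero 2 hc) h1

theorem W_homog_none (hS : Setup D Ω R) {p : ℂ × ℂ} (hp : p ≠ 0) {c : ℂ} (hc : c ≠ 0)
    (b : Option (Fin 3)) (φ : Sm) :
    D.W Ω R (c • p) (Pi.single (none, b) φ) = D.W Ω R p (Pi.single (none, b) φ) := by
  rw [← LW_resc hS hp hc]
  congr 1
  funext ⟨a, b'⟩
  cases a with
  | none => rfl
  | some A => simp [Dat.resc]

theorem W_homog_some (hS : Setup D Ω R) {p : ℂ × ℂ} (hp : p ≠ 0) {c : ℂ} (hc : c ≠ 0)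
    (A : Fin 2) (b : Option (Fin 3)) (φ : Sm) :
    D.W Ω R (c • p) (Pi.single (some A, b) φ) = c * D.W Ω R p (Pi.single (some A, b) φ) := by
  rw [← LW_resc hS hp hc, ← W_smul hS (smul_ne_zero hc hp)]
  congr 1
  funext ⟨a, b'⟩
  cases a with
  | none => simp [Dat.resc]
  | some A' => simp [Dat.resc, smul_smul, hc]

end Vale.Agent.P136
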