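import Vale.Agent.P136.Med

/-! Reduction to globally defined media, and control of the coefficient data.

Plan. `exists_med`: the open set `U = {μ > 0, λ + μ > 0}` contains the compact `closure Ω`
(`λ + μ = (3λ + 2μ)/3 + μ/3`). Take a smooth `χ : E3 → [0,1]`, `χ = 1` on `closure Ω`, `χ = 0` off `U`
(`exists_contMDiff_zero_iff_one_iff_of_isClosed`, `exists_smooth_zero_one_of_isClosed`,
`exists_contDiff_tsupport_subset`-like lemmas, or `IsOpen.exists_contDiff_support_eq` and a quotient).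
`a = χ μ + (1 - χ)`, `b = χ (λ + μ) + (1 - χ)` are smooth and positive. Put `nb = sqrt a`,
`n = 1 / sqrt a`, `kb = b`, `k = 1/b`, `rho = 1 / (1/a + 1/b)` (cast to `ℂ`).
`dmu_mem`: `dmu = -hr * (nb₁ * kb₂ * nb₂ * p₂)`; `dlam_mem`:
`dlam = (-b₀ + dmu * (…) * kap₂) * (kb₁ * p₁ * kb₂ * nb₂ * p₂)` (use `hn, hk, hp`).
`datOf_ctl`: every coefficient is a multiple of `dmu`. -/

open MeasureTheory Metric
open scoped ContDiff

namespace Vale.Agent.P136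

/-- A real smooth function as an element of `Sm`. -/
noncomputable def Red_of (g : E3 → ℝ) (hg : ContDiff ℝ ∞ g) : Sm :=
  ⟨fun x => (g x : ℂ), Complex.ofRealCLM.contDiff.comp hg⟩

theorem Red_med {a b : E3 → ℝ} (ha : ContDiff ℝ ∞ a) (hb : ContDiff ℝ ∞ b) (pa : ∀ x, 0 < a x)
    (pb : ∀ x, 0 < b x) : ∃ M : Med, (∀ x, M.mu.1 x = a x) ∧ ∀ x, M.kb.1 x = b x := by
  have hs : ContDiff ℝ ∞ fun x => Real.sqrt (a x) := ha.sqrt fun x => (pa x).ne'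
  have ps : ∀ x, 0 < Real.sqrt (a x) := fun x => Real.sqrt_pos.2 (pa x)
  have hn : ContDiff ℝ ∞ fun x => (Real.sqrt (a x))⁻¹ := hs.inv fun x => (ps x).ne'
  have hk : ContDiff ℝ ∞ fun x => (b x)⁻¹ := hb.inv fun x => (pb x).ne'
  have pr : ∀ x, 0 < (Real.sqrt (a x))⁻¹ * (Real.sqrt (a x))⁻¹ + (b x)⁻¹ := fun x => by
    have := ps x
    have := pb x
    positivity
  have hr : ContDiff ℝ ∞ fun x => ((Real.sqrt (a x))⁻¹ * (Real.sqrt (a x))⁻¹ + (b x)⁻¹)⁻¹ :=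
    ((hn.mul hn).add hk).inv fun x => (pr x).ne'
  refine ⟨⟨Red_of _ hn, Red_of _ hs, Red_of _ hk, Red_of _ hb, Red_of _ hr, ?_, ?_, ?_⟩,
    fun x => ?_, fun x => rfl⟩
  · ext x
    change (((Real.sqrt (a x))⁻¹ : ℝ) : ℂ) * (Real.sqrt (a x) : ℝ) = 1
    rw [← Complex.ofReal_mul, inv_mul_cancel₀ (ps x).ne', Complex.ofReal_one]
  · ext x
    change (((b x)⁻¹ : ℝ) : ℂ) * (b x : ℝ) = 1
    rw [← Complex.ofReal_mul, inv_mul_cancel₀ (pb x).ne', Complex.ofReal_one]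
  · ext x
    change ((((Real.sqrt (a x))⁻¹ : ℝ) : ℂ) * ((Real.sqrt (a x))⁻¹ : ℝ) + ((b x)⁻¹ : ℝ)) *
      (((Real.sqrt (a x))⁻¹ * (Real.sqrt (a x))⁻¹ + (b x)⁻¹)⁻¹ : ℝ) = 1
    rw [← Complex.ofReal_mul, ← Complex.ofReal_add, ← Complex.ofReal_mul,
      mul_inv_cancel₀ (pr x).ne', Complex.ofReal_one]
  · change ((Real.sqrt (a x) : ℝ) : ℂ) * (Real.sqrt (a x) : ℝ) = _
    rw [← Complex.ofReal_mul, Real.mul_self_sqrt (pa x).le]

theorem exists_med {Ω : Set E3} (hb : Bornology.IsBounded Ω) {lam mu : E3 → ℝ}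
    (ha : Admissible Ω lam mu) :
    ∃ M : Med, (∀ x ∈ Ω, M.lam.1 x = lam x) ∧ ∀ x ∈ Ω, M.mu.1 x = mu x := by
  obtain ⟨hl, hm, hpos⟩ := ha
  have hU : IsOpen {x | 0 < mu x ∧ 0 < lam x + mu x} :=
    (isOpen_lt continuous_const hm.continuous).inter
      (isOpen_lt continuous_const (hl.continuous.add hm.continuous))
  obtain ⟨χ, h0, h1, h01⟩ := exists_contMDiffMap_zero_one_of_isClosed (n := ⊤)
    (modelWithCornersSelf ℝ E3) hU.isClosed_compl (isClosed_closure (s := Ω))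
    (Set.disjoint_left.2 fun x hx hx' => hx ⟨(hpos x hx').1, by
      have := hpos x hx'
      linarith [this.1, this.2]⟩)
  have hχ : ContDiff ℝ ∞ χ := χ.contMDiff.contDiff
  have pos : ∀ g : E3 → ℝ, (∀ x, 0 < mu x ∧ 0 < lam x + mu x → 0 < g x) →
      ∀ x, 0 < χ x * g x + (1 - χ x) := by
    intro g hg x
    by_cases hx : 0 < mu x ∧ 0 < lam x + mu x
    · have := hg x hx
      obtain ⟨a, b⟩ := h01 x
      rcases b.eq_or_lt with e | e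
      · rw [e]
        linarith
      · have := mul_nonneg a this.le
        linarith
    · have : χ x = 0 := h0 hx
      rw [this]
      norm_num
  obtain ⟨M, ha, hb⟩ := Red_med (a := fun x => χ x * mu x + (1 - χ x))
    (b := fun x => χ x * (lam x + mu x) + (1 - χ x))
    ((hχ.mul hm).add (contDiff_const.sub hχ)) ((hχ.mul (hl.add hm)).add (contDiff_const.sub hχ))
    (pos mu fun x h => h.1) (pos _ fun x h => h.2)
  refine ⟨M, fun x hx => ?_, fun x hx => ?_⟩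
  · have e : χ x = 1 := h1 (subset_closure hx)
    change M.kb.1 x - M.mu.1 x = _
    rw [ha, hb, e]
    push_cast
    ring
  · have e : χ x = 1 := h1 (subset_closure hx)
    rw [ha, e]
    push_cast
    ring

theorem dmu_mem (M₁ M₂ : Med) :
    dmu M₁ M₂ ∈ Ideal.span {(datOf M₁ M₂).b₀, (datOf M₁ M₂).hr} := by
  refine Ideal.mem_span_pair.2 ⟨0, -(M₁.nb * M₂.kb * M₂.nb * M₂.p), ?_⟩
  have hp : M₂.p * M₂.rho = 1 := M₂.hp
  simp only [datOf, Med.kap]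
  linear_combination (dmu M₁ M₂ * (M₂.k * M₂.kb) * (M₂.n * M₂.nb) * (M₂.p * M₂.rho)) * M₁.hn
    + (dmu M₁ M₂ * (M₂.n * M₂.nb) * (M₂.p * M₂.rho)) * M₂.hk
    + (dmu M₁ M₂ * (M₂.p * M₂.rho)) * M₂.hn + dmu M₁ M₂ * hp

theorem dlam_mem (M₁ M₂ : Med) :
    dlam M₁ M₂ ∈ Ideal.span {(datOf M₁ M₂).b₀, (datOf M₁ M₂).hr} := by
  have h1 := dmu_mem M₁ M₂
  have h2 : (datOf M₁ M₂).b₀ ∈ Ideal.span {(datOf M₁ M₂).b₀, (datOf M₁ M₂).hr} :=
    Ideal.subset_span (Set.mem_insert _ _)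
  have hp : M₂.p * M₂.rho = 1 := M₂.hp
  have hp' : M₁.p * M₁.rho = 1 := M₁.hp
  have e : dlam M₁ M₂ = (dmu M₁ M₂ * ((M₁.n * M₁.e - M₁.k * M₁.rho) * M₂.kap) -
      (datOf M₁ M₂).b₀) * (M₁.kb * M₁.p * M₂.kb * M₂.nb * M₂.p) := by
    simp only [datOf, Med.kap]
    linear_combination
      (-dlam M₁ M₂ * (M₁.p * M₁.rho) * (M₂.k * M₂.kb) * (M₂.n * M₂.nb) * (M₂.p * M₂.rho)) * M₁.hk
      - (dlam M₁ M₂ * (M₂.k * M₂.kb) * (M₂.n * M₂.nb) * (M₂.p * M₂.rho)) * hp'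
      - (dlam M₁ M₂ * (M₂.n * M₂.nb) * (M₂.p * M₂.rho)) * M₂.hk
      - (dlam M₁ M₂ * (M₂.p * M₂.rho)) * M₂.hn - dlam M₁ M₂ * hp
  rw [e]
  exact Ideal.mul_mem_right _ _ (Ideal.sub_mem _ (Ideal.mul_mem_right _ _ h1) h2)

theorem datOf_ctl (M₁ M₂ : Med) : (datOf M₁ M₂).Ctl := by
  have h := dmu_mem M₁ M₂
  exact ⟨fun _ => Ideal.mul_mem_right _ _ h, fun _ _ => Ideal.mul_mem_right _ _ h,
    fun _ => Ideal.mul_mem_right _ _ h, fun _ => Ideal.mul_mem_right _ _ h,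
    fun _ => Ideal.mul_mem_right _ _ h⟩

end Vale.Agent.P136
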