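import Vale.Agent.P136.ZEst
import Vale.Agent.P136.LRel

/-! The final contraction argument.

Plan. `b0_eq`: `Y = single (none, some 0) φ` solves the tensor system at `p = (1, 0)` with source
`single (none, none) (e₂ φ) + ∑ j, single (none, some j) (g j) - single (some 0, some 0) (e₁ φ)` for
suitable `g j` (`tens_sum`, cases on the index), and `G p Y = b₀ * φ`; use `W_eq`, `W_add`, `W_sum`,
`W_smul`, `W_none`.
`dual_norm`: for `h : Sm`, a smooth positive weight `w` and `η > 0` take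
`φ = w * conj h / sqrt (‖h‖² + η²)` (smooth; `‖φ‖ ≤ w`), `h φ = w ‖h‖² / sqrt (‖h‖² + η²) ≥
w (‖h‖ - η)`; let `η → 0`.
`final`: with `Ce` a bound of `e₁, e₂` on the ball of radius `R + 1`, `W_rel`, `est_rr`, `est_bb` give
`‖∫ hr φ‖ ≤ 2ε I` and `b0_eq`, `W_rel`, `est_bb`, `est_ss` give `‖∫ b₀ φ‖ ≤ 2 ε Ce I`, for
`I = ∫_Ω dl * wt` and all `‖φ‖ ≤ wt`; so `I ≤ I / 2` for small `ε` and `N` large, `I = 0`. The
integrand is continuous and nonnegative on the open set `Ω`, hence zero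
(`Continuous.integral_pos_of_hasCompactSupport_nonneg_nonzero`-like, or
`setIntegral_eq_zero_iff_of_nonneg_ae` and `Measure.eqOn_open_of_ae_eq`). -/

open MeasureTheory Metric
open scoped ContDiff

namespace Vale.Agent.P136

theorem ZFin_th : th (1, 0) 0 = 1 := by simp [th, va]

theorem ZFin_wt (N : ℝ) (θ : Fin 3 → ℂ) : ContDiff ℝ ∞ (wt N θ 0) := by
  have h : ContDiff ℝ ∞ fun x : E3 => zc θ (x - 0) := by
    simp only [sub_zero, zc]
    exact (contDiff_const.mul (lin_smooth θ)).div_const _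
  exact ((contDiff_const.mul (h.norm_sq ℝ)).div_const 2).exp

theorem b0_eq {D : Dat} {Ω : Set E3} {R : ℝ} (hS : Setup D Ω R) (φ : Sm) :
    ∫ x in Ω, (D.b₀ * φ).1 x = D.W Ω R (1, 0) (Pi.single (none, none) (D.e₂ * φ))
      - D.W Ω R (1, 0) (Pi.single (some 0, some 0) (D.e₁ * φ)) := by
  have hp : ((1, 0) : ℂ × ℂ) ≠ 0 := by simp
  obtain ⟨Y, hY⟩ : ∃ Y : Ix → Sm, Y = Pi.single (none, some 0) φ := ⟨_, rfl⟩
  obtain ⟨ψ, hψ⟩ : ∃ ψ : Ix → Sm,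
      ψ = fun q => DD (th (1, 0)) (Y q) - ∑ q', D.BT (1, 0) q q' * Y q' := ⟨_, rfl⟩
  have h1 : Solves (th (1, 0)) R (D.BT (1, 0)) Y ψ := fun q => by
    rw [hψ, sub_self]
    exact zero_mem _
  have h2 : ψ = Pi.single (none, none) (D.e₂ * φ) +
      ∑ j : Fin 3, Pi.single (none, some j) (ψ (none, some j)) +
      (-1 : ℂ) • (Pi.single (some 0, some 0) (D.e₁ * φ) : Ix → Sm) := by
    funext q
    obtain ⟨_ | A, _ | j⟩ := q
    · simp [hψ, hY, Dat.BT, tens, Dat.B₂, B2of, ZFin_th, Pi.single_apply]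
      ring
    · simp [Pi.single_apply]
    · simp [hψ, hY, Dat.BT, tens_sum]
    · fin_cases A <;> fin_cases j <;>
        simp [hψ, hY, Dat.BT, tens, Dat.B₁, B1of, pc, Pi.single_apply]
  have h3 : D.G (1, 0) Y = D.b₀ * φ := by
    simp [hY, Dat.G, rv, cdot, dvg, Pi.single_apply, ZFin_th]
  have h4 := W_eq hS hp h1
  rw [h2, W_add hS hp, W_add hS hp, W_sum hS hp, W_smul hS hp, Dat.F, h3] at h4
  simp only [W_none hS, Finset.sum_const_zero] at h4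
  rw [← h4]
  ring

theorem dual_norm {Ω : Set E3} {R : ℝ} (hΩ : IsOpen Ω) (hsub : Ω ⊆ ball 0 R) (h : Sm)
    (w : E3 → ℝ) (hw : ContDiff ℝ ∞ w) (hw0 : ∀ x, 0 ≤ w x) (K : ℝ)
    (hK : ∀ φ : Sm, (∀ x, ‖φ.1 x‖ ≤ w x) → ‖∫ x in Ω, (h * φ).1 x‖ ≤ K) :
    ∫ x in Ω, ‖h.1 x‖ * w x ≤ K := by
  have hwc := hw.continuous
  have hhc := (Sm.cont h).norm
  have hI : 0 ≤ ∫ x in Ω, w x := integral_nonneg hw0
  refine le_of_forall_pos_le_add fun ε hε => ?_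
  obtain ⟨η, hη, hη2⟩ : ∃ η : ℝ, 0 < η ∧ η * ∫ x in Ω, w x ≤ ε :=
    ⟨ε / ((∫ x in Ω, w x) + 1), by positivity, by
      rw [div_mul_eq_mul_div, div_le_iff₀ (by positivity)]
      linarith⟩
  have hpos : ∀ x, 0 < ‖h.1 x‖ ^ 2 + η ^ 2 := fun x => by positivity
  have hs : ∀ x, 0 < √(‖h.1 x‖ ^ 2 + η ^ 2) := fun x => Real.sqrt_pos.2 (hpos x)
  have hc : ContDiff ℝ ∞ fun x => w x / √(‖h.1 x‖ ^ 2 + η ^ 2) :=
    hw.div ((((Sm.smooth h).norm_sq ℝ).add contDiff_const).sqrt fun x => (hpos x).ne')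
      fun x => (hs x).ne'
  let φ : Sm := ⟨fun x => ((w x / √(‖h.1 x‖ ^ 2 + η ^ 2) : ℝ) : ℂ) * (starRingEnd ℂ) (h.1 x),
    (Complex.ofRealCLM.contDiff.comp hc).mul (Complex.conjCLE.contDiff.comp (Sm.smooth h))⟩
  have h1 := hK φ fun x => by
    change ‖((w x / √(‖h.1 x‖ ^ 2 + η ^ 2) : ℝ) : ℂ) * (starRingEnd ℂ) (h.1 x)‖ ≤ w x
    rw [norm_mul, Complex.norm_conj, Complex.norm_real,
      Real.norm_of_nonneg (div_nonneg (hw0 x) (hs x).le), div_mul_eq_mul_div, div_le_iff₀ (hs x)]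
    exact mul_le_mul_of_nonneg_left (Real.le_sqrt_of_sq_le (by linarith [sq_nonneg η])) (hw0 x)
  have h2 : ∀ x, (h * φ).1 x = ((w x / √(‖h.1 x‖ ^ 2 + η ^ 2) * ‖h.1 x‖ ^ 2 : ℝ) : ℂ) := fun x => by
    change h.1 x * (((w x / √(‖h.1 x‖ ^ 2 + η ^ 2) : ℝ) : ℂ) * (starRingEnd ℂ) (h.1 x)) = _
    rw [mul_left_comm, Complex.mul_conj, Complex.normSq_eq_norm_sq, ← Complex.ofReal_mul]
  simp only [h2] at h1
  rw [integral_complex_ofReal, Complex.norm_real] at h1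
  have i1 := integrableOn_of_subset_ball (f := fun x => w x / √(‖h.1 x‖ ^ 2 + η ^ 2) * ‖h.1 x‖ ^ 2)
    (hc.continuous.mul (hhc.pow 2)) hsub
  have i2 := integrableOn_of_subset_ball (f := fun x => η * w x) (continuous_const.mul hwc) hsub
  have h3 : ∫ x in Ω, ‖h.1 x‖ * w x ≤
      ∫ x in Ω, (w x / √(‖h.1 x‖ ^ 2 + η ^ 2) * ‖h.1 x‖ ^ 2 + η * w x) := by
    refine setIntegral_mono_on (integrableOn_of_subset_ball (hhc.mul hwc) hsub) (i1.add i2)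
      hΩ.measurableSet fun x _ => ?_
    have a1 : √(‖h.1 x‖ ^ 2 + η ^ 2) ≤ ‖h.1 x‖ + η :=
      Real.sqrt_le_iff.2 ⟨by positivity, by nlinarith [mul_nonneg (norm_nonneg (h.1 x)) hη.le]⟩
    have a2 : ‖h.1 x‖ - η ≤ ‖h.1 x‖ ^ 2 / √(‖h.1 x‖ ^ 2 + η ^ 2) := by
      rw [le_div_iff₀ (hs x)]
      rcases le_total (‖h.1 x‖ - η) 0 with c | c
      · exact (mul_nonpos_of_nonpos_of_nonneg c (hs x).le).trans (sq_nonneg _)
      · nlinarith [mul_le_mul_of_nonneg_left a1 c, sq_nonneg η]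
    have a3 := mul_le_mul_of_nonneg_left a2 (hw0 x)
    rw [div_mul_eq_mul_div, mul_div_assoc]
    linarith
  rw [integral_add i1 i2, integral_const_mul] at h3
  linarith [le_abs_self (∫ x in Ω, w x / √(‖h.1 x‖ ^ 2 + η ^ 2) * ‖h.1 x‖ ^ 2),
    Real.norm_eq_abs (∫ x in Ω, w x / √(‖h.1 x‖ ^ 2 + η ^ 2) * ‖h.1 x‖ ^ 2)]

theorem final {D : Dat} {Ω : Set E3} {R : ℝ} (hS : Setup D Ω R) (hC : D.Ctl) :
    ∀ x ∈ Ω, D.b₀.1 x = 0 ∧ D.hr.1 x = 0 := by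
  obtain ⟨C1, hC1, b1⟩ := Sm.bound D.e₁ (R + 1)
  obtain ⟨C2, hC2, b2⟩ := Sm.bound D.e₂ (R + 1)
  obtain ⟨ε, hε, hε2⟩ : ∃ ε : ℝ, 0 < ε ∧ ε * (C1 + C2 + 2) = 1 / 2 :=
    ⟨1 / 2 / (C1 + C2 + 2), by positivity, by field_simp⟩
  obtain ⟨N1, -, e1⟩ := est_bb hS hC ε hε
  obtain ⟨N2, -, e2⟩ := est_ss hS hC ε hε
  obtain ⟨N3, -, e3⟩ := est_rr hS hC ε hε
  obtain ⟨N, n1, n2, n3⟩ : ∃ N : ℝ, N1 ≤ N ∧ N2 ≤ N ∧ N3 ≤ N :=
    ⟨max N1 (max N2 N3), le_max_left _ _, (le_max_left _ _).trans (le_max_right _ _),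
      (le_max_right _ _).trans (le_max_right _ _)⟩
  have hw := ZFin_wt N va
  have hw0 : ∀ x, 0 ≤ wt N va 0 x := fun x => (wt_pos _ _ _ x).le
  have h1 := dual_norm hS.hΩ hS.sub D.hr _ hw hw0
    (ε * 1 * (∫ x in Ω, dl D x * wt N va 0 x) + ε * 1 * ∫ x in Ω, dl D x * wt N va 0 x)
    fun φ hφ => by
      have a1 := e1 N n1 φ 1 zero_le_one fun x _ => by rw [one_mul]; exact hφ x
      have a2 := e3 N n3 φ 1 zero_le_one fun x _ => by rw [one_mul]; exact hφ x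
      rw [← W_rel hS] at a1
      exact (norm_le_norm_add_norm_sub _ _).trans (add_le_add a1 a2)
  have h2 := dual_norm hS.hΩ hS.sub D.b₀ _ hw hw0
    (ε * C2 * (∫ x in Ω, dl D x * wt N va 0 x) + ε * C1 * ∫ x in Ω, dl D x * wt N va 0 x)
    fun φ hφ => by
      have a1 := e1 N n1 (D.e₁ * φ) C1 hC1 fun x hx =>
        (norm_mul_le (D.e₁.1 x) (φ.1 x)).trans (mul_le_mul (b1 x hx) (hφ x) (norm_nonneg _) hC1)
      have a2 := e2 N n2 (D.e₂ * φ) C2 hC2 fun x hx =>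
        (norm_mul_le (D.e₂.1 x) (φ.1 x)).trans (mul_le_mul (b2 x hx) (hφ x) (norm_nonneg _) hC2)
      rw [b0_eq hS, W_rel hS]
      exact (norm_sub_le _ _).trans (add_le_add a2 a1)
  have c1 : Continuous fun x => ‖D.b₀.1 x‖ * wt N va 0 x := (Sm.cont _).norm.mul hw.continuous
  have c2 : Continuous fun x => ‖D.hr.1 x‖ * wt N va 0 x := (Sm.cont _).norm.mul hw.continuous
  have c3 : Continuous fun x => dl D x * wt N va 0 x :=
    ((Sm.cont _).norm.add (Sm.cont _).norm).mul hw.continuous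
  have h0 : ∀ x, 0 ≤ dl D x * wt N va 0 x := fun x =>
    mul_nonneg (add_nonneg (norm_nonneg _) (norm_nonneg _)) (hw0 x)
  have h3 : ∫ x in Ω, dl D x * wt N va 0 x =
      (∫ x in Ω, ‖D.b₀.1 x‖ * wt N va 0 x) + ∫ x in Ω, ‖D.hr.1 x‖ * wt N va 0 x := by
    rw [← integral_add (integrableOn_of_subset_ball c1 hS.sub)
      (integrableOn_of_subset_ball c2 hS.sub)]
    simp only [dl, add_mul]
  have h4 : 0 ≤ ∫ x in Ω, dl D x * wt N va 0 x := integral_nonneg h0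
  have h5 : ∫ x in Ω, dl D x * wt N va 0 x = 0 := by
    have : ε * (C1 + C2 + 2) * ∫ x in Ω, dl D x * wt N va 0 x =
        1 / 2 * ∫ x in Ω, dl D x * wt N va 0 x := by rw [hε2]
    linarith
  have h6 := (setIntegral_eq_zero_iff_of_nonneg_ae (Filter.Eventually.of_forall h0)
    (integrableOn_of_subset_ball c3 hS.sub)).1 h5
  have h7 := Measure.eqOn_open_of_ae_eq h6 hS.hΩ c3.continuousOn continuousOn_const
  intro x hx
  have h8 : dl D x = 0 := (mul_eq_zero.1 (h7 hx)).resolve_right (wt_pos _ _ _ x).ne'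
  unfold dl at h8
  exact ⟨norm_eq_zero.1 (by linarith [norm_nonneg (D.b₀.1 x), norm_nonneg (D.hr.1 x)]),
    norm_eq_zero.1 (by linarith [norm_nonneg (D.b₀.1 x), norm_nonneg (D.hr.1 x)])⟩

end Vale.Agent.P136
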