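import Vale.Agent.P136.ILim
import Vale.Agent.P136.AlgD
import Vale.Agent.P136.Red
import Vale.Agent.P136.ZFin
import Vale.Agent.P136.HCx

/-! Global uniqueness for the isotropic elasticity system. -/

open MeasureTheory Metric
open scoped ContDiff

namespace Vale.Agent.P136

theorem prod_of_hId (M₁ M₂ : Med) {Ω : Set E3} {R : ℝ} (hΩ : IsOpen Ω) (hR : 0 < R)
    (hsub : Ω ⊆ ball 0 R) (hid : HId Ω M₁.lam M₁.mu M₂.lam M₂.mu) :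
    (datOf M₁ M₂).Prod Ω R := by
  intro p hp y z hy hz
  have hθ := th_null p
  have h0 := th_ne hp
  obtain ⟨h1, h2⟩ := solves_rv hy
  obtain ⟨γ, hγ⟩ := solve_prim hθ h0 R hR (M₁.e * y none + ∑ j, M₁.l j * rv p y j)
  have hD : Dual M₁ (th p) R (y none) (rv p y) γ := ⟨hθ, cdot_rv p y, h1, h2, hγ⟩
  obtain ⟨R1, hR1, hT⟩ := hD.sh_exists h0 hR
  have hlim := pair_limit M₁ M₂ hΩ hR hsub hid hθ h0 _ _ z hD.sh_zero hT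
    (P2_zero M₁ M₂ _ _ hD.cdot_shR) (tr_of_solves M₂ hz)
  have halg := main_alg M₂ hD R1 hR1 z hz
  unfold Dat.F
  rw [Dat.G_tp, ← hlim]
  refine setIntegral_congr_fun hΩ.measurableSet fun x hx => ?_
  have := halg x (hsub hx)
  exact (sub_eq_zero.1 this).symm

theorem uniqueness {Ω : Set E3} (hΩ : IsOpen Ω) (hb : Bornology.IsBounded Ω)
    {lam₁ mu₁ lam₂ mu₂ : E3 → ℝ} (h₁ : Admissible Ω lam₁ mu₁) (h₂ : Admissible Ω lam₂ mu₂)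
    (hDN : DN Ω lam₁ mu₁ = DN Ω lam₂ mu₂) : ∀ x ∈ Ω, lam₁ x = lam₂ x ∧ mu₁ x = mu₂ x := by
  obtain ⟨M₁, hl₁, hm₁⟩ := exists_med hb h₁
  obtain ⟨M₂, hl₂, hm₂⟩ := exists_med hb h₂
  obtain ⟨R, hR, hsub⟩ := hb.subset_ball_lt 0 (0 : E3)
  have hid := hId_of_DN hΩ hb h₁ h₂ hDN _ _ _ _ hl₁ hm₁ hl₂ hm₂
  have hS : Setup (datOf M₁ M₂) Ω R := ⟨hΩ, hR, hsub, prod_of_hId M₁ M₂ hΩ hR hsub hid⟩
  intro x hx
  obtain ⟨e1, e2⟩ := final hS (datOf_ctl M₁ M₂) x hx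
  have key : ∀ f ∈ Ideal.span {(datOf M₁ M₂).b₀, (datOf M₁ M₂).hr}, f.1 x = 0 := by
    intro f hf
    obtain ⟨u, v, rfl⟩ := Ideal.mem_span_pair.1 hf
    change u.1 x * (datOf M₁ M₂).b₀.1 x + v.1 x * (datOf M₁ M₂).hr.1 x = 0
    rw [e1, e2]; simp
  have k1 : M₁.lam.1 x - M₂.lam.1 x = 0 := key _ (dlam_mem M₁ M₂)
  have k2 : M₁.mu.1 x - M₂.mu.1 x = 0 := key _ (dmu_mem M₁ M₂)
  rw [hl₁ x hx, hl₂ x hx, sub_eq_zero] at k1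
  rw [hm₁ x hx, hm₂ x hx, sub_eq_zero] at k2
  exact ⟨by exact_mod_cast k1, by exact_mod_cast k2⟩

end Vale.Agent.P136
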