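import Vale.Agent.P136.Form
import Vale.Agent.P136.LDefs

/-! Elastic media in differential-algebraic form: `n = μ^{-1/2}`, `k = 1/(λ+μ)`,
`ρ = 1/(n² + k)`, the reduced system, the ansatz, and the expansion of the energy pairing. -/

open MeasureTheory Metric
open scoped ContDiff

namespace Vale.Agent.P136

/-- A medium. -/
structure Med where
  n : Sm
  nb : Sm
  k : Sm
  kb : Sm
  rho : Sm
  hn : n * nb = 1
  hk : k * kb = 1
  hp : (n * n + k) * rho = 1

namespace Med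

variable (M : Med)

/-- `m = 1/μ`. -/
noncomputable def m : Sm := M.n * M.n
/-- `μ`. -/
noncomputable def mu : Sm := M.nb * M.nb
/-- `λ`. -/
noncomputable def lam : Sm := M.kb - M.nb * M.nb
/-- `p = m + k`. -/
noncomputable def p : Sm := M.n * M.n + M.k
/-- `∇ log n`. -/
noncomputable def l (i : Fin 3) : Sm := M.nb * dd i M.n
/-- `T = Δm I - ∇²m`. -/
noncomputable def T (i j : Fin 3) : Sm := (if i = j then lap M.m else 0) - dd i (dd j M.m)
/-- `μ^{1/2} T`. -/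
noncomputable def Tm (i j : Fin 3) : Sm := M.nb * M.T i j
/-- `n ρ / 2`. -/
noncomputable def e : Sm := (1 / 2 : ℂ) • (M.n * M.rho)
/-- `k n ρ`. -/
noncomputable def kap : Sm := M.k * M.n * M.rho

/-- First order coefficients of the reduced system. -/
noncomputable def A (j : Fin 3) : Option (Fin 3) → Option (Fin 3) → Sm
  | none, none => 0
  | none, some i => if i = j then 2 * M.e else 0
  | some i, none => 2 * M.Tm i j
  | some i, some c => if c = j then 2 * M.l i else 0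

/-- Zero order coefficients of the reduced system. -/
noncomputable def A₀ : Option (Fin 3) → Option (Fin 3) → Sm
  | none, none => -(M.mu * lap M.m)
  | none, some i => M.rho * (dd i M.n + M.k * M.n * dd i M.mu)
  | some i, none => 2 * M.n * ∑ j, M.T i j * dd j M.mu
  | some i, some c => (if i = c then M.n * ∑ j, dd j (M.mu * dd j M.n) else 0)
      - M.m * dd i (dd c M.mu) - M.n * dd c M.n * dd i M.mu

/-- The reduced operator. -/
noncomputable def B (Y : Option (Fin 3) → Sm) : Option (Fin 3) → Sm := opB M.A M.A₀ Y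

/-- The transport operator. -/
noncomputable def Tr (θ : Fin 3 → ℂ) (Y : Option (Fin 3) → Sm) : Option (Fin 3) → Sm :=
  opT M.A θ Y

/-- The ansatz `u = n w + m ∇f - f ∇m`. -/
noncomputable def ans (Y : Option (Fin 3) → Sm) (i : Fin 3) : Sm :=
  M.n * Y (some i) + M.m * dd i (Y none) - Y none * dd i M.m

/-- The stress tensor. -/
noncomputable def stress (U : Fin 3 → Sm) (i j : Fin 3) : Sm :=
  (if i = j then M.lam * dvg U else 0) + 2 * M.mu * strain U i j

/-- `α = 2 m ∇f + n w`. -/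
noncomputable def al (Y : Option (Fin 3) → Sm) (i : Fin 3) : Sm :=
  2 * M.m * dd i (Y none) + M.n * Y (some i)

/-- `θ · α`. -/
noncomputable def ta (θ : Fin 3 → ℂ) (Y : Option (Fin 3) → Sm) : Sm := cdot θ (M.al Y)

/-- `θ · e(u) θ`. -/
noncomputable def EE (θ : Fin 3 → ℂ) (Y : Option (Fin 3) → Sm) : Sm :=
  ∑ i, θ i • cdot θ (strain (M.ans Y) i)

/-- `θ · e(u) v`. -/
noncomputable def Ev (θ : Fin 3 → ℂ) (Y : Option (Fin 3) → Sm) (v : Fin 3 → Sm) : Sm :=
  ∑ i, θ i • ∑ j, strain (M.ans Y) i j * v j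

theorem dd_nb (i : Fin 3) : dd i M.nb = -(M.nb * M.nb * dd i M.n) := by
  have h := congrArg (dd i) M.hn
  simp only [Derivation.leibniz, smul_eq_mul, Derivation.map_one_eq_zero] at h
  linear_combination M.nb * h - dd i M.nb * M.hn

theorem dd_kb (i : Fin 3) : dd i M.kb = -(M.kb * M.kb * dd i M.k) := by
  have h := congrArg (dd i) M.hk
  simp only [Derivation.leibniz, smul_eq_mul, Derivation.map_one_eq_zero] at h
  linear_combination M.kb * h - dd i M.kb * M.hk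

theorem dd_rho (i : Fin 3) :
    dd i M.rho = -(M.rho * M.rho * (2 * M.n * dd i M.n + dd i M.k)) := by
  have h := congrArg (dd i) M.hp
  simp only [Derivation.leibniz, smul_eq_mul, Derivation.map_one_eq_zero, map_add] at h
  linear_combination M.rho * h - dd i M.rho * M.hp

end Med

/-- The amplitude with scalar part `f` and vector part `w`. -/
def amp (f : Sm) (w : Fin 3 → Sm) : Option (Fin 3) → Sm
  | none => f
  | some i => w i

/-- Difference of the `λ`. -/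
noncomputable def dlam (M₁ M₂ : Med) : Sm := M₁.lam - M₂.lam
/-- Difference of the `μ`. -/
noncomputable def dmu (M₁ M₂ : Med) : Sm := M₁.mu - M₂.mu

/-- Coefficient of `τ²` in the pairing. -/
noncomputable def P2 (M₁ M₂ : Med) (θ : Fin 3 → ℂ) (Y Z : Option (Fin 3) → Sm) : Sm :=
  -(dlam M₁ M₂ * M₁.ta θ Y * M₂.ta θ Z) + dmu M₁ M₂ *
    (2 * (M₁.m * Y none * M₂.EE θ Z + M₂.m * Z none * M₁.EE θ Y) - M₁.ta θ Y * M₂.ta θ Z)

/-- Coefficient of `τ` in the pairing. -/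
noncomputable def P1 (M₁ M₂ : Med) (θ : Fin 3 → ℂ) (Y Z : Option (Fin 3) → Sm) : Sm :=
  dlam M₁ M₂ * (dvg (M₁.ans Y) * M₂.ta θ Z - M₁.ta θ Y * dvg (M₂.ans Z)) +
    2 * dmu M₁ M₂ * (M₁.Ev θ Y (M₂.al Z) - M₂.Ev θ Z (M₁.al Y))

/-- Coefficient of `1` in the pairing. -/
noncomputable def P0 (M₁ M₂ : Med) (Y Z : Option (Fin 3) → Sm) : Sm :=
  form (dlam M₁ M₂) (dmu M₁ M₂) (M₁.ans Y) (M₂.ans Z)

/-- `(m₁/2 + k₁) ρ₁`. -/
noncomputable def Med.c1 (M : Med) : Sm := ((1 / 2 : ℂ) • M.m + M.k) * M.rho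

/-- The coefficient data attached to two media. -/
noncomputable def datOf (M₁ M₂ : Med) : Dat where
  e₁ := M₁.e
  e₂ := M₂.e
  l₁ := M₁.l
  l₂ := M₂.l
  T₁ := M₁.Tm
  T₂ := M₂.Tm
  a₀ j := dmu M₁ M₂ * (2 * M₂.m * (dd j M₁.c1 + dd j M₁.n * M₁.e))
  a₁ i j := dmu M₁ M₂ * (4 * M₂.m * dd i (dd j M₁.n) + 2 * M₁.n * dd i (dd j M₂.m)
    + 2 * M₂.m * (M₁.c1 * M₁.Tm j i + dd j M₁.n * M₁.l i) + M₁.n * M₂.T j i)
  b₀ := -(dlam M₁ M₂ * M₁.k * M₁.rho * M₂.kap)
    + dmu M₁ M₂ * (M₁.n * M₁.e - M₁.k * M₁.rho) * M₂.kap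
  b₁ i := dmu M₁ M₂ * (-dd i (M₁.n * M₂.kap) - M₁.n * M₂.n * M₂.rho * dd i M₂.m
    + M₁.n * M₂.kap * M₁.l i + M₁.n * M₂.n * M₂.l i)
  c j := dmu M₁ M₂ * (dd j M₁.n * M₂.n - M₁.n * dd j M₂.n)
  hs j := dmu M₁ M₂ * (2 * M₂.m * dd j M₁.n)
  hr := -(dmu M₁ M₂ * M₁.n * M₂.kap)

end Vale.Agent.P136
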