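import Vale.Agent.P136.EMain
import Vale.Agent.P136.Jet

/-! Approximate solvability for the system `Δ + A·∇ + A₀` (first order terms are absorbed).

Plan. `χ` from `exists_cut R`, `R' = R + 1`, `Lo Y a = χ * (∑ j b, A j a b * dd j (Y b) + ∑ b, A₀ a b * Y b)`,
which vanishes for `‖x‖ ≥ R'` and has `jet0 (Lo Y) ≤ C₁ (jet0 Y + jet1 Y)` on the ball `R'`
(`lin_bound`). Let `C` be the constant of `lap_solve` (radius `R'`), fix `ε = min 1 (1/(8 C C₁ + 1))`,
`τ₀ = max 1 (2 (R'+1)/ε)`. All integrals below are over `ball 0 R'` with weight `w = wφ α τ ε`;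
`I0 G = ∫ w jet0 G`. One step (apply `lap_solve` to each component): for `G` vanishing outside
`R'` and `d > 0` there is `y` with `I0 (lap y - G) ≤ d`, `∫ w (jet0 y + jet1 y) ≤ C ε (I0 G + d)`,
`∫ w jet2 y ≤ C τ² (I0 G + d)`, hence `I0 (Lo y) ≤ (I0 G + d)/8`.
Induction on `n`: for all such `G` and `d > 0` there are `y, e, G'` with
`lap y + Lo y = G + e + G'`, `I0 e ≤ d`, `I0 G' ≤ 4⁻ⁿ (I0 G + d)`,
`∫ w jetA y ≤ 8 C τ² (I0 G + d)` (peel off the first step `y₁` with error `d/16`, apply the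
hypothesis to `-Lo y₁` with error `d/16`, add, using `jet0_add`, `jetA_add`).
Start from `G = χ F`; on the ball `R`, `χ = 1`. Finally compare weights on the ball `R'`:
`exp (-R'²/ε) exp (-2τ⟨α,x⟩) ≤ w x ≤ exp (-2τ⟨α,x⟩)`. -/

open MeasureTheory Metric Real
open scoped ContDiff

namespace Vale.Agent.P136

theorem Pert_ind {V : Type*} [AddCommGroup V] (P : V → Prop) (L Lo : V → V) (I0 IA : V → ℝ)
    {K : ℝ} (hK : 0 ≤ K) (hL : ∀ a b, L (a + b) = L a + L b)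
    (hLo : ∀ a b, Lo (a + b) = Lo a + Lo b) (h0 : ∀ a, 0 ≤ I0 a) (h00 : I0 0 = 0) (hA0 : IA 0 = 0)
    (hneg : ∀ a, I0 (-a) = I0 a) (hadd : ∀ a b, I0 (a + b) ≤ 2 * I0 a + 2 * I0 b)
    (hAadd : ∀ a b, IA (a + b) ≤ 2 * IA a + 2 * IA b) (hP : ∀ y, P (-Lo y))
    (step : ∀ G, P G → ∀ d : ℝ, 0 < d → ∃ y, I0 (L y - G) ≤ d ∧ I0 (Lo y) ≤ (I0 G + d) / 8 ∧
      IA y ≤ K * (I0 G + d)) (n : ℕ) :
    ∀ G, P G → ∀ d : ℝ, 0 < d → ∃ y e G', L y + Lo y = G + e + G' ∧ I0 e ≤ d ∧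
      I0 G' ≤ (1 / 4) ^ n * (I0 G + d) ∧ IA y ≤ 8 * K * (I0 G + d) := by
  induction n with
  | zero =>
    intro G _ d hd
    have a1 : L 0 = 0 := by simpa using hL 0 0
    have a2 : Lo 0 = 0 := by simpa using hLo 0 0
    have a3 := h0 G
    refine ⟨0, 0, -G, by simp [a1, a2], by linarith, by rw [hneg]; linarith, ?_⟩
    rw [hA0]
    positivity
  | succ n ih =>
    intro G hG d hd
    obtain ⟨y1, a1, a2, a3⟩ := step G hG (d / 16) (by linarith)
    obtain ⟨y2, e2, G', b1, b2, b3, b4⟩ := ih (-Lo y1) (hP y1) (d / 16) (by linarith)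
    rw [hneg] at b3 b4
    have hG0 := h0 G
    refine ⟨y1 + y2, (L y1 - G) + e2, G', ?_, ?_, ?_, ?_⟩
    · rw [hL, hLo, add_add_add_comm, b1]
      abel
    · linarith [hadd (L y1 - G) e2]
    · refine b3.trans ?_
      rw [pow_succ, mul_assoc]
      exact mul_le_mul_of_nonneg_left (by linarith) (by positivity)
    · have c1 : 8 * K * (I0 (Lo y1) + d / 16) ≤ 8 * K * ((I0 G + d / 16) / 8 + d / 16) :=
        mul_le_mul_of_nonneg_left (by linarith) (by linarith)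
      have c2 := mul_nonneg hK hG0
      have c3 := mul_nonneg hK hd.le
      linarith [hAadd y1 y2]

theorem Pert_iter {V : Type*} [AddCommGroup V] (P : V → Prop) (L Lo : V → V) (I0 IA : V → ℝ)
    {K : ℝ} (hK : 0 ≤ K) (hL : ∀ a b, L (a + b) = L a + L b)
    (hLo : ∀ a b, Lo (a + b) = Lo a + Lo b) (h0 : ∀ a, 0 ≤ I0 a) (h00 : I0 0 = 0) (hA0 : IA 0 = 0)
    (hneg : ∀ a, I0 (-a) = I0 a) (hadd : ∀ a b, I0 (a + b) ≤ 2 * I0 a + 2 * I0 b)
    (hAadd : ∀ a b, IA (a + b) ≤ 2 * IA a + 2 * IA b) (hP : ∀ y, P (-Lo y))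
    (step : ∀ G, P G → ∀ d : ℝ, 0 < d → ∃ y, I0 (L y - G) ≤ d ∧ I0 (Lo y) ≤ (I0 G + d) / 8 ∧
      IA y ≤ K * (I0 G + d)) (G : V) (hG : P G) (d : ℝ) (hd : 0 < d) :
    ∃ y, I0 (L y + Lo y - G) ≤ d ∧ IA y ≤ 8 * K * (I0 G + d) := by
  have hG0 := h0 G
  have hp : 0 < I0 G + d / 4 := by linarith
  obtain ⟨n, hn⟩ := exists_pow_lt_of_lt_one (div_pos (show 0 < d / 4 by linarith) hp)
    (show (1 / 4 : ℝ) < 1 by norm_num)
  rw [lt_div_iff₀ hp] at hn
  obtain ⟨y, e, G', a1, a2, a3, a4⟩ :=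
    Pert_ind P L Lo I0 IA hK hL hLo h0 h00 hA0 hneg hadd hAadd hP step n G hG (d / 4) (by linarith)
  refine ⟨y, ?_, a4.trans (mul_le_mul_of_nonneg_left (by linarith) (by linarith))⟩
  rw [a1, show G + e + G' - G = e + G' by abel]
  linarith [hadd e G']

theorem Pert_int {f : E3 → ℝ} (hf : Continuous f) (R : ℝ) : IntegrableOn f (ball (0 : E3) R) :=
  integrableOn_of_subset_ball hf subset_rfl

theorem Pert_mono {f g : E3 → ℝ} (hf : Continuous f) (hg : Continuous g) {r R : ℝ} (hr : r ≤ R)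
    (h : ∀ x ∈ ball (0 : E3) r, f x ≤ g x) (h0 : ∀ x, 0 ≤ g x) :
    ∫ x in ball (0 : E3) r, f x ≤ ∫ x in ball (0 : E3) R, g x :=
  (setIntegral_mono_on (Pert_int hf r) (Pert_int hg r) measurableSet_ball h).trans
    (setIntegral_mono_set (Pert_int hg R) (Filter.Eventually.of_forall h0)
      (ball_subset_ball hr).eventuallyLE)

theorem Pert_add2 {w f g h : E3 → ℝ} (hw : Continuous w) (hw0 : ∀ x, 0 ≤ w x) (hf : Continuous f)
    (hg : Continuous g) (hh : Continuous h) (H : ∀ x, f x ≤ 2 * g x + 2 * h x) (R : ℝ) :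
    ∫ x in ball (0 : E3) R, w x * f x ≤
      2 * (∫ x in ball (0 : E3) R, w x * g x) + 2 * ∫ x in ball (0 : E3) R, w x * h x := by
  rw [← integral_const_mul, ← integral_const_mul,
    ← integral_add (Pert_int (by fun_prop) R) (Pert_int (by fun_prop) R)]
  refine setIntegral_mono_on (Pert_int (by fun_prop) R) (Pert_int (by fun_prop) R)
    measurableSet_ball fun x _ => ?_
  have := mul_le_mul_of_nonneg_left (H x) (hw0 x)
  linarith

theorem Pert_sum {ι : Type} [Fintype ι] {w : E3 → ℝ} (hw : Continuous w) {f : ι → E3 → ℝ}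
    (hf : ∀ a, Continuous (f a)) (R : ℝ) :
    ∫ x in ball (0 : E3) R, w x * ∑ a, f a x = ∑ a, ∫ x in ball (0 : E3) R, w x * f a x := by
  simp only [Finset.mul_sum]
  exact integral_finsetSum _ fun a _ => Pert_int (hw.mul (hf a)) R

theorem Pert_w_cont (α : E3) (τ ε : ℝ) : Continuous (wφ α τ ε) := by
  unfold wφ phi
  fun_prop

theorem Pert_w_le {α : E3} {τ ε : ℝ} (hε : 0 < ε) (x : E3) :
    wφ α τ ε x ≤ Real.exp (-2 * τ * inner ℝ α x) := by
  refine Real.exp_le_exp.2 ?_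
  have : 0 ≤ (inner ℝ α x : ℝ) ^ 2 / (2 * ε) := by positivity
  unfold phi
  linarith

theorem Pert_le_w {α : E3} (hα : ‖α‖ = 1) {τ ε R : ℝ} (hε : 0 < ε) {x : E3} (hx : ‖x‖ ≤ R) :
    Real.exp (-2 * τ * inner ℝ α x) ≤ Real.exp (R ^ 2 / ε) * wφ α τ ε x := by
  rw [wφ, ← Real.exp_add]
  refine Real.exp_le_exp.2 ?_
  have h1 : |(inner ℝ α x : ℝ)| ≤ R := by
    have := abs_real_inner_le_norm α x
    rw [hα, one_mul] at this
    exact this.trans hx
  have h2 : (inner ℝ α x : ℝ) ^ 2 ≤ R ^ 2 := by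
    rw [← sq_abs]
    exact pow_le_pow_left₀ (abs_nonneg _) h1 2
  have h3 : 2 * ((inner ℝ α x : ℝ) ^ 2 / (2 * ε)) ≤ R ^ 2 / ε := by
    rw [show 2 * ((inner ℝ α x : ℝ) ^ 2 / (2 * ε)) = (inner ℝ α x : ℝ) ^ 2 / ε by field_simp]
    gcongr
  unfold phi
  linarith

theorem Pert_nsq (f : Sm) : Continuous fun x => ‖f.1 x‖ ^ 2 := (Sm.cont f).norm.pow 2

/-- One step, all components at once. -/
theorem Pert_step {ι : Type} [Fintype ι] {w : E3 → ℝ} (hw : Continuous w) (hw0 : ∀ x, 0 ≤ w x)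
    {R τ c1 c2 : ℝ} (hτ : 1 ≤ τ) (hc1 : 0 ≤ c1) (hc2 : 0 ≤ c2)
    (H : ∀ F : Sm, (∀ x, R ≤ ‖x‖ → F.1 x = 0) → ∀ δ : ℝ, 0 < δ → ∃ y : Sm,
      (∫ x in ball (0 : E3) R, w x * ‖(lap y - F).1 x‖ ^ 2 ≤ δ) ∧
      (∫ x in ball (0 : E3) R, w x * (τ ^ 2 * ‖y.1 x‖ ^ 2 + ∑ j, ‖(dd j y).1 x‖ ^ 2)
        ≤ c1 * ((∫ x in ball (0 : E3) R, w x * ‖F.1 x‖ ^ 2) + δ)) ∧
      ∫ x in ball (0 : E3) R, w x * ∑ i, ∑ j, ‖(dd i (dd j y)).1 x‖ ^ 2
        ≤ c2 * ((∫ x in ball (0 : E3) R, w x * ‖F.1 x‖ ^ 2) + δ))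
    (G : ι → Sm) (hG : ∀ a x, R ≤ ‖x‖ → (G a).1 x = 0) (d : ℝ) (hd : 0 < d) :
    ∃ y : ι → Sm, (∫ x in ball (0 : E3) R, w x * jet0 ((fun a => lap (y a)) - G) x ≤ d) ∧
      (∫ x in ball (0 : E3) R, w x * (jet0 y x + jet1 y x)
        ≤ c1 * ((∫ x in ball (0 : E3) R, w x * jet0 G x) + d)) ∧
      ∫ x in ball (0 : E3) R, w x * jet2 y x
        ≤ c2 * ((∫ x in ball (0 : E3) R, w x * jet0 G x) + d) := by
  have hn : (0 : ℝ) < Fintype.card ι + 1 := by positivity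
  choose y h1 h2 h3 using fun a => H (G a) (hG a) (d / (Fintype.card ι + 1)) (div_pos hd hn)
  have hs : ∑ _a : ι, d / (Fintype.card ι + 1) ≤ d := by
    rw [Finset.sum_const, Finset.card_univ, nsmul_eq_mul, mul_div_assoc', div_le_iff₀ hn]
    linarith
  have hG2 : ∑ a, ((∫ x in ball (0 : E3) R, w x * ‖(G a).1 x‖ ^ 2) + d / (Fintype.card ι + 1)) ≤
      (∫ x in ball (0 : E3) R, w x * jet0 G x) + d := by
    rw [Finset.sum_add_distrib, ← Pert_sum hw fun a => Pert_nsq (G a)]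
    exact add_le_add le_rfl hs
  refine ⟨y, ?_, ?_, ?_⟩
  · refine le_trans (le_of_eq ?_) ((Finset.sum_le_sum fun a _ => h1 a).trans hs)
    exact Pert_sum hw (fun a => Pert_nsq (lap (y a) - G a)) R
  · have hc : ∀ a, Continuous fun x => τ ^ 2 * ‖(y a).1 x‖ ^ 2 + ∑ j, ‖(dd j (y a)).1 x‖ ^ 2 :=
      fun a => (continuous_const.mul (Pert_nsq _)).add
        (continuous_finsetSum _ fun j _ => Pert_nsq _)
    have h4 := Finset.sum_le_sum fun a (_ : a ∈ Finset.univ) => h2 a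
    rw [← Finset.mul_sum, ← Pert_sum hw hc] at h4
    refine le_trans ?_ (h4.trans (mul_le_mul_of_nonneg_left hG2 hc1))
    refine setIntegral_mono_on (Pert_int (hw.mul ((jet0_cont y).add (jet1_cont y))) R)
      (Pert_int (hw.mul (continuous_finsetSum _ fun a _ => hc a)) R) measurableSet_ball
      fun x _ => mul_le_mul_of_nonneg_left ?_ (hw0 x)
    rw [Finset.sum_add_distrib, ← Finset.mul_sum]
    exact add_le_add (le_mul_of_one_le_left (jet0_nonneg y x) (one_le_pow₀ hτ)) le_rfl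
  · have h4 := Finset.sum_le_sum fun a (_ : a ∈ Finset.univ) => h3 a
    rw [← Finset.mul_sum, ← Pert_sum hw fun a => continuous_finsetSum _ fun i _ =>
      continuous_finsetSum _ fun j _ => Pert_nsq _] at h4
    exact h4.trans (mul_le_mul_of_nonneg_left hG2 hc2)

theorem Pert_jet0_neg {ι : Type} [Fintype ι] (Y : ι → Sm) (x : E3) : jet0 (-Y) x = jet0 Y x := by
  simp [jet0]

theorem Pert_jet0_cut {ι : Type} [Fintype ι] {χ : Sm} (h : ∀ x, ∃ t : ℝ, 0 ≤ t ∧ t ≤ 1 ∧ χ.1 x = t)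
    (Y : ι → Sm) (x : E3) : jet0 (fun a => χ * Y a) x ≤ jet0 Y x := by
  obtain ⟨t, h0, h1, h2⟩ := h x
  refine Finset.sum_le_sum fun a _ => pow_le_pow_left₀ (norm_nonneg _) ?_ 2
  change ‖χ.1 x * (Y a).1 x‖ ≤ _
  rw [norm_mul, h2, Complex.norm_real, Real.norm_of_nonneg h0]
  exact mul_le_of_le_one_left (norm_nonneg _) h1

theorem sys_solve {ι : Type} [Fintype ι] (A : Fin 3 → ι → ι → Sm) (A₀ : ι → ι → Sm) (α : E3)
    (hα : ‖α‖ = 1) (R : ℝ) (hR : 0 < R) :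
    ∃ C τ₀ : ℝ, 0 ≤ C ∧ ∀ τ, τ₀ ≤ τ → ∀ (F : ι → Sm) (δ : ℝ), 0 < δ → ∃ y : ι → Sm,
      (∫ x in ball (0 : E3) R,
        Real.exp (-2 * τ * inner ℝ α x) * jet0 (fun a => opB A A₀ y a - F a) x ≤ δ) ∧
      ∫ x in ball (0 : E3) R, Real.exp (-2 * τ * inner ℝ α x) * jetA y x
        ≤ C * τ ^ 2 * ((∫ x in ball (0 : E3) (R + 1),
            Real.exp (-2 * τ * inner ℝ α x) * jet0 F x) + δ) := by
  obtain ⟨χ, hχ1, hχ0, hχt⟩ := exists_cut R hR
  obtain ⟨C1, hC1, hlin⟩ := lin_bound A A₀ (R + 1)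
  obtain ⟨C, hC, hlap⟩ := lap_solve
  have hq : 0 < 8 * C * C1 + 1 := by positivity
  obtain ⟨ε, hε⟩ : ∃ ε : ℝ, ε = 1 / (8 * C * C1 + 1) := ⟨_, rfl⟩
  have hε0 : 0 < ε := by rw [hε]; positivity
  have hε2 : ε * (8 * C * C1 + 1) = 1 := by rw [hε]; field_simp
  have hCC : 0 ≤ ε * (8 * C * C1) := by positivity
  have hε1 : ε ≤ 1 := by linarith
  have hW : 1 ≤ Real.exp ((R + 1) ^ 2 / ε) := Real.one_le_exp (by positivity)
  obtain ⟨W, hWe⟩ : ∃ W, W = Real.exp ((R + 1) ^ 2 / ε) := ⟨_, rfl⟩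
  rw [← hWe] at hW
  have hW0 : 0 < W := by linarith
  refine ⟨16 * W * C, max 1 (2 * (R + 1 + 1) / ε), by positivity, fun τ hτ F δ hδ => ?_⟩
  have hτ1 : 1 ≤ τ := (le_max_left _ _).trans hτ
  have hτ2 : 1 ≤ τ ^ 2 := one_le_pow₀ hτ1
  have hw := Pert_w_cont α τ ε
  have hw0 : ∀ x, 0 ≤ wφ α τ ε x := fun x => (Real.exp_pos _).le
  have hE : Continuous fun x : E3 => Real.exp (-2 * τ * inner ℝ α x) := by fun_prop
  have hstep := Pert_step (ι := ι) hw hw0 hτ1 (mul_pos hC hε0).le (by positivity)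
    (hlap α hα (R + 1) (by linarith) ε hε0 hε1 τ hτ1 ((le_max_right _ _).trans hτ))
  obtain ⟨y, h1, h2⟩ := Pert_iter (V := ι → Sm) (fun G => ∀ a x, R + 1 ≤ ‖x‖ → (G a).1 x = 0)
    (fun Y a => lap (Y a))
    (fun Y a => χ * (∑ j, ∑ b, A j a b * dd j (Y b) + ∑ b, A₀ a b * Y b))
    (fun G => ∫ x in ball (0 : E3) (R + 1), wφ α τ ε x * jet0 G x)
    (fun G => ∫ x in ball (0 : E3) (R + 1), wφ α τ ε x * jetA G x) (K := 2 * C * τ ^ 2)
    (by positivity)
    (fun Y Z => by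
      funext a
      simp only [lap, Pi.add_apply, map_add, Finset.sum_add_distrib])
    (fun Y Z => by
      funext a
      simp only [Pi.add_apply, map_add, mul_add, Finset.sum_add_distrib]
      ring)
    (fun G => integral_nonneg fun x => mul_nonneg (hw0 x) (jet0_nonneg G x))
    (by simp [jet0]) (by simp [jetA, jet0, jet1, jet2])
    (fun G => by simp only [Pert_jet0_neg])
    (fun Y Z => Pert_add2 hw hw0 (jet0_cont _) (jet0_cont _) (jet0_cont _) (jet0_add Y Z) _)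
    (fun Y Z => Pert_add2 hw hw0 (jetA_cont _) (jetA_cont _) (jetA_cont _) (jetA_add Y Z) _)
    (fun Y a x hx => by
      change -(χ.1 x * _) = 0
      rw [hχ0 x hx, zero_mul, neg_zero])
    (fun G hG d hd => by
      obtain ⟨y, a1, a2, a3⟩ := hstep G hG d hd
      have a0 : 0 ≤ (∫ x in ball (0 : E3) (R + 1), wφ α τ ε x * jet0 G x) + d :=
        add_nonneg (integral_nonneg fun x => mul_nonneg (hw0 x) (jet0_nonneg G x)) hd.le
      refine ⟨y, a1, ?_, ?_⟩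
      · have b1 : ∫ x in ball (0 : E3) (R + 1), wφ α τ ε x * jet0
            (fun a => χ * (∑ j, ∑ b, A j a b * dd j (y b) + ∑ b, A₀ a b * y b)) x ≤
            C1 * ∫ x in ball (0 : E3) (R + 1), wφ α τ ε x * (jet0 y x + jet1 y x) := by
          rw [← integral_const_mul]
          refine setIntegral_mono_on (Pert_int (hw.mul (jet0_cont _)) _)
            (Pert_int (continuous_const.mul (hw.mul ((jet0_cont y).add (jet1_cont y)))) _)
            measurableSet_ball fun x hx => ?_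
          have := mul_le_mul_of_nonneg_left
            ((Pert_jet0_cut hχt _ x).trans (hlin y x (mem_ball_zero_iff.1 hx).le)) (hw0 x)
          linarith
        have b2 := mul_le_mul_of_nonneg_left a2 hC1
        have b3 := mul_le_mul_of_nonneg_right (show C1 * (C * ε) ≤ 1 / 8 by linarith) a0
        linarith
      · have b1 : ∫ x in ball (0 : E3) (R + 1), wφ α τ ε x * jetA y x =
            (∫ x in ball (0 : E3) (R + 1), wφ α τ ε x * (jet0 y x + jet1 y x)) +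
              ∫ x in ball (0 : E3) (R + 1), wφ α τ ε x * jet2 y x := by
          refine Eq.trans ?_ (integral_add (Pert_int (hw.mul ((jet0_cont y).add (jet1_cont y))) _)
            (Pert_int (hw.mul (jet2_cont y)) _))
          simp only [jetA, mul_add, Pi.mul_apply, Pi.add_apply]
        have b2 := mul_le_mul_of_nonneg_right
          (mul_le_mul_of_nonneg_left (hε1.trans hτ2) hC.le) a0
        linarith)
    (fun a => χ * F a)
    (fun a x hx => by
      change χ.1 x * _ = 0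
      rw [hχ0 x hx, zero_mul])
    (δ / W) (div_pos hδ hW0)
  have hcmp : ∀ f g : E3 → ℝ, Continuous f → Continuous g → (∀ x, 0 ≤ g x) →
      (∀ x, ‖x‖ ≤ R → f x = g x) →
      ∫ x in ball (0 : E3) R, Real.exp (-2 * τ * inner ℝ α x) * f x ≤
        W * ∫ x in ball (0 : E3) (R + 1), wφ α τ ε x * g x := by
    intro f g hf hg hg0 hfg
    rw [← integral_const_mul]
    refine Pert_mono (hE.mul hf) (continuous_const.mul (hw.mul hg)) (by linarith)
      (fun x hx => ?_) fun x => mul_nonneg hW0.le (mul_nonneg (hw0 x) (hg0 x))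
    have hx' := (mem_ball_zero_iff.1 hx).le
    change Real.exp (-2 * τ * inner ℝ α x) * f x ≤ W * (wφ α τ ε x * g x)
    rw [hfg x hx', ← mul_assoc, hWe]
    exact mul_le_mul_of_nonneg_right (Pert_le_w hα hε0 (by linarith)) (hg0 x)
  refine ⟨y, ?_, ?_⟩
  · refine (hcmp _ _ (jet0_cont _) (jet0_cont _) (jet0_nonneg _) fun x hx => ?_).trans
      ((mul_le_mul_of_nonneg_left h1 hW0.le).trans (le_of_eq (by field_simp)))
    refine Finset.sum_congr rfl fun a _ => ?_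
    congr 2
    change (lap (y a)).1 x + (∑ j, ∑ b, A j a b * dd j (y b)).1 x + (∑ b, A₀ a b * y b).1 x -
      (F a).1 x = (lap (y a)).1 x + χ.1 x * ((∑ j, ∑ b, A j a b * dd j (y b)).1 x +
        (∑ b, A₀ a b * y b).1 x) - χ.1 x * (F a).1 x
    rw [hχ1 x hx]
    ring
  · refine (hcmp _ _ (jetA_cont y) (jetA_cont y) (jetA_nonneg y) fun x _ => rfl).trans ?_
    have b1 : ∫ x in ball (0 : E3) (R + 1), wφ α τ ε x * jet0 (fun a => χ * F a) x ≤
        ∫ x in ball (0 : E3) (R + 1), Real.exp (-2 * τ * inner ℝ α x) * jet0 F x :=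
      setIntegral_mono_on (Pert_int (hw.mul (jet0_cont _)) _) (Pert_int (hE.mul (jet0_cont _)) _)
        measurableSet_ball fun x _ => mul_le_mul (Pert_w_le hε0 x) (Pert_jet0_cut hχt F x)
          (jet0_nonneg _ x) (Real.exp_pos _).le
    have b2 : δ / W ≤ δ := div_le_self hδ.le hW
    have b3 := mul_le_mul_of_nonneg_left (h2.trans (mul_le_mul_of_nonneg_left (add_le_add b1 b2)
      (by positivity))) hW0.le
    linarith

end Vale.Agent.P136
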