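import Vale.Agent.P136.Basic

/-! Smooth families of compactly supported functions are smooth as maps into `ℂ →ᵇ W`.

Plan. Prove `ContDiffOn ℝ n` for every natural `n` by induction on `n`, generalizing `W`, `Φ`, `G`
(then `contDiffOn_infty`). Let `Φ' (q, w) : Q →L[ℝ] W := (fderiv ℝ Φ (q, w)).comp (inl ℝ Q ℂ)`;
it is smooth and vanishes for `q ∈ U`, `ρ ≤ ‖w‖` (the map `q ↦ Φ (q, w)` is zero on the open set
`U`). Let `G' q : ℂ →ᵇ (Q →L[ℝ] W)` be the bounded continuous function `w ↦ Φ' (q, w)` for `q ∈ U`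
(zero otherwise; `BoundedContinuousFunction.ofNormedAddCommGroup` or via compact support), and
`J : (ℂ →ᵇ (Q →L[ℝ] W)) →L[ℝ] (Q →L[ℝ] (ℂ →ᵇ W))`, `J a h w = a w h` (norm at most one).
Base case / continuity: uniform continuity of `Φ` on the compact set
`closedBall q₀ r ×ˢ closedBall 0 ρ` (`Q` is proper since finite dimensional).
Step: `HasFDerivAt G (J (G' q)) q` by the mean value inequality
(`Convex.norm_image_sub_le_of_norm_hasFDerivWithin_le'`-type lemma applied to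
`q ↦ Φ (q, w)` on a small ball, using continuity of `G'` at `q`, uniformly in `w`), then
`contDiffOn_succ_iff_fderiv_of_isOpen` (or `contDiffOn_succ_of_fderivWithin`) and the
induction hypothesis for `G'`. -/

open MeasureTheory Metric
open scoped ContDiff BoundedContinuousFunction

namespace Vale.Agent.P136

/-- A continuous function vanishing outside a disc, as a bounded continuous function. -/
theorem exists_bcf {W : Type} [NormedAddCommGroup W] (f : ℂ → W) (hf : Continuous f) (ρ : ℝ)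
    (hs : ∀ w : ℂ, ρ ≤ ‖w‖ → f w = 0) : ∃ g : ℂ →ᵇ W, ∀ w, g w = f w := by
  obtain ⟨C, hC⟩ := (isCompact_closedBall (0 : ℂ) ρ).exists_bound_of_continuousOn hf.continuousOn
  refine ⟨BoundedContinuousFunction.ofNormedAddCommGroup f hf (max C 0) fun w => ?_, fun _ => rfl⟩
  rcases le_total ‖w‖ ρ with h | h
  · exact (hC w (by simpa using h)).trans (le_max_left _ _)
  · rw [hs w h, norm_zero]
    exact le_max_right _ _

theorem TFam_cont {Q W : Type} [NormedAddCommGroup Q] [NormedAddCommGroup W]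
    (Φ : Q × ℂ → W) (U : Set Q) (hU : IsOpen U) (hΦ : ContinuousOn Φ (U ×ˢ Set.univ)) (ρ : ℝ)
    (hs : ∀ q ∈ U, ∀ w : ℂ, ρ ≤ ‖w‖ → Φ (q, w) = 0) (G : Q → ℂ →ᵇ W)
    (hG : ∀ q ∈ U, ∀ w, G q w = Φ (q, w)) : ContinuousOn G U := by
  intro q₀ hq₀
  refine ContinuousAt.continuousWithinAt (Metric.continuousAt_iff'.2 fun ε hε => ?_)
  have h1 := (isCompact_closedBall (0 : ℂ) ρ).eventually_forall_of_forall_eventually (x₀ := q₀)
    (P := fun q w => dist (Φ (q, w)) (Φ (q₀, w)) ≤ ε / 2) fun w _ => by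
      have c0 : ContinuousAt Φ (q₀, w) :=
        hΦ.continuousAt ((hU.prod isOpen_univ).mem_nhds ⟨hq₀, trivial⟩)
      have c1 : ContinuousAt (fun z : Q × ℂ => Φ (q₀, z.2)) (q₀, w) :=
        ContinuousAt.comp (f := fun z : Q × ℂ => (q₀, z.2)) c0 (by fun_prop)
      exact (c0.dist c1).eventually (Iic_mem_nhds (by simpa using hε))
  filter_upwards [h1, hU.mem_nhds hq₀] with q h2 hq
  refine ((BoundedContinuousFunction.dist_le (half_pos hε).le).2 fun w => ?_).trans_lt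
    (half_lt_self hε)
  rw [hG q hq, hG q₀ hq₀]
  rcases le_total ‖w‖ ρ with h | h
  · exact h2 w (by simpa using h)
  · rw [hs q hq w h, hs q₀ hq₀ w h, dist_self]
    exact (half_pos hε).le

/-- exchange of the arguments -/
noncomputable def TFam_J (Q W : Type) [NormedAddCommGroup Q] [NormedSpace ℝ Q]
    [NormedAddCommGroup W] [NormedSpace ℝ W] : (ℂ →ᵇ (Q →L[ℝ] W)) →L[ℝ] (Q →L[ℝ] (ℂ →ᵇ W)) :=
  LinearMap.mkContinuous₂ (LinearMap.mk₂ ℝ
    (fun a h => (ContinuousLinearMap.apply ℝ W h).compLeftContinuousBounded ℂ a)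
    (fun a b h => map_add _ a b) (fun c a h => map_smul _ c a)
    (fun a h h' => by ext w; simp) (fun c a h => by ext w; simp)) 1 fun a h => by
      refine (BoundedContinuousFunction.norm_le (by positivity)).2 fun w => ?_
      rw [one_mul]
      exact ((a w).le_opNorm h).trans
        (mul_le_mul_of_nonneg_right (a.norm_coe_le_norm w) (norm_nonneg _))

theorem TFam_nat {Q : Type} [NormedAddCommGroup Q] [NormedSpace ℝ Q] (U : Set Q) (hU : IsOpen U)
    (ρ : ℝ) (n : ℕ) : ∀ {W : Type} [NormedAddCommGroup W] [NormedSpace ℝ W] (Φ : Q × ℂ → W),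
    ContDiffOn ℝ ∞ Φ (U ×ˢ Set.univ) → (∀ q ∈ U, ∀ w : ℂ, ρ ≤ ‖w‖ → Φ (q, w) = 0) →
    ∀ G : Q → ℂ →ᵇ W, (∀ q ∈ U, ∀ w, G q w = Φ (q, w)) → ContDiffOn ℝ n G U := by
  induction n with
  | zero =>
    intro W _ _ Φ hΦ hs G hG
    exact contDiffOn_zero.2 (TFam_cont Φ U hU hΦ.continuousOn ρ hs G hG)
  | succ n ih =>
    intro W _ _ Φ hΦ hs G hG
    have hO : IsOpen (U ×ˢ (Set.univ : Set ℂ)) := hU.prod isOpen_univ
    let Φ' : Q × ℂ → Q →L[ℝ] W := fun z => (fderiv ℝ Φ z).comp (ContinuousLinearMap.inl ℝ Q ℂ)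
    have hΦ' : ContDiffOn ℝ ∞ Φ' (U ×ˢ Set.univ) :=
      (hΦ.fderiv_of_isOpen hO (by simp)).clm_comp contDiffOn_const
    have hd : ∀ q ∈ U, ∀ w, HasFDerivAt (fun q => Φ (q, w)) (Φ' (q, w)) q := fun q hq w =>
      ((hΦ.contDiffAt (hO.mem_nhds ⟨hq, trivial⟩)).differentiableAt (by simp)).hasFDerivAt.comp q
        (hasFDerivAt_prodMk_left q w)
    have hs' : ∀ q ∈ U, ∀ w : ℂ, ρ ≤ ‖w‖ → Φ' (q, w) = 0 := fun q hq w hw =>
      (hd q hq w).unique ((hasFDerivAt_const (0 : W) q).congr_of_eventuallyEq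
        (Filter.eventually_of_mem (hU.mem_nhds hq) fun q' hq' => hs q' hq' w hw))
    have hex : ∀ q, ∃ g : ℂ →ᵇ (Q →L[ℝ] W), q ∈ U → ∀ w, g w = Φ' (q, w) := fun q => by
      by_cases hq : q ∈ U
      · obtain ⟨g, hg⟩ := exists_bcf (fun w => Φ' (q, w)) (hΦ'.continuousOn.comp_continuous
          (by fun_prop) fun w => ⟨hq, trivial⟩) ρ (hs' q hq)
        exact ⟨g, fun _ => hg⟩
      · exact ⟨0, fun h => absurd h hq⟩
    choose G' hG' using hex
    have h1 := ih Φ' hΦ' hs' G' hG'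
    have h2 : ∀ q ∈ U, HasFDerivAt G (TFam_J Q W (G' q)) q := by
      intro q₀ hq₀
      rw [hasFDerivAt_iff_isLittleO, Asymptotics.isLittleO_iff]
      intro c hc
      have h3 : ∀ᶠ q in nhds q₀, q ∈ U ∧ dist (G' q) (G' q₀) < c :=
        (hU.eventually_mem hq₀).and (Metric.continuousAt_iff'.1
          (h1.continuousOn.continuousAt (hU.mem_nhds hq₀)) c hc)
      obtain ⟨r, hr, h4⟩ := Metric.eventually_nhds_iff_ball.1 h3
      filter_upwards [ball_mem_nhds q₀ hr] with q hq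
      refine (BoundedContinuousFunction.norm_le (by positivity)).2 fun w => ?_
      have h5 := (convex_ball q₀ r).norm_image_sub_le_of_norm_hasFDerivWithin_le'
        (fun x hx => (hd x (h4 x hx).1 w).hasFDerivWithinAt) (φ := G' q₀ w) (C := c)
        (fun x hx => by
          rw [← hG' x (h4 x hx).1, ← dist_eq_norm]
          exact ((G' x).dist_coe_le_dist w).trans (h4 x hx).2.le) (mem_ball_self hr) hq
      rw [← hG q (h4 q hq).1, ← hG q₀ hq₀] at h5
      exact h5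
    have h7 := @ContinuousLinearMap.contDiff ℝ (ℂ →ᵇ (Q →L[ℝ] W)) (Q →L[ℝ] (ℂ →ᵇ W)) _ _ _ _ _ n
      (TFam_J Q W)
    have h6 := h7.comp_contDiffOn h1
    rw [Nat.cast_succ, contDiffOn_succ_iff_fderiv_of_isOpen hU]
    exact ⟨fun q hq => (h2 q hq).differentiableAt.differentiableWithinAt, by simp,
      h6.congr fun q hq => (h2 q hq).fderiv⟩

theorem contDiffOn_bcf {Q W : Type} [NormedAddCommGroup Q] [NormedSpace ℝ Q]
    [FiniteDimensional ℝ Q] [NormedAddCommGroup W] [NormedSpace ℝ W]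
    (Φ : Q × ℂ → W) (U : Set Q) (hU : IsOpen U) (hΦ : ContDiffOn ℝ ∞ Φ (U ×ˢ Set.univ)) (ρ : ℝ)
    (hs : ∀ q ∈ U, ∀ w : ℂ, ρ ≤ ‖w‖ → Φ (q, w) = 0) (G : Q → ℂ →ᵇ W)
    (hG : ∀ q ∈ U, ∀ w, G q w = Φ (q, w)) : ContDiffOn ℝ ∞ G U := by
  exact contDiffOn_infty.2 fun n => TFam_nat U hU ρ n Φ hΦ hs G hG

end Vale.Agent.P136
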