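import Vale.Agent.P136.TKa

/-! The twisted convolution operator `K` on bounded continuous functions on `ℂ`.

Plan. `‖ph N w u‖ = 1`. For `f` bounded continuous the integrand is dominated by
`‖kap N u‖ * ‖f‖`; continuity in `w` by `continuous_of_dominated`; build the function with
`BoundedContinuousFunction.ofNormedAddCommGroup`, the operator with `LinearMap.mkContinuous`.
Covariance: `ph N w u * ph (-N) v (w - u) = ph (-N) v w * ph N (w + v) u`
(add the exponents; `(conj (w+v) * u).im = (conj w * u).im + (conj v * u).im`,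
`(conj v * (w-u)).im = (conj v * w).im - (conj v * u).im`), `w - u + v = w + v - u`, then
`integral_smul`. -/

open MeasureTheory Metric Real
open scoped ContDiff BoundedContinuousFunction ComplexConjugate

namespace Vale.Agent.P136

/-- The unimodular phase `e^{i N Im(conj w · u)}`. -/
noncomputable def ph (N : ℝ) (w u : ℂ) : ℂ :=
  Complex.exp (Complex.I * ((N * (conj w * u).im : ℝ) : ℂ))

theorem norm_ph (N : ℝ) (w u : ℂ) : ‖ph N w u‖ = 1 := by
  exact Complex.norm_exp_I_mul_ofReal _

theorem continuous_ph (N : ℝ) : Continuous fun q : ℂ × ℂ => ph N q.1 q.2 := by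
  unfold ph
  fun_prop

/-- The properties of the operator `K`. -/
def IsK {V : Type} [NormedAddCommGroup V] [NormedSpace ℂ V] (N : ℝ)
    (K : (ℂ →ᵇ V) →L[ℂ] (ℂ →ᵇ V)) : Prop :=
  ‖K‖ ≤ qN N ∧ (∀ f w, K f w = ∫ u, (kap N u * ph N w u) • f (w - u)) ∧
    ∀ (f g : ℂ →ᵇ V) (v : ℂ), (∀ w, g w = ph (-N) v w • f (w + v)) →
      ∀ w, K g w = ph (-N) v w • K f (w + v)

theorem TKb_ph (N : ℝ) (v w u : ℂ) :
    ph N w u * ph (-N) v (w - u) = ph (-N) v w * ph N (w + v) u := by
  simp only [ph, ← Complex.exp_add, ← mul_add, ← Complex.ofReal_add]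
  congr 3
  simp only [map_add, add_mul, mul_sub, Complex.add_im, Complex.sub_im]
  ring

theorem TKb_meas {N : ℝ} (hN : 0 < N) {V : Type} [NormedAddCommGroup V] [NormedSpace ℂ V]
    (f : ℂ →ᵇ V) (w : ℂ) :
    AEStronglyMeasurable (fun u => (kap N u * ph N w u) • f (w - u)) volume :=
  ((kap_integrable hN).1.mul
    ((continuous_ph N).comp (Continuous.prodMk_right w)).aestronglyMeasurable).smul
    (f.continuous.comp (continuous_const.sub continuous_id)).aestronglyMeasurable

theorem TKb_le (N : ℝ) {V : Type} [NormedAddCommGroup V] [NormedSpace ℂ V]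
    (f : ℂ →ᵇ V) (w u : ℂ) : ‖(kap N u * ph N w u) • f (w - u)‖ ≤ ‖kap N u‖ * ‖f‖ := by
  rw [norm_smul, norm_mul, norm_ph, mul_one]
  exact mul_le_mul_of_nonneg_left (f.norm_coe_le_norm _) (norm_nonneg _)

theorem TKb_int {N : ℝ} (hN : 0 < N) {V : Type} [NormedAddCommGroup V] [NormedSpace ℂ V]
    (f : ℂ →ᵇ V) (w : ℂ) : Integrable fun u => (kap N u * ph N w u) • f (w - u) :=
  ((kap_integrable hN).norm.mul_const ‖f‖).mono' (TKb_meas hN f w)
    (Filter.Eventually.of_forall (TKb_le N f w))

theorem TKb_norm {N : ℝ} (hN : 0 < N) {V : Type} [NormedAddCommGroup V] [NormedSpace ℂ V]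
    (f : ℂ →ᵇ V) (w : ℂ) : ‖∫ u, (kap N u * ph N w u) • f (w - u)‖ ≤ qN N * ‖f‖ := by
  refine (norm_integral_le_of_norm_le ((kap_integrable hN).norm.mul_const ‖f‖)
    (Filter.Eventually.of_forall (TKb_le N f w))).trans ?_
  rw [integral_mul_const]
  exact mul_le_mul_of_nonneg_right (kap_int_le hN) (norm_nonneg _)

theorem TKb_cont {N : ℝ} (hN : 0 < N) {V : Type} [NormedAddCommGroup V] [NormedSpace ℂ V]
    (f : ℂ →ᵇ V) : Continuous fun w => ∫ u, (kap N u * ph N w u) • f (w - u) :=
  continuous_of_dominated (TKb_meas hN f) (fun w => Filter.Eventually.of_forall (TKb_le N f w))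
    ((kap_integrable hN).norm.mul_const ‖f‖) (Filter.Eventually.of_forall fun u =>
      (continuous_const.mul ((continuous_ph N).comp (Continuous.prodMk_left u))).smul
        (f.continuous.comp (continuous_id.sub continuous_const)))

theorem exists_K (V : Type) [NormedAddCommGroup V] [NormedSpace ℂ V] [CompleteSpace V]
    {N : ℝ} (hN : 0 < N) : ∃ K : (ℂ →ᵇ V) →L[ℂ] (ℂ →ᵇ V), IsK N K := by
  let L : (ℂ →ᵇ V) →ₗ[ℂ] (ℂ →ᵇ V) :=
    { toFun := fun f =>
        BoundedContinuousFunction.ofNormedAddCommGroup _ (TKb_cont hN f) _ (TKb_norm hN f)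
      map_add' := fun f g => by
        ext w
        simp only [BoundedContinuousFunction.coe_ofNormedAddCommGroup,
          BoundedContinuousFunction.coe_add, Pi.add_apply, smul_add]
        exact integral_add (TKb_int hN f w) (TKb_int hN g w)
      map_smul' := fun c f => by
        ext w
        simp only [BoundedContinuousFunction.coe_ofNormedAddCommGroup,
          BoundedContinuousFunction.coe_smul, RingHom.id_apply, ← integral_smul]
        exact congrArg _ (funext fun u => smul_comm _ _ _) }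
  have hL : ∀ f, ‖L f‖ ≤ qN N * ‖f‖ := fun f =>
    BoundedContinuousFunction.norm_ofNormedAddCommGroup_le (TKb_cont hN f)
      (mul_nonneg (qN_pos hN).le (norm_nonneg _)) (TKb_norm hN f)
  refine ⟨L.mkContinuous _ hL, L.mkContinuous_norm_le (qN_pos hN).le hL, fun _ _ => rfl,
    fun f g v h w => ?_⟩
  change ∫ u, (kap N u * ph N w u) • g (w - u)
    = ph (-N) v w • ∫ u, (kap N u * ph N (w + v) u) • f (w + v - u)
  rw [← integral_smul]
  refine congrArg _ (funext fun u => ?_)
  rw [h, smul_smul, smul_smul, mul_assoc, TKb_ph, sub_add_eq_add_sub, mul_left_comm]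

end Vale.Agent.P136
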