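import Vale.Agent.P136.TKb
import Vale.Agent.P136.TFam
import Vale.Agent.P136.TPl

/-! The planar fixed points depend smoothly on the parameter and on the base point.

Plan. For `q = (p, x)` with `p ∈ U` let `a q : ℂ →ᵇ (V →L[ℂ] V)` be `w ↦ A (p, x + Lp (θ p) w)` and
`g q : ℂ →ᵇ V` be `w ↦ gfac N (θ p) x₀ x w • ψ (p, x + Lp (θ p) w)` (`exists_bcf`: they vanish for
`‖w‖ ≥ (ρ + ‖x‖) / ‖reV (θ p)‖` by `norm_Lp`; choose them with `choose`, zero for `p ∉ U`).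
Both are smooth on `U ×ˢ univ`: locally near `q₀` (`contDiffOn_of_locally_contDiffOn`, or
`ContDiffAt` at each point) the support radius is uniform since `‖reV (θ p)‖ ≥ ‖reV (θ p₀)‖ / 2`
and `‖x‖ ≤ ‖x₀‖ + 1`; apply `contDiffOn_bcf` (`contDiff_Lp`, `contDiffOn_zc`).
Let `mul : (ℂ →ᵇ (V →L[ℂ] V)) →L[ℝ] ((ℂ →ᵇ V) →L[ℂ] (ℂ →ᵇ V))`, `mul a f w = a w (f w)`, with
`‖mul a‖ ≤ ‖a‖`. Then `‖K ∘ mul (a q)‖ ≤ qN N * M ≤ 1/2`, `1 - K ∘ mul (a q)` is a unit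
(`Units.oneSub`), `G q := Ring.inverse (1 - K ∘ mul (a q)) (K (g q))` is smooth
(`contDiffAt_ringInverse` over `ℝ`, `ContDiffOn.clm_apply` after `restrictScalars`, or a bounded
bilinear map), and `F q := mul (a q) (G q) + g q`. -/

open MeasureTheory Metric Real
open scoped ContDiff ComplexConjugate BoundedContinuousFunction

namespace Vale.Agent.P136

/-- The factor `exp (N conj(c) w - N |w|²/2)` with `c = z(x₀ - x)`. -/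
noncomputable def gfac (N : ℝ) (θ : Fin 3 → ℂ) (x₀ x : E3) (w : ℂ) : ℂ :=
  Complex.exp (N * (conj (zc θ (x₀ - x)) * w) - ((N * ‖w‖ ^ 2 / 2 : ℝ) : ℂ))

theorem TMa_fam {P W : Type} [NormedAddCommGroup P] [NormedSpace ℝ P] [FiniteDimensional ℝ P]
    [NormedAddCommGroup W] [NormedSpace ℝ W]
    (θ : P → Fin 3 → ℂ) (hθ : ContDiff ℝ ∞ θ) (hnull : ∀ p, IsNull (θ p))
    (U : Set P) (hU : IsOpen U) (hU0 : ∀ p ∈ U, θ p ≠ 0) (ρ : ℝ) (Φ : (P × E3) × ℂ → W)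
    (hΦ : ContDiffOn ℝ ∞ Φ ((U ×ˢ Set.univ) ×ˢ Set.univ))
    (hs : ∀ p x w, ρ ≤ ‖x + Lp (θ p) w‖ → Φ ((p, x), w) = 0) :
    ∃ a : P × E3 → ℂ →ᵇ W, ContDiffOn ℝ ∞ a (U ×ˢ Set.univ) ∧
      ∀ q ∈ U ×ˢ (Set.univ : Set E3), ∀ w, a q w = Φ (q, w) := by
  obtain ⟨r, hr⟩ : ∃ r : P × E3 → ℝ, r = fun q => (ρ + ‖q.2‖) / ‖reV (θ q.1)‖ := ⟨_, rfl⟩
  have h0 : ∀ q ∈ U ×ˢ (Set.univ : Set E3), ∀ w : ℂ, r q ≤ ‖w‖ → Φ (q, w) = 0 := by
    intro q hq w hw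
    refine hs q.1 q.2 w ?_
    rw [hr, div_le_iff₀ (norm_reV_pos (hnull _) (hU0 _ hq.1)), mul_comm, ← norm_Lp (hnull _)] at hw
    have := norm_sub_le (q.2 + Lp (θ q.1) w) q.2
    rw [add_sub_cancel_left] at this
    linarith
  have ex : ∀ q : P × E3, ∃ g : ℂ →ᵇ W, q ∈ U ×ˢ (Set.univ : Set E3) → ∀ w, g w = Φ (q, w) := by
    intro q
    by_cases hq : q ∈ U ×ˢ (Set.univ : Set E3)
    · obtain ⟨g, hg⟩ := exists_bcf (fun w => Φ (q, w)) (hΦ.continuousOn.comp_continuous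
        (continuous_const.prodMk continuous_id) fun w => ⟨hq, trivial⟩) (r q) (h0 q hq)
      exact ⟨g, fun _ => hg⟩
    · exact ⟨0, fun h => absurd h hq⟩
  choose a ha using ex
  have hS : IsOpen (U ×ˢ (Set.univ : Set E3)) := hU.prod isOpen_univ
  have hc : ContinuousOn r (U ×ˢ (Set.univ : Set E3)) := by
    rw [hr]
    exact (continuous_const.add continuous_snd.norm).continuousOn.div
      (contDiff_reV.continuous.comp (hθ.continuous.comp continuous_fst)).norm.continuousOn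
      fun q hq => (norm_reV_pos (hnull _) (hU0 _ hq.1)).ne'
  refine ⟨a, fun q hq => ?_, ha⟩
  have hO := hc.isOpen_inter_preimage hS (isOpen_Iio (a := r q + 1))
  refine ContDiffAt.contDiffWithinAt ((contDiffOn_bcf Φ _ hO
    (hΦ.mono (Set.prod_mono_left Set.inter_subset_left)) (r q + 1)
    (fun q' hq' w hw => h0 q' hq'.1 w (le_trans (le_of_lt hq'.2) hw)) a
    fun q' hq' => ha q' hq'.1).contDiffAt (hO.mem_nhds ⟨hq, lt_add_one (r q)⟩))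

theorem TMa_mul (V : Type) [NormedAddCommGroup V] [NormedSpace ℂ V] :
    ∃ l : (ℂ →ᵇ (V →L[ℂ] V)) →ₗ[ℝ] (ℂ →ᵇ V) →ₗ[ℝ] (ℂ →ᵇ V),
      (∀ a f w, l a f w = a w (f w)) ∧ ∀ a f, ‖l a f‖ ≤ ‖a‖ * ‖f‖ := by
  have hb : ∀ (a : ℂ →ᵇ (V →L[ℂ] V)) (f : ℂ →ᵇ V) (w : ℂ), ‖a w (f w)‖ ≤ ‖a‖ * ‖f‖ := fun a f w =>
    ((a w).le_opNorm _).trans (mul_le_mul (a.norm_coe_le_norm w) (f.norm_coe_le_norm w)
      (norm_nonneg _) (norm_nonneg a))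
  let b : (ℂ →ᵇ (V →L[ℂ] V)) → (ℂ →ᵇ V) → (ℂ →ᵇ V) := fun a f =>
    BoundedContinuousFunction.ofNormedAddCommGroup (fun w => a w (f w))
      (a.continuous.clm_apply f.continuous) _ (hb a f)
  exact ⟨LinearMap.mk₂ ℝ b
    (fun _ _ _ => BoundedContinuousFunction.ext fun _ => rfl)
    (fun _ _ _ => BoundedContinuousFunction.ext fun _ => rfl)
    (fun a f g => BoundedContinuousFunction.ext fun w => (a w).map_add (f w) (g w))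
    (fun c a f => BoundedContinuousFunction.ext fun w => (a w).map_smul_of_tower c (f w)),
    fun _ _ _ => rfl, fun a f => (BoundedContinuousFunction.norm_le (by positivity)).2 (hb a f)⟩

theorem TMa_fix {Q : Type} (B C : Type) [NormedAddCommGroup Q] [NormedSpace ℝ Q]
    [NormedAddCommGroup B] [NormedSpace ℝ B] [CompleteSpace B] [NormedAddCommGroup C]
    [NormedSpace ℝ C] (s : Set Q) (K : B →L[ℝ] B) (l : C →ₗ[ℝ] B →ₗ[ℝ] B)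
    (hl : ∀ a f, ‖l a f‖ ≤ ‖a‖ * ‖f‖) (a : Q → C) (g : Q → B) (ha : ContDiffOn ℝ ∞ a s)
    (hg : ContDiffOn ℝ ∞ g s) (hK : ∀ q ∈ s, ‖K‖ * ‖a q‖ < 1) :
    ∃ G : Q → B, ContDiffOn ℝ ∞ G s ∧ ∀ q ∈ s, G q = K (l (a q) (G q) + g q) := by
  let m : C →L[ℝ] B →L[ℝ] B := l.mkContinuous₂ 1 fun a f => by
    rw [one_mul]
    exact hl a f
  have hT1 : ∀ q ∈ s, ‖K.comp (m (a q))‖ < 1 := fun q hq =>
    lt_of_le_of_lt ((K.opNorm_comp_le _).trans (mul_le_mul_of_nonneg_left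
      (ContinuousLinearMap.opNorm_le_bound _ (norm_nonneg _) (hl (a q))) (norm_nonneg _))) (hK q hq)
  have hT2 : ContDiffOn ℝ ∞ (fun q => 1 - K.comp (m (a q))) s :=
    contDiffOn_const.sub (contDiffOn_const.clm_comp (m.contDiff.comp_contDiffOn ha))
  have hI : ContDiffOn ℝ ∞ (fun q => Ring.inverse (1 - K.comp (m (a q)))) s := fun q hq =>
    ContDiffAt.comp_contDiffWithinAt (g := Ring.inverse) q
      (contDiffAt_ringInverse ℝ (Units.oneSub _ (hT1 q hq))) (hT2 q hq)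
  refine ⟨fun q => Ring.inverse (1 - K.comp (m (a q))) (K (g q)),
    hI.clm_apply (K.contDiff.comp_contDiffOn hg), fun q hq => ?_⟩
  have h1 := Ring.mul_inverse_cancel _ (Units.oneSub _ (hT1 q hq)).isUnit
  have h2 := ContinuousLinearMap.ext_iff.1 h1 (K (g q))
  rw [map_add]
  exact sub_eq_iff_eq_add'.1 h2

theorem TMa_L {P : Type} [NormedAddCommGroup P] [NormedSpace ℝ P]
    (θ : P → Fin 3 → ℂ) (hθ : ContDiff ℝ ∞ θ) :
    ContDiff ℝ ∞ fun q : (P × E3) × ℂ => (q.1.1, q.1.2 + Lp (θ q.1.1) q.2) := by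
  have hL0 : ContDiff ℝ ∞ fun q : (P × E3) × ℂ => (θ q.1.1, q.2) :=
    (hθ.comp contDiff_fst.fst).prodMk contDiff_snd
  have hL1 := contDiff_Lp.comp hL0
  exact contDiff_fst.fst.prodMk (contDiff_fst.snd.add hL1)

theorem TMa_g {P : Type} [NormedAddCommGroup P] [NormedSpace ℝ P]
    (θ : P → Fin 3 → ℂ) (hθ : ContDiff ℝ ∞ θ) (U : Set P) (hU0 : ∀ p ∈ U, θ p ≠ 0) (N : ℝ)
    (x₀ : E3) : ContDiffOn ℝ ∞ (fun q : (P × E3) × ℂ => gfac N (θ q.1.1) x₀ q.1.2 q.2)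
      ((U ×ˢ Set.univ) ×ˢ Set.univ) := by
  have h0 : ContDiff ℝ ∞ fun q : (P × E3) × ℂ => (θ q.1.1, x₀ - q.1.2) :=
    (hθ.comp contDiff_fst.fst).prodMk (contDiff_const.sub contDiff_fst.snd)
  have hz := contDiffOn_zc.comp (s := (U ×ˢ Set.univ) ×ˢ Set.univ) h0.contDiffOn
    fun q hq => hU0 _ hq.1.1
  have h1 := Complex.conjCLE.contDiff.comp_contDiffOn hz
  have h2 : ContDiff ℝ ∞ fun q : (P × E3) × ℂ => N * ‖q.2‖ ^ 2 / 2 :=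
    (contDiff_const.mul ((contDiff_norm_sq ℝ).comp contDiff_snd)).div_const _
  have h3 := Complex.ofRealCLM.contDiff.comp h2
  have h4 := ((contDiffOn_const (c := (N : ℂ))).mul (h1.mul contDiffOn_snd)).sub h3.contDiffOn
  exact (Complex.contDiff_exp (𝕜 := ℝ)).comp_contDiffOn h4

theorem fix_smooth {P V : Type} [NormedAddCommGroup P] [NormedSpace ℝ P] [FiniteDimensional ℝ P]
    [NormedAddCommGroup V] [NormedSpace ℂ V] [CompleteSpace V]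
    (θ : P → Fin 3 → ℂ) (hθ : ContDiff ℝ ∞ θ) (hnull : ∀ p, IsNull (θ p))
    (A : P × E3 → V →L[ℂ] V) (hA : ContDiff ℝ ∞ A) (ψ : P × E3 → V) (hψ : ContDiff ℝ ∞ ψ) (ρ : ℝ)
    (hAs : ∀ p x, ρ ≤ ‖x‖ → A (p, x) = 0) (hψs : ∀ p x, ρ ≤ ‖x‖ → ψ (p, x) = 0)
    (N M : ℝ) (hq : qN N * M ≤ 1 / 2) (U : Set P) (hU : IsOpen U) (hU0 : ∀ p ∈ U, θ p ≠ 0)
    (hM : ∀ p ∈ U, ∀ x, ‖A (p, x)‖ ≤ M) (x₀ : E3)
    (K : (ℂ →ᵇ V) →L[ℂ] (ℂ →ᵇ V)) (hK : ‖K‖ ≤ qN N) :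
    ∃ G F : P × E3 → ℂ →ᵇ V, ContDiffOn ℝ ∞ G (U ×ˢ Set.univ) ∧ ∀ p ∈ U, ∀ x,
      (∀ w, F (p, x) w = A (p, x + Lp (θ p) w) (G (p, x) w) +
        gfac N (θ p) x₀ x w • ψ (p, x + Lp (θ p) w)) ∧ G (p, x) = K (F (p, x)) := by
  have hL := TMa_L θ hθ
  have hA' := hA.comp hL
  obtain ⟨a, ha1, ha2⟩ := TMa_fam θ hθ hnull U hU hU0 ρ _ hA'.contDiffOn fun p x w h => hAs p _ h
  have hψ' := hψ.comp hL
  have hg := (TMa_g θ hθ U hU0 N x₀).smul hψ'.contDiffOn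
  obtain ⟨g, hg1, hg2⟩ := TMa_fam θ hθ hnull U hU hU0 ρ _ hg fun p x w h =>
    (congrArg (gfac N (θ p) x₀ x w • ·) (hψs p _ h)).trans (smul_zero _)
  obtain ⟨l, hl1, hl2⟩ := TMa_mul V
  have hn : ∀ q ∈ U ×ˢ (Set.univ : Set E3), ‖K‖ * ‖a q‖ < 1 := by
    intro q hq'
    have h0 : 0 ≤ M := (A (q.1, 0)).opNorm_nonneg.trans (hM q.1 hq'.1 0)
    have h1 : ‖a q‖ ≤ M := (BoundedContinuousFunction.norm_le h0).2 fun w => by
      rw [ha2 q hq']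
      exact hM _ hq'.1 _
    have h2 : 0 ≤ ‖K‖ := K.opNorm_nonneg
    exact lt_of_le_of_lt ((mul_le_mul hK h1 (norm_nonneg (a q)) (h2.trans hK)).trans hq)
      one_half_lt_one
  have t := TMa_fix (Q := P × E3) (ℂ →ᵇ V) (ℂ →ᵇ (V →L[ℂ] V)) (U ×ˢ Set.univ)
    (K.restrictScalars ℝ) l
  obtain ⟨G, hG1, hG2⟩ := t hl2 a g ha1 hg1 hn
  refine ⟨G, fun q => l (a q) (G q) + g q, hG1, fun p hp x => ⟨fun w => ?_, hG2 _ ⟨hp, trivial⟩⟩⟩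
  rw [BoundedContinuousFunction.add_apply, hl1, ha2 (p, x) ⟨hp, trivial⟩, hg2 (p, x) ⟨hp, trivial⟩]
  rfl

end Vale.Agent.P136
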