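import Vale.Agent.P136.TMa
import Vale.Agent.P136.TInt

/-! The values at the origin of the planar fixed points solve the integral equation.

Plan. Write `c x = zc θ (x₀ - x)`, so `c (x + Lp θ v) = c x - v` (`zc_sub`, `zc_add`, `zc_Lp`).
(1) Uniqueness: if `H, F' : ℂ →ᵇ V`, `H = K F'` and `F' w = A (x + Lp θ w) (H w)` for all `w` then
`‖H‖ ≤ qN N * M * ‖H‖ ≤ ‖H‖ / 2`, so `H = 0`.
(2) Covariance: fix `x, v`, `x' = x + Lp θ v`, `l = gfac N θ x₀ x v`. Let `G', F'` be the bounded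
continuous functions `w ↦ ph (-N) v w • G x (w + v)` and the same for `F x`; `G' = K F'` by the third
part of `IsK`. The exponent identity
`ph (-N) v w * gfac N θ x₀ x (w + v) = l * gfac N θ x₀ x' w` (use
`‖w+v‖² = ‖w‖² + ‖v‖² + 2 (conj v * w).re` and `conj v * w = re + im I`) shows that
`H = G' - l • G x'` satisfies (1). At `w = 0`: `G x v = l • G x' 0`.
(3) `G x 0 = ∫ (kap N u * ph N 0 u) • F x (-u)`, and by (2)
`F x (-u) = gfac N θ x₀ x (-u) • (A y (G y 0) + ψ y)` with `y = x - Lp θ u`; the scalar factors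
multiply to the kernel of `TN` (`zc θ (x₀ - x) = - zc θ (x - x₀)`, `conj u * u = ‖u‖²`).
(4) Bound: `‖gfac N θ x₀ x w‖ * wt N θ x₀ (x + Lp θ w) = wt N θ x₀ x`
(`zc θ (x + Lp θ w - x₀) = w - c x`), so `‖F x‖ ≤ M ‖G x‖ + b wt`, `‖G x‖ ≤ qN N ‖F x‖`. -/

open MeasureTheory Metric Real
open scoped ContDiff ComplexConjugate BoundedContinuousFunction

namespace Vale.Agent.P136

theorem TMb_exp (N : ℝ) (c v w : ℂ) :
    ph (-N) v w * Complex.exp (N * (conj c * (w + v)) - ((N * ‖w + v‖ ^ 2 / 2 : ℝ) : ℂ)) =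
      Complex.exp (N * (conj c * v) - ((N * ‖v‖ ^ 2 / 2 : ℝ) : ℂ)) *
        Complex.exp (N * (conj (c - v) * w) - ((N * ‖w‖ ^ 2 / 2 : ℝ) : ℂ)) := by
  rw [ph, ← Complex.exp_add, ← Complex.exp_add]
  congr 1
  simp only [Complex.sq_norm, Complex.normSq_apply]
  apply Complex.ext
  · simp
    ring
  · simp
    ring

theorem TMb_ker (N : ℝ) (z u : ℂ) :
    kap N u * ph N 0 u * Complex.exp (N * (conj (-z) * (-u)) - ((N * ‖-u‖ ^ 2 / 2 : ℝ) : ℂ)) =
      Complex.exp (N * ((conj z - conj u) * u)) / (2 * π * u) := by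
  have e : ph N 0 u = 1 := by simp [ph]
  rw [e, mul_one, kap, div_mul_eq_mul_div, Complex.ofReal_exp, ← Complex.exp_add]
  congr 2
  simp only [Complex.sq_norm, Complex.normSq_apply]
  apply Complex.ext
  · simp
    ring
  · simp
    exact Or.inl (by ring)

theorem TMb_norm (N : ℝ) (c w : ℂ) :
    ‖Complex.exp (N * (conj c * w) - ((N * ‖w‖ ^ 2 / 2 : ℝ) : ℂ))‖ *
      Real.exp (N * ‖w - c‖ ^ 2 / 2) = Real.exp (N * ‖-c‖ ^ 2 / 2) := by
  rw [Complex.norm_exp, ← Real.exp_add]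
  congr 1
  simp only [Complex.sq_norm, Complex.normSq_apply]
  simp
  ring

theorem TMb_shift {V : Type} [NormedAddCommGroup V] [NormedSpace ℂ V] (N : ℝ) (v : ℂ)
    (f : ℂ →ᵇ V) : ∃ g : ℂ →ᵇ V, ∀ w, g w = ph (-N) v w • f (w + v) :=
  ⟨BoundedContinuousFunction.ofNormedAddCommGroup (fun w => ph (-N) v w • f (w + v))
    (((continuous_ph (-N)).comp (continuous_const.prodMk continuous_id)).smul
      (f.continuous.comp (continuous_id.add continuous_const))) ‖f‖ fun w => by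
      rw [norm_smul, norm_ph, one_mul]
      exact f.norm_coe_le_norm _, fun _ => rfl⟩

theorem TMb_bound {V : Type} [NormedAddCommGroup V] [NormedSpace ℂ V] {N M β : ℝ} (hN : 0 < N)
    (hq : qN N * M ≤ 1 / 2) (hM : 0 ≤ M) (hβ : 0 ≤ β) {K : (ℂ →ᵇ V) →L[ℂ] (ℂ →ᵇ V)}
    (hK : ‖K‖ ≤ qN N) {H F : ℂ →ᵇ V} (hH : H = K F) (hF : ∀ w, ‖F w‖ ≤ M * ‖H w‖ + β) :
    ‖H‖ ≤ 2 * qN N * β := by
  have q0 := (qN_pos hN).le
  have h1 : ‖F‖ ≤ M * ‖H‖ + β := (BoundedContinuousFunction.norm_le (by positivity)).2 fun w =>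
    (hF w).trans (add_le_add (mul_le_mul_of_nonneg_left (H.norm_coe_le_norm w) hM) le_rfl)
  have h2 : ‖H‖ ≤ qN N * (M * ‖H‖ + β) := by
    nth_rw 1 [hH]
    exact (K.le_opNorm F).trans (mul_le_mul hK h1 (norm_nonneg _) q0)
  have h3 := mul_le_mul_of_nonneg_right hq (norm_nonneg H)
  linarith

theorem fix_integral {V : Type} [NormedAddCommGroup V] [NormedSpace ℂ V] [CompleteSpace V]
    {N : ℝ} (hN : 0 < N) {θ : Fin 3 → ℂ} (hθ : IsNull θ) (h0 : θ ≠ 0) (x₀ : E3)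
    (A : E3 → V →L[ℂ] V) (ψ : E3 → V) (M : ℝ) (hM : ∀ x, ‖A x‖ ≤ M) (hq : qN N * M ≤ 1 / 2)
    (K : (ℂ →ᵇ V) →L[ℂ] (ℂ →ᵇ V)) (hK : IsK N K) (G F : E3 → ℂ →ᵇ V)
    (hF : ∀ x w, F x w = A (x + Lp θ w) (G x w) + gfac N θ x₀ x w • ψ (x + Lp θ w))
    (hG : ∀ x, G x = K (F x)) :
    (∀ x, G x 0 = TN N θ x₀ (fun y => A y (G y 0) + ψ y) x) ∧
      ∀ b : ℝ, (∀ x, ‖ψ x‖ ≤ b * wt N θ x₀ x) →
        ∀ x, ‖G x 0‖ ≤ 2 * qN N * b * wt N θ x₀ x := by
  have M0 : 0 ≤ M := (norm_nonneg _).trans (hM 0)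
  have cov : ∀ x v, G x v = gfac N θ x₀ x v • G (x + Lp θ v) 0 := fun x v => by
    obtain ⟨G', hG'⟩ := TMb_shift N v (G x)
    obtain ⟨F', hF'⟩ := TMb_shift N v (F x)
    have e1 : G' = K F' := BoundedContinuousFunction.ext fun w => by
      rw [hK.2.2 _ _ v hF', hG', hG]
    have e2 : zc θ (x₀ - (x + Lp θ v)) = zc θ (x₀ - x) - v := by
      rw [← sub_sub, zc_sub θ (x₀ - x), zc_Lp hθ h0]
    have e3 : ∀ w, ph (-N) v w * gfac N θ x₀ x (w + v) =
        gfac N θ x₀ x v * gfac N θ x₀ (x + Lp θ v) w := fun w => by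
      rw [gfac, gfac, gfac, e2, TMb_exp]
    have e4 : ‖G' - gfac N θ x₀ x v • G (x + Lp θ v)‖ ≤ 2 * qN N * 0 := by
      refine TMb_bound (F := F' - gfac N θ x₀ x v • F (x + Lp θ v)) hN hq M0 le_rfl hK.1
        (by rw [map_sub, map_smul, ← e1, ← hG]) fun w => ?_
      have e5 : (F' - gfac N θ x₀ x v • F (x + Lp θ v)) w =
          A (x + Lp θ v + Lp θ w) ((G' - gfac N θ x₀ x v • G (x + Lp θ v)) w) := by
        simp only [BoundedContinuousFunction.coe_sub, BoundedContinuousFunction.coe_smul,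
          Pi.sub_apply, hF', hG', hF, map_sub, map_smul, smul_add, smul_smul, e3, map_add]
        rw [add_comm (Lp θ w), ← add_assoc]
        abel
      rw [e5, add_zero]
      exact ((A _).le_opNorm _).trans (mul_le_mul_of_nonneg_right (hM _) (norm_nonneg _))
    rw [mul_zero, norm_le_zero_iff, sub_eq_zero] at e4
    have e6 := hG' 0
    rw [e4, zero_add, show ph (-N) v 0 = 1 by simp [ph], one_smul] at e6
    exact e6.symm
  refine ⟨fun x => ?_, fun b hb x => ?_⟩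
  · rw [hG x, hK.2.1, TN]
    refine integral_congr_ae (ae_of_all _ fun u => ?_)
    have e : zc θ (x₀ - x) = -zc θ (x - x₀) := by
      rw [zc_sub, zc_sub, neg_sub]
    simp only [zero_sub]
    rw [hF, cov x (-u), map_smul, ← smul_add, smul_smul, map_neg, ← sub_eq_add_neg, gfac, e,
      TMb_ker]
  · refine ((G x).norm_coe_le_norm 0).trans ?_
    rw [mul_assoc _ b]
    refine TMb_bound hN hq M0 ((norm_nonneg _).trans (hb x)) hK.1 (hG x) fun w => ?_
    rw [hF]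
    refine (norm_add_le _ _).trans (add_le_add
      (((A _).le_opNorm _).trans (mul_le_mul_of_nonneg_right (hM _) (norm_nonneg _))) ?_)
    rw [norm_smul]
    refine (mul_le_mul_of_nonneg_left (hb _) (norm_nonneg _)).trans (le_of_eq ?_)
    have e1 : zc θ (x + Lp θ w - x₀) = w - zc θ (x₀ - x) := by
      rw [zc_sub, zc_add, zc_Lp hθ h0, zc_sub]
      ring
    have e2 : zc θ (x - x₀) = -zc θ (x₀ - x) := by
      rw [zc_sub, zc_sub, neg_sub]
    rw [mul_left_comm, wt, wt, gfac, e1, e2, TMb_norm]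

end Vale.Agent.P136
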