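import Vale.Agent.P136.TMb

/-! The transport solver with parameters.

Plan. Put `M' = 1 / (2 * qN N) > M`. The set `U` of `p` with `θ p ≠ 0` and `‖A (p, x)‖ < M'` for
all `x ∈ closedBall 0 ρ` contains an open neighbourhood of `p₀` (tube lemma
`IsCompact.eventually_forall_of_forall_eventually`, then `eventually_nhds_iff`); outside the ball
`A = 0`. Take `K` from `exists_K`, `G, F` from `fix_smooth`, `Y q := G q 0` (evaluation is a
continuous linear map, `BoundedContinuousFunction.evalCLM`). For `p ∈ U` the slice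
`y ↦ Y (p, y)` is smooth on all of `E3`, `φ y = A (p, y) (Y (p, y)) + ψ (p, y)` is smooth and
vanishes for `ρ ≤ ‖y‖`, the slice equals `TN N (θ p) x₀ φ` by `fix_integral`, and `DV_TN`
finishes. -/

open MeasureTheory Metric Real
open scoped ContDiff ComplexConjugate BoundedContinuousFunction

namespace Vale.Agent.P136

theorem solver {P V : Type} [NormedAddCommGroup P] [NormedSpace ℝ P] [FiniteDimensional ℝ P]
    [NormedAddCommGroup V] [NormedSpace ℂ V] [CompleteSpace V]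
    (θ : P → Fin 3 → ℂ) (hθ : ContDiff ℝ ∞ θ) (hnull : ∀ p, IsNull (θ p)) (p₀ : P)
    (h0 : θ p₀ ≠ 0)
    (A : P × E3 → V →L[ℂ] V) (hA : ContDiff ℝ ∞ A) (ψ : P × E3 → V) (hψ : ContDiff ℝ ∞ ψ) (ρ : ℝ)
    (hAs : ∀ p x, ρ ≤ ‖x‖ → A (p, x) = 0) (hψs : ∀ p x, ρ ≤ ‖x‖ → ψ (p, x) = 0)
    (N : ℝ) (hN : 0 < N) (M : ℝ) (hM : ∀ x, ‖A (p₀, x)‖ ≤ M) (hq : qN N * M ≤ 1 / 4) (x₀ : E3) :
    ∃ (U : Set P) (Y : P × E3 → V), IsOpen U ∧ p₀ ∈ U ∧ ContDiffOn ℝ ∞ Y (U ×ˢ Set.univ) ∧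
      (∀ p ∈ U, ∀ x, DV (θ p) (fun y => Y (p, y)) x = A (p, x) (Y (p, x)) + ψ (p, x)) ∧
      ∀ b : ℝ, (∀ x, ‖ψ (p₀, x)‖ ≤ b * wt N (θ p₀) x₀ x) →
        ∀ x, ‖Y (p₀, x)‖ ≤ 2 * qN N * b * wt N (θ p₀) x₀ x := by
  have hq0 := qN_pos hN
  have hM' : qN N * (1 / (2 * qN N)) ≤ 1 / 2 := by
    apply le_of_eq
    field_simp
  have hlt : M < 1 / (2 * qN N) := by
    rw [lt_div_iff₀ (by positivity)]
    nlinarith
  have h1 : ∀ᶠ p in nhds p₀, ∀ x ∈ closedBall (0 : E3) ρ, ‖A (p, x)‖ < 1 / (2 * qN N) := by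
    refine (isCompact_closedBall (0 : E3) ρ).eventually_forall_of_forall_eventually fun x _ => ?_
    exact (hA.continuous.norm.continuousAt (x := (p₀, x))).eventually_lt continuousAt_const
      ((hM x).trans_lt hlt)
  have h2 : ∀ᶠ p in nhds p₀, θ p ≠ 0 := hθ.continuous.continuousAt.eventually_ne h0
  obtain ⟨U, hU, hUo, hp₀⟩ := _root_.eventually_nhds_iff.1 (h1.and h2)
  have hMU : ∀ p ∈ U, ∀ x, ‖A (p, x)‖ ≤ 1 / (2 * qN N) := by
    intro p hp x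
    by_cases hx : ρ ≤ ‖x‖
    · rw [hAs p x hx, norm_zero]
      positivity
    · exact ((hU p hp).1 x (mem_closedBall_zero_iff.2 (not_le.1 hx).le)).le
  obtain ⟨K, hK⟩ := exists_K V hN
  obtain ⟨G, F, hG, hF⟩ := fix_smooth θ hθ hnull A hA ψ hψ ρ hAs hψs N _ hM' U hUo
    (fun p hp => (hU p hp).2) hMU x₀ K hK.1
  have hY : ContDiffOn ℝ ∞ (fun q => G q 0) (U ×ˢ Set.univ) :=
    (BoundedContinuousFunction.evalCLM ℝ (0 : ℂ) : (ℂ →ᵇ V) →L[ℝ] V).contDiff.comp_contDiffOn hG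
  have hI := fun p (hp : p ∈ U) => fix_integral hN (hnull p) (hU p hp).2 x₀ (fun x => A (p, x))
    (fun x => ψ (p, x)) _ (hMU p hp) hM' K hK (fun x => G (p, x)) (fun x => F (p, x))
    (fun x => (hF p hp x).1) (fun x => (hF p hp x).2)
  refine ⟨U, fun q => G q 0, hUo, hp₀, hY, fun p hp x => ?_, (hI p₀ hp₀).2⟩
  have hs : ContDiff ℝ ∞ fun y : E3 => G (p, y) 0 :=
    hY.comp_contDiff (contDiff_const.prodMk contDiff_id) fun y => ⟨hp, Set.mem_univ _⟩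
  have hA' : ContDiff ℝ ∞ fun y : E3 => (A (p, y)).restrictScalars ℝ :=
    (ContinuousLinearMap.restrictScalarsL ℂ V V ℝ ℝ).contDiff.comp
      (hA.comp (contDiff_const.prodMk contDiff_id))
  have hφ : ContDiff ℝ ∞ fun y : E3 => A (p, y) (G (p, y) 0) + ψ (p, y) :=
    (hA'.clm_apply hs).add (hψ.comp (contDiff_const.prodMk contDiff_id))
  have e : (fun y : E3 => G (p, y) 0) =
      TN N (θ p) x₀ fun y : E3 => A (p, y) (G (p, y) 0) + ψ (p, y) := funext (hI p hp).1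
  have h3 := DV_TN N (hnull p) (hU p hp).2 x₀ _ hφ ρ
    (fun y hy => by rw [hAs p y hy, hψs p y hy, zero_apply, add_zero]) x
  rw [← e] at h3
  exact h3

end Vale.Agent.P136
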