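import Vale.Agent.P136.LW

/-! Smallness of `W` in the Gaussian weighted norms.

Plan. `p = (1, 0)`, `θ = th p = va`, `eta p 0 = va`, `eta p 1 = vb`. Every `f` in
`J = Ideal.span {b₀, hr}` is `u * b₀ + v * hr` (`Ideal.mem_span_pair`), so `‖f x‖ ≤ C * dl D x` on `Ω`
(`Sm.bound`). Key estimate: if `k q ∈ J` and `‖y q x‖ ≤ β wt x` then
`‖∫_Ω ∑ k q * y q‖ ≤ C β ∫_Ω dl * wt` (`norm_integral_le_of_norm_le`), with `C` depending only on `k`.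
`est_bb`: `single (some 1, some 2) φ = tp (single (some 1) φ) (cvec vb)`; solve the first factor
system with `solve_bd`; `solves_tp_cvec`, `W_eq`, `G_tp_cvec`.
`est_ss`, `est_rr`: the sources are `embT p ψ` with `ψ = single (none, none) φ` resp.
`single (some (), some 0) φ`; solve the system `tens (D.Bs p) (D.B₂ p)` with `solve_bd`;
`solves_embT`, `W_eq`, `G_embT`; on the ball replace `DD θ (y (some (), b))` by
`∑ q, tens .. (some (), b) q * y q + ψ (some (), b)`. So on `Ω` the density is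
`∑ q, k q * y q + cdot θ hs * ψ (some (), none) + hr * cdot θ (fun j => ψ (some (), some j))` with
`k q ∈ J` independent of `y`, `N`, `φ`. Apply `solve_bd` with `ε / (C + 1)`. -/

open MeasureTheory Metric
open scoped ContDiff

namespace Vale.Agent.P136

/-- The size of the two controlling coefficients. -/
noncomputable def dl (D : Dat) (x : E3) : ℝ := ‖D.b₀.1 x‖ + ‖D.hr.1 x‖

section
variable {ι : Type} {R : ℝ} {w : E3 → ℝ} {Λ Λ' : (ι → Sm) → Sm} {D : Dat} {Ω : Set E3}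

/-- Pointwise bounded functionals. -/
def ZEst_Bd (R : ℝ) (w : E3 → ℝ) (Λ : (ι → Sm) → Sm) : Prop :=
  ∃ C : ℝ, 0 ≤ C ∧ ∀ (y : ι → Sm) (β : ℝ) (x : E3), ‖x‖ ≤ R → (∀ q, ‖(y q).1 x‖ ≤ β) →
    ‖(Λ y).1 x‖ ≤ C * (β * w x)

theorem ZEst_co (q : ι) : ZEst_Bd R (fun _ => 1) fun y : ι → Sm => y q :=
  ⟨1, zero_le_one, fun y β x _ h => by simpa using h q⟩

theorem ZEst_add (h : ZEst_Bd R w Λ) (h' : ZEst_Bd R w Λ') : ZEst_Bd R w fun y => Λ y + Λ' y := by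
  obtain ⟨C, hC, h⟩ := h
  obtain ⟨C', hC', h'⟩ := h'
  refine ⟨C + C', by positivity, fun y β x hx hy => ?_⟩
  exact (norm_add_le ((Λ y).1 x) ((Λ' y).1 x)).trans (by linarith [h y β x hx hy, h' y β x hx hy])

theorem ZEst_sum {κ : Type} [Fintype κ] {Λ : κ → (ι → Sm) → Sm} (h : ∀ k, ZEst_Bd R w (Λ k)) :
    ZEst_Bd R w fun y => ∑ k, Λ k y := by
  choose C hC h using h
  refine ⟨∑ k, C k, Finset.sum_nonneg fun k _ => hC k, fun y β x hx hy => ?_⟩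
  rw [sum_val, Finset.sum_mul]
  exact norm_sum_le_of_le _ fun k _ => h k y β x hx hy

theorem ZEst_mul {f : Sm} (hf : ∃ c : ℝ, 0 ≤ c ∧ ∀ x, ‖x‖ ≤ R → ‖f.1 x‖ ≤ c * w x)
    (h : ZEst_Bd R (fun _ => 1) Λ) : ZEst_Bd R w fun y => f * Λ y := by
  obtain ⟨c, hc, hf⟩ := hf
  obtain ⟨C, hC, h⟩ := h
  refine ⟨c * C, by positivity, fun y β x hx hy => (norm_mul (f.1 x) ((Λ y).1 x)).trans_le ?_⟩
  exact (mul_le_mul (hf x hx) (h y β x hx hy) (norm_nonneg _)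
    ((norm_nonneg _).trans (hf x hx))).trans_eq (by ring)

theorem ZEst_mul1 (f : Sm) (h : ZEst_Bd R (fun _ => 1) Λ) :
    ZEst_Bd R (fun _ => 1) fun y => f * Λ y :=
  ZEst_mul (by simpa using Sm.bound f R) h

theorem ZEst_cdot (θ : Fin 3 → ℂ) {Λ : Fin 3 → (ι → Sm) → Sm}
    (h : ∀ j, ZEst_Bd R (fun _ => 1) (Λ j)) :
    ZEst_Bd R (fun _ => 1) fun y => cdot θ fun j => Λ j y := by
  simp only [cdot, Algebra.smul_def]
  exact ZEst_sum fun j => ZEst_mul1 _ (h j)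

theorem ZEst_mulJ {f : Sm} (hf : f ∈ Ideal.span {D.b₀, D.hr}) (h : ZEst_Bd R (fun _ => 1) Λ) :
    ZEst_Bd R (dl D) fun y => f * Λ y := by
  obtain ⟨u, v, rfl⟩ := Ideal.mem_span_pair.1 hf
  obtain ⟨a, ha, h1⟩ := Sm.bound u R
  obtain ⟨b, hb, h2⟩ := Sm.bound v R
  refine ZEst_mul ⟨a + b, by positivity, fun x hx =>
    (norm_add_le (u.1 x * D.b₀.1 x) (v.1 x * D.hr.1 x)).trans ?_⟩ h
  have h3 := norm_nonneg (D.b₀.1 x)
  have h4 := norm_nonneg (D.hr.1 x)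
  rw [norm_mul, norm_mul, dl]
  nlinarith [mul_le_mul_of_nonneg_right (h1 x hx) h3, mul_le_mul_of_nonneg_right (h2 x hx) h4,
    mul_nonneg ha h4, mul_nonneg hb h3]

theorem ZEst_mem {I : Ideal Sm} (θ : Fin 3 → ℂ) {u : Fin 3 → Sm} (h : ∀ j, u j ∈ I) :
    cdot θ u ∈ I :=
  Ideal.sum_mem _ fun j _ => Submodule.smul_of_tower_mem I (θ j) (h j)

theorem ZEst_th : th (1, 0) = va := by
  funext j
  simp [th]

theorem ZEst_ne : ((1, 0) : ℂ × ℂ) ≠ 0 := by simp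

theorem ZEst_key [Fintype ι] (hS : Setup D Ω R) (h : ZEst_Bd R (dl D) Λ) (A : ι → ι → Sm) {ε : ℝ}
    (hε : 0 < ε) : ∃ N₀ : ℝ, 0 < N₀ ∧ ∀ N, N₀ ≤ N → ∀ ψ : ι → Sm, ∃ Y : ι → Sm,
      Solves (th (1, 0)) R A Y ψ ∧ ∀ b : ℝ, 0 ≤ b →
        (∀ a x, ‖x‖ ≤ R + 1 → ‖(ψ a).1 x‖ ≤ b * wt N va 0 x) →
          ‖∫ x in Ω, (Λ Y).1 x‖ ≤ ε * b * ∫ x in Ω, dl D x * wt N va 0 x := by
  obtain ⟨C, hC, h⟩ := h
  obtain ⟨N₀, h0, H⟩ := solve_bd (th_null _) (th_ne ZEst_ne) A R hS.hR (ε / (C + 1))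
    (by positivity)
  refine ⟨N₀, h0, fun N hN ψ => (H N hN 0 ψ).imp fun Y hY => ⟨hY.1, fun b hb hψ => ?_⟩⟩
  have h1 := hY.2 b hb (ZEst_th ▸ hψ)
  rw [ZEst_th] at h1
  have hc : Continuous fun x => dl D x * wt N va 0 x := by
    have := (lin_smooth va).continuous
    have := Sm.cont D.b₀
    have := Sm.cont D.hr
    unfold dl wt zc
    fun_prop
  rw [← integral_const_mul]
  refine norm_integral_le_of_norm_le ((integrableOn_of_subset_ball hc hS.sub).const_mul _)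
    (ae_restrict_of_forall_mem hS.hΩ.measurableSet fun x hx => ?_)
  refine (h Y _ x (mem_ball_zero_iff.1 (hS.sub hx)).le fun q => h1 q x).trans ?_
  have h2 : 0 ≤ b * (dl D x * wt N va 0 x) := by
    have := wt_pos N va 0 x
    unfold dl
    positivity
  have h3 : C * (ε / (C + 1)) ≤ ε := by
    rw [mul_div_assoc', div_le_iff₀ (by positivity)]
    linarith
  nlinarith [mul_le_mul_of_nonneg_right h3 h2]

theorem ZEst_emb (hS : Setup D Ω R) (hC : D.Ctl) {ε : ℝ} (hε : 0 < ε) :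
    ∃ N₀ : ℝ, 0 < N₀ ∧ ∀ N, N₀ ≤ N → ∀ (ψ : Option Unit × Option (Fin 3) → Sm) (b : ℝ), 0 ≤ b →
      (∀ a x, ‖x‖ ≤ R + 1 → ‖(ψ a).1 x‖ ≤ b * wt N va 0 x) →
      ‖D.W Ω R (1, 0) (embT (1, 0) ψ) - ∫ x in Ω, (cdot va D.hs * ψ (some (), none) +
        D.hr * cdot va fun j => ψ (some (), some j)).1 x‖ ≤
        ε * b * ∫ x in Ω, dl D x * wt N va 0 x := by
  obtain ⟨h1, h2, h3, h4, h5⟩ := hC
  obtain ⟨A, hA⟩ : ∃ A, A = tens (D.Bs (1, 0)) (D.B₂ (1, 0)) := ⟨_, rfl⟩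
  have hs : ∀ a, ZEst_Bd R (fun _ => 1) fun y => ∑ q, A a q * y q :=
    fun a => ZEst_sum fun q => ZEst_mul1 _ (ZEst_co q)
  obtain ⟨N₀, h0, H⟩ := ZEst_key hS (ZEst_add (ZEst_add (ZEst_add (ZEst_add (ZEst_add
    (ZEst_mulJ (ZEst_mem va h1) (ZEst_co (none, none)))
    (ZEst_mulJ (ZEst_mem va fun i => ZEst_mem va (h2 i)) (ZEst_co (some (), none))))
    (ZEst_mulJ (Ideal.subset_span (by simp) : D.b₀ ∈ _)
      (ZEst_cdot va fun j => ZEst_co (none, some j))))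
    (ZEst_mulJ (add_mem (ZEst_mem va h3) (ZEst_mem va h4))
      (ZEst_cdot va fun j => ZEst_co (some (), some j))))
    (ZEst_mulJ (ZEst_mem va h5) (hs (some (), none))))
    (ZEst_mulJ (Ideal.subset_span (by simp) : D.hr ∈ _)
      (ZEst_cdot va fun j => hs (some (), some j)))) A hε
  refine ⟨N₀, h0, fun N hN ψ b hb hψ => ?_⟩
  obtain ⟨Y, hY, h⟩ := H N hN ψ
  refine le_of_eq_of_le (congrArg _ ?_) (h b hb hψ)
  rw [W_eq hS ZEst_ne (solves_embT D (hA ▸ hY)), Dat.F, ← integral_sub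
    (integrableOn_of_subset_ball (Sm.cont _) hS.sub)
    (integrableOn_of_subset_ball (Sm.cont _) hS.sub)]
  refine setIntegral_congr_fun hS.hΩ.measurableSet fun x hx => ?_
  rw [ZEst_th] at hY
  have e := add_mem (Ideal.mul_mem_left _ (cdot va D.hs) (hY (some (), none)))
    (Ideal.mul_mem_left _ D.hr (ZEst_mem va fun j => hY (some (), some j))) x (hS.sub hx)
  simp only [Dat.G_embT, ZEst_th, cdot, ← ev_apply, map_add, map_sub, map_mul, map_sum, map_smul,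
    smul_eq_mul, mul_sub, Finset.sum_sub_distrib] at e ⊢
  linear_combination e

theorem ZEst_single [DecidableEq ι] {φ : Sm} {b N : ℝ} (hb : 0 ≤ b)
    (h : ∀ x, ‖x‖ ≤ R + 1 → ‖φ.1 x‖ ≤ b * wt N va 0 x) (q a : ι) (x : E3) (hx : ‖x‖ ≤ R + 1) :
    ‖((Pi.single q φ : ι → Sm) a).1 x‖ ≤ b * wt N va 0 x := by
  rcases eq_or_ne a q with rfl | h'
  · rw [Pi.single_eq_same]
    exact h x hx
  · rw [Pi.single_eq_of_ne h']
    simpa using mul_nonneg hb (wt_pos N va 0 x).le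

end

theorem est_bb {D : Dat} {Ω : Set E3} {R : ℝ} (hS : Setup D Ω R) (hC : D.Ctl) (ε : ℝ)
    (hε : 0 < ε) : ∃ N₀ : ℝ, 0 < N₀ ∧ ∀ N, N₀ ≤ N → ∀ (φ : Sm) (b : ℝ), 0 ≤ b →
      (∀ x, ‖x‖ ≤ R + 1 → ‖φ.1 x‖ ≤ b * wt N va 0 x) →
      ‖D.W Ω R (1, 0) (Pi.single (some 1, some 2) φ)‖
        ≤ ε * b * ∫ x in Ω, dl D x * wt N va 0 x := by
  obtain ⟨N₀, h0, H⟩ := ZEst_key hS (ZEst_mulJ (ZEst_mem va hC.2.2.2.1)
    (ZEst_co (some 1 : Option (Fin 2)))) (D.B₁ (1, 0)) hε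
  refine ⟨N₀, h0, fun N hN φ b hb hφ => ?_⟩
  obtain ⟨Y, hY, h⟩ := H N hN (Pi.single (some 1) φ)
  have hv : ∑ j, th (1, 0) j * vb j = 0 := by simp [ZEst_th, va, vb, Fin.sum_univ_three]
  have e : (Pi.single (some 1, some 2) φ : Ix → Sm) = tp (Pi.single (some 1) φ) (cvec vb) := by
    funext ⟨a, c⟩
    rcases c with _ | c
    · simp [tp, cvec]
    · fin_cases c <;> simp [tp, cvec, vb, Pi.single_apply]
  refine le_of_eq_of_le (congrArg _ ?_) (h b hb (ZEst_single hb hφ _))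
  rw [e, W_eq hS ZEst_ne (solves_tp_cvec hY hv), Dat.F, D.G_tp_cvec _ _ hv, ZEst_th]
  simp [cdot, rv, eta, va, vb, Fin.sum_univ_three]

theorem est_ss {D : Dat} {Ω : Set E3} {R : ℝ} (hS : Setup D Ω R) (hC : D.Ctl) (ε : ℝ)
    (hε : 0 < ε) : ∃ N₀ : ℝ, 0 < N₀ ∧ ∀ N, N₀ ≤ N → ∀ (φ : Sm) (b : ℝ), 0 ≤ b →
      (∀ x, ‖x‖ ≤ R + 1 → ‖φ.1 x‖ ≤ b * wt N va 0 x) →
      ‖D.W Ω R (1, 0) (Pi.single (none, none) φ)‖
        ≤ ε * b * ∫ x in Ω, dl D x * wt N va 0 x := by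
  obtain ⟨N₀, h0, H⟩ := ZEst_emb hS hC hε
  refine ⟨N₀, h0, fun N hN φ b hb hφ => ?_⟩
  have e : (Pi.single (none, none) φ : Ix → Sm) = embT (1, 0) (Pi.single (none, none) φ) := by
    funext ⟨a, c⟩
    rcases a with _ | a <;> simp [embT, emb, Pi.single_apply]
  simpa [← e, cdot] using H N hN (Pi.single (none, none) φ) b hb (ZEst_single hb hφ _)

theorem est_rr {D : Dat} {Ω : Set E3} {R : ℝ} (hS : Setup D Ω R) (hC : D.Ctl) (ε : ℝ)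
    (hε : 0 < ε) : ∃ N₀ : ℝ, 0 < N₀ ∧ ∀ N, N₀ ≤ N → ∀ (φ : Sm) (b : ℝ), 0 ≤ b →
      (∀ x, ‖x‖ ≤ R + 1 → ‖φ.1 x‖ ≤ b * wt N va 0 x) →
      ‖D.W Ω R (1, 0) (Pi.single (some 0, some 0) φ) - ∫ x in Ω, (D.hr * φ).1 x‖
        ≤ ε * b * ∫ x in Ω, dl D x * wt N va 0 x := by
  obtain ⟨N₀, h0, H⟩ := ZEst_emb hS hC hε
  refine ⟨N₀, h0, fun N hN φ b hb hφ => ?_⟩
  have e : (Pi.single (some 0, some 0) φ : Ix → Sm) =
      embT (1, 0) (Pi.single (some (), some 0) φ) := by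
    funext ⟨a, c⟩
    rcases a with _ | a
    · simp [embT, emb]
    · fin_cases a <;> simp [embT, emb, pc, Pi.single_apply]
  simpa [← e, cdot, va, Fin.sum_univ_three] using
    H N hN (Pi.single (some (), some 0) φ) b hb (ZEst_single hb hφ _)

end Vale.Agent.P136
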